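import Vale.Agent.Lib.P197.ExpSum

/-!
# P197 module Five: bounded support with a cycle of length at least 5 (blueprint sec 12)
-/

open Equiv Finset

namespace Vale.Agent.Lib.P197

variable {n : ℕ}

/-- The product over a multiset of `c ^ j * y ^ (j - 1)`. -/
private lemma map_pow_prod (c y : ℝ) (s : Multiset ℕ) (hs : ∀ j ∈ s, 1 ≤ j) :
    Multiset.card s ≤ s.sum ∧
      (s.map fun j => c ^ j * y ^ (j - 1)).prod = c ^ s.sum * y ^ (s.sum - Multiset.card s) := by
  induction s using Multiset.induction_on with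
  | empty => simp
  | cons a t ih =>
    have ha : 1 ≤ a := hs a (Multiset.mem_cons_self a t)
    obtain ⟨h1, h2⟩ := ih (fun j hj => hs j (Multiset.mem_cons_of_mem hj))
    refine ⟨by simp only [Multiset.card_cons, Multiset.sum_cons]; omega, ?_⟩
    simp only [Multiset.map_cons, Multiset.prod_cons, Multiset.sum_cons, Multiset.card_cons, h2]
    have e : a + t.sum - (Multiset.card t + 1) = (a - 1) + (t.sum - Multiset.card t) := by omega
    rw [e, pow_add, pow_add]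
    ring

private lemma one_le_of_mem_cycleType (π : Perm (Fin n)) : ∀ j ∈ π.cycleType, 1 ≤ j :=
  fun _ hj => (Equiv.Perm.two_le_of_mem_cycleType hj).trans' (by norm_num)

private lemma prod_type_eq (c y : ℝ) (π : Perm (Fin n)) :
    (π.cycleType.map fun j => c ^ j * y ^ (j - 1)).prod = c ^ sp π * y ^ rk π :=
  (map_pow_prod c y π.cycleType (one_le_of_mem_cycleType π)).2

private lemma rk_le_sp (π : Perm (Fin n)) : rk π ≤ sp π := by
  unfold rk sp
  omega

/-- For bounded support: the character bound in the form `B * (√n)⁻¹ ^ rk π`. -/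
theorem nu_small (A : ℝ) (hA : 1 ≤ A) (K : ℕ) : ∃ B : ℝ, 1 ≤ B ∧ ∃ n₀ : ℕ, ∀ n ≥ n₀,
    ∀ nu : Perm (Fin n) → ℝ, NuB n (A * Real.sqrt n) nu →
      ∀ π : Perm (Fin n), sp π ≤ K → |nu π| ≤ B * ((Real.sqrt n)⁻¹) ^ rk π := by
  have hK0 : (0 : ℝ) ≤ K := Nat.cast_nonneg K
  set C : ℝ := 4 * A + 2 + K with hC
  have hC1 : 1 ≤ C := by rw [hC]; linarith
  refine ⟨(6 * C) ^ K, one_le_pow₀ (by linarith), 16 * K + 1, ?_⟩
  intro n hn nu hnu π hπ
  have hnR : (16 : ℝ) * K + 1 ≤ n := by exact_mod_cast hn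
  have hn0 : (0 : ℝ) < n := by linarith
  set s := Real.sqrt n with hsdef
  have hs : 0 < s := Real.sqrt_pos.2 hn0
  have hss : s ^ 2 = n := Real.sq_sqrt hn0.le
  set x := s⁻¹ with hxdef
  have hx : 0 < x := inv_pos.2 hs
  have key := hnu π (C * s) 2 K (by
      have : 4 * A ≤ C := by rw [hC]; linarith
      have := mul_le_mul_of_nonneg_right this hs.le
      linarith) (by
      have : (2 : ℝ) ^ 2 ≤ C ^ 2 := pow_le_pow_left₀ (by norm_num) (by rw [hC]; linarith) 2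
      calc 4 * (n : ℝ) = 2 ^ 2 * s ^ 2 := by rw [hss]; norm_num
        _ ≤ C ^ 2 * s ^ 2 := mul_le_mul_of_nonneg_right this (by positivity)
        _ = (C * s) ^ 2 := by ring) le_rfl (by
      have h1 : (K : ℝ) ≤ C ^ 2 := by
        have : (K : ℝ) ≤ C := by rw [hC]; linarith
        nlinarith
      calc 4 * (K : ℝ) * n = 4 * K * s ^ 2 := by rw [hss]
        _ ≤ 4 * C ^ 2 * s ^ 2 := by
          have : 0 ≤ s ^ 2 := by positivity
          nlinarith
        _ = (2 * (C * s)) ^ 2 := by ring) (by linarith) hπ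
  refine key.trans ?_
  have hratio : C * s / n = C * x := by
    rw [← hss, hxdef]
    field_simp
  have hle : (π.cycleType.map fun j => (C * s / n) ^ (j - 1) * (2 : ℝ) ^ (j - 3)).prod ≤
      (π.cycleType.map fun j => (2 : ℝ) ^ j * (C * x) ^ (j - 1)).prod := by
    refine Multiset.prod_map_le_prod_map₀ _ _ (fun j _ => ?_) (fun j _ => ?_)
    · rw [hratio]
      positivity
    · rw [hratio, mul_comm]
      refine mul_le_mul_of_nonneg_right ?_ (by positivity)
      exact pow_le_pow_right₀ (by norm_num) (by omega)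
  rw [prod_type_eq] at hle
  have h3 : (0 : ℝ) ≤ 3 ^ sp π := by positivity
  calc (3 : ℝ) ^ sp π * (π.cycleType.map fun j => (C * s / n) ^ (j - 1) * (2 : ℝ) ^ (j - 3)).prod
      ≤ 3 ^ sp π * (2 ^ sp π * (C * x) ^ rk π) := mul_le_mul_of_nonneg_left hle h3
    _ = (3 ^ sp π * 2 ^ sp π * C ^ rk π) * x ^ rk π := by rw [mul_pow]; ring
    _ ≤ (6 * C) ^ K * x ^ rk π := by
        refine mul_le_mul_of_nonneg_right ?_ (by positivity)
        have h1 : (3 : ℝ) ^ sp π ≤ 3 ^ K := pow_le_pow_right₀ (by norm_num) hπ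
        have h2 : (2 : ℝ) ^ sp π ≤ 2 ^ K := pow_le_pow_right₀ (by norm_num) hπ
        have h4 : C ^ rk π ≤ C ^ K := pow_le_pow_right₀ hC1 ((rk_le_sp π).trans hπ)
        calc (3 : ℝ) ^ sp π * 2 ^ sp π * C ^ rk π ≤ 3 ^ K * 2 ^ K * C ^ K := by
              gcongr
          _ = (6 * C) ^ K := by
              rw [← mul_pow, ← mul_pow]
              norm_num

/-- The weights. -/
private noncomputable def wF (x : ℝ) (K j : ℕ) : ℝ :=
  if Odd j ∧ j ≤ K then (2025 : ℝ) ^ j * (x ^ 3) ^ (j - 1) else 0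

private lemma wF_nonneg {x : ℝ} (hx : 0 ≤ x) (K j : ℕ) : 0 ≤ wF x K j := by
  unfold wF
  split_ifs <;> positivity

/-- Bound for a single permutation. -/
private lemma perm_bound (rho nu : Perm (Fin n) → ℝ) (B : ℝ) (hB : 1 ≤ B) (K : ℕ)
    (hrho : RhoB n rho) (π : Perm (Fin n)) (hsp : sp π ≤ K)
    (hnu : |nu π| ≤ B * ((Real.sqrt n)⁻¹) ^ rk π) :
    rho π ^ 2 * |nu π| ≤ B * (π.cycleType.map (wF (Real.sqrt n)⁻¹ K)).prod := by
  set x := (Real.sqrt n)⁻¹ with hxdef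
  have hx : 0 ≤ x := inv_nonneg.2 (Real.sqrt_nonneg _)
  have hB0 : 0 ≤ B := by linarith
  by_cases hev : ∃ j ∈ π.cycleType, Even j
  · rw [hrho.1 π hev]
    have : 0 ≤ (π.cycleType.map (wF x K)).prod := by
      refine Multiset.prod_nonneg (fun a ha => ?_)
      obtain ⟨j, _, rfl⟩ := Multiset.mem_map.1 ha
      exact wF_nonneg hx K j
    simpa using mul_nonneg hB0 this
  · have hodd : ∀ j ∈ π.cycleType, Odd j := by
      intro j hj
      by_contra h
      exact hev ⟨j, hj, Nat.not_odd_iff_even.1 h⟩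
    have hle : ∀ j ∈ π.cycleType, j ≤ K := fun j hj =>
      (Multiset.single_le_sum (fun _ _ => Nat.zero_le _) j hj).trans hsp
    have hmap : π.cycleType.map (wF x K) =
        π.cycleType.map fun j => (2025 : ℝ) ^ j * (x ^ 3) ^ (j - 1) := by
      refine Multiset.map_congr rfl (fun j hj => ?_)
      unfold wF
      rw [if_pos ⟨hodd j hj, hle j hj⟩]
    rw [hmap, prod_type_eq]
    have h1 : rho π ^ 2 ≤ ((45 : ℝ) ^ sp π * x ^ rk π) ^ 2 := by
      rw [← sq_abs]
      exact pow_le_pow_left₀ (abs_nonneg _) (hrho.2 π) 2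
    calc rho π ^ 2 * |nu π| ≤ ((45 : ℝ) ^ sp π * x ^ rk π) ^ 2 * (B * x ^ rk π) :=
          mul_le_mul h1 hnu (abs_nonneg _) (by positivity)
      _ = B * ((2025 : ℝ) ^ sp π * (x ^ 3) ^ rk π) := by
          have e : (2025 : ℝ) ^ sp π = ((45 : ℝ) ^ sp π) ^ 2 := by
            rw [← pow_mul, mul_comm, pow_mul]
            norm_num
          rw [e]
          ring

/-- A sum of terms that are bounded for `j ≤ K`, and zero for `j > K`. -/
private lemma sum_le_of_bound (S : Finset ℕ) (hS : ∀ j ∈ S, 1 ≤ j) (g : ℕ → ℝ) (c : ℝ) (hc : 0 ≤ c)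
    (K : ℕ) (h1 : ∀ j ∈ S, j ≤ K → g j ≤ c) (h2 : ∀ j ∈ S, K < j → g j = 0) :
    ∑ j ∈ S, g j ≤ K * c := by
  classical
  have e : ∑ j ∈ S, g j = ∑ j ∈ S.filter (· ≤ K), g j := by
    symm
    refine Finset.sum_filter_of_ne (fun j hj hne => ?_)
    by_contra hlt
    exact hne (h2 j hj (by omega))
  rw [e]
  have hcard : (S.filter (· ≤ K)).card ≤ K := by
    have hsub : S.filter (· ≤ K) ⊆ Icc 1 K := by
      intro j hj
      rw [mem_filter] at hj
      rw [mem_Icc]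
      exact ⟨hS j hj.1, hj.2⟩
    simpa using Finset.card_le_card hsub
  calc ∑ j ∈ S.filter (· ≤ K), g j ≤ (S.filter (· ≤ K)).card • c :=
        Finset.sum_le_card_nsmul _ _ _ (fun j hj => by
          rw [mem_filter] at hj
          exact h1 j hj.1 hj.2)
    _ = ((S.filter (· ≤ K)).card : ℝ) * c := by rw [nsmul_eq_mul]
    _ ≤ K * c := mul_le_mul_of_nonneg_right (by exact_mod_cast hcard) hc

/-- A single term of the exponent. -/
private lemma term_le (K j : ℕ) {x : ℝ} (hx : 0 < x) (hn : (n : ℝ) * x ^ 2 = 1)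
    (h3 : 3 ≤ j) (hjK : j ≤ K) :
    (n : ℝ) ^ j / j * ((2025 : ℝ) ^ j * (x ^ 3) ^ (j - 1)) ≤ (2025 : ℝ) ^ K * x ^ (j - 3) := by
  obtain ⟨i, rfl⟩ : ∃ i, j = i + 3 := ⟨j - 3, by omega⟩
  have e : (n : ℝ) ^ (i + 3) * (x ^ 3) ^ (i + 3 - 1) = x ^ i := by
    have : i + 3 - 1 = i + 2 := by omega
    rw [this]
    calc (n : ℝ) ^ (i + 3) * (x ^ 3) ^ (i + 2) = ((n : ℝ) * x ^ 2) ^ (i + 3) * x ^ i := by ring
      _ = x ^ i := by rw [hn]; simp
  have hj1 : (1 : ℝ) ≤ ((i + 3 : ℕ) : ℝ) := by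
    have : 1 ≤ i + 3 := by omega
    exact_mod_cast this
  have hj0 : (0 : ℝ) < ((i + 3 : ℕ) : ℝ) := by linarith
  have e2 : (n : ℝ) ^ (i + 3) / ((i + 3 : ℕ) : ℝ) * ((2025 : ℝ) ^ (i + 3) * (x ^ 3) ^ (i + 3 - 1)) =
      ((2025 : ℝ) ^ (i + 3) * x ^ i) / ((i + 3 : ℕ) : ℝ) := by
    rw [← e]
    ring
  rw [e2]
  have h5 : (2025 : ℝ) ^ (i + 3) ≤ (2025 : ℝ) ^ K := pow_le_pow_right₀ (by norm_num) hjK
  have hxi : 0 ≤ x ^ i := by positivity
  simp only [Nat.add_sub_cancel]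
  calc ((2025 : ℝ) ^ (i + 3) * x ^ i) / ((i + 3 : ℕ) : ℝ) ≤ (2025 : ℝ) ^ (i + 3) * x ^ i :=
        div_le_self (by positivity) hj1
    _ ≤ _ := mul_le_mul_of_nonneg_right h5 hxi

open scoped Classical in
/-- Support at most `K` with a cycle of length at least 5: the total is `O(1/n)`. -/
theorem five (A : ℝ) (hA : 1 ≤ A) (K : ℕ) : ∃ E : ℝ, 0 ≤ E ∧ ∃ n₀ : ℕ, ∀ n ≥ n₀,
    ∀ rho nu : Perm (Fin n) → ℝ, RhoB n rho → NuB n (A * Real.sqrt n) nu →
      ∑ π ∈ (univ.filter fun π : Perm (Fin n) => sp π ≤ K ∧ ∃ j ∈ π.cycleType, 5 ≤ j),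
        rho π ^ 2 * |nu π| ≤ E / n := by
  obtain ⟨B, hB, n₀, hsmall⟩ := nu_small A hA K
  set D : ℝ := (2025 : ℝ) ^ K with hD
  have hD0 : 0 ≤ D := by positivity
  have hKD : (0 : ℝ) ≤ K * D := by positivity
  refine ⟨B * ((K * D) * Real.exp (K * D)), by positivity, n₀ + 1, ?_⟩
  intro n hn rho nu hrho hnu
  have hn1 : 1 ≤ n := by omega
  have hnR : (1 : ℝ) ≤ n := by exact_mod_cast hn1
  have hn0 : (0 : ℝ) < n := by linarith
  set s := Real.sqrt n with hsdef
  have hs : 0 < s := Real.sqrt_pos.2 hn0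
  have hss : s ^ 2 = n := Real.sq_sqrt hn0.le
  have hs1 : 1 ≤ s := by
    rw [hsdef]
    exact Real.one_le_sqrt.2 hnR
  set x := s⁻¹ with hxdef
  have hx : 0 < x := inv_pos.2 hs
  have hx1 : x ≤ 1 := inv_le_one_of_one_le₀ hs1
  have hnx : (n : ℝ) * x ^ 2 = 1 := by
    rw [← hss, hxdef]
    field_simp
  have hB0 : 0 ≤ B := by linarith
  set w := wF x K with hw
  have hw0 : ∀ j, 0 ≤ w j := wF_nonneg hx.le K
  have hprod0 : ∀ π : Perm (Fin n), 0 ≤ (π.cycleType.map w).prod := by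
    intro π
    refine Multiset.prod_nonneg (fun a ha => ?_)
    obtain ⟨j, _, rfl⟩ := Multiset.mem_map.1 ha
    exact hw0 j
  -- a single term
  have hterm : ∀ j, 2 ≤ j → j ≤ K → (n : ℝ) ^ j / j * w j ≤ D * x ^ (j - 3) := by
    intro j h2 hjK
    by_cases hodd : Odd j
    · have h3 : 3 ≤ j := by
        obtain ⟨i, rfl⟩ := hodd
        omega
      have := term_le (n := n) K j hx hnx h3 hjK
      simp only [hw, wF]
      rw [if_pos ⟨hodd, hjK⟩]
      exact this
    · simp only [hw, wF]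
      rw [if_neg (fun h => hodd h.1)]
      have : 0 ≤ D * x ^ (j - 3) := by positivity
      simpa using this
  have hzero : ∀ j, K < j → (n : ℝ) ^ j / j * w j = 0 := by
    intro j hj
    simp only [hw, wF]
    rw [if_neg (fun h => by omega)]
    simp
  have hsum5 : ∑ j ∈ Icc 5 n, (n : ℝ) ^ j / j * w j ≤ K * (D / n) := by
    refine sum_le_of_bound _ (fun j hj => by rw [mem_Icc] at hj; omega) _ _ (by positivity) K ?_
      (fun j _ hj => hzero j hj)
    intro j hj hjK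
    rw [mem_Icc] at hj
    refine (hterm j (by omega) hjK).trans ?_
    have hpow : x ^ (j - 3) ≤ x ^ 2 := pow_le_pow_of_le_one hx.le hx1 (by omega)
    have hx2 : x ^ 2 = 1 / n := by
      field_simp
      linarith
    calc D * x ^ (j - 3) ≤ D * x ^ 2 := mul_le_mul_of_nonneg_left hpow hD0
      _ = D / n := by rw [hx2]; ring
  have hsum2 : ∑ j ∈ Icc 2 n, (n : ℝ) ^ j / j * w j ≤ K * D := by
    refine sum_le_of_bound _ (fun j hj => by rw [mem_Icc] at hj; omega) _ _ hD0 K ?_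
      (fun j _ hj => hzero j hj)
    intro j hj hjK
    rw [mem_Icc] at hj
    refine (hterm j (by omega) hjK).trans ?_
    have hpow : x ^ (j - 3) ≤ 1 := pow_le_one₀ hx.le hx1
    calc D * x ^ (j - 3) ≤ D * 1 := mul_le_mul_of_nonneg_left hpow hD0
      _ = D := mul_one D
  have hmain := exp_sum_five (n := n) w hw0
  have hsum5' : 0 ≤ ∑ j ∈ Icc 5 n, (n : ℝ) ^ j / j * w j := by
    refine Finset.sum_nonneg (fun j _ => ?_)
    have : (0 : ℝ) ≤ (n : ℝ) ^ j / j := by positivity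
    exact mul_nonneg this (hw0 j)
  calc ∑ π ∈ (univ.filter fun π : Perm (Fin n) => sp π ≤ K ∧ ∃ j ∈ π.cycleType, 5 ≤ j),
        rho π ^ 2 * |nu π|
      ≤ ∑ π ∈ (univ.filter fun π : Perm (Fin n) => sp π ≤ K ∧ ∃ j ∈ π.cycleType, 5 ≤ j),
          B * (π.cycleType.map w).prod := by
        refine Finset.sum_le_sum (fun π hπ => ?_)
        rw [mem_filter] at hπ
        have hle : n₀ ≤ n := by omega
        exact perm_bound rho nu B hB K hrho π hπ.2.1 (hsmall n hle nu hnu π hπ.2.1)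
    _ ≤ ∑ π ∈ (univ.filter fun π : Perm (Fin n) => ∃ j ∈ π.cycleType, 5 ≤ j),
          B * (π.cycleType.map w).prod := by
        refine Finset.sum_le_sum_of_subset_of_nonneg ?_
          (fun π _ _ => mul_nonneg hB0 (hprod0 π))
        intro π hπ
        rw [mem_filter] at hπ ⊢
        exact ⟨hπ.1, hπ.2.2⟩
    _ = B * ∑ π ∈ (univ.filter fun π : Perm (Fin n) => ∃ j ∈ π.cycleType, 5 ≤ j),
          (π.cycleType.map w).prod := by rw [Finset.mul_sum]
    _ ≤ B * ((∑ j ∈ Icc 5 n, (n : ℝ) ^ j / j * w j) *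
          Real.exp (∑ j ∈ Icc 2 n, (n : ℝ) ^ j / j * w j)) :=
        mul_le_mul_of_nonneg_left hmain hB0
    _ ≤ B * ((K * (D / n)) * Real.exp (K * D)) := by
        refine mul_le_mul_of_nonneg_left ?_ hB0
        exact mul_le_mul hsum5 (Real.exp_le_exp.2 hsum2) (Real.exp_pos _).le (by positivity)
    _ = B * ((K * D) * Real.exp (K * D)) / n := by
        field_simp

end Vale.Agent.Lib.P197
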