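import Vale.Agent.Lib.P197.Core

/-!
# P197 module Huge: supports above `c n` (blueprint sec 14)
-/

open Equiv Finset

namespace Vale.Agent.Lib.P197

variable {n : ℕ}

theorem huge_count_mul_le_sum (a : ℕ) (s : Multiset ℕ) : a * s.count a ≤ s.sum := by
  induction s using Multiset.induction_on with
  | empty => simp
  | cons b t ih =>
    by_cases h : b = a
    · subst h
      rw [Multiset.count_cons_self, Multiset.sum_cons]
      nlinarith
    · rw [Multiset.count_cons_of_ne (Ne.symm h), Multiset.sum_cons]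
      omega

theorem huge_prod_count_step (a : ℕ) (s : Multiset ℕ) :
    (a ::ₘ s).prod * ∏ j ∈ (a ::ₘ s).toFinset, ((a ::ₘ s).count j).factorial
      = a * (s.count a + 1) * (s.prod * ∏ j ∈ s.toFinset, (s.count j).factorial) := by
  have h1 : ∏ j ∈ s.toFinset, (s.count j).factorial
      = ∏ j ∈ insert a s.toFinset, (s.count j).factorial := by
    apply Finset.prod_subset (Finset.subset_insert _ _)
    intro j _ hj
    have : s.count j = 0 := by
      rw [Multiset.count_eq_zero]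
      simpa using hj
    simp [this]
  rw [h1, Multiset.toFinset_cons, Multiset.prod_cons]
  have ha : a ∈ insert a s.toFinset := Finset.mem_insert_self _ _
  rw [← Finset.mul_prod_erase _ _ ha, ← Finset.mul_prod_erase _ (fun j => (s.count j).factorial) ha]
  have h2 : ∏ j ∈ (insert a s.toFinset).erase a, ((a ::ₘ s).count j).factorial
      = ∏ j ∈ (insert a s.toFinset).erase a, (s.count j).factorial := by
    apply Finset.prod_congr rfl
    intro j hj
    have hne : j ≠ a := (Finset.mem_erase.1 hj).1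
    rw [Multiset.count_cons_of_ne hne]
  rw [h2, Multiset.count_cons_self, Nat.factorial_succ]
  ring

/-- The centraliser on the support of a permutation with all cycles of length at least 3. -/
theorem prod_count_le (s : Multiset ℕ) (hs : ∀ j ∈ s, 3 ≤ j) :
    ((s.prod * ∏ j ∈ s.toFinset, (s.count j).factorial : ℕ) : ℝ) ≤
      (s.sum : ℝ) ^ ((s.sum : ℝ) / 3) := by
  induction s using Multiset.induction_on with
  | empty => simp
  | cons a t ih =>
    have ha : 3 ≤ a := hs a (Multiset.mem_cons_self _ _)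
    have ih' := ih (fun j hj => hs j (Multiset.mem_cons_of_mem hj))
    rw [huge_prod_count_step, Multiset.sum_cons]
    have hc : a * (t.count a + 1) ≤ a + t.sum := by
      have := huge_count_mul_le_sum a t
      nlinarith
    set S : ℕ := t.sum with hS
    set P : ℕ := t.prod * ∏ j ∈ t.toFinset, (t.count j).factorial with hP
    have hN : (1:ℝ) ≤ ((a + S : ℕ) : ℝ) := by
      have : 1 ≤ a + S := by omega
      exact_mod_cast this
    have hN0 : (0:ℝ) < ((a + S : ℕ) : ℝ) := by linarith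
    have hS0 : (0:ℝ) ≤ (S : ℝ) := Nat.cast_nonneg _
    have hSle : (S : ℝ) ≤ ((a + S : ℕ) : ℝ) := by
      have : S ≤ a + S := by omega
      exact_mod_cast this
    have h3 : (S : ℝ) / 3 ≤ ((a + S : ℕ) : ℝ) / 3 - 1 := by
      have : ((a + S : ℕ) : ℝ) = (a : ℝ) + S := by push_cast; ring
      have ha' : (3:ℝ) ≤ a := by exact_mod_cast ha
      rw [this]
      linarith
    have h4 : (P : ℝ) ≤ ((a + S : ℕ) : ℝ) ^ (((a + S : ℕ) : ℝ) / 3 - 1) := by
      calc (P : ℝ) ≤ (S : ℝ) ^ ((S : ℝ) / 3) := ih'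
        _ ≤ ((a + S : ℕ) : ℝ) ^ ((S : ℝ) / 3) :=
            Real.rpow_le_rpow hS0 hSle (by positivity)
        _ ≤ ((a + S : ℕ) : ℝ) ^ (((a + S : ℕ) : ℝ) / 3 - 1) :=
            Real.rpow_le_rpow_of_exponent_le hN h3
    have h5 : ((a + S : ℕ) : ℝ) ^ (((a + S : ℕ) : ℝ) / 3)
        = ((a + S : ℕ) : ℝ) * ((a + S : ℕ) : ℝ) ^ (((a + S : ℕ) : ℝ) / 3 - 1) := by
      have : ((a + S : ℕ) : ℝ) / 3 = 1 + (((a + S : ℕ) : ℝ) / 3 - 1) := by ring
      conv_lhs => rw [this]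
      rw [Real.rpow_add hN0, Real.rpow_one]
    rw [h5]
    have hc' : ((a * (t.count a + 1) : ℕ) : ℝ) ≤ ((a + S : ℕ) : ℝ) := by exact_mod_cast hc
    push_cast at hc' h4 ⊢
    have hP0 : (0:ℝ) ≤ (P : ℝ) := Nat.cast_nonneg _
    have hmain : ((a : ℝ) * ((t.count a : ℝ) + 1)) * (P : ℝ)
        ≤ ((a : ℝ) + (S : ℝ)) * ((a : ℝ) + (S : ℝ)) ^ (((a : ℝ) + (S : ℝ)) / 3 - 1) := by
      apply mul_le_mul hc' h4 hP0
      have : (0:ℝ) < (a : ℝ) + (S : ℝ) := by
        have ha' : (3:ℝ) ≤ a := by exact_mod_cast ha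
        linarith
      exact this.le
    exact hmain

theorem huge_fact_lower (n : ℕ) : ((n : ℝ) / 3) ^ n ≤ (n.factorial : ℝ) := by
  have h1 := Real.pow_div_factorial_le_exp (n : ℝ) (Nat.cast_nonneg n) n
  have h2 : Real.exp (n : ℝ) ≤ (3 : ℝ) ^ n := by
    have : Real.exp (n : ℝ) = (Real.exp 1) ^ n := by
      rw [← Real.exp_nat_mul]; simp
    rw [this]
    exact pow_le_pow_left₀ (Real.exp_pos 1).le (by
      have := Real.exp_one_lt_d9
      linarith) n
  have h3 : (0:ℝ) < (n.factorial : ℝ) := by exact_mod_cast Nat.factorial_pos n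
  have h4 : (n : ℝ) ^ n ≤ (3 : ℝ) ^ n * (n.factorial : ℝ) := by
    have := h1.trans h2
    rwa [div_le_iff₀ h3] at this
  rw [div_pow, div_le_iff₀ (by positivity)]
  linarith

/-- The pointwise bound for a single permutation with all cycles at least 3. -/
theorem huge_point (A c : ℝ) (hA : 1 ≤ A) (hc : 0 < c) (n : ℕ) (hn : 1 ≤ n)
    (hn0 : 288 * A ≤ (n : ℝ) ^ (c / 3)) (nu : Perm (Fin n) → ℝ)
    (hnu : ∀ π : Perm (Fin n), nu π ^ 2 *
        (((univ.filter fun σ : Perm (Fin n) => σ.cycleType = π.cycleType).card : ℕ) : ℝ) *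
        ((n.factorial : ℕ) : ℝ) ^ 2 ≤
      ((n.factorial : ℕ) : ℝ) * (2 * A * Real.sqrt n) ^ (2 * n))
    (π : Perm (Fin n)) (h3 : ∀ j ∈ π.cycleType, 3 ≤ j) (hk : c * (n : ℝ) < (sp π : ℝ)) :
    |nu π| ≤ (1 / 48 : ℝ) ^ n := by
  classical
  set s := π.cycleType with hs
  set k : ℕ := s.sum with hkdef
  have hkn : k ≤ n := by
    have : π.support.card ≤ Fintype.card (Fin n) := Finset.card_le_univ _
    simp only [Fintype.card_fin] at this
    rw [hkdef, hs, Equiv.Perm.sum_cycleType]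
    exact this
  have hcard := Equiv.Perm.card_of_cycleType_mul_eq (α := Fin n) s
  rw [if_pos (by
    refine ⟨by simpa using hkn, ?_⟩
    intro a ha
    have := h3 a ha
    omega)] at hcard
  simp only [Fintype.card_fin] at hcard
  set cl : ℕ := (univ.filter fun σ : Perm (Fin n) => σ.cycleType = s).card with hcl
  set P : ℕ := s.prod * ∏ j ∈ s.toFinset, (s.count j).factorial with hP
  have hcl' : cl * ((n - k).factorial * P) = n.factorial := by
    rw [← hcard, hP]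
    ring
  have hnp : (0:ℝ) < (n : ℝ) := by exact_mod_cast hn
  have hn1 : (1:ℝ) ≤ (n : ℝ) := by exact_mod_cast hn
  have hf : (0:ℝ) < (n.factorial : ℝ) := by exact_mod_cast Nat.factorial_pos n
  -- Step A
  have hA1 : nu π ^ 2 * ((n.factorial : ℝ)) ^ 2
      ≤ (2 * A * Real.sqrt n) ^ (2 * n) * ((n - k).factorial * P : ℝ) := by
    have h := hnu π
    have hcl'' : (cl : ℝ) * (((n - k).factorial : ℝ) * (P : ℝ)) = (n.factorial : ℝ) := by
      exact_mod_cast hcl'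
    have hDnn : (0:ℝ) ≤ ((n - k).factorial : ℝ) * (P : ℝ) := by positivity
    have h' := mul_le_mul_of_nonneg_right h hDnn
    have e1 : nu π ^ 2 * (cl : ℝ) * (n.factorial : ℝ) ^ 2 * (((n - k).factorial : ℝ) * (P : ℝ))
        = (n.factorial : ℝ) * (nu π ^ 2 * (n.factorial : ℝ) ^ 2) := by
      rw [← hcl'']
      ring
    rw [e1, mul_assoc] at h'
    exact le_of_mul_le_mul_left h' hf
  -- Step B
  have hP1 : (P : ℝ) ≤ (n : ℝ) ^ ((k : ℝ) / 3) := by
    have h1 : (P : ℝ) ≤ (k : ℝ) ^ ((k : ℝ) / 3) := by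
      have := prod_count_le s h3
      simpa [hP, hkdef] using this
    have h2 : (k : ℝ) ≤ (n : ℝ) := by exact_mod_cast hkn
    exact h1.trans (Real.rpow_le_rpow (Nat.cast_nonneg _) h2 (by positivity))
  have hF1 : (((n - k).factorial : ℕ) : ℝ) ≤ (n : ℝ) ^ (n - k) := by
    have h1 : (n - k).factorial ≤ (n - k) ^ (n - k) := Nat.factorial_le_pow _
    have h2 : ((n - k : ℕ) : ℝ) ^ (n - k) ≤ (n : ℝ) ^ (n - k) :=
      pow_le_pow_left₀ (Nat.cast_nonneg _) (by exact_mod_cast Nat.sub_le n k) _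
    have h1' : (((n - k).factorial : ℕ) : ℝ) ≤ ((n - k : ℕ) : ℝ) ^ (n - k) := by exact_mod_cast h1
    exact h1'.trans h2
  -- Step C
  have hfl := huge_fact_lower n
  have hS : (2 * A * Real.sqrt n) ^ (2 * n) = (4 * A ^ 2 * n) ^ n := by
    rw [pow_mul]
    congr 1
    rw [mul_pow, mul_pow, Real.sq_sqrt hnp.le]
    ring
  rw [hS] at hA1
  -- combine into rpow form
  have hE : (n : ℝ) ^ (n - k) * (n : ℝ) ^ ((k : ℝ) / 3)
      = (n : ℝ) ^ ((n : ℝ) - 2 * (k : ℝ) / 3) := by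
    rw [← Real.rpow_natCast (n : ℝ) (n - k), ← Real.rpow_add hnp]
    congr 1
    rw [Nat.cast_sub hkn]
    ring
  have hB : nu π ^ 2 * (((n : ℝ) / 3) ^ n) ^ 2
      ≤ (4 * A ^ 2 * n) ^ n * (n : ℝ) ^ ((n : ℝ) - 2 * (k : ℝ) / 3) := by
    calc nu π ^ 2 * (((n : ℝ) / 3) ^ n) ^ 2
        ≤ nu π ^ 2 * (n.factorial : ℝ) ^ 2 := by
          apply mul_le_mul_of_nonneg_left _ (sq_nonneg _)
          exact pow_le_pow_left₀ (by positivity) hfl 2
      _ ≤ (4 * A ^ 2 * n) ^ n * (((n - k).factorial : ℝ) * (P : ℝ)) := hA1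
      _ ≤ (4 * A ^ 2 * n) ^ n * ((n : ℝ) ^ (n - k) * (n : ℝ) ^ ((k : ℝ) / 3)) := by
          apply mul_le_mul_of_nonneg_left _ (by positivity)
          exact mul_le_mul hF1 hP1 (Nat.cast_nonneg _) (by positivity)
      _ = (4 * A ^ 2 * n) ^ n * (n : ℝ) ^ ((n : ℝ) - 2 * (k : ℝ) / 3) := by rw [hE]
  -- exponent monotonicity: k > c n
  have hkk : c * (n : ℝ) ≤ (k : ℝ) := by
    have : (sp π : ℝ) = (k : ℝ) := by simp [sp, hkdef, hs]
    rw [← this]
    exact hk.le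
  have hEE : (n : ℝ) ^ ((n : ℝ) - 2 * (k : ℝ) / 3)
      ≤ (n : ℝ) ^ ((n : ℝ) - 2 * (c * (n : ℝ)) / 3) :=
    Real.rpow_le_rpow_of_exponent_le hn1 (by linarith)
  -- set w = n^(c/3)
  set W : ℝ := (n : ℝ) ^ (c / 3) with hW
  have hWpos : 0 < W := Real.rpow_pos_of_pos hnp _
  have hE2 : (n : ℝ) ^ ((n : ℝ) - 2 * (c * (n : ℝ)) / 3) * (W ^ n) ^ 2 = (n : ℝ) ^ n := by
    have e : (W ^ n) ^ 2 = (n : ℝ) ^ (2 * (c * (n : ℝ)) / 3) := by
      rw [hW, ← pow_mul, ← Real.rpow_natCast, ← Real.rpow_mul hnp.le]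
      congr 1
      push_cast
      ring
    rw [e, ← Real.rpow_add hnp, ← Real.rpow_natCast]
    congr 1
    ring
  -- final square comparison
  have hsq : nu π ^ 2 ≤ ((6 * A / W) ^ n) ^ 2 := by
    have h1 : nu π ^ 2 * (((n : ℝ) / 3) ^ n) ^ 2
        ≤ (4 * A ^ 2 * n) ^ n * (n : ℝ) ^ ((n : ℝ) - 2 * (c * (n : ℝ)) / 3) :=
      hB.trans (mul_le_mul_of_nonneg_left hEE (by positivity))
    have h2 : ((n : ℝ) / 3) ^ n ≠ 0 := by positivity
    have hpos : (0:ℝ) < (((n : ℝ) / 3) ^ n) ^ 2 := by positivity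
    have h3 : ((6 * A / W) ^ n) ^ 2 * (((n : ℝ) / 3) ^ n) ^ 2
        = (4 * A ^ 2 * n) ^ n * (n : ℝ) ^ ((n : ℝ) - 2 * (c * (n : ℝ)) / 3) := by
      have hWn : (W ^ n) ^ 2 ≠ 0 := by positivity
      have hnn : (n : ℝ) ^ n ≠ 0 := by positivity
      apply mul_right_cancel₀ hWn
      have e2 : (4 * A ^ 2 * n) ^ n * (n : ℝ) ^ ((n : ℝ) - 2 * (c * (n : ℝ)) / 3) * (W ^ n) ^ 2
          = (4 * A ^ 2 * n) ^ n * (n : ℝ) ^ n := by
        rw [mul_assoc, hE2]
      rw [e2]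
      have e3 : (6 * A / W) ^ n * W ^ n = (6 * A) ^ n := by
        rw [← mul_pow]
        congr 1
        field_simp
      calc ((6 * A / W) ^ n) ^ 2 * (((n : ℝ) / 3) ^ n) ^ 2 * (W ^ n) ^ 2
          = ((6 * A / W) ^ n * W ^ n) ^ 2 * (((n : ℝ) / 3) ^ n) ^ 2 := by ring
        _ = ((6 * A) ^ n) ^ 2 * (((n : ℝ) / 3) ^ n) ^ 2 := by rw [e3]
        _ = ((2 * A * (n : ℝ)) ^ n) ^ 2 := by
            rw [← mul_pow, ← mul_pow]
            congr 2
            ring
        _ = (4 * A ^ 2 * n) ^ n * (n : ℝ) ^ n := by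
            rw [← pow_mul, mul_comm n 2, pow_mul, ← mul_pow]
            congr 1
            ring
    rw [← h3] at h1
    exact le_of_mul_le_mul_right h1 hpos
  have hAb : 6 * A / W ≤ 1 / 48 := by
    rw [div_le_iff₀ hWpos]
    linarith
  have hAp : 0 ≤ 6 * A / W := by positivity
  have h6 : |nu π| ≤ (6 * A / W) ^ n := by
    have hp : 0 ≤ (6 * A / W) ^ n := pow_nonneg hAp _
    rw [← abs_of_nonneg hp]
    exact sq_le_sq.1 hsq
  exact h6.trans (pow_le_pow_left₀ hAp hAb n)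

theorem huge (A c : ℝ) (hA : 1 ≤ A) (hc : 0 < c) : ∃ n₀ : ℕ, ∀ n ≥ n₀,
    ∀ rho nu : Perm (Fin n) → ℝ, (∀ π, (∃ j ∈ π.cycleType, Even j) → rho π = 0) →
      HugeHyp n A rho nu →
      ∑ π ∈ (univ.filter fun π : Perm (Fin n) => c * (n : ℝ) < (sp π : ℝ)),
        rho π ^ 2 * |nu π| ≤ (1 / 2 : ℝ) ^ n := by
  refine ⟨⌈(288 * A) ^ (3 / c)⌉₊ + 1, ?_⟩
  intro n hn rho nu hrho ⟨h24, hnu⟩
  have hn1 : 1 ≤ n := by omega
  have hnp : (0:ℝ) < (n : ℝ) := by exact_mod_cast hn1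
  have hApos : (0:ℝ) < 288 * A := by linarith
  have hn0 : 288 * A ≤ (n : ℝ) ^ (c / 3) := by
    have h1 : (288 * A) ^ (3 / c) ≤ (n : ℝ) := by
      have h2 : (288 * A) ^ (3 / c) ≤ (⌈(288 * A) ^ (3 / c)⌉₊ : ℝ) := Nat.le_ceil _
      have h3 : ((⌈(288 * A) ^ (3 / c)⌉₊ : ℕ) : ℝ) ≤ (n : ℝ) := by
        have : ⌈(288 * A) ^ (3 / c)⌉₊ ≤ n := by omega
        exact_mod_cast this
      exact h2.trans h3
    have h2 := Real.rpow_le_rpow (by positivity) h1 (by positivity : (0:ℝ) ≤ c / 3)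
    rwa [← Real.rpow_mul hApos.le, show 3 / c * (c / 3) = 1 by field_simp, Real.rpow_one] at h2
  have hterm : ∀ π ∈ (univ.filter fun π : Perm (Fin n) => c * (n : ℝ) < (sp π : ℝ)),
      rho π ^ 2 * |nu π| ≤ rho π ^ 2 * (1 / 48 : ℝ) ^ n := by
    intro π hπ
    have hk := (Finset.mem_filter.1 hπ).2
    by_cases hev : ∃ j ∈ π.cycleType, Even j
    · rw [hrho π hev]
      simp
    · apply mul_le_mul_of_nonneg_left _ (sq_nonneg _)
      apply huge_point A c hA hc n hn1 hn0 nu hnu π _ hk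
      intro j hj
      have h2 : 2 ≤ j := Equiv.Perm.two_le_of_mem_cycleType hj
      have hodd : ¬ Even j := fun he => hev ⟨j, hj, he⟩
      by_contra hlt
      have : j = 2 := by omega
      exact hodd (this ▸ even_two)
  calc ∑ π ∈ (univ.filter fun π : Perm (Fin n) => c * (n : ℝ) < (sp π : ℝ)),
        rho π ^ 2 * |nu π|
      ≤ ∑ π ∈ (univ.filter fun π : Perm (Fin n) => c * (n : ℝ) < (sp π : ℝ)),
        rho π ^ 2 * (1 / 48 : ℝ) ^ n := Finset.sum_le_sum hterm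
    _ ≤ ∑ π : Perm (Fin n), rho π ^ 2 * (1 / 48 : ℝ) ^ n :=
        Finset.sum_le_sum_of_subset_of_nonneg (Finset.filter_subset _ _)
          (fun _ _ _ => by positivity)
    _ = (∑ π : Perm (Fin n), rho π ^ 2) * (1 / 48 : ℝ) ^ n := by rw [Finset.sum_mul]
    _ ≤ (24 : ℝ) ^ n * (1 / 48 : ℝ) ^ n :=
        mul_le_mul_of_nonneg_right h24 (by positivity)
    _ = (1 / 2 : ℝ) ^ n := by
        rw [← mul_pow]
        norm_num

end Vale.Agent.Lib.P197
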