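import Vale.Agent.Lib.P197.Overlap

/-!
# P197 module Multip: asymptotic multiplicativity at types `3^m` (blueprint sec 13)
-/

open Equiv Finset

namespace Vale.Agent.Lib.P197

variable {n : ℕ}

/-- Powers of `(√N)⁻¹` against powers of `N`. -/
private lemma pow_sqrt_inv_le {N : ℝ} (hN : 1 ≤ N) {a t k : ℕ} (h : 2 * k ≤ a + 2 * t) :
    ((Real.sqrt N)⁻¹) ^ a ≤ N ^ t / N ^ k := by
  have hN0 : 0 < N := by linarith
  have hs0 : 0 < Real.sqrt N := Real.sqrt_pos.2 hN0
  have hs1 : 1 ≤ Real.sqrt N := Real.one_le_sqrt.2 hN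
  have hss : Real.sqrt N ^ 2 = N := Real.sq_sqrt hN0.le
  have e1 : N ^ t = Real.sqrt N ^ (2 * t) := by rw [pow_mul, hss]
  have e2 : N ^ k = Real.sqrt N ^ (2 * k) := by rw [pow_mul, hss]
  rw [e1, e2, inv_pow, le_div_iff₀ (by positivity), inv_mul_le_iff₀ (by positivity), ← pow_add]
  exact pow_le_pow_right₀ hs1 (by omega)

/-- The ratio of factorials against a power of `2 / n`. -/
private lemma factorial_ratio_le {n t : ℕ} (ht : 2 * t ≤ n) (hn : 0 < n) :
    (((n - t).factorial : ℕ) : ℝ) / ((n.factorial : ℕ) : ℝ) ≤ (2 / (n : ℝ)) ^ t := by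
  have h1 : (n - t).factorial * (n - t + 1) ^ t ≤ n.factorial := by
    have := @Nat.factorial_mul_pow_le_factorial (n - t) t
    rwa [Nat.sub_add_cancel (by omega)] at this
  have hn0 : (0 : ℝ) < n := by exact_mod_cast hn
  have hf0 : (0 : ℝ) < (n.factorial : ℝ) := by exact_mod_cast Nat.factorial_pos n
  have h2 : ((n : ℝ) / 2) ≤ ((n - t + 1 : ℕ) : ℝ) := by
    have : n ≤ 2 * (n - t + 1) := by omega
    have h3 : (n : ℝ) ≤ 2 * ((n - t + 1 : ℕ) : ℝ) := by exact_mod_cast this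
    linarith
  rw [div_le_iff₀ hf0]
  have h4 : ((n - t).factorial : ℝ) * (((n - t + 1 : ℕ) : ℝ)) ^ t ≤ (n.factorial : ℝ) := by
    exact_mod_cast h1
  have h5 : ((n : ℝ) / 2) ^ t ≤ (((n - t + 1 : ℕ) : ℝ)) ^ t :=
    pow_le_pow_left₀ (by positivity) h2 t
  have h6 : ((n - t).factorial : ℝ) * ((n : ℝ) / 2) ^ t ≤ (n.factorial : ℝ) :=
    le_trans (mul_le_mul_of_nonneg_left h5 (by positivity)) h4
  have h7 : (2 / (n : ℝ)) ^ t * ((n : ℝ) / 2) ^ t = 1 := by
    rw [← mul_pow]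
    have : 2 / (n : ℝ) * ((n : ℝ) / 2) = 1 := by field_simp
    rw [this, one_pow]
  calc ((n - t).factorial : ℝ) = ((n - t).factorial : ℝ) * ((n : ℝ) / 2) ^ t * (2 / (n : ℝ)) ^ t := by
        rw [mul_assoc, mul_comm (((n : ℝ) / 2) ^ t), h7, mul_one]
    _ ≤ (n.factorial : ℝ) * (2 / (n : ℝ)) ^ t :=
        mul_le_mul_of_nonneg_right h6 (by positivity)
    _ = (2 / (n : ℝ)) ^ t * (n.factorial : ℝ) := by ring

private lemma sp_replicate (π : Perm (Fin n)) {m : ℕ} (h : π.cycleType = Multiset.replicate m 3) :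
    sp π = 3 * m := by
  simp [sp, h, mul_comm]

private lemma rk_replicate (π : Perm (Fin n)) {m : ℕ} (h : π.cycleType = Multiset.replicate m 3) :
    rk π = 2 * m := by
  simp only [rk, h, Multiset.sum_replicate, Multiset.card_replicate, smul_eq_mul]
  omega

/-- One step: `x` a three-cycle, `y` of type `3^(m-1)`, `π` of type `3^m`:
`|n^m r π - (n r x) (n^(m-1) r y)| ≤ E / n`. -/
theorem three_step (B : ℝ) (hB : 1 ≤ B) (m : ℕ) (hm : 1 ≤ m) : ∃ E : ℝ, 0 ≤ E ∧ ∃ n₁ : ℕ,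
    ∀ n ≥ n₁, ∀ r : Perm (Fin n) → ℝ, ClassMult n r →
      (∀ π, sp π ≤ 3 * m → |r π| ≤ B * ((Real.sqrt n)⁻¹) ^ rk π) →
      ∀ π x y : Perm (Fin n), π.cycleType = Multiset.replicate m 3 → x.cycleType = {3} →
        y.cycleType = Multiset.replicate (m - 1) 3 →
        |(n : ℝ) ^ m * r π - ((n : ℝ) * r x) * ((n : ℝ) ^ (m - 1) * r y)| ≤ E / n := by
  obtain ⟨k, rfl⟩ : ∃ k, m = k + 1 := ⟨m - 1, by omega⟩
  simp only [Nat.add_sub_cancel]
  have hB0 : (0 : ℝ) < B := by linarith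
  refine ⟨2 * B * ((18 * ((k : ℝ) + 1)) + (18 * ((k : ℝ) + 1)) ^ 2 + (18 * ((k : ℝ) + 1)) ^ 3),
    by positivity, 6, ?_⟩
  intro n hn r hr hb π x y hπ hx hy
  have hn6 : 6 ≤ n := hn
  set N : ℝ := (n : ℝ) with hNdef
  have hN1 : 1 ≤ N := by rw [hNdef]; exact_mod_cast (by omega : 1 ≤ n)
  have hN0 : 0 < N := by linarith
  set F : ℝ := ((n.factorial : ℕ) : ℝ) with hF
  have hF0 : 0 < F := by rw [hF]; exact_mod_cast Nat.factorial_pos n
  -- the product formula
  let z : Perm (Fin n) → Perm (Fin n) := fun g => x * (g * y * g⁻¹)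
  have hsum : r x * r y - r π = F⁻¹ * ∑ g : Perm (Fin n), (r (z g) - r π) := by
    rw [hr.2 x y, sum_sub_distrib, sum_const, card_univ, Fintype.card_perm, Fintype.card_fin,
      nsmul_eq_mul, mul_sub]
    rw [← hF, inv_mul_cancel_left₀ hF0.ne']
  have hgoal : (N : ℝ) ^ (k + 1) * r π - (N * r x) * (N ^ k * r y) =
      -(N ^ (k + 1) * (r x * r y - r π)) := by
    rw [pow_succ]; ring
  rw [hgoal, abs_neg, abs_mul, abs_of_pos (by positivity : 0 < N ^ (k + 1)), hsum, abs_mul,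
    abs_of_pos (by positivity : 0 < F⁻¹)]
  -- the overlap count
  let t : Perm (Fin n) → ℕ := fun g => (x.support ∩ y.support.map g.toEmbedding).card
  have hx3 : x.support.card = 3 := by
    rw [← Perm.sum_cycleType, hx]; simp
  have hyc : y.support.card = 3 * k := by
    rw [← Perm.sum_cycleType, hy]; simp [mul_comm]
  have ht3 : ∀ g, t g ≤ 3 := fun g => by
    calc t g ≤ x.support.card := card_le_card inter_subset_left
      _ = 3 := hx3
  -- weights
  let W : ℕ → ℝ := fun j => 2 * B * N ^ j / N ^ (k + 2)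
  have hW0 : ∀ j, 0 ≤ W j := fun j => by positivity
  have hbound : ∀ g, |r (z g) - r π| ≤ (if 1 ≤ t g then W 1 else 0) + (if 2 ≤ t g then W 2 else 0) +
      (if 3 ≤ t g then W 3 else 0) := by
    intro g
    have hconj : (g * y * g⁻¹).cycleType = y.cycleType := Perm.cycleType_conj
    have hsupp : (g * y * g⁻¹).support = y.support.map g.toEmbedding := support_conj g y
    by_cases h0 : t g = 0
    · have hemp : x.support ∩ (g * y * g⁻¹).support = ∅ := by
        rw [hsupp]; exact card_eq_zero.1 h0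
      have hct : (z g).cycleType = π.cycleType := by
        show (x * (g * y * g⁻¹)).cycleType = _
        rw [cycleType_mul_of_disjoint_support _ _ hemp, hconj, hx, hy, hπ,
          Multiset.replicate_succ]
        rfl
      rw [hr.1 _ _ hct, sub_self, abs_zero, h0]
      simp
    · have h1t : 1 ≤ t g := by omega
      -- the estimate for z
      have hspz : sp (z g) ≤ 3 * (k + 1) := by
        calc sp (z g) ≤ sp x + sp (g * y * g⁻¹) := sp_mul_le _ _
          _ = 3 + 3 * k := by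
            rw [sp, sp, hconj, hx, hy]; simp [mul_comm]
          _ = 3 * (k + 1) := by ring
      have hrk := rk_three_mul x (g * y * g⁻¹) hx (by rw [hsupp]; exact h1t)
      rw [hsupp] at hrk
      have hrky : rk (g * y * g⁻¹) = 2 * k := by
        rw [rk, hconj, hy]
        simp only [Multiset.sum_replicate, Multiset.card_replicate, smul_eq_mul]
        omega
      rw [hrky] at hrk
      have hz1 : |r (z g)| ≤ B * (N ^ t g / N ^ (k + 2)) := by
        refine le_trans (hb _ hspz) (mul_le_mul_of_nonneg_left ?_ hB0.le)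
        apply pow_sqrt_inv_le hN1
        show 2 * (k + 2) ≤ rk (x * (g * y * g⁻¹)) + 2 * t g
        omega
      have hπ1 : |r π| ≤ B * (N ^ t g / N ^ (k + 2)) := by
        have hsp : sp π ≤ 3 * (k + 1) := by rw [sp_replicate π hπ]
        refine le_trans (hb _ hsp) (mul_le_mul_of_nonneg_left ?_ hB0.le)
        apply pow_sqrt_inv_le hN1
        rw [rk_replicate π hπ]
        omega
      have hc : |r (z g) - r π| ≤ W (t g) := by
        have := abs_sub (r (z g)) (r π)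
        show _ ≤ 2 * B * N ^ t g / N ^ (k + 2)
        have e : 2 * B * N ^ t g / N ^ (k + 2) = B * (N ^ t g / N ^ (k + 2)) +
            B * (N ^ t g / N ^ (k + 2)) := by ring
        rw [e]
        linarith
      have h3 := ht3 g
      have h1' := hW0 1
      have h2' := hW0 2
      have h3' := hW0 3
      have hcases : t g = 1 ∨ t g = 2 ∨ t g = 3 := by omega
      rcases hcases with hv | hv | hv
      · rw [hv] at hc ⊢
        simp only [show (1 : ℕ) ≤ 1 by omega, if_true, show ¬ (2 : ℕ) ≤ 1 by omega, if_false,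
          show ¬ (3 : ℕ) ≤ 1 by omega]
        linarith
      · rw [hv] at hc ⊢
        simp only [show (1 : ℕ) ≤ 2 by omega, show (2 : ℕ) ≤ 2 by omega, if_true,
          show ¬ (3 : ℕ) ≤ 2 by omega, if_false]
        linarith
      · rw [hv] at hc ⊢
        simp only [show (1 : ℕ) ≤ 3 by omega, show (2 : ℕ) ≤ 3 by omega,
          show (3 : ℕ) ≤ 3 by omega, if_true]
        linarith
  -- count of the overlaps
  have hcount : ∀ j : ℕ, 1 ≤ j → j ≤ 3 → F⁻¹ *
      (((univ.filter fun g : Perm (Fin n) => j ≤ t g).card : ℕ) : ℝ) ≤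
        (18 * ((k : ℝ) + 1) / N) ^ j := by
    intro j _ hj3
    have hc := count_overlap x.support y.support j (by omega)
    rw [hx3, hyc] at hc
    have hc' : (((univ.filter fun g : Perm (Fin n) => j ≤ t g).card : ℕ) : ℝ) ≤
        ((3 * (3 * (k : ℝ))) ^ j) * (((n - j).factorial : ℕ) : ℝ) := by
      exact_mod_cast hc
    have hr := factorial_ratio_le (n := n) (t := j) (by omega) (by omega)
    have hk0 : (0 : ℝ) ≤ (k : ℝ) := Nat.cast_nonneg k
    calc F⁻¹ * _ ≤ F⁻¹ * (((3 * (3 * (k : ℝ))) ^ j) * (((n - j).factorial : ℕ) : ℝ)) :=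
          mul_le_mul_of_nonneg_left hc' (by positivity)
      _ = ((3 * (3 * (k : ℝ))) ^ j) * ((((n - j).factorial : ℕ) : ℝ) / F) := by
          rw [div_eq_mul_inv]; ring
      _ ≤ ((3 * (3 * (k : ℝ))) ^ j) * (2 / N) ^ j :=
          mul_le_mul_of_nonneg_left hr (by positivity)
      _ = (3 * (3 * (k : ℝ)) * (2 / N)) ^ j := by rw [← mul_pow]
      _ ≤ (18 * ((k : ℝ) + 1) / N) ^ j := by
          apply pow_le_pow_left₀ (by positivity)
          have : 3 * (3 * (k : ℝ)) * (2 / N) = 18 * (k : ℝ) / N := by ring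
          rw [this]
          apply div_le_div_of_nonneg_right _ hN0.le
          linarith
  -- assembling
  have hsumle : |∑ g : Perm (Fin n), (r (z g) - r π)| ≤
      (((univ.filter fun g : Perm (Fin n) => 1 ≤ t g).card : ℕ) : ℝ) * W 1 +
      (((univ.filter fun g : Perm (Fin n) => 2 ≤ t g).card : ℕ) : ℝ) * W 2 +
      (((univ.filter fun g : Perm (Fin n) => 3 ≤ t g).card : ℕ) : ℝ) * W 3 := by
    refine le_trans (abs_sum_le_sum_abs _ _) (le_trans (sum_le_sum fun g _ => hbound g) ?_)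
    rw [sum_add_distrib, sum_add_distrib]
    simp only [sum_ite, sum_const_zero, add_zero, sum_const, nsmul_eq_mul]
    exact le_refl _
  have hterm : ∀ j : ℕ, 1 ≤ j → j ≤ 3 →
      N ^ (k + 1) * (F⁻¹ * ((((univ.filter fun g : Perm (Fin n) => j ≤ t g).card : ℕ) : ℝ) * W j)) ≤
        2 * B * (18 * ((k : ℝ) + 1)) ^ j / N := by
    intro j h1 h3
    have hc := hcount j h1 h3
    have e : N ^ (k + 1) * (F⁻¹ * ((((univ.filter fun g : Perm (Fin n) => j ≤ t g).card : ℕ) : ℝ) * W j))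
        = (F⁻¹ * (((univ.filter fun g : Perm (Fin n) => j ≤ t g).card : ℕ) : ℝ)) *
          (2 * B * N ^ j / N) := by
      show N ^ (k + 1) * (F⁻¹ * (_ * (2 * B * N ^ j / N ^ (k + 2)))) = _
      have : N ^ (k + 2) = N ^ (k + 1) * N := by ring
      rw [this]
      field_simp
    rw [e]
    calc _ ≤ (18 * ((k : ℝ) + 1) / N) ^ j * (2 * B * N ^ j / N) :=
          mul_le_mul_of_nonneg_right hc (by positivity)
      _ = 2 * B * (18 * ((k : ℝ) + 1)) ^ j / N := by
          rw [div_pow]; field_simp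
  have h1 := hterm 1 (by omega) (by omega)
  have h2 := hterm 2 (by omega) (by omega)
  have h3 := hterm 3 (by omega) (by omega)
  have hmain : N ^ (k + 1) * (F⁻¹ * |∑ g : Perm (Fin n), (r (z g) - r π)|) ≤
      N ^ (k + 1) * (F⁻¹ * ((((univ.filter fun g : Perm (Fin n) => 1 ≤ t g).card : ℕ) : ℝ) * W 1 +
      (((univ.filter fun g : Perm (Fin n) => 2 ≤ t g).card : ℕ) : ℝ) * W 2 +
      (((univ.filter fun g : Perm (Fin n) => 3 ≤ t g).card : ℕ) : ℝ) * W 3)) :=
    mul_le_mul_of_nonneg_left (mul_le_mul_of_nonneg_left hsumle (by positivity)) (by positivity)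
  refine le_trans hmain ?_
  have e2 : 2 * B * (18 * ((k : ℝ) + 1) + (18 * ((k : ℝ) + 1)) ^ 2 + (18 * ((k : ℝ) + 1)) ^ 3) / N =
      2 * B * (18 * ((k : ℝ) + 1)) ^ 1 / N + 2 * B * (18 * ((k : ℝ) + 1)) ^ 2 / N +
        2 * B * (18 * ((k : ℝ) + 1)) ^ 3 / N := by ring
  rw [e2]
  have e3 : N ^ (k + 1) * (F⁻¹ * ((((univ.filter fun g : Perm (Fin n) => 1 ≤ t g).card : ℕ) : ℝ) * W 1 +
      (((univ.filter fun g : Perm (Fin n) => 2 ≤ t g).card : ℕ) : ℝ) * W 2 +
      (((univ.filter fun g : Perm (Fin n) => 3 ≤ t g).card : ℕ) : ℝ) * W 3)) =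
      N ^ (k + 1) * (F⁻¹ * ((((univ.filter fun g : Perm (Fin n) => 1 ≤ t g).card : ℕ) : ℝ) * W 1)) +
      N ^ (k + 1) * (F⁻¹ * ((((univ.filter fun g : Perm (Fin n) => 2 ≤ t g).card : ℕ) : ℝ) * W 2)) +
      N ^ (k + 1) * (F⁻¹ * ((((univ.filter fun g : Perm (Fin n) => 3 ≤ t g).card : ℕ) : ℝ) * W 3)) := by
    ring
  rw [e3]
  linarith

/-- From `π` of type `3^(k+1)`, remove one cycle. -/
private lemma exists_type_pred (π : Perm (Fin n)) {k : ℕ}
    (hπ : π.cycleType = Multiset.replicate (k + 1) 3) :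
    ∃ y : Perm (Fin n), y.cycleType = Multiset.replicate k 3 := by
  have hne : π ≠ 1 := by
    rintro rfl
    simp [Multiset.replicate_succ] at hπ
  have hnon : π.cycleFactorsFinset.Nonempty := by
    rw [nonempty_iff_ne_empty]
    intro h
    exact hne (Perm.cycleFactorsFinset_eq_empty_iff.1 h)
  obtain ⟨c, hc⟩ := hnon
  refine ⟨π * c⁻¹, ?_⟩
  rw [Perm.cycleType_mul_inv_mem_cycleFactorsFinset_eq_sub hc, hπ]
  have hcyc := (Perm.mem_cycleFactorsFinset_iff.1 hc).1
  have hmem : c.support.card ∈ π.cycleType := by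
    rw [Perm.cycleType_def]
    exact Multiset.mem_map.2 ⟨c, hc, rfl⟩
  rw [hπ] at hmem
  have h3 : c.support.card = 3 := Multiset.eq_of_mem_replicate hmem
  rw [hcyc.cycleType, h3, Multiset.replicate_succ]
  simp

/-- By induction on `m` from `three_step`. -/
theorem three_power (B : ℝ) (hB : 1 ≤ B) (M : ℕ) : ∃ E : ℝ, 0 ≤ E ∧ ∃ n₁ : ℕ, ∀ n ≥ n₁,
    ∀ r : Perm (Fin n) → ℝ, ClassMult n r → r 1 = 1 →
      (∀ π, sp π ≤ 3 * M → |r π| ≤ B * ((Real.sqrt n)⁻¹) ^ rk π) →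
      ∀ m ≤ M, ∀ π x : Perm (Fin n), π.cycleType = Multiset.replicate m 3 → x.cycleType = {3} →
        |(n : ℝ) ^ m * r π - ((n : ℝ) * r x) ^ m| ≤ E / n := by
  have hB0 : (0 : ℝ) < B := by linarith
  induction M with
  | zero =>
    refine ⟨0, le_refl _, 0, ?_⟩
    intro n _ r _ hr1 _ m hm π x hπ _
    have hm0 : m = 0 := by omega
    subst hm0
    have : π = 1 := by
      rw [← Perm.cycleType_eq_zero]
      simpa using hπ
    subst this
    simp [hr1]
  | succ M ih =>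
    obtain ⟨E₀, hE₀, n₀, h₀⟩ := ih
    obtain ⟨E₁, hE₁, n₁', h₁⟩ := three_step B hB (M + 1) (by omega)
    refine ⟨E₁ + B * E₀ + E₀, by positivity, max (max n₀ n₁') 1, ?_⟩
    intro n hn r hr hr1 hb m hm π x hπ hx
    have hn0 : n ≥ n₀ := le_trans (le_trans (le_max_left _ _) (le_max_left _ _)) hn
    have hn1 : n ≥ n₁' := le_trans (le_trans (le_max_right _ _) (le_max_left _ _)) hn
    have hn2 : n ≥ 1 := le_trans (le_max_right _ _) hn
    have hN0 : (0 : ℝ) < n := by exact_mod_cast (by omega : 0 < n)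
    have hN1 : (1 : ℝ) ≤ n := by exact_mod_cast hn2
    have hbM : ∀ π, sp π ≤ 3 * M → |r π| ≤ B * ((Real.sqrt n)⁻¹) ^ rk π :=
      fun π hπ' => hb π (by omega)
    by_cases hmM : m ≤ M
    · have := h₀ n hn0 r hr hr1 hbM m hmM π x hπ hx
      refine le_trans this ?_
      apply div_le_div_of_nonneg_right _ hN0.le
      have : 0 ≤ E₁ + B * E₀ := by positivity
      linarith
    · have hmeq : m = M + 1 := by omega
      subst hmeq
      obtain ⟨y, hy⟩ := exists_type_pred π hπ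
      have hstep := h₁ n hn1 r hr hb π x y hπ hx (by simpa using hy)
      simp only [Nat.add_sub_cancel] at hstep
      have hind := h₀ n hn0 r hr hr1 hbM M (le_refl _) y x hy hx
      -- the size of `n * r x`
      have hsx : sp x = 3 := by simp [sp, hx]
      have hrkx : rk x = 2 := by simp [rk, hx]
      have hxb := hb x (by rw [hsx]; omega)
      rw [hrkx] at hxb
      have hxb2 : |((n : ℝ)) * r x| ≤ B := by
        rw [abs_mul, abs_of_pos hN0]
        have : ((Real.sqrt n)⁻¹) ^ 2 = (n : ℝ)⁻¹ := by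
          rw [inv_pow, Real.sq_sqrt hN0.le]
        rw [this] at hxb
        calc (n : ℝ) * |r x| ≤ (n : ℝ) * (B * (n : ℝ)⁻¹) :=
              mul_le_mul_of_nonneg_left hxb hN0.le
          _ = B := by field_simp
      have e : (n : ℝ) ^ (M + 1) * r π - ((n : ℝ) * r x) ^ (M + 1) =
          ((n : ℝ) ^ (M + 1) * r π - ((n : ℝ) * r x) * ((n : ℝ) ^ M * r y)) +
            ((n : ℝ) * r x) * ((n : ℝ) ^ M * r y - ((n : ℝ) * r x) ^ M) := by
        rw [pow_succ ((n : ℝ) * r x)]; ring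
      rw [e]
      refine le_trans (abs_add_le _ _) ?_
      rw [abs_mul ((n : ℝ) * r x)]
      have h2 : |(n : ℝ) * r x| * |(n : ℝ) ^ M * r y - ((n : ℝ) * r x) ^ M| ≤ B * (E₀ / n) :=
        mul_le_mul hxb2 hind (abs_nonneg _) hB0.le
      have e2 : (E₁ + B * E₀ + E₀) / (n : ℝ) = E₁ / n + B * (E₀ / n) + E₀ / n := by ring
      rw [e2]
      have h3 : 0 ≤ E₀ / (n : ℝ) := by positivity
      linarith

/-- The ratio `n! / ((n-k)! n^k)` is close to one. -/
private lemma theta_bounds {n k : ℕ} (hk : k ≤ n) (hn : 0 < n) :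
    1 - (k : ℝ) ^ 2 / n ≤ ((n.factorial : ℕ) : ℝ) / ((((n - k).factorial : ℕ) : ℝ) * (n : ℝ) ^ k) ∧
      ((n.factorial : ℕ) : ℝ) / ((((n - k).factorial : ℕ) : ℝ) * (n : ℝ) ^ k) ≤ 1 := by
  have hN0 : (0 : ℝ) < n := by exact_mod_cast hn
  have hf0 : (0 : ℝ) < ((n - k).factorial : ℝ) := by exact_mod_cast Nat.factorial_pos _
  have hfac : ((n.factorial : ℕ) : ℝ) = ((n - k).factorial : ℝ) * (n.descFactorial k : ℝ) := by
    exact_mod_cast (Nat.factorial_mul_descFactorial hk).symm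
  have e : ((n.factorial : ℕ) : ℝ) / (((n - k).factorial : ℝ) * (n : ℝ) ^ k) =
      (n.descFactorial k : ℝ) / (n : ℝ) ^ k := by
    rw [hfac]; field_simp
  rw [e]
  constructor
  · have h1 : (((n + 1 - k : ℕ) : ℝ)) ^ k ≤ (n.descFactorial k : ℝ) := by
      exact_mod_cast Nat.pow_sub_le_descFactorial n k
    rw [le_div_iff₀ (by positivity)]
    refine le_trans ?_ h1
    have hcast : ((n + 1 - k : ℕ) : ℝ) = (n : ℝ) * (1 + (-((k : ℝ) - 1) / n)) := by
      rw [Nat.cast_sub (by omega)]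
      push_cast
      field_simp
      ring
    rw [hcast, mul_pow]
    have hkn : (k : ℝ) ≤ n := by exact_mod_cast hk
    have ha : (-2 : ℝ) ≤ -((k : ℝ) - 1) / n := by
      rw [le_div_iff₀ hN0]
      nlinarith
    have hb := one_add_mul_le_pow ha k
    have hk0 : (0 : ℝ) ≤ k := Nat.cast_nonneg k
    have h3 : 1 - (k : ℝ) ^ 2 / n ≤ 1 + (k : ℝ) * (-((k : ℝ) - 1) / n) := by
      have : (k : ℝ) * (-((k : ℝ) - 1) / n) = -((k : ℝ) ^ 2 / n) + (k : ℝ) / n := by
        field_simp; ring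
      rw [this]
      have : 0 ≤ (k : ℝ) / n := by positivity
      linarith
    have h4 := le_trans h3 hb
    calc (1 - (k : ℝ) ^ 2 / n) * (n : ℝ) ^ k ≤ (1 + (-((k : ℝ) - 1) / n)) ^ k * (n : ℝ) ^ k :=
          mul_le_mul_of_nonneg_right h4 (by positivity)
      _ = _ := by ring
  · rw [div_le_one (by positivity)]
    exact_mod_cast Nat.descFactorial_le_pow n k

/-- The size of the class of type `3^m` (the part of `card_of_cycleType_mul_eq` which is needed). -/
private lemma class_card (n m : ℕ) (hm : 3 * m ≤ n) :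
    (((univ.filter fun π : Perm (Fin n) => π.cycleType = Multiset.replicate m 3).card : ℕ) : ℝ) *
      (((n - 3 * m).factorial : ℝ) * 3 ^ m * (m.factorial : ℝ)) = (n.factorial : ℝ) := by
  have h := Perm.card_of_cycleType_mul_eq (Fin n) (Multiset.replicate m 3)
  have hs : (Multiset.replicate m 3).sum = 3 * m := by simp [mul_comm]
  have hcond : (Multiset.replicate m 3).sum ≤ Fintype.card (Fin n) ∧
      ∀ a ∈ Multiset.replicate m 3, 2 ≤ a := by
    refine ⟨by rw [hs, Fintype.card_fin]; exact hm, ?_⟩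
    intro a ha
    rw [Multiset.eq_of_mem_replicate ha]
    omega
  rw [if_pos hcond, Fintype.card_fin, hs, Multiset.prod_replicate] at h
  have hprod : (∏ j ∈ (Multiset.replicate m 3).toFinset,
      (Multiset.count j (Multiset.replicate m 3)).factorial) = m.factorial := by
    rw [Multiset.toFinset_replicate]
    by_cases hm0 : m = 0
    · simp [hm0]
    · simp [hm0]
  rw [hprod] at h
  exact_mod_cast h

/-- The real-number comparison closing the sum over the class. -/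
private lemma compare_real {α β u v θ A E₁ N K : ℝ} (hN0 : 0 < N) (hA : 0 ≤ A) (hE₁ : 0 ≤ E₁)
    (hK : 0 ≤ K) (hαa : |α - u| ≤ E₁ / N) (hβb : |β - v| ≤ E₁ / N) (hα0 : |α| ≤ A) (hβ0 : |β| ≤ A)
    (hu : |u| ≤ A) (hθ : |θ - 1| ≤ K / N) :
    |θ * (α ^ 2 * β) - u ^ 2 * v| ≤ (3 * A ^ 2 * E₁ + K * A ^ 3) / N := by
  have e : θ * (α ^ 2 * β) - u ^ 2 * v =
      (θ - 1) * (α ^ 2 * β) + ((α - u) * (α + u) * β + u ^ 2 * (β - v)) := by ring
  rw [e]
  have hαβ : |α ^ 2 * β| ≤ A ^ 3 := by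
    rw [abs_mul, abs_pow]
    calc |α| ^ 2 * |β| ≤ A ^ 2 * A :=
          mul_le_mul (pow_le_pow_left₀ (abs_nonneg _) hα0 2) hβ0 (abs_nonneg _) (by positivity)
      _ = A ^ 3 := by ring
  have t1 : |(θ - 1) * (α ^ 2 * β)| ≤ K / N * A ^ 3 := by
    rw [abs_mul]
    exact mul_le_mul hθ hαβ (abs_nonneg _) (by positivity)
  have hsumab : |α + u| ≤ 2 * A := by
    refine le_trans (abs_add_le _ _) ?_
    linarith
  have t2 : |(α - u) * (α + u) * β| ≤ E₁ / N * (2 * A) * A := by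
    rw [abs_mul, abs_mul]
    exact mul_le_mul (mul_le_mul hαa hsumab (abs_nonneg _) (by positivity)) hβ0 (abs_nonneg _)
      (by positivity)
  have t3 : |u ^ 2 * (β - v)| ≤ A ^ 2 * (E₁ / N) := by
    rw [abs_mul, abs_pow]
    exact mul_le_mul (pow_le_pow_left₀ (abs_nonneg _) hu 2) hβb (abs_nonneg _) (by positivity)
  have tot : |(θ - 1) * (α ^ 2 * β) + ((α - u) * (α + u) * β + u ^ 2 * (β - v))| ≤
      K / N * A ^ 3 + (E₁ / N * (2 * A) * A + A ^ 2 * (E₁ / N)) :=
    le_trans (abs_add_le _ _) (add_le_add t1 (le_trans (abs_add_le _ _) (add_le_add t2 t3)))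
  refine le_trans tot (le_of_eq ?_)
  ring

/-- The sum over the class of type `3^m`. -/
theorem main_sum (B : ℝ) (hB : 1 ≤ B) (M : ℕ) : ∃ E : ℝ, 0 ≤ E ∧ ∃ n₁ : ℕ, ∀ n ≥ n₁,
    ∀ rho nu : Perm (Fin n) → ℝ, ClassMult n rho → ClassMult n nu → rho 1 = 1 → nu 1 = 1 →
      (∀ π, sp π ≤ 3 * M → |rho π| ≤ B * ((Real.sqrt n)⁻¹) ^ rk π) →
      (∀ π, sp π ≤ 3 * M → |nu π| ≤ B * ((Real.sqrt n)⁻¹) ^ rk π) →
      ∀ m ≤ M, ∀ x : Perm (Fin n), x.cycleType = {3} →
        |∑ π ∈ (univ.filter fun π : Perm (Fin n) => π.cycleType = Multiset.replicate m 3),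
            rho π ^ 2 * nu π -
          (((n : ℝ) * rho x) ^ 2 * ((n : ℝ) * nu x) / 3) ^ m / (m.factorial : ℝ)| ≤ E / n := by
  have hB0 : (0 : ℝ) < B := by linarith
  obtain ⟨E₁, hE₁, n₁, h₁⟩ := three_power B hB M
  set A₀ : ℝ := B ^ M + E₁ with hA₀
  have hBM : 1 ≤ B ^ M := one_le_pow₀ hB
  have hA₀1 : 1 ≤ A₀ := by rw [hA₀]; linarith
  refine ⟨3 * A₀ ^ 2 * E₁ + 9 * (M : ℝ) ^ 2 * A₀ ^ 3, by positivity, max (max n₁ (3 * M)) 1, ?_⟩
  intro n hn rho nu hrho hnu hrho1 hnu1 hbr hbn m hm x hx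
  have hn1 : n ≥ n₁ := le_trans (le_trans (le_max_left _ _) (le_max_left _ _)) hn
  have hn3 : n ≥ 3 * M := le_trans (le_trans (le_max_right _ _) (le_max_left _ _)) hn
  have hn2 : n ≥ 1 := le_trans (le_max_right _ _) hn
  have hN0 : (0 : ℝ) < n := by exact_mod_cast (by omega : 0 < n)
  have hN1 : (1 : ℝ) ≤ n := by exact_mod_cast hn2
  have hmn : 3 * m ≤ n := by omega
  have hcard := class_card n m hmn
  have hfn0 : (0 : ℝ) < (n.factorial : ℝ) := by exact_mod_cast Nat.factorial_pos n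
  -- a representative of the class
  have hne : (univ.filter fun π : Perm (Fin n) => π.cycleType = Multiset.replicate m 3).Nonempty := by
    rw [nonempty_iff_ne_empty]
    intro h
    rw [h] at hcard
    simp at hcard
    exact (Nat.factorial_pos n).ne' (by exact_mod_cast hcard.symm)
  obtain ⟨π₀, hπ₀⟩ := hne
  have hπ₀' : π₀.cycleType = Multiset.replicate m 3 := (mem_filter.1 hπ₀).2
  -- the sum over the class
  have hsum : ∑ π ∈ (univ.filter fun π : Perm (Fin n) => π.cycleType = Multiset.replicate m 3),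
      rho π ^ 2 * nu π = (((univ.filter fun π : Perm (Fin n) =>
        π.cycleType = Multiset.replicate m 3).card : ℕ) : ℝ) * (rho π₀ ^ 2 * nu π₀) := by
    rw [← nsmul_eq_mul, ← sum_const]
    apply sum_congr rfl
    intro π hπ
    have hh : π.cycleType = π₀.cycleType := by rw [(mem_filter.1 hπ).2, hπ₀']
    rw [hrho.1 _ _ hh, hnu.1 _ _ hh]
  rw [hsum]
  set C : ℝ := (((univ.filter fun π : Perm (Fin n) =>
        π.cycleType = Multiset.replicate m 3).card : ℕ) : ℝ) with hC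
  by_cases hm0 : m = 0
  · subst hm0
    have : π₀ = 1 := by
      rw [← Perm.cycleType_eq_zero]
      simpa using hπ₀'
    subst this
    have hC1 : C = 1 := by
      have h := hcard
      simp only [mul_zero, Nat.sub_zero, pow_zero, Nat.factorial_zero, Nat.cast_one, mul_one] at h
      field_simp at h
      linarith
    rw [hC1, hrho1, hnu1]
    simp
    positivity
  have hmpos : 1 ≤ m := by omega
  have hM1 : 1 ≤ M := by omega
  -- the three-cycle values
  have hsx : sp x = 3 := by simp [sp, hx]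
  have hrkx : rk x = 2 := by simp [rk, hx]
  have hsq : ((Real.sqrt n)⁻¹) ^ 2 = (n : ℝ)⁻¹ := by
    rw [inv_pow, Real.sq_sqrt hN0.le]
  have hsize : ∀ r : Perm (Fin n) → ℝ,
      (∀ π, sp π ≤ 3 * M → |r π| ≤ B * ((Real.sqrt n)⁻¹) ^ rk π) → |(n : ℝ) * r x| ≤ B := by
    intro r hb
    have hxb := hb x (by rw [hsx]; omega)
    rw [hrkx, hsq] at hxb
    rw [abs_mul, abs_of_pos hN0]
    calc (n : ℝ) * |r x| ≤ (n : ℝ) * (B * (n : ℝ)⁻¹) :=
          mul_le_mul_of_nonneg_left hxb hN0.le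
      _ = B := by field_simp
  set a : ℝ := (n : ℝ) * rho x with ha
  set b : ℝ := (n : ℝ) * nu x with hbdef
  have ha1 : |a| ≤ B := hsize rho hbr
  have hb1 : |b| ≤ B := hsize nu hbn
  have hampow : |a ^ m| ≤ A₀ := by
    rw [abs_pow]
    calc |a| ^ m ≤ B ^ m := pow_le_pow_left₀ (abs_nonneg _) ha1 m
      _ ≤ B ^ M := pow_le_pow_right₀ hB hm
      _ ≤ A₀ := by rw [hA₀]; linarith
  have hbmpow : |b ^ m| ≤ A₀ := by
    rw [abs_pow]
    calc |b| ^ m ≤ B ^ m := pow_le_pow_left₀ (abs_nonneg _) hb1 m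
      _ ≤ B ^ M := pow_le_pow_right₀ hB hm
      _ ≤ A₀ := by rw [hA₀]; linarith
  set α : ℝ := (n : ℝ) ^ m * rho π₀ with hα
  set β : ℝ := (n : ℝ) ^ m * nu π₀ with hβ
  have hαa : |α - a ^ m| ≤ E₁ / n := h₁ n hn1 rho hrho hrho1 hbr m hm π₀ x hπ₀' hx
  have hβb : |β - b ^ m| ≤ E₁ / n := h₁ n hn1 nu hnu hnu1 hbn m hm π₀ x hπ₀' hx
  have hE1n : E₁ / (n : ℝ) ≤ E₁ := div_le_self hE₁ hN1
  have hα0 : |α| ≤ A₀ := by
    have h1 : |α| ≤ |α - a ^ m| + |a ^ m| := by
      have := abs_add_le (α - a ^ m) (a ^ m)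
      rwa [sub_add_cancel] at this
    have h2 : |a| ^ m ≤ B ^ M :=
      le_trans (pow_le_pow_left₀ (abs_nonneg _) ha1 m) (pow_le_pow_right₀ hB hm)
    rw [abs_pow] at h1
    rw [hA₀]
    linarith
  have hβ0 : |β| ≤ A₀ := by
    have h1 : |β| ≤ |β - b ^ m| + |b ^ m| := by
      have := abs_add_le (β - b ^ m) (b ^ m)
      rwa [sub_add_cancel] at this
    have h2 : |b| ^ m ≤ B ^ M :=
      le_trans (pow_le_pow_left₀ (abs_nonneg _) hb1 m) (pow_le_pow_right₀ hB hm)
    rw [abs_pow] at h1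
    rw [hA₀]
    linarith
  -- the scaling factor
  set θ : ℝ := ((n.factorial : ℕ) : ℝ) / (((n - 3 * m).factorial : ℝ) * (n : ℝ) ^ (3 * m)) with hθ
  obtain ⟨hθ1, hθ2⟩ : 1 - (((3 * m : ℕ) : ℝ)) ^ 2 / n ≤ θ ∧ θ ≤ 1 := theta_bounds hmn (by omega)
  set D : ℝ := 3 ^ m * (m.factorial : ℝ) with hD
  have hD1 : 1 ≤ D := by
    have h1 : (1 : ℝ) ≤ 3 ^ m := one_le_pow₀ (by norm_num)
    have h2 : (1 : ℝ) ≤ (m.factorial : ℝ) := by exact_mod_cast Nat.factorial_pos m
    rw [hD]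
    nlinarith
  have hf0 : (0 : ℝ) < ((n - 3 * m).factorial : ℝ) := by exact_mod_cast Nat.factorial_pos _
  have hCval : C = (n.factorial : ℝ) / (((n - 3 * m).factorial : ℝ) * 3 ^ m * (m.factorial : ℝ)) := by
    rw [eq_div_iff (by positivity)]
    exact hcard
  have hlhs : C * (rho π₀ ^ 2 * nu π₀) = θ * (α ^ 2 * β) / D := by
    rw [hCval, hθ, hα, hβ, hD]
    have hne : (n : ℝ) ^ (3 * m) = ((n : ℝ) ^ m) ^ 3 := by rw [mul_comm, pow_mul]
    rw [hne]
    field_simp
  have hrhs : (a ^ 2 * b / 3) ^ m / (m.factorial : ℝ) = (a ^ m) ^ 2 * b ^ m / D := by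
    rw [hD, div_pow, mul_pow, ← pow_mul, ← pow_mul, mul_comm 2 m]
    field_simp
  rw [hlhs, hrhs, ← sub_div, abs_div, abs_of_pos (by linarith : (0 : ℝ) < D)]
  refine le_trans (div_le_self (abs_nonneg _) hD1) ?_
  -- the main comparison
  have hk2 : (((3 * m : ℕ) : ℝ)) ^ 2 ≤ 9 * (M : ℝ) ^ 2 := by
    have h1 : (((3 * m : ℕ) : ℝ)) ≤ 3 * (M : ℝ) := by
      push_cast
      have : (m : ℝ) ≤ M := by exact_mod_cast hm
      linarith
    have h0 : (0 : ℝ) ≤ ((3 * m : ℕ) : ℝ) := Nat.cast_nonneg _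
    calc (((3 * m : ℕ) : ℝ)) ^ 2 ≤ (3 * (M : ℝ)) ^ 2 := pow_le_pow_left₀ h0 h1 2
      _ = 9 * (M : ℝ) ^ 2 := by ring
  have hθabs : |θ - 1| ≤ 9 * (M : ℝ) ^ 2 / n := by
    rw [abs_le]
    have h1 : (((3 * m : ℕ) : ℝ)) ^ 2 / n ≤ 9 * (M : ℝ) ^ 2 / n :=
      div_le_div_of_nonneg_right hk2 hN0.le
    have h2 : 0 ≤ 9 * (M : ℝ) ^ 2 / n := by positivity
    constructor <;> linarith
  exact compare_real hN0 (by linarith) hE₁ (by positivity) hαa hβb hα0 hβ0 hampow hθabs

end Vale.Agent.Lib.P197
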