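import Vale.Agent.Lib.P197.Tail
import Vale.Agent.Lib.P197.Five
import Vale.Agent.Lib.P197.Multip
import Vale.Agent.Lib.P197.Huge

/-!
# P197 module Assemble: positivity of the sum (blueprint sec 15)
-/

open Equiv Finset

namespace Vale.Agent.Lib.P197

variable {n : ℕ}

/-- A lower bound for the truncated exponential series. -/
theorem exp_trunc (X : ℝ) (hX : 0 ≤ X) : ∃ M₀ : ℕ, ∀ M ≥ M₀, ∀ x : ℝ, |x| ≤ X →
    Real.exp (-X) / 2 ≤ ∑ m ∈ range (M + 1), x ^ m / (m.factorial : ℝ) := by
  have hsum : ∀ y : ℝ, HasSum (fun m : ℕ => y ^ m / (m.factorial : ℝ)) (Real.exp y) := by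
    intro y
    have := NormedSpace.expSeries_div_hasSum_exp (𝔸 := ℝ) y
    rwa [← Real.exp_eq_exp_ℝ] at this
  have htail : ∀ (y : ℝ) (M : ℕ), HasSum (fun m : ℕ => y ^ (m + M) / ((m + M).factorial : ℝ))
      (Real.exp y - ∑ m ∈ range M, y ^ m / (m.factorial : ℝ)) := by
    intro y M
    exact (hasSum_nat_add_iff' M).2 (hsum y)
  have hlim := (hsum X).tendsto_sum_nat
  have hpos : 0 < Real.exp (-X) / 2 := by positivity
  have hev := (Metric.tendsto_atTop.1 hlim) _ hpos
  obtain ⟨M₀, hM₀⟩ := hev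
  refine ⟨M₀, ?_⟩
  intro M hM x hx
  have h1 := hM₀ (M + 1) (by omega)
  rw [Real.dist_eq] at h1
  have h2 := HasSum.norm_le_of_bounded (htail x (M + 1)) (htail X (M + 1)) (by
    intro m
    rw [Real.norm_eq_abs, abs_div, abs_pow, abs_of_pos (by positivity : (0 : ℝ) < ((m + (M + 1)).factorial : ℝ))]
    exact div_le_div_of_nonneg_right (pow_le_pow_left₀ (abs_nonneg _) hx _) (by positivity))
  rw [Real.norm_eq_abs] at h2
  have h3 : Real.exp (-X) ≤ Real.exp x := Real.exp_le_exp.2 (by
    have := (abs_le.1 hx).1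
    linarith)
  have h4 := (abs_le.1 h2).2
  have h5 := (abs_lt.1 h1).1
  linarith

/-- The geometric tail. -/
theorem geom_Ioc_le (a b : ℕ) : ∑ k ∈ Ioc a b, (1 / 4 : ℝ) ^ k ≤ (1 / 4 : ℝ) ^ a := by
  have key : ∀ b, a ≤ b → ∑ k ∈ Ioc a b, (1 / 4 : ℝ) ^ k ≤
      (1 / 3 : ℝ) * ((1 / 4 : ℝ) ^ a - (1 / 4 : ℝ) ^ b) := by
    intro b hb
    induction b, hb using Nat.le_induction with
    | base => simp
    | succ b hb ih =>
      rw [← Finset.insert_Ioc_right_eq_Ioc_add_one hb, Finset.sum_insert (by simp)]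
      rw [pow_succ (1 / 4 : ℝ) b]
      linarith
  by_cases hab : a ≤ b
  · have h1 := key b hab
    have h2 : 0 ≤ (1 / 4 : ℝ) ^ b := by positivity
    have h3 : 0 ≤ (1 / 4 : ℝ) ^ a := by positivity
    nlinarith
  · rw [Finset.Ioc_eq_empty (by omega)]
    simp

/-- The bound at the three-cycle, from the two character hypotheses. -/
theorem x_bound (A : ℝ) (hA : 1 ≤ A) (hn : 48 ≤ n) (rho nu : Perm (Fin n) → ℝ) (hrho : RhoB n rho)
    (hnu : NuB n (A * Real.sqrt n) nu) (x : Perm (Fin n)) (hx : x.cycleType = {3}) :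
    |((n : ℝ) * rho x) ^ 2 * ((n : ℝ) * nu x) / 3| ≤ 45 ^ 6 * 27 * (16 * A ^ 2) / 3 := by
  have hn0 : (0 : ℝ) < n := by
    have : (48 : ℝ) ≤ n := by exact_mod_cast hn
    linarith
  have hs : Real.sqrt n * Real.sqrt n = n := Real.mul_self_sqrt hn0.le
  have hspos : 0 < Real.sqrt n := Real.sqrt_pos.2 hn0
  have hsp : sp x = 3 := by simp [sp, hx]
  have hrk : rk x = 2 := by simp [rk, hx]
  have h1 : |(n : ℝ) * rho x| ≤ 45 ^ 3 := by
    have := hrho.2 x
    rw [hsp, hrk] at this
    rw [abs_mul, abs_of_pos hn0]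
    have e : (n : ℝ) * ((45 : ℝ) ^ 3 * ((Real.sqrt n)⁻¹) ^ 2) = 45 ^ 3 := by
      field_simp
      nlinarith
    calc (n : ℝ) * |rho x| ≤ n * ((45 : ℝ) ^ 3 * ((Real.sqrt n)⁻¹) ^ 2) :=
          mul_le_mul_of_nonneg_left this hn0.le
      _ = 45 ^ 3 := e
  have h2 : |(n : ℝ) * nu x| ≤ 27 * (16 * A ^ 2) := by
    have := hnu x (4 * A * Real.sqrt n) 2 3 (by linarith) (by
        have : (4 * A * Real.sqrt n) ^ 2 = 16 * A ^ 2 * n := by
          calc (4 * A * Real.sqrt n) ^ 2 = 16 * A ^ 2 * (Real.sqrt n * Real.sqrt n) := by ring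
            _ = _ := by rw [hs]
        rw [this]
        have hA2 : 1 ≤ A ^ 2 := by nlinarith
        have : (n : ℝ) ≤ A ^ 2 * n := by nlinarith
        linarith) (le_refl _) (by
        have : (2 * (4 * A * Real.sqrt n)) ^ 2 = 64 * A ^ 2 * n := by
          calc (2 * (4 * A * Real.sqrt n)) ^ 2 = 64 * A ^ 2 * (Real.sqrt n * Real.sqrt n) := by ring
            _ = _ := by rw [hs]
        rw [this]
        push_cast
        have hA2 : 1 ≤ A ^ 2 := by nlinarith
        have : (n : ℝ) ≤ A ^ 2 * n := by nlinarith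
        linarith) (by
        have : (48 : ℝ) ≤ n := by exact_mod_cast hn
        push_cast
        linarith) (by omega)
    rw [hsp, hx] at this
    simp only [Multiset.map_singleton, Multiset.prod_singleton] at this
    rw [abs_mul, abs_of_pos hn0]
    have e : (n : ℝ) * ((3 : ℝ) ^ 3 * ((4 * A * Real.sqrt n / n) ^ (3 - 1) * 2 ^ (3 - 3))) =
        27 * (16 * A ^ 2) := by
      norm_num
      field_simp
      nlinarith
    calc (n : ℝ) * |nu x| ≤ _ := mul_le_mul_of_nonneg_left this hn0.le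
      _ = _ := e
  rw [abs_div, abs_mul, abs_pow, abs_of_pos (by norm_num : (0 : ℝ) < 3)]
  have h3 : |(n : ℝ) * rho x| ^ 2 ≤ (45 ^ 3) ^ 2 := pow_le_pow_left₀ (abs_nonneg _) h1 2
  have h4 : |(n : ℝ) * rho x| ^ 2 * |(n : ℝ) * nu x| ≤ (45 ^ 3) ^ 2 * (27 * (16 * A ^ 2)) :=
    mul_le_mul h3 h2 (abs_nonneg _) (by positivity)
  have e : (45 : ℝ) ^ 6 * 27 * (16 * A ^ 2) = (45 ^ 3) ^ 2 * (27 * (16 * A ^ 2)) := by ring
  rw [e]
  exact div_le_div_of_nonneg_right h4 (by norm_num)

open scoped Classical in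
/-- The analytic heart: positivity of `∑ rho² nu` for all large `n`. -/
theorem assemble (A : ℝ) (hA : 1 ≤ A) : ∃ n₀ : ℕ, ∀ n ≥ n₀, ∀ rho nu : Perm (Fin n) → ℝ,
    RhoB n rho → NuB n (A * Real.sqrt n) nu → ClassMult n rho → ClassMult n nu →
    rho 1 = 1 → nu 1 = 1 → HugeHyp n A rho nu →
    0 < ∑ π, rho π ^ 2 * nu π := by
  set XA : ℝ := 45 ^ 6 * 27 * (16 * A ^ 2) / 3 with hXA
  have hXA0 : 0 ≤ XA := by positivity
  set δ : ℝ := Real.exp (-XA) with hδ
  have hδ0 : 0 < δ := Real.exp_pos _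
  obtain ⟨X', c, hc, n₁, htail⟩ := tail A hA
  obtain ⟨M₀, hM₀⟩ := exp_trunc XA hXA0
  -- choose `M`
  obtain ⟨M₁, hM₁⟩ : ∃ M₁ : ℕ, Real.exp X' * (1 / 4 : ℝ) ^ M₁ < δ / 8 := by
    have h := tendsto_pow_atTop_nhds_zero_of_lt_one (by norm_num : (0 : ℝ) ≤ 1 / 4)
      (by norm_num : (1 / 4 : ℝ) < 1)
    have h2 := (h.const_mul (Real.exp X'))
    rw [mul_zero] at h2
    have h3 := (h2.eventually (gt_mem_nhds (by positivity : (0 : ℝ) < δ / 8))).exists
    exact h3
  set M := max M₀ M₁ with hM
  have hMtail : Real.exp X' * (1 / 4 : ℝ) ^ (3 * M) ≤ δ / 8 := by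
    have h1 : (1 / 4 : ℝ) ^ (3 * M) ≤ (1 / 4 : ℝ) ^ M₁ :=
      pow_le_pow_of_le_one (by norm_num) (by norm_num) (by
        have : M₁ ≤ M := le_max_right _ _
        omega)
    have h2 := mul_le_mul_of_nonneg_left h1 (Real.exp_pos X').le
    linarith
  obtain ⟨E₅, hE₅, n₂, hfive⟩ := five A hA (3 * M)
  obtain ⟨B₀, hB₀, n₃, hsmall⟩ := nu_small A hA (3 * M)
  set B : ℝ := max B₀ (45 ^ (3 * M)) with hB
  have hB1 : 1 ≤ B := le_trans hB₀ (le_max_left _ _)
  obtain ⟨E, hE, n₄, hmain⟩ := main_sum B hB1 M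
  obtain ⟨n₅, hhuge⟩ := huge A c hA hc
  -- the size of `n`
  obtain ⟨n₆, hn₆⟩ : ∃ n₆ : ℕ, ∀ n ≥ n₆, (((M : ℝ) + 1) * E + E₅) / (n : ℝ) < δ / 8 := by
    have h := tendsto_const_div_atTop_nhds_zero_nat (((M : ℝ) + 1) * E + E₅)
    have h3 := (h.eventually (gt_mem_nhds (by positivity : (0 : ℝ) < δ / 8)))
    obtain ⟨N, hN⟩ := Filter.eventually_atTop.1 h3
    exact ⟨N, hN⟩
  obtain ⟨n₇, hn₇⟩ : ∃ n₇ : ℕ, ∀ n ≥ n₇, (1 / 2 : ℝ) ^ n < δ / 8 := by
    have h := tendsto_pow_atTop_nhds_zero_of_lt_one (by norm_num : (0 : ℝ) ≤ 1 / 2)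
      (by norm_num : (1 / 2 : ℝ) < 1)
    have h3 := (h.eventually (gt_mem_nhds (by positivity : (0 : ℝ) < δ / 8)))
    obtain ⟨N, hN⟩ := Filter.eventually_atTop.1 h3
    exact ⟨N, hN⟩
  refine ⟨max (max (max n₁ n₂) (max n₃ n₄)) (max (max n₅ n₆) (max n₇ 48)), ?_⟩
  intro n hn rho nu hrho hnu hcr hcn hr1 hn1 hhy
  have hn1' : n₁ ≤ n := by
    simp only [ge_iff_le, max_le_iff] at hn
    omega
  have hn2' : n₂ ≤ n := by
    simp only [ge_iff_le, max_le_iff] at hn
    omega
  have hn3' : n₃ ≤ n := by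
    simp only [ge_iff_le, max_le_iff] at hn
    omega
  have hn4' : n₄ ≤ n := by
    simp only [ge_iff_le, max_le_iff] at hn
    omega
  have hn5' : n₅ ≤ n := by
    simp only [ge_iff_le, max_le_iff] at hn
    omega
  have hn6' : n₆ ≤ n := by
    simp only [ge_iff_le, max_le_iff] at hn
    omega
  have hn7' : n₇ ≤ n := by
    simp only [ge_iff_le, max_le_iff] at hn
    omega
  have hn48 : 48 ≤ n := by
    simp only [ge_iff_le, max_le_iff] at hn
    omega
  have hnpos : (0 : ℝ) < n := by
    have : (48 : ℝ) ≤ n := by exact_mod_cast hn48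
    linarith
  -- a three-cycle
  obtain ⟨x₃, hx₃⟩ : ∃ x : Perm (Fin n), x.cycleType = {3} := by
    rw [Perm.exists_with_cycleType_iff]
    simp only [Multiset.sum_singleton, Fintype.card_fin, Multiset.mem_singleton, forall_eq]
    omega
  set x : ℝ := ((n : ℝ) * rho x₃) ^ 2 * ((n : ℝ) * nu x₃) / 3 with hx
  have hxb : |x| ≤ XA := x_bound A hA hn48 rho nu hrho hnu x₃ hx₃
  have hexp : δ / 2 ≤ ∑ m ∈ range (M + 1), x ^ m / (m.factorial : ℝ) :=
    hM₀ M (le_max_left _ _) x hxb
  -- the bounds for `main_sum`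
  have hbr : ∀ π : Perm (Fin n), sp π ≤ 3 * M → |rho π| ≤ B * ((Real.sqrt n)⁻¹) ^ rk π := by
    intro π hπ
    refine le_trans (hrho.2 π) ?_
    refine mul_le_mul_of_nonneg_right ?_ (by positivity)
    refine le_trans ?_ (le_max_right _ _)
    exact pow_le_pow_right₀ (by norm_num) hπ
  have hbn : ∀ π : Perm (Fin n), sp π ≤ 3 * M → |nu π| ≤ B * ((Real.sqrt n)⁻¹) ^ rk π := by
    intro π hπ
    refine le_trans (hsmall n hn3' nu hnu π hπ) ?_
    refine mul_le_mul_of_nonneg_right (le_max_left _ _) (by positivity)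
  have hms := hmain n hn4' rho nu hcr hcn hr1 hn1 hbr hbn
  -- the decomposition
  set f : Perm (Fin n) → ℝ := fun π => rho π ^ 2 * nu π with hf
  have hfabs : ∀ π, |f π| = rho π ^ 2 * |nu π| := by
    intro π
    simp only [hf, abs_mul, abs_pow, sq_abs]
  set F : Finset (Perm (Fin n)) := univ.filter fun π : Perm (Fin n) =>
    sp π ≤ 3 * M ∧ ∃ j ∈ π.cycleType, 5 ≤ j with hF
  set Tl : Finset (Perm (Fin n)) := univ.filter fun π : Perm (Fin n) =>
    3 * M < sp π ∧ (sp π : ℝ) ≤ c * n with hTl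
  set W : Finset (Perm (Fin n)) := univ.filter fun π : Perm (Fin n) =>
    c * (n : ℝ) < (sp π : ℝ) with hW
  have hpoint : ∀ π : Perm (Fin n),
      (∑ m ∈ range (M + 1), if π.cycleType = Multiset.replicate m 3 then f π else 0) -
        ((if π ∈ F then |f π| else 0) + (if π ∈ Tl then |f π| else 0) +
          (if π ∈ W then |f π| else 0)) ≤ f π := by
    intro π
    have hh : 0 ≤ (if π ∈ F then |f π| else 0) + (if π ∈ Tl then |f π| else 0) +
          (if π ∈ W then |f π| else 0) := by
      have h1 : 0 ≤ (if π ∈ F then |f π| else 0) := by split_ifs <;> simp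
      have h2 : 0 ≤ (if π ∈ Tl then |f π| else 0) := by split_ifs <;> simp
      have h3 : 0 ≤ (if π ∈ W then |f π| else 0) := by split_ifs <;> simp
      linarith
    by_cases hA' : ∃ m ∈ range (M + 1), π.cycleType = Multiset.replicate m 3
    · obtain ⟨m, hm, hmeq⟩ := hA'
      have : (∑ m ∈ range (M + 1), if π.cycleType = Multiset.replicate m 3 then f π else 0) = f π := by
        rw [Finset.sum_eq_single m]
        · simp [hmeq]
        · intro b _ hb
          rw [if_neg]
          intro hc'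
          rw [hmeq] at hc'
          have := congrArg Multiset.card hc'
          simp only [Multiset.card_replicate] at this
          exact hb this.symm
        · intro h
          exact absurd hm h
      rw [this]
      linarith
    · have h0 : (∑ m ∈ range (M + 1), if π.cycleType = Multiset.replicate m 3 then f π else 0) = 0 := by
        apply Finset.sum_eq_zero
        intro m hm
        rw [if_neg]
        intro h
        exact hA' ⟨m, hm, h⟩
      rw [h0, zero_sub]
      by_cases heven : ∃ j ∈ π.cycleType, Even j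
      · have : f π = 0 := by
          simp only [hf, hrho.1 π heven]
          ring
        linarith
      · -- it suffices that one of the three indicators is on
        have hneg : -|f π| ≤ f π := neg_abs_le _
        have hcase : π ∈ F ∨ π ∈ Tl ∨ π ∈ W := by
          by_cases h3M : sp π ≤ 3 * M
          · left
            simp only [hF, mem_filter, mem_univ, true_and]
            refine ⟨h3M, ?_⟩
            by_contra hno
            push Not at hno heven
            -- all cycles have length 3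
            have hall : ∀ j ∈ π.cycleType, j = 3 := by
              intro j hj
              have h2 := Perm.two_le_of_mem_cycleType hj
              have h5 := hno j hj
              have he := heven j hj
              interval_cases j
              · exact absurd (by decide) he
              · rfl
              · exact absurd (by decide) he
            have hrep : π.cycleType = Multiset.replicate (Multiset.card π.cycleType) 3 :=
              Multiset.eq_replicate.2 ⟨rfl, hall⟩
            have hsum : sp π = 3 * Multiset.card π.cycleType := by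
              unfold sp
              rw [hrep]
              simp [mul_comm]
            refine hA' ⟨Multiset.card π.cycleType, ?_, hrep⟩
            rw [mem_range]
            omega
          · right
            by_cases hcn' : (sp π : ℝ) ≤ c * n
            · left
              simp only [hTl, mem_filter, mem_univ, true_and]
              exact ⟨by omega, hcn'⟩
            · right
              simp only [hW, mem_filter, mem_univ, true_and]
              exact not_le.1 hcn'
        have h1 : 0 ≤ (if π ∈ F then |f π| else 0) := by split_ifs <;> simp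
        have h2 : 0 ≤ (if π ∈ Tl then |f π| else 0) := by split_ifs <;> simp
        have h3 : 0 ≤ (if π ∈ W then |f π| else 0) := by split_ifs <;> simp
        rcases hcase with hc' | hc' | hc'
        · rw [if_pos hc'] at *
          linarith
        · rw [if_pos hc'] at *
          linarith
        · rw [if_pos hc'] at *
          linarith
  have hsum := Finset.sum_le_sum (fun π (_ : π ∈ (univ : Finset (Perm (Fin n)))) => hpoint π)
  rw [Finset.sum_sub_distrib, Finset.sum_add_distrib, Finset.sum_add_distrib,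
    Finset.sum_ite_mem, Finset.sum_ite_mem, Finset.sum_ite_mem, Finset.sum_comm] at hsum
  simp only [Finset.univ_inter] at hsum
  -- the three error sums
  have hSF : ∑ π ∈ F, |f π| ≤ E₅ / n := by
    have := hfive n hn2' rho nu hrho hnu
    simp only [hfabs]
    exact this
  have hSW : ∑ π ∈ W, |f π| ≤ (1 / 2 : ℝ) ^ n := by
    have := hhuge n hn5' rho nu hrho.1 hhy
    simp only [hfabs]
    exact this
  have hST : ∑ π ∈ Tl, |f π| ≤ Real.exp X' * (1 / 4 : ℝ) ^ (3 * M) := by
    have hmaps : ∀ π ∈ Tl, sp π ∈ Ioc (3 * M) ⌊c * (n : ℝ)⌋₊ := by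
      intro π hπ
      simp only [hTl, mem_filter, mem_univ, true_and] at hπ
      rw [mem_Ioc]
      refine ⟨hπ.1, ?_⟩
      exact Nat.le_floor hπ.2
    rw [← Finset.sum_fiberwise_of_maps_to hmaps]
    calc ∑ k ∈ Ioc (3 * M) ⌊c * (n : ℝ)⌋₊, ∑ π ∈ Tl with sp π = k, |f π|
        ≤ ∑ k ∈ Ioc (3 * M) ⌊c * (n : ℝ)⌋₊, Real.exp X' * (1 / 4 : ℝ) ^ k := by
          apply Finset.sum_le_sum
          intro k hk
          rw [mem_Ioc] at hk
          have hk1 : 1 ≤ k := by omega
          have hk2 : (k : ℝ) ≤ c * n := by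
            have : (k : ℝ) ≤ (⌊c * (n : ℝ)⌋₊ : ℝ) := by exact_mod_cast hk.2
            exact le_trans this (Nat.floor_le (by positivity))
          refine le_trans ?_ (htail n hn1' rho nu hrho hnu k hk1 hk2)
          simp only [hfabs]
          apply Finset.sum_le_sum_of_subset_of_nonneg
          · intro π hπ
            simp only [mem_filter, mem_univ, true_and] at hπ ⊢
            exact hπ.2
          · intro π _ _
            positivity
      _ = Real.exp X' * ∑ k ∈ Ioc (3 * M) ⌊c * (n : ℝ)⌋₊, (1 / 4 : ℝ) ^ k := by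
          rw [Finset.mul_sum]
      _ ≤ Real.exp X' * (1 / 4 : ℝ) ^ (3 * M) :=
          mul_le_mul_of_nonneg_left (geom_Ioc_le _ _) (Real.exp_pos _).le
  -- the main sums
  have hmainS : ∑ m ∈ range (M + 1), x ^ m / (m.factorial : ℝ) - ((M : ℝ) + 1) * (E / n) ≤
      ∑ m ∈ range (M + 1), ∑ π, if π.cycleType = Multiset.replicate m 3 then f π else 0 := by
    have h1 : ∀ m ∈ range (M + 1), x ^ m / (m.factorial : ℝ) - E / n ≤
        ∑ π, if π.cycleType = Multiset.replicate m 3 then f π else 0 := by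
      intro m hm
      rw [mem_range] at hm
      have := hms m (by omega) x₃ hx₃
      rw [← Finset.sum_filter]
      have h2 := (abs_le.1 this).1
      simp only [hf]
      have hxx : (((n : ℝ) * rho x₃) ^ 2 * ((n : ℝ) * nu x₃) / 3) = x := rfl
      rw [hxx] at h2
      linarith
    have h2 := Finset.sum_le_sum h1
    rw [Finset.sum_sub_distrib] at h2
    simpa using h2
  -- conclude
  have hn6a := hn₆ n hn6'
  have hn7a := hn₇ n hn7'
  have hdiv : ((M : ℝ) + 1) * (E / n) + E₅ / n = (((M : ℝ) + 1) * E + E₅) / (n : ℝ) := by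
    field_simp
  have : δ / 8 ≤ ∑ π, f π := by
    have h3 := hsum
    linarith
  have hpos : 0 < δ / 8 := by positivity
  show 0 < ∑ π, f π
  linarith

end Vale.Agent.Lib.P197
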