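import Mathlib

/-!
# P197 module CauchyDet: the polynomial form of the Cauchy determinant (blueprint sec 4)
-/

open Finset Matrix Polynomial

namespace Vale.Agent.Lib.P197

private lemma reflect_prod {R : Type*} [CommRing R] {ι : Type*} (S : Finset ι) (y : ι → R) :
    reflect S.card (∏ k ∈ S, (1 - C (y k) * X)) = ∏ k ∈ S, (X - C (y k)) := by
  classical
  induction S using Finset.induction_on with
  | empty => simp [reflect_one]
  | insert a S ha ih =>
    rw [Finset.prod_insert ha, Finset.prod_insert ha, Finset.card_insert_of_notMem ha, add_comm S.card 1]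
    have hdeg : (∏ k ∈ S, ((1 : R[X]) - C (y k) * X)).natDegree ≤ S.card := by
      refine (natDegree_prod_le _ _).trans ?_
      calc ∑ k ∈ S, ((1 : R[X]) - C (y k) * X).natDegree ≤ ∑ k ∈ S, 1 := by
            refine Finset.sum_le_sum fun k _ => ?_
            have : ((1 : R[X]) - C (y k) * X) = C (-(y k)) * X + C 1 := by
              simp only [map_neg, map_one]; ring
            rw [this]
            exact natDegree_linear_le
        _ = S.card := by simp
    have h1 : ((1 : R[X]) - C (y a) * X).natDegree ≤ 1 := by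
      have : ((1 : R[X]) - C (y a) * X) = C (-(y a)) * X + C 1 := by
        simp only [map_neg, map_one]; ring
      rw [this]
      exact natDegree_linear_le
    rw [reflect_mul _ _ h1 hdeg, ih]
    congr 1
    have : ((1 : R[X]) - C (y a) * X) = 1 + C (-(y a)) * X ^ 1 := by
      simp only [map_neg, pow_one]; ring
    rw [this, reflect_add, reflect_one, reflect_C_mul_X_pow]
    simp [revAt_le]
    ring

/-- homogenisation -/
private lemma sum_coeff_rev {R : Type*} [CommRing R] {N : ℕ} (y : Fin N → R) (j : Fin N) (z : R) :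
    ∑ l : Fin N, z ^ (l : ℕ) * (∏ k ∈ univ.erase j, (1 - C (y k) * X)).coeff (N - 1 - (l : ℕ)) =
      ∏ k ∈ univ.erase j, (z - y k) := by
  classical
  have hc : (univ.erase j).card = N - 1 := by simp
  have hR := reflect_prod (univ.erase j) y
  rw [hc] at hR
  have hQ : (∏ k ∈ univ.erase j, (X - C (y k))).eval z = ∏ k ∈ univ.erase j, (z - y k) := by
    simp [eval_prod]
  rw [← hQ, ← hR]
  have hdeg : (reflect (N - 1) (∏ k ∈ univ.erase j, ((1 : R[X]) - C (y k) * X))).natDegree < N := by
    rw [hR]
    have : (∏ k ∈ univ.erase j, ((X : R[X]) - C (y k))).natDegree ≤ (univ.erase j).card := by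
      refine (natDegree_prod_le _ _).trans ?_
      calc ∑ k ∈ univ.erase j, ((X : R[X]) - C (y k)).natDegree ≤ ∑ k ∈ univ.erase j, 1 :=
            Finset.sum_le_sum fun k _ => (natDegree_X_sub_C_le _)
        _ = (univ.erase j).card := by simp
    have hN : 0 < N := Fin.pos j
    omega
  rw [eval_eq_sum_range' hdeg, Finset.sum_range]
  refine Finset.sum_congr rfl fun l _ => ?_
  have hl' : (l : ℕ) < N := l.2
  rw [coeff_reflect, revAt_le (by omega : (l : ℕ) ≤ N - 1)]
  ring

/-- the coefficient matrix -/
private noncomputable def cM {R : Type*} [CommRing R] {N : ℕ} (y : Fin N → R) : Matrix (Fin N) (Fin N) R :=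
  Matrix.of fun l j => (∏ k ∈ univ.erase j, ((1 : R[X]) - C (y k) * X)).coeff (N - 1 - (l : ℕ))

private def wM {R : Type*} [CommRing R] {N : ℕ} (y : Fin N → R) : Matrix (Fin N) (Fin N) R :=
  Matrix.of fun i j : Fin N => y i ^ (N - 1 - (j : ℕ))

private lemma wM_eq {R : Type*} [CommRing R] {N : ℕ} (y : Fin N → R) :
    wM y = projVandermonde (fun _ => 1) y := by
  ext i j
  simp [wM, projVandermonde_apply, Fin.val_rev]
  congr 1
  have := j.2
  omega

private lemma det_wM {R : Type*} [CommRing R] {N : ℕ} (y : Fin N → R) :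
    (wM y).det = ∏ i : Fin N, ∏ j ∈ Finset.Ioi i, (y i - y j) := by
  rw [wM_eq, det_projVandermonde]
  simp

/-- the matrix of the statement factors -/
private lemma main_factor {R : Type*} [CommRing R] {N : ℕ} (x y : Fin N → R) :
    (Matrix.of fun i j : Fin N => ∏ k ∈ univ.erase j, (1 - x i * y k)) = wM x * cM y := by
  ext i j
  rw [Matrix.mul_apply]
  simp only [Matrix.of_apply, wM, cM]
  -- evaluate the polynomial at `x i`
  have hdeg : (∏ k ∈ univ.erase j, ((1 : R[X]) - C (y k) * X)).natDegree < N := by
    have h : (∏ k ∈ univ.erase j, ((1 : R[X]) - C (y k) * X)).natDegree ≤ (univ.erase j).card := by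
      refine (natDegree_prod_le _ _).trans ?_
      calc ∑ k ∈ univ.erase j, ((1 : R[X]) - C (y k) * X).natDegree ≤ ∑ k ∈ univ.erase j, 1 := by
            refine Finset.sum_le_sum fun k _ => ?_
            have : ((1 : R[X]) - C (y k) * X) = C (-(y k)) * X + C 1 := by
              simp only [map_neg, map_one]; ring
            rw [this]
            exact natDegree_linear_le
        _ = (univ.erase j).card := by simp
    have hc : (univ.erase j).card = N - 1 := by simp
    have hN : 0 < N := Fin.pos j
    omega
  have hE : (∏ k ∈ univ.erase j, ((1 : R[X]) - C (y k) * X)).eval (x i) =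
      ∏ k ∈ univ.erase j, (1 - x i * y k) := by
    rw [eval_prod]
    refine Finset.prod_congr rfl fun k _ => ?_
    simp only [eval_sub, eval_one, eval_mul, eval_C, eval_X]
    ring
  rw [← hE, eval_eq_sum_range' hdeg, Finset.sum_range]
  -- reverse the index
  rw [← Equiv.sum_comp Fin.revPerm]
  refine Finset.sum_congr rfl fun l _ => ?_
  have hl := l.2
  simp only [Fin.revPerm_apply, Fin.val_rev]
  have h1 : N - ((l : ℕ) + 1) = N - 1 - l := by omega
  rw [h1, mul_comm]

/-- product of the two Vandermonde determinants -/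
private lemma prod_split {R : Type*} [CommRing R] {N : ℕ} (y : Fin N → R) :
    (∏ j : Fin N, ∏ k ∈ univ.erase j, (y j - y k)) =
      (∏ i : Fin N, ∏ j ∈ Finset.Ioi i, (y j - y i)) * ∏ i : Fin N, ∏ j ∈ Finset.Ioi i, (y i - y j) := by
  classical
  have h1 : ∀ j : Fin N, univ.erase j = Finset.Iio j ∪ Finset.Ioi j := by
    intro j
    ext k
    simp only [mem_erase, mem_univ, and_true, mem_union, mem_Iio, mem_Ioi]
    exact ⟨fun h => lt_or_gt_of_ne h, fun h => by
      rcases h with h | h
      · exact h.ne
      · exact h.ne'⟩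
  have hd : ∀ j : Fin N, Disjoint (Finset.Iio j) (Finset.Ioi j) := by
    intro j
    rw [Finset.disjoint_left]
    intro k hk hk'
    exact absurd (Finset.mem_Iio.1 hk) (not_lt_of_gt (Finset.mem_Ioi.1 hk'))
  have h2 : ∀ j : Fin N, ∏ k ∈ univ.erase j, (y j - y k) =
      (∏ k ∈ Finset.Iio j, (y j - y k)) * ∏ k ∈ Finset.Ioi j, (y j - y k) := by
    intro j
    rw [h1 j, Finset.prod_union (hd j)]
  simp_rw [h2]
  rw [Finset.prod_mul_distrib]
  congr 1
  -- swap the order of the double product
  rw [Finset.prod_comm' (s' := fun i => Finset.Ioi i) (t' := univ)]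
  intro j k
  simp

/-- the identity in a domain with distinct `y` -/
private lemma det_cM_of_inj {R : Type*} [CommRing R] [IsDomain R] {N : ℕ} (y : Fin N → R)
    (hy : Function.Injective y) : (cM y).det = (wM y).det := by
  classical
  have hV : (vandermonde y).det ≠ 0 := det_vandermonde_ne_zero_iff.2 hy
  apply mul_left_cancel₀ hV
  rw [← Matrix.det_mul]
  have hd : vandermonde y * cM y = Matrix.diagonal fun j => ∏ k ∈ univ.erase j, (y j - y k) := by
    ext i j
    rw [Matrix.mul_apply]
    simp only [vandermonde_apply, cM, Matrix.of_apply]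
    rw [sum_coeff_rev y j (y i)]
    by_cases hij : i = j
    · subst hij; simp
    · rw [Matrix.diagonal_apply_ne _ hij]
      exact Finset.prod_eq_zero (Finset.mem_erase.2 ⟨hij, Finset.mem_univ _⟩) (sub_self _)
  rw [hd, Matrix.det_diagonal, prod_split, det_vandermonde, det_wM]

/-- `det(∏_{k≠j}(1 - x_i y_k)) = det(x_i^{N-1-j}) det(y_i^{N-1-j})`. -/
theorem cauchy_det {R : Type*} [CommRing R] {N : ℕ} (x y : Fin N → R) :
    (Matrix.of fun i j : Fin N => ∏ k ∈ univ.erase j, (1 - x i * y k)).det =
      (Matrix.of fun i j : Fin N => x i ^ (N - 1 - (j : ℕ))).det *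
        (Matrix.of fun i j : Fin N => y i ^ (N - 1 - (j : ℕ))).det := by
  classical
  rw [main_factor, Matrix.det_mul]
  change (wM x).det * (cM y).det = (wM x).det * (wM y).det
  congr 1
  -- universal case
  let Y : Fin N → MvPolynomial (Fin N) ℤ := fun i => MvPolynomial.X i
  have hY : Function.Injective Y := MvPolynomial.X_injective
  have hU := det_cM_of_inj Y hY
  let f : MvPolynomial (Fin N) ℤ →+* R := MvPolynomial.eval₂Hom (Int.castRingHom R) y
  have hf : ∀ i, f (Y i) = y i := fun i => by simp [f, Y]
  have hc : f.mapMatrix (cM Y) = cM y := by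
    ext l j
    simp only [RingHom.mapMatrix_apply, Matrix.map_apply, cM, Matrix.of_apply]
    rw [← Polynomial.coeff_map]
    congr 1
    rw [Polynomial.map_prod]
    refine Finset.prod_congr rfl fun k _ => ?_
    simp [hf]
  have hw : f.mapMatrix (wM Y) = wM y := by
    ext l j
    simp [wM, hf]
  rw [← hc, ← hw, ← RingHom.map_det, ← RingHom.map_det, hU]

end Vale.Agent.Lib.P197
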