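import Vale.Agent.Lib.P197.Core
import Vale.Agent.Lib.P197.CauchyDet

/-!
# P197 module CauchyCoeff: coefficient extraction from the Cauchy identity (blueprint sec 4)
-/

open Equiv Finset

namespace Vale.Agent.Lib.P197

namespace CC

variable {N : ℕ}

/-- The exponent index set. -/
abbrev Sg (N : ℕ) := Fin N ⊕ Fin N

/-- The ring of power series. -/
abbrev A (N : ℕ) := MvPowerSeries (Sg N) ℤ

/-- Matrices with support in `S` and margins `a`, `b`. -/
def mats (S : Finset (Fin N × Fin N)) (a b : Fin N → ℕ) : Set (Fin N → Fin N → ℕ) :=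
  {m | (∀ i j, (i, j) ∉ S → m i j = 0) ∧ (∀ i, ∑ j, m i j = a i) ∧ ∀ j, ∑ i, m i j = b j}

theorem mats_finite (S : Finset (Fin N × Fin N)) (a b : Fin N → ℕ) : (mats S a b).Finite := by
  refine (Set.finite_Icc (0 : Fin N → Fin N → ℕ) (fun i _ => a i)).subset ?_
  intro m hm
  refine ⟨fun i j => Nat.zero_le _, fun i j => ?_⟩
  have h := hm.2.1 i
  show m i j ≤ a i
  rw [← h]
  exact Finset.single_le_sum (f := fun j => m i j) (fun _ _ => Nat.zero_le _) (Finset.mem_univ j)

/-- The number of such matrices. -/
noncomputable def cnt (S : Finset (Fin N × Fin N)) (a b : Fin N → ℕ) : ℕ := (mats S a b).ncard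

/-- The generating function of matrices with support in `S`. -/
noncomputable def HS (S : Finset (Fin N × Fin N)) : A N :=
  fun e => (cnt S (fun i => e (Sum.inl i)) (fun j => e (Sum.inr j)) : ℤ)

theorem coeff_HS (S : Finset (Fin N × Fin N)) (e : Sg N →₀ ℕ) :
    MvPowerSeries.coeff e (HS S) =
      (cnt S (fun i => e (Sum.inl i)) (fun j => e (Sum.inr j)) : ℤ) := rfl

/-- The exponent of `x_i y_j`. -/
noncomputable def ep (p : Fin N × Fin N) : Sg N →₀ ℕ :=
  Finsupp.single (Sum.inl p.1) 1 + Finsupp.single (Sum.inr p.2) 1

/-- The monomial `x_i y_j`. -/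
noncomputable def mp (p : Fin N × Fin N) : A N := MvPowerSeries.monomial (ep p) 1

theorem ep_inl (p : Fin N × Fin N) (i : Fin N) :
    ep p (Sum.inl i) = if i = p.1 then 1 else 0 := by
  classical
  simp [ep, Finsupp.single_apply, eq_comm]

theorem ep_inr (p : Fin N × Fin N) (j : Fin N) :
    ep p (Sum.inr j) = if j = p.2 then 1 else 0 := by
  classical
  simp [ep, Finsupp.single_apply, eq_comm]

theorem ep_le_iff (p : Fin N × Fin N) (e : Sg N →₀ ℕ) :
    ep p ≤ e ↔ 1 ≤ e (Sum.inl p.1) ∧ 1 ≤ e (Sum.inr p.2) := by
  constructor
  · intro h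
    have h1 := h (Sum.inl p.1)
    have h2 := h (Sum.inr p.2)
    rw [ep_inl, if_pos rfl] at h1
    rw [ep_inr, if_pos rfl] at h2
    exact ⟨h1, h2⟩
  · rintro ⟨h1, h2⟩ s
    rcases s with i | j
    · rw [ep_inl]; split_ifs with h
      · rw [h]; exact h1
      · exact Nat.zero_le _
    · rw [ep_inr]; split_ifs with h
      · rw [h]; exact h2
      · exact Nat.zero_le _

/-- Add one to the entry `p`. -/
def addE (p : Fin N × Fin N) (m : Fin N → Fin N → ℕ) : Fin N → Fin N → ℕ :=
  fun i j => m i j + if (i, j) = p then 1 else 0

theorem addE_injective (p : Fin N × Fin N) : Function.Injective (addE p) := by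
  intro m m' h
  funext i j
  have := congrFun (congrFun h i) j
  simp only [addE] at this
  omega

theorem sum_addE_row (p : Fin N × Fin N) (m : Fin N → Fin N → ℕ) (i : Fin N) :
    ∑ j, addE p m i j = ∑ j, m i j + if i = p.1 then 1 else 0 := by
  classical
  simp only [addE, Finset.sum_add_distrib]
  congr 1
  by_cases h : i = p.1
  · subst h
    rw [if_pos rfl, Finset.sum_eq_single p.2]
    · simp
    · intro b _ hb
      rw [if_neg]
      intro h'
      exact hb (congrArg Prod.snd h')
    · simp
  · rw [if_neg h]
    apply Finset.sum_eq_zero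
    intro j _
    rw [if_neg]
    intro h'
    exact h (congrArg Prod.fst h')

theorem sum_addE_col (p : Fin N × Fin N) (m : Fin N → Fin N → ℕ) (j : Fin N) :
    ∑ i, addE p m i j = ∑ i, m i j + if j = p.2 then 1 else 0 := by
  classical
  simp only [addE, Finset.sum_add_distrib]
  congr 1
  by_cases h : j = p.2
  · subst h
    rw [if_pos rfl, Finset.sum_eq_single p.1]
    · simp
    · intro b _ hb
      rw [if_neg]
      intro h'
      exact hb (congrArg Prod.fst h')
    · simp
  · rw [if_neg h]
    apply Finset.sum_eq_zero
    intro i _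
    rw [if_neg]
    intro h'
    exact h (congrArg Prod.snd h')

/-- The recursion for the count. -/
theorem cnt_insert (S : Finset (Fin N × Fin N)) (p : Fin N × Fin N) (hp : p ∉ S)
    (a b : Fin N → ℕ) :
    cnt (insert p S) a b = cnt S a b + if 1 ≤ a p.1 ∧ 1 ≤ b p.2 then
      cnt (insert p S) (fun i => a i - if i = p.1 then 1 else 0)
        (fun j => b j - if j = p.2 then 1 else 0) else 0 := by
  classical
  have hsplit : mats (insert p S) a b =
      mats S a b ∪ {m | m ∈ mats (insert p S) a b ∧ 1 ≤ m p.1 p.2} := by
    ext m
    constructor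
    · intro hm
      by_cases h0 : 1 ≤ m p.1 p.2
      · exact Or.inr ⟨hm, h0⟩
      · left
        refine ⟨fun i j hij => ?_, hm.2⟩
        by_cases hq : (i, j) = p
        · subst hq
          simpa using h0
        · apply hm.1
          simp only [Finset.mem_insert, not_or]
          exact ⟨hq, hij⟩
    · rintro (hm | hm)
      · refine ⟨fun i j hij => hm.1 i j ?_, hm.2⟩
        intro h
        exact hij (Finset.mem_insert_of_mem h)
      · exact hm.1
  have hdisj : Disjoint (mats S a b) {m | m ∈ mats (insert p S) a b ∧ 1 ≤ m p.1 p.2} := by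
    rw [Set.disjoint_left]
    intro m hm hm'
    have := hm.1 p.1 p.2 hp
    have h1 := hm'.2
    omega
  have hfin : {m | m ∈ mats (insert p S) a b ∧ 1 ≤ m p.1 p.2}.Finite :=
    (mats_finite (insert p S) a b).subset fun m hm => hm.1
  unfold cnt
  rw [hsplit, Set.ncard_union_eq hdisj (mats_finite S a b) hfin]
  congr 1
  split_ifs with hab
  · -- bijection with the shifted margins
    have himg : {m | m ∈ mats (insert p S) a b ∧ 1 ≤ m p.1 p.2} =
        addE p '' mats (insert p S) (fun i => a i - if i = p.1 then 1 else 0)
          (fun j => b j - if j = p.2 then 1 else 0) := by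
      ext m
      constructor
      · rintro ⟨hm, h1⟩
        refine ⟨fun i j => m i j - if (i, j) = p then 1 else 0, ⟨?_, ?_, ?_⟩, ?_⟩
        · intro i j hij
          have := hm.1 i j hij
          simp only [this]
          omega
        · intro i
          have hsum := sum_addE_row p (fun i j => m i j - if (i, j) = p then 1 else 0) i
          have hm' : addE p (fun i j => m i j - if (i, j) = p then 1 else 0) = m := by
            funext i' j'
            simp only [addE]
            by_cases hq : (i', j') = p
            · subst hq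
              simp only [if_true]
              simp only at h1
              omega
            · simp [hq]
          rw [hm', hm.2.1 i] at hsum
          simp only at hsum ⊢
          omega
        · intro j
          have hsum := sum_addE_col p (fun i j => m i j - if (i, j) = p then 1 else 0) j
          have hm' : addE p (fun i j => m i j - if (i, j) = p then 1 else 0) = m := by
            funext i' j'
            simp only [addE]
            by_cases hq : (i', j') = p
            · subst hq
              simp only [if_true]
              simp only at h1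
              omega
            · simp [hq]
          rw [hm', hm.2.2 j] at hsum
          simp only at hsum ⊢
          omega
        · funext i' j'
          simp only [addE]
          by_cases hq : (i', j') = p
          · subst hq
            simp only [if_true]
            simp only at h1
            omega
          · simp [hq]
      · rintro ⟨m', hm', rfl⟩
        refine ⟨⟨?_, ?_, ?_⟩, ?_⟩
        · intro i j hij
          have hne : (i, j) ≠ p := by
            intro h
            exact hij (h ▸ Finset.mem_insert_self _ _)
          simp only [addE, if_neg hne, add_zero]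
          exact hm'.1 i j hij
        · intro i
          rw [sum_addE_row, hm'.2.1 i]
          by_cases h : i = p.1
          · subst h
            simp only [if_true]
            have := hab.1
            omega
          · simp [h]
        · intro j
          rw [sum_addE_col, hm'.2.2 j]
          by_cases h : j = p.2
          · subst h
            simp only [if_true]
            have := hab.2
            omega
          · simp [h]
        · simp [addE]
    rw [himg, Set.ncard_image_of_injective _ (addE_injective p)]
  · -- no such matrices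
    have : {m | m ∈ mats (insert p S) a b ∧ 1 ≤ m p.1 p.2} = ∅ := by
      ext m
      simp only [Set.mem_setOf_eq, Set.mem_empty_iff_false, iff_false, not_and]
      intro hm h1
      apply hab
      constructor
      · rw [← hm.2.1 p.1]
        exact le_trans h1 (Finset.single_le_sum (f := fun j => m p.1 j)
          (fun _ _ => Nat.zero_le _) (Finset.mem_univ p.2))
      · rw [← hm.2.2 p.2]
        exact le_trans h1 (Finset.single_le_sum (f := fun i => m i p.2)
          (fun _ _ => Nat.zero_le _) (Finset.mem_univ p.1))
    rw [this, Set.ncard_empty]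

theorem HS_insert_mul (S : Finset (Fin N × Fin N)) (p : Fin N × Fin N) (hp : p ∉ S) :
    HS (insert p S) * (1 - mp p) = HS S := by
  classical
  ext e
  rw [mul_sub, mul_one, map_sub, mp, MvPowerSeries.coeff_mul_monomial]
  simp only [coeff_HS]
  rw [cnt_insert S p hp]
  by_cases hle : 1 ≤ e (Sum.inl p.1) ∧ 1 ≤ e (Sum.inr p.2)
  · have hle' : ep p ≤ e := (ep_le_iff p e).2 hle
    rw [if_pos hle, if_pos hle', mul_one]
    have h1 : (fun i => (e - ep p) (Sum.inl i)) =
        fun i => e (Sum.inl i) - if i = p.1 then 1 else 0 := by
      funext i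
      rw [Finsupp.tsub_apply, ep_inl]
    have h2 : (fun j => (e - ep p) (Sum.inr j)) =
        fun j => e (Sum.inr j) - if j = p.2 then 1 else 0 := by
      funext j
      rw [Finsupp.tsub_apply, ep_inr]
    rw [h1, h2]
    push_cast
    ring
  · have hle' : ¬ ep p ≤ e := fun h => hle ((ep_le_iff p e).1 h)
    rw [if_neg hle, if_neg hle']
    simp

theorem HS_empty : (HS ∅ : A N) = 1 := by
  classical
  ext e
  rw [coeff_HS, MvPowerSeries.coeff_one]
  split_ifs with he
  · subst he
    have : mats (∅ : Finset (Fin N × Fin N)) (fun i => (0 : Sg N →₀ ℕ) (Sum.inl i))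
        (fun j => (0 : Sg N →₀ ℕ) (Sum.inr j)) = {0} := by
      ext m
      simp only [Set.mem_singleton_iff]
      constructor
      · intro hm
        funext i j
        exact hm.1 i j (by simp)
      · rintro rfl
        refine ⟨fun _ _ _ => rfl, ?_, ?_⟩ <;> intro <;> simp
    unfold cnt
    rw [this, Set.ncard_singleton]
    rfl
  · have : mats (∅ : Finset (Fin N × Fin N)) (fun i => e (Sum.inl i))
        (fun j => e (Sum.inr j)) = ∅ := by
      ext m
      simp only [Set.mem_empty_iff_false, iff_false]
      intro hm
      apply he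
      have hm0 : m = 0 := by
        funext i j
        exact hm.1 i j (by simp)
      subst hm0
      ext s
      rcases s with i | j
      · have := hm.2.1 i
        simpa using this.symm
      · have := hm.2.2 j
        simpa using this.symm
    unfold cnt
    rw [this, Set.ncard_empty]
    rfl

/-- `H_S` is the inverse of the product. -/
theorem HS_mul_prod (S : Finset (Fin N × Fin N)) : HS S * ∏ p ∈ S, (1 - mp p) = 1 := by
  classical
  induction S using Finset.induction_on with
  | empty => simp [HS_empty]
  | insert p S hp ih =>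
    rw [Finset.prod_insert hp, ← mul_assoc, HS_insert_mul S p hp, ih]

/-- Matrices supported on the graph of a permutation. -/
def graph (σ : Perm (Fin N)) : Finset (Fin N × Fin N) :=
  univ.image fun i => (i, σ i)

theorem mem_graph (σ : Perm (Fin N)) (i j : Fin N) : (i, j) ∈ graph σ ↔ j = σ i := by
  classical
  simp only [graph, Finset.mem_image, Finset.mem_univ, true_and, Prod.mk.injEq]
  constructor
  · rintro ⟨k, rfl, rfl⟩
    rfl
  · rintro rfl
    exact ⟨i, rfl, rfl⟩

theorem cnt_graph (σ : Perm (Fin N)) (a b : Fin N → ℕ) :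
    cnt (graph σ) a b = if ∀ i, b (σ i) = a i then 1 else 0 := by
  classical
  have key : ∀ m ∈ mats (graph σ) a b, ∀ i, m i (σ i) = a i ∧ m i (σ i) = b (σ i) := by
    intro m hm i
    constructor
    · rw [← hm.2.1 i]
      symm
      apply Finset.sum_eq_single (σ i)
      · intro j _ hj
        apply hm.1
        rw [mem_graph]
        exact hj
      · simp
    · rw [← hm.2.2 (σ i)]
      symm
      apply Finset.sum_eq_single i
      · intro k _ hk
        apply hm.1
        rw [mem_graph]
        intro h
        exact hk (σ.injective h).symm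
      · simp
  split_ifs with h
  · have : mats (graph σ) a b = {fun i j => if j = σ i then a i else 0} := by
      ext m
      simp only [Set.mem_singleton_iff]
      constructor
      · intro hm
        funext i j
        split_ifs with hj
        · subst hj
          exact (key m hm i).1
        · apply hm.1
          rw [mem_graph]
          exact hj
      · rintro rfl
        refine ⟨?_, ?_, ?_⟩
        · intro i j hij
          rw [mem_graph] at hij
          exact if_neg hij
        · intro i
          simp
        · intro j
          rw [Finset.sum_eq_single (σ⁻¹ j)]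
          · have hj : σ (σ⁻¹ j) = j := by simp
            show (if j = σ (σ⁻¹ j) then a (σ⁻¹ j) else 0) = b j
            rw [if_pos hj.symm, ← h (σ⁻¹ j), hj]
          · intro k _ hk
            show (if j = σ k then a k else 0) = 0
            rw [if_neg]
            intro h'
            apply hk
            rw [h']
            simp
          · simp
    unfold cnt
    rw [this, Set.ncard_singleton]
  · have : mats (graph σ) a b = ∅ := by
      ext m
      simp only [Set.mem_empty_iff_false, iff_false]
      intro hm
      apply h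
      intro i
      rw [← (key m hm i).2, (key m hm i).1]
    unfold cnt
    rw [this, Set.ncard_empty]

/-- The exponent vector of `x^c y^c'`. -/
noncomputable def EE (c c' : Fin N → ℕ) : Sg N →₀ ℕ :=
  ∑ i, Finsupp.single (Sum.inl i) (c i) + ∑ j, Finsupp.single (Sum.inr j) (c' j)

theorem EE_inl (c c' : Fin N → ℕ) (i : Fin N) : EE c c' (Sum.inl i) = c i := by
  classical
  simp [EE, Finsupp.single_apply, Finsupp.finset_sum_apply]

theorem EE_inr (c c' : Fin N → ℕ) (j : Fin N) : EE c c' (Sum.inr j) = c' j := by
  classical
  simp [EE, Finsupp.single_apply, Finsupp.finset_sum_apply]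

theorem EE_le_iff (c c' d d' : Fin N → ℕ) : EE c c' ≤ EE d d' ↔ (∀ i, c i ≤ d i) ∧ ∀ j, c' j ≤ d' j := by
  constructor
  · intro h
    constructor
    · intro i
      have := h (Sum.inl i)
      rwa [EE_inl, EE_inl] at this
    · intro j
      have := h (Sum.inr j)
      rwa [EE_inr, EE_inr] at this
  · rintro ⟨h1, h2⟩ s
    rcases s with i | j
    · rw [EE_inl, EE_inl]; exact h1 i
    · rw [EE_inr, EE_inr]; exact h2 j

theorem prod_monomial {ι : Type*} (s : Finset ι) (f : ι → Sg N →₀ ℕ) :
    ∏ i ∈ s, (MvPowerSeries.monomial (f i) (1 : ℤ) : A N) =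
      MvPowerSeries.monomial (∑ i ∈ s, f i) (1 : ℤ) := by
  classical
  induction s using Finset.induction_on with
  | empty =>
    simp only [Finset.prod_empty, Finset.sum_empty]
    exact (MvPowerSeries.monomial_zero_one).symm
  | insert a s ha ih =>
    rw [Finset.prod_insert ha, Finset.sum_insert ha, ih, MvPowerSeries.monomial_mul_monomial,
      one_mul]

theorem prod_X_mul (c c' : Fin N → ℕ) :
    (∏ i, (MvPowerSeries.X (Sum.inl i) : A N) ^ c i) *
      (∏ j, (MvPowerSeries.X (Sum.inr j) : A N) ^ c' j) =
      MvPowerSeries.monomial (EE c c') (1 : ℤ) := by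
  simp only [MvPowerSeries.X_pow_eq]
  rw [prod_monomial, prod_monomial, MvPowerSeries.monomial_mul_monomial, one_mul]
  rfl

/-- `matCount` in terms of `cnt`. -/
theorem matCount_eq (c c' d d' : Fin N → ℕ) :
    matCount N (fun i => (d i : ℤ) - (c i : ℤ)) (fun j => (d' j : ℤ) - (c' j : ℤ)) =
      if (∀ i, c i ≤ d i) ∧ ∀ j, c' j ≤ d' j then
        cnt univ (fun i => d i - c i) (fun j => d' j - c' j) else 0 := by
  classical
  unfold matCount
  split_ifs with h
  · unfold cnt
    congr 1
    ext m
    simp only [Set.mem_setOf_eq, mats, Finset.mem_univ, not_true_eq_false, false_imp_iff,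
      implies_true, true_and]
    constructor
    · rintro ⟨h1, h2⟩
      constructor
      · intro i
        have := h1 i
        have := h.1 i
        omega
      · intro j
        have := h2 j
        have := h.2 j
        omega
    · rintro ⟨h1, h2⟩
      constructor
      · intro i
        have := h1 i
        have := h.1 i
        omega
      · intro j
        have := h2 j
        have := h.2 j
        omega
  · have : {m : Fin N → Fin N → ℕ |
        (∀ i, (((∑ j, m i j : ℕ)) : ℤ) = (d i : ℤ) - (c i : ℤ)) ∧
          ∀ j, (((∑ i, m i j : ℕ)) : ℤ) = (d' j : ℤ) - (c' j : ℤ)} = ∅ := by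
      ext m
      simp only [Set.mem_setOf_eq, Set.mem_empty_iff_false, iff_false, not_and]
      rintro h1 h2
      apply h
      constructor
      · intro i
        have := h1 i
        omega
      · intro j
        have := h2 j
        omega
    rw [this, Set.ncard_empty]

/-- A strictly monotone permutation is the identity. -/
theorem perm_eq_one_of_strictMono (σ : Perm (Fin N)) (h : StrictMono σ) : σ = 1 := by
  have h1 : Set.range σ = Set.range (id : Fin N → Fin N) := by
    rw [σ.surjective.range_eq, Function.surjective_id.range_eq]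
  have h2 := (StrictMono.range_inj h strictMono_id).1 h1
  ext i
  simp [h2]

/-- The alternating sum over permutations of the indicator. -/
theorem sum_sign_ite (β β' : Fin N → ℕ) (hβ : StrictAnti β) (hβ' : StrictAnti β') :
    ∑ σ : Perm (Fin N), ((Perm.sign σ : ℤˣ) : ℤ) * (if ∀ i, β' (σ i) = β i then (1 : ℤ) else 0) =
      if β = β' then 1 else 0 := by
  classical
  have key : ∀ σ : Perm (Fin N), (∀ i, β' (σ i) = β i) → σ = 1 := by
    intro σ hσ
    apply perm_eq_one_of_strictMono
    intro a b hab
    have h1 : β' (σ b) < β' (σ a) := by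
      rw [hσ, hσ]
      exact hβ hab
    by_contra hcon
    have := hβ'.antitone (not_lt.1 hcon)
    omega
  split_ifs with h
  · subst h
    rw [Finset.sum_eq_single 1]
    · simp
    · intro σ _ hσ
      rw [if_neg, mul_zero]
      intro hh
      exact hσ (key σ hh)
    · simp
  · apply Finset.sum_eq_zero
    intro σ _
    rw [if_neg, mul_zero]
    intro hh
    apply h
    have h1 := key σ hh
    subst h1
    funext i
    exact (hh i).symm

/-- `x_i y_j` in terms of the variables. -/
theorem X_mul_X (i j : Fin N) :
    (MvPowerSeries.X (Sum.inl i) : A N) * MvPowerSeries.X (Sum.inr j) = mp (i, j) := by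
  rw [mp, MvPowerSeries.X_def, MvPowerSeries.X_def, MvPowerSeries.monomial_mul_monomial, one_mul]
  rfl

/-- The single-entry generating function. -/
noncomputable def gg (i j : Fin N) : A N := HS {(i, j)}

theorem gg_mul (i j : Fin N) : gg i j * (1 - mp (i, j)) = 1 := by
  have := HS_mul_prod ({(i, j)} : Finset (Fin N × Fin N))
  simpa [gg] using this

theorem prod_gg (σ : Perm (Fin N)) : ∏ i, gg i (σ i) = HS (graph σ) := by
  classical
  have h1 := HS_mul_prod (graph σ)
  have h2 : ∏ p ∈ graph σ, (1 - mp p) = ∏ i, (1 - mp (i, σ i) : A N) := by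
    unfold graph
    rw [Finset.prod_image]
    intro a _ b _ hab
    exact congrArg Prod.fst hab
  have h3 : (∏ i, gg i (σ i)) * ∏ i, (1 - mp (i, σ i) : A N) = 1 := by
    rw [← Finset.prod_mul_distrib]
    apply Finset.prod_eq_one
    intro i _
    exact gg_mul i (σ i)
  rw [h2] at h1
  calc ∏ i, gg i (σ i) = (∏ i, gg i (σ i)) * (HS (graph σ) * ∏ i, (1 - mp (i, σ i) : A N)) := by
        rw [h1, mul_one]
    _ = ((∏ i, gg i (σ i)) * ∏ i, (1 - mp (i, σ i) : A N)) * HS (graph σ) := by ring
    _ = HS (graph σ) := by rw [h3, one_mul]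

/-- The determinant identity in the ring of power series. -/
theorem main_identity :
    (Matrix.of fun i j : Fin N => (MvPowerSeries.X (Sum.inl i) : A N) ^ (N - 1 - (j : ℕ))).det *
      (Matrix.of fun i j : Fin N => (MvPowerSeries.X (Sum.inr i) : A N) ^ (N - 1 - (j : ℕ))).det *
        HS univ = (Matrix.of fun i j : Fin N => gg i j).det := by
  classical
  have hc := cauchy_det (fun i : Fin N => (MvPowerSeries.X (Sum.inl i) : A N))
    (fun k : Fin N => (MvPowerSeries.X (Sum.inr k) : A N))
  rw [← hc]
  have hrow : (Matrix.of fun i j : Fin N =>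
      ∏ k ∈ univ.erase j, (1 - (MvPowerSeries.X (Sum.inl i) : A N) * MvPowerSeries.X (Sum.inr k))) =
      Matrix.of fun i j : Fin N => (∏ k, (1 - mp (i, k) : A N)) * gg i j := by
    ext1 i j
    simp only [Matrix.of_apply, X_mul_X]
    rw [← Finset.mul_prod_erase univ (fun k => (1 - mp (i, k) : A N)) (Finset.mem_univ j)]
    calc ∏ k ∈ univ.erase j, (1 - mp (i, k) : A N)
        = (∏ k ∈ univ.erase j, (1 - mp (i, k) : A N)) * (gg i j * (1 - mp (i, j))) := by
          rw [gg_mul, mul_one]
      _ = _ := by ring
  have hdet := Matrix.det_mul_column (fun i : Fin N => ∏ k, (1 - mp (i, k) : A N))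
    (Matrix.of fun i j : Fin N => gg i j)
  simp only [Matrix.of_apply] at hdet
  rw [hrow, hdet]
  have hH := HS_mul_prod (univ : Finset (Fin N × Fin N))
  have hprod : ∏ p ∈ (univ : Finset (Fin N × Fin N)), (1 - mp p : A N) =
      ∏ i, ∏ k, (1 - mp (i, k) : A N) := by
    rw [← Finset.univ_product_univ, Finset.prod_product]
  rw [hprod] at hH
  calc (∏ i, ∏ k, (1 - mp (i, k) : A N)) * (Matrix.of fun i j : Fin N => gg i j).det * HS univ
      = (Matrix.of fun i j : Fin N => gg i j).det * (HS univ * ∏ i, ∏ k, (1 - mp (i, k) : A N)) := by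
        ring
    _ = _ := by rw [hH, mul_one]

/-- Expansion of a determinant along permutations, with the row index first. -/
theorem det_expand {R : Type*} [CommRing R] (M : Matrix (Fin N) (Fin N) R) :
    M.det = ∑ σ : Perm (Fin N), (((Perm.sign σ : ℤˣ) : ℤ) : R) * ∏ i, M i (σ i) := by
  rw [← Matrix.det_transpose, Matrix.det_apply']
  rfl

end CC

open CC in
/-- The orthonormality of the Schur functions, in coefficient form. -/
theorem cauchy_coeff (N : ℕ) (β β' : Fin N → ℕ) (hβ : StrictAnti β) (hβ' : StrictAnti β') :
    ∑ w : Perm (Fin N), ∑ w' : Perm (Fin N),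
      ((Perm.sign w : ℤˣ) : ℤ) * ((Perm.sign w' : ℤˣ) : ℤ) *
        (matCount N (fun i => (β i : ℤ) - ((N - 1 - ((w i : Fin N) : ℕ) : ℕ) : ℤ))
          (fun j => (β' j : ℤ) - ((N - 1 - ((w' j : Fin N) : ℕ) : ℕ) : ℤ)) : ℤ) =
      if β = β' then 1 else 0 := by
  classical
  have hmain := congrArg (MvPowerSeries.coeff (EE β β')) (main_identity (N := N))
  -- the right side
  have hR : MvPowerSeries.coeff (EE β β') (Matrix.of fun i j : Fin N => gg i j).det =
      if β = β' then 1 else 0 := by
    rw [det_expand, ← sum_sign_ite β β' hβ hβ', map_sum]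
    apply Finset.sum_congr rfl
    intro σ _
    simp only [Matrix.of_apply]
    rw [prod_gg, ← zsmul_eq_mul, map_zsmul, coeff_HS, cnt_graph]
    simp only [EE_inl, EE_inr, smul_eq_mul]
    split_ifs <;> simp
  rw [hR] at hmain
  rw [← hmain]
  -- the left side
  rw [det_expand, det_expand, Finset.sum_mul, Finset.sum_mul, map_sum]
  apply Finset.sum_congr rfl
  intro w _
  rw [Finset.mul_sum, Finset.sum_mul, map_sum]
  apply Finset.sum_congr rfl
  intro w' _
  simp only [Matrix.of_apply]
  have hprod :
      ((((Perm.sign w : ℤˣ) : ℤ) : A N) *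
          (∏ i, (MvPowerSeries.X (Sum.inl i) : A N) ^ (N - 1 - ((w i : Fin N) : ℕ)))) *
        (((((Perm.sign w' : ℤˣ) : ℤ) : A N) *
          (∏ i, (MvPowerSeries.X (Sum.inr i) : A N) ^ (N - 1 - ((w' i : Fin N) : ℕ))))) *
        HS univ =
      (((Perm.sign w : ℤˣ) : ℤ) * ((Perm.sign w' : ℤˣ) : ℤ)) •
        (MvPowerSeries.monomial (EE (fun i => N - 1 - ((w i : Fin N) : ℕ))
          (fun j => N - 1 - ((w' j : Fin N) : ℕ))) (1 : ℤ) * HS univ) := by
    rw [← prod_X_mul, zsmul_eq_mul]
    push_cast
    ring
  rw [hprod, map_zsmul, MvPowerSeries.coeff_monomial_mul, smul_eq_mul]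
  congr 1
  have hcast := matCount_eq (fun i => N - 1 - ((w i : Fin N) : ℕ))
    (fun j => N - 1 - ((w' j : Fin N) : ℕ)) β β'
  rw [hcast]
  by_cases hle : (∀ i, N - 1 - ((w i : Fin N) : ℕ) ≤ β i) ∧
      ∀ j, N - 1 - ((w' j : Fin N) : ℕ) ≤ β' j
  · have hle' := (EE_le_iff (fun i => N - 1 - ((w i : Fin N) : ℕ))
      (fun j => N - 1 - ((w' j : Fin N) : ℕ)) β β').2 hle
    rw [if_pos hle, if_pos hle', one_mul, coeff_HS]
    congr 2
    · funext i
      rw [Finsupp.tsub_apply, EE_inl, EE_inl]
    · funext j
      rw [Finsupp.tsub_apply, EE_inr, EE_inr]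
  · have hle' : ¬ EE (fun i => N - 1 - ((w i : Fin N) : ℕ))
        (fun j => N - 1 - ((w' j : Fin N) : ℕ)) ≤ EE β β' :=
      fun h => hle ((EE_le_iff _ _ _ _).1 h)
    rw [if_neg hle, if_neg hle']
    simp

end Vale.Agent.Lib.P197
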