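import Vale.Agent.Lib.P197.Defs

/-!
# P197: basic functions used by all modules

`symCoeff T h` is the coefficient of `h` in the Young symmetrizer,
`rr T π` is the normalised character `χ(π)/f`, `ff T` the dimension of the Specht module,
`psi N α π` the permutation character of the Young subgroup of type `α` (counted through
`π`-invariant colourings with `N` colours and content `α`),
`frobF N μ π` the Frobenius alternating sum (Jacobi-Trudi), `sp π` the size of the support,
`rk π` the reflection length.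
-/

open Equiv Finset

namespace Vale.Agent.Lib.P197

variable {n : ℕ} {μ : YoungDiagram}

/-- The coefficient of `h` in the Young symmetrizer `c_T`. -/
def symCoeff (T : Filling n μ) (h : Perm (Fin n)) : ℤ :=
  ∑ p ∈ rowStab T, ∑ q ∈ colStab T, if p * q = h then ((Perm.sign q : ℤˣ) : ℤ) else 0

/-- The normalised character: `χ_T(π) / dim = (1/n!) ∑_g [c_T](g⁻¹ π⁻¹ g)`. -/
noncomputable def rr (T : Filling n μ) (π : Perm (Fin n)) : ℝ :=
  ((n.factorial : ℕ) : ℝ)⁻¹ * ∑ g : Perm (Fin n), (symCoeff T (g⁻¹ * π⁻¹ * g) : ℝ)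

/-- The dimension of the Specht module. -/
noncomputable def ff (T : Filling n μ) : ℕ := Module.finrank ℂ (spechtSub T)

/-- The size of the support of `π`. -/
def sp (π : Perm (Fin n)) : ℕ := π.cycleType.sum

/-- The reflection length: support size minus number of nontrivial cycles. -/
def rk (π : Perm (Fin n)) : ℕ := π.cycleType.sum - Multiset.card π.cycleType

/-- The number of colourings `φ : Fin n → Fin N` invariant under `π` with content `α`. -/
def psi (N : ℕ) (α : Fin N → ℤ) (π : Perm (Fin n)) : ℕ :=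
  (univ.filter fun φ : Fin n → Fin N =>
    (∀ x, φ (π x) = φ x) ∧ ∀ i, (((univ.filter fun x => φ x = i).card : ℕ) : ℤ) = α i).card

/-- The Frobenius alternating sum `∑_w sgn(w) ψ_{ν + δ - δ∘w}`, where `δ i = N - 1 - i`. -/
def frobF (N : ℕ) (μ : YoungDiagram) (π : Perm (Fin n)) : ℤ :=
  ∑ w : Perm (Fin N), ((Perm.sign w : ℤˣ) : ℤ) *
    (psi N (fun i => (μ.rowLen (i : ℕ) : ℤ) - (i : ℕ) + ((w i : Fin N) : ℕ)) π : ℤ)

/-- The number of `N × N` matrices over `ℕ` with row sums `α` and column sums `γ`. -/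
noncomputable def matCount (N : ℕ) (α γ : Fin N → ℤ) : ℕ :=
  Set.ncard {m : Fin N → Fin N → ℕ |
    (∀ i, (((∑ j, m i j : ℕ)) : ℤ) = α i) ∧ ∀ j, (((∑ i, m i j : ℕ)) : ℤ) = γ j}

/-- The Vandermonde product `∏_{i<j} (x i - x j)`. -/
def vdm {N : ℕ} (x : Fin N → ℤ) : ℤ := ∏ i, ∏ j ∈ Ioi i, (x i - x j)

/-- The dimension expression `f! ∏_{i<j} (x i - x j) / ∏ (x i)!`, zero if an entry is negative. -/
noncomputable def dimX {N : ℕ} (f : ℕ) (x : Fin N → ℤ) : ℝ :=
  if ∀ i, 0 ≤ x i then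
    (f.factorial : ℝ) * (vdm x : ℝ) / ∏ i, (((x i).toNat.factorial : ℕ) : ℝ)
  else 0

/-- Colourings of the support of `π` invariant under `π`. -/
def invOn (N : ℕ) (π : Perm (Fin n)) : Finset ({x // x ∈ π.support} → Fin N) :=
  univ.filter fun φ => ∀ x : {x // x ∈ π.support},
    φ ⟨π x.1, Perm.apply_mem_support.2 x.2⟩ = φ x

/-- The content of a colouring of the support. -/
def contOn {N : ℕ} {π : Perm (Fin n)} (φ : {x // x ∈ π.support} → Fin N) (i : Fin N) : ℤ :=
  ((univ.filter fun x => φ x = i).card : ℕ)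

/-- The even-cycle vanishing and the strong bound: what is used of the staircase character. -/
def RhoB (n : ℕ) (rho : Perm (Fin n) → ℝ) : Prop :=
  (∀ π, (∃ j ∈ π.cycleType, Even j) → rho π = 0) ∧
    ∀ π, |rho π| ≤ (45 : ℝ) ^ sp π * ((Real.sqrt n)⁻¹) ^ rk π

/-- The character bound for a diagram with at most `M` rows and at most `M` columns. -/
def NuB (n : ℕ) (M : ℝ) (nu : Perm (Fin n) → ℝ) : Prop :=
  ∀ (π : Perm (Fin n)) (R κ : ℝ) (k₁ : ℕ), 4 * M ≤ R → 4 * (n : ℝ) ≤ R ^ 2 → 2 ≤ κ →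
    4 * (k₁ : ℝ) * n ≤ (κ * R) ^ 2 → 4 * (k₁ : ℝ) * κ ^ 2 ≤ n → sp π ≤ k₁ →
    |nu π| ≤ (3 : ℝ) ^ sp π * (π.cycleType.map fun j => (R / n) ^ (j - 1) * κ ^ (j - 3)).prod

/-- Class function and product formula, what is used of any normalised irreducible character. -/
def ClassMult (n : ℕ) (r : Perm (Fin n) → ℝ) : Prop :=
  (∀ π σ : Perm (Fin n), π.cycleType = σ.cycleType → r π = r σ) ∧
    ∀ x y : Perm (Fin n), r x * r y =
      ((n.factorial : ℕ) : ℝ)⁻¹ * ∑ g : Perm (Fin n), r (x * (g * y * g⁻¹))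

/-- What the huge-support estimate uses of the two characters. -/
def HugeHyp (n : ℕ) (A : ℝ) (rho nu : Perm (Fin n) → ℝ) : Prop :=
  (∑ π, rho π ^ 2 ≤ (24 : ℝ) ^ n) ∧
    ∀ π : Perm (Fin n), nu π ^ 2 *
        (((univ.filter fun σ : Perm (Fin n) => σ.cycleType = π.cycleType).card : ℕ) : ℝ) *
        ((n.factorial : ℕ) : ℝ) ^ 2 ≤
      ((n.factorial : ℕ) : ℝ) * (2 * A * Real.sqrt n) ^ (2 * n)

end Vale.Agent.Lib.P197
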