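import Mathlib

/-!
# P197 module Surgery: cycle structure under deletion of a point and under multiplication by a swap
(blueprint sec 9)

`lens σ` is the multiset of all cycle lengths of `σ`, fixed points counted as cycles of length 1.
-/

open Equiv Finset

namespace Vale.Agent.Lib.P197

set_option linter.unusedSectionVars false

variable {α : Type*} [Fintype α] [DecidableEq α]

/-- All cycle lengths, fixed points included. -/
def lens (σ : Perm α) : Multiset ℕ :=
  σ.cycleType + Multiset.replicate (Fintype.card α - σ.support.card) 1

namespace SurgeryAux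

theorem per_pos (σ : Perm α) (x : α) : 0 < Function.minimalPeriod σ x :=
  Function.minimalPeriod_pos_of_mem_periodicPts (σ.injective.mem_periodicPts x)

theorem per_mem (σ : Perm α) (x : α) : x ∈ Function.periodicPts σ :=
  σ.injective.mem_periodicPts x

theorem iter_ne (σ : Perm α) (x : α) (k : ℕ) (h0 : 0 < k) (hk : k < Function.minimalPeriod σ x) :
    σ^[k] x ≠ x := by
  intro h
  have := Function.IsPeriodicPt.minimalPeriod_le h0 h
  omega

theorem sameCycle_iter (σ : Perm α) (x : α) (k : ℕ) : σ.SameCycle x (σ^[k] x) :=
  ⟨k, by rw [zpow_natCast, Perm.iterate_eq_pow]⟩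

theorem sameCycle_iff_exists (σ : Perm α) (z y : α) :
    σ.SameCycle z y ↔ ∃ i < Function.minimalPeriod σ z, σ^[i] z = y := by
  constructor
  · intro h
    obtain ⟨i, hi⟩ := h.exists_nat_pow_eq
    refine ⟨i % Function.minimalPeriod σ z, Nat.mod_lt _ (per_pos σ z), ?_⟩
    rw [Function.iterate_mod_minimalPeriod_eq, ← hi, Perm.iterate_eq_pow]
  · rintro ⟨i, _, rfl⟩
    exact sameCycle_iter σ z i

theorem per_sameCycle (σ : Perm α) {z y : α} (h : σ.SameCycle z y) :
    Function.minimalPeriod σ y = Function.minimalPeriod σ z := by
  obtain ⟨i, _, rfl⟩ := (sameCycle_iff_exists σ z y).1 h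
  exact Function.minimalPeriod_apply_iterate (per_mem σ z) i

end SurgeryAux

open SurgeryAux

/-- The size of a cycle, as a count of its points. -/
theorem card_sameCycle (σ : Perm α) (z : α) :
    (univ.filter fun y => σ.SameCycle z y).card = Function.minimalPeriod σ z := by
  have himg : (univ.filter fun y => σ.SameCycle z y) =
      (range (Function.minimalPeriod σ z)).image (fun i => σ^[i] z) := by
    ext y
    simp only [mem_filter, mem_univ, true_and, mem_image, mem_range]
    rw [sameCycle_iff_exists]
  rw [himg, card_image_of_injOn, card_range]
  intro a ha b hb hab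
  exact Function.iterate_injOn_Iio_minimalPeriod (by simpa using ha) (by simpa using hb) hab

namespace SurgeryAux

theorem card_support_cycleOf (σ : Perm α) (x : α) (hx : σ x ≠ x) :
    (σ.cycleOf x).support.card = Function.minimalPeriod σ x := by
  rw [← card_sameCycle]
  congr 1
  ext y
  rw [Perm.mem_support_cycleOf_iff, Perm.mem_support]
  simp only [mem_filter, mem_univ, true_and]
  exact ⟨fun h => h.1, fun h => ⟨h, hx⟩⟩

theorem mul_count_cycleType (σ : Perm α) (j : ℕ) (hj : 2 ≤ j) :
    j * σ.cycleType.count j = (univ.filter fun x => Function.minimalPeriod σ x = j).card := by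
  classical
  set F := σ.cycleFactorsFinset.filter (fun c => c.support.card = j) with hF
  have h1 : σ.cycleType.count j = F.card := by
    rw [Perm.cycleType_def, Multiset.count_map, hF]
    simp only [Function.comp, Finset.card]
    congr 1
    apply Multiset.filter_congr
    intro c _
    exact eq_comm
  have hfix : ∀ x, Function.minimalPeriod σ x = j → σ x ≠ x := by
    intro x hx hfx
    have : Function.minimalPeriod σ x = 1 :=
      Function.minimalPeriod_eq_one_iff_isFixedPt.2 hfx
    omega
  have h2 : (univ.filter fun x => Function.minimalPeriod σ x = j).card =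
      ∑ c ∈ F, ((univ.filter fun x => Function.minimalPeriod σ x = j).filter
        fun x => σ.cycleOf x = c).card := by
    apply Finset.card_eq_sum_card_fiberwise
    intro x hx
    have hx' : Function.minimalPeriod σ x = j := by simpa using hx
    simp only [hF, coe_filter, Set.mem_ofPred_eq]
    refine ⟨?_, ?_⟩
    · rw [Perm.cycleOf_mem_cycleFactorsFinset_iff, Perm.mem_support]
      exact hfix x hx'
    · rw [card_support_cycleOf σ x (hfix x hx')]
      exact hx'
  have h3 : ∀ c ∈ F, ((univ.filter fun x => Function.minimalPeriod σ x = j).filter
        fun x => σ.cycleOf x = c).card = j := by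
    intro c hc
    have hc' := mem_filter.1 hc
    have : ((univ.filter fun x => Function.minimalPeriod σ x = j).filter
        fun x => σ.cycleOf x = c) = c.support := by
      ext x
      simp only [mem_filter, mem_univ, true_and]
      constructor
      · rintro ⟨hx, rfl⟩
        rw [Perm.mem_support_cycleOf_iff, Perm.mem_support]
        exact ⟨Perm.SameCycle.refl _ _, hfix x hx⟩
      · intro hx
        have hcy := Perm.cycle_is_cycleOf hx hc'.1
        refine ⟨?_, hcy.symm⟩
        have hne : σ x ≠ x := by
          have : x ∈ σ.support := Perm.mem_cycleFactorsFinset_support_le hc'.1 hx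
          exact Perm.mem_support.1 this
        rw [← card_support_cycleOf σ x hne, ← hcy]
        exact hc'.2
    rw [this]
    exact hc'.2
  rw [h2, Finset.sum_congr rfl h3, Finset.sum_const, h1, smul_eq_mul, mul_comm]

theorem count_lens_zero (σ : Perm α) : (lens σ).count 0 = 0 := by
  rw [Multiset.count_eq_zero]
  intro h
  rw [lens, Multiset.mem_add] at h
  rcases h with h | h
  · have := Perm.two_le_of_mem_cycleType h
    omega
  · have := Multiset.eq_of_mem_replicate h
    omega

theorem count_lens (σ : Perm α) (j : ℕ) (hj : 1 ≤ j) :
    j * (lens σ).count j = (univ.filter fun x => Function.minimalPeriod σ x = j).card := by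
  rw [lens, Multiset.count_add]
  rcases Nat.lt_or_ge j 2 with h | h
  · obtain rfl : j = 1 := by omega
    have h1 : σ.cycleType.count 1 = 0 := by
      rw [Multiset.count_eq_zero]
      intro h
      have := Perm.two_le_of_mem_cycleType h
      omega
    rw [h1, Multiset.count_replicate_self]
    have : (univ.filter fun x => Function.minimalPeriod σ x = 1) = σ.supportᶜ := by
      ext x
      simp [Function.minimalPeriod_eq_one_iff_isFixedPt, Function.IsFixedPt]
    rw [this, card_compl]
    simp
  · have h1 : (Multiset.replicate (Fintype.card α - σ.support.card) 1).count j = 0 := by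
      rw [Multiset.count_eq_zero]
      intro h'
      have := Multiset.eq_of_mem_replicate h'
      omega
    rw [h1, add_zero, mul_count_cycleType σ j h]

theorem iter_agree (σ : Perm α) (z y x : α) (m : ℕ)
    (hm : ∀ k < m, σ^[k] x ≠ z ∧ σ^[k] x ≠ y) :
    (σ * swap z y)^[m] x = σ^[m] x := by
  induction m with
  | zero => rfl
  | succ m ih =>
    rw [Function.iterate_succ_apply', ih (fun k hk => hm k (by omega)),
      Function.iterate_succ_apply']
    have := hm m (by omega)
    simp [Perm.mul_apply, swap_apply_of_ne_of_ne this.1 this.2]

/-- The first leg of the merged cycle. -/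
theorem iter_leg (σ : Perm α) {z y : α} (h : ¬ σ.SameCycle z y) (t : ℕ) (h1 : 1 ≤ t)
    (ht : t ≤ Function.minimalPeriod σ y) :
    (σ * swap z y)^[t] z = σ^[t] y := by
  obtain ⟨s, rfl⟩ : ∃ s, t = s + 1 := ⟨t - 1, by omega⟩
  rw [Function.iterate_succ_apply]
  have h0 : (σ * swap z y) z = σ y := by simp [Perm.mul_apply]
  rw [h0, Function.iterate_succ_apply]
  apply iter_agree
  intro k hk
  rw [← Function.iterate_succ_apply]
  constructor
  · intro h2
    apply h
    have := sameCycle_iter σ y (k + 1)
    rw [h2] at this
    exact this.symm
  · exact iter_ne σ y (k + 1) (by omega) (by omega)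


/-- The second leg. -/
theorem iter_leg' (σ : Perm α) {z y : α} (h : ¬ σ.SameCycle z y) (t : ℕ) (h1 : 1 ≤ t)
    (ht : t ≤ Function.minimalPeriod σ z) :
    (σ * swap z y)^[t] y = σ^[t] z := by
  have h' : ¬ σ.SameCycle y z := fun h2 => h h2.symm
  have := iter_leg σ h' t h1 ht
  rwa [swap_comm] at this

theorem iter_top (σ : Perm α) {z y : α} (h : ¬ σ.SameCycle z y) :
    (σ * swap z y)^[Function.minimalPeriod σ y] z = y := by
  rw [iter_leg σ h _ (per_pos σ y) le_rfl, Function.iterate_minimalPeriod]

theorem iter_top' (σ : Perm α) {z y : α} (h : ¬ σ.SameCycle z y) :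
    (σ * swap z y)^[Function.minimalPeriod σ z] y = z := by
  rw [iter_leg' σ h _ (per_pos σ z) le_rfl, Function.iterate_minimalPeriod]

/-- The period of the merged cycle. -/
theorem per_merge (σ : Perm α) {z y : α} (h : ¬ σ.SameCycle z y) :
    Function.minimalPeriod (σ * swap z y) z =
      Function.minimalPeriod σ z + Function.minimalPeriod σ y := by
  set p := Function.minimalPeriod σ z with hp
  set q := Function.minimalPeriod σ y with hq
  have hp0 : 0 < p := per_pos σ z
  have hq0 : 0 < q := per_pos σ y
  have hper : Function.IsPeriodicPt (σ * swap z y) (p + q) z := by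
    unfold Function.IsPeriodicPt Function.IsFixedPt
    rw [Function.iterate_add_apply, iter_top σ h, iter_top' σ h]
  apply le_antisymm
  · exact hper.minimalPeriod_le (by omega)
  · by_contra hlt
    push Not at hlt
    set P := Function.minimalPeriod (σ * swap z y) z with hP
    have hP0 : 0 < P := per_pos _ _
    have hPfix : (σ * swap z y)^[P] z = z := Function.iterate_minimalPeriod
    rcases Nat.lt_or_ge q P with hqP | hqP
    · obtain ⟨s, hs⟩ : ∃ s, P = s + q := ⟨P - q, by omega⟩
      rw [hs, Function.iterate_add_apply, iter_top σ h,
        iter_leg' σ h s (by omega) (by omega)] at hPfix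
      exact iter_ne σ z s (by omega) (by omega) hPfix
    · rw [iter_leg σ h P hP0 hqP] at hPfix
      apply h
      have := sameCycle_iter σ y P
      rw [hPfix] at this
      exact this.symm

theorem per_merge' (σ : Perm α) {z y : α} (h : ¬ σ.SameCycle z y) :
    Function.minimalPeriod (σ * swap z y) y =
      Function.minimalPeriod σ z + Function.minimalPeriod σ y := by
  have h' : ¬ σ.SameCycle y z := fun h2 => h h2.symm
  have := per_merge σ h'
  rw [swap_comm] at this
  rw [this, add_comm]

theorem per_on_left (σ : Perm α) {z y x : α} (h : ¬ σ.SameCycle z y) (hx : σ.SameCycle z x) :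
    Function.minimalPeriod (σ * swap z y) x =
      Function.minimalPeriod σ z + Function.minimalPeriod σ y := by
  obtain ⟨i, hi, rfl⟩ := (sameCycle_iff_exists σ z x).1 hx
  rcases Nat.eq_zero_or_pos i with rfl | h0
  · exact per_merge σ h
  · rw [← iter_leg' σ h i h0 hi.le, Function.minimalPeriod_apply_iterate (per_mem _ _),
      per_merge' σ h]

theorem per_on_right (σ : Perm α) {z y x : α} (h : ¬ σ.SameCycle z y) (hx : σ.SameCycle y x) :
    Function.minimalPeriod (σ * swap z y) x =
      Function.minimalPeriod σ z + Function.minimalPeriod σ y := by
  obtain ⟨i, hi, rfl⟩ := (sameCycle_iff_exists σ y x).1 hx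
  rcases Nat.eq_zero_or_pos i with rfl | h0
  · exact per_merge' σ h
  · rw [← iter_leg σ h i h0 hi.le, Function.minimalPeriod_apply_iterate (per_mem _ _),
      per_merge σ h]

theorem per_off (σ : Perm α) {z y x : α} (hz : ¬ σ.SameCycle z x) (hy : ¬ σ.SameCycle y x) :
    Function.minimalPeriod (σ * swap z y) x = Function.minimalPeriod σ x := by
  rw [Function.minimalPeriod_eq_minimalPeriod_iff]
  intro n
  unfold Function.IsPeriodicPt Function.IsFixedPt
  have : (σ * swap z y)^[n] x = σ^[n] x := by
    apply iter_agree
    intro k _
    constructor
    · intro h2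
      apply hz
      have := sameCycle_iter σ x k
      rw [h2] at this
      exact this.symm
    · intro h2
      apply hy
      have := sameCycle_iter σ x k
      rw [h2] at this
      exact this.symm
  rw [this]

/-- The pointwise count for merging. -/
theorem count_merge (σ : Perm α) {z y : α} (h : ¬ σ.SameCycle z y) (j : ℕ) :
    (univ.filter fun x => Function.minimalPeriod (σ * swap z y) x = j).card +
      ((if Function.minimalPeriod σ z = j then Function.minimalPeriod σ z else 0) +
        (if Function.minimalPeriod σ y = j then Function.minimalPeriod σ y else 0)) =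
    (univ.filter fun x => Function.minimalPeriod σ x = j).card +
      (if Function.minimalPeriod σ z + Function.minimalPeriod σ y = j then
        Function.minimalPeriod σ z + Function.minimalPeriod σ y else 0) := by
  set p := Function.minimalPeriod σ z with hp
  set q := Function.minimalPeriod σ y with hq
  have hpc : p = (univ.filter fun x => σ.SameCycle z x).card := (card_sameCycle σ z).symm
  have hqc : q = (univ.filter fun x => σ.SameCycle y x).card := (card_sameCycle σ y).symm
  have e1 : (if p = j then p else 0) =
      ∑ x, if σ.SameCycle z x then (if p = j then 1 else 0) else 0 := by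
    rw [← Finset.sum_filter, Finset.sum_const, smul_eq_mul, ← hpc]
    split_ifs <;> simp
  have e2 : (if q = j then q else 0) =
      ∑ x, if σ.SameCycle y x then (if q = j then 1 else 0) else 0 := by
    rw [← Finset.sum_filter, Finset.sum_const, smul_eq_mul, ← hqc]
    split_ifs <;> simp
  have e3 : (if p + q = j then p + q else 0) =
      (∑ x, if σ.SameCycle z x then (if p + q = j then 1 else 0) else 0) +
      ∑ x, if σ.SameCycle y x then (if p + q = j then 1 else 0) else 0 := by
    rw [← Finset.sum_filter, Finset.sum_const, smul_eq_mul, ← hpc,
      ← Finset.sum_filter, Finset.sum_const, smul_eq_mul, ← hqc]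
    split_ifs <;> simp
  rw [e1, e2, e3, Finset.card_filter, Finset.card_filter, ← Finset.sum_add_distrib,
    ← Finset.sum_add_distrib, ← Finset.sum_add_distrib, ← Finset.sum_add_distrib]
  apply Finset.sum_congr rfl
  intro x _
  by_cases hzx : σ.SameCycle z x
  · have hyx : ¬ σ.SameCycle y x := fun h2 => h (hzx.trans h2.symm)
    have h1 : Function.minimalPeriod (σ * swap z y) x = p + q := per_on_left σ h hzx
    have h2 : Function.minimalPeriod σ x = p := per_sameCycle σ hzx
    simp only [hzx, hyx, h1, h2, if_true, if_false]
    omega
  · by_cases hyx : σ.SameCycle y x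
    · have h1 : Function.minimalPeriod (σ * swap z y) x = p + q := per_on_right σ h hyx
      have h2 : Function.minimalPeriod σ x = q := per_sameCycle σ hyx
      simp only [hzx, hyx, h1, h2, if_true, if_false]
      omega
    · have h1 : Function.minimalPeriod (σ * swap z y) x = Function.minimalPeriod σ x :=
        per_off σ hzx hyx
      simp only [hzx, hyx, h1, if_false]

theorem not_sameCycle_of_sameCycle (σ : Perm α) {z y : α} (hzy : z ≠ y) (h : σ.SameCycle z y) :
    ¬ (σ * swap z y).SameCycle z y := by
  obtain ⟨t, ht, rfl⟩ := (sameCycle_iff_exists σ z y).1 h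
  set c := Function.minimalPeriod σ z with hc
  have ht0 : 0 < t := by
    rcases Nat.eq_zero_or_pos t with rfl | h0
    · exact absurd rfl hzy
    · exact h0
  have hinj : ∀ a b, a < c → b < c → σ^[a] z = σ^[b] z → a = b := by
    intro a b ha hb hab
    exact Function.iterate_injOn_Iio_minimalPeriod (by simpa using ha) (by simpa using hb) hab
  set y := σ^[t] z with hy
  have hlegs : ∀ k, 1 ≤ k → k ≤ c - t → (σ * swap z y)^[k] z = σ^[t + k] z := by
    intro k h1 hk
    obtain ⟨s, rfl⟩ : ∃ s, k = s + 1 := ⟨k - 1, by omega⟩
    rw [Function.iterate_succ_apply]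
    have h0 : (σ * swap z y) z = σ y := by simp [Perm.mul_apply]
    rw [h0, iter_agree]
    · rw [← Function.iterate_succ_apply, hy, ← Function.iterate_add_apply]
      congr 1
      omega
    · intro i hi
      have e : σ^[i] (σ y) = σ^[t + (i + 1)] z := by
        rw [← Function.iterate_succ_apply, hy, ← Function.iterate_add_apply]
        congr 1
        omega
      rw [e]
      constructor
      · intro h2
        have := hinj (t + (i + 1)) 0 (by omega) (by omega) (by simpa using h2)
        omega
      · intro h2
        have := hinj (t + (i + 1)) t (by omega) ht h2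
        omega
  intro hsame
  obtain ⟨i, hi, hiy⟩ := (sameCycle_iff_exists _ z y).1 hsame
  have hper : Function.IsPeriodicPt (σ * swap z y) (c - t) z := by
    unfold Function.IsPeriodicPt Function.IsFixedPt
    rw [hlegs (c - t) (by omega) le_rfl]
    have : t + (c - t) = c := by omega
    rw [this]
    exact Function.iterate_minimalPeriod
  have hle := hper.minimalPeriod_le (by omega)
  rcases Nat.eq_zero_or_pos i with rfl | h0
  · exact hzy hiy
  · rw [hlegs i h0 (by omega)] at hiy
    have := hinj (t + i) t (by omega) ht hiy
    omega

end SurgeryAux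

open SurgeryAux

/-- Merging two cycles. -/
theorem lens_swap_diff (σ : Perm α) (z y : α) (h : ¬ σ.SameCycle z y) :
    lens (σ * swap z y) + {Function.minimalPeriod σ z, Function.minimalPeriod σ y} =
      lens σ + {Function.minimalPeriod σ z + Function.minimalPeriod σ y} := by
  have hp0 := per_pos σ z
  have hq0 := per_pos σ y
  ext j
  rcases Nat.eq_zero_or_pos j with rfl | hj
  · simp only [Multiset.count_add, count_lens_zero, Multiset.insert_eq_cons, Multiset.count_cons,
      Multiset.count_singleton]
    split_ifs <;> omega
  · have h1 := count_lens (σ * swap z y) j hj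
    have h2 := count_lens σ j hj
    have h3 := count_merge σ h j
    rw [← h1, ← h2] at h3
    apply Nat.eq_of_mul_eq_mul_left hj
    simp only [Multiset.count_add, Multiset.insert_eq_cons, Multiset.count_cons,
      Multiset.count_singleton]
    generalize Function.minimalPeriod σ z = p at h3 ⊢
    generalize Function.minimalPeriod σ y = q at h3 ⊢
    have t1 : (if p = j then p else 0) = j * (if j = p then 1 else 0) := by
      by_cases e : p = j
      · subst e; simp
      · simp [e, Ne.symm e]
    have t2 : (if q = j then q else 0) = j * (if j = q then 1 else 0) := by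
      by_cases e : q = j
      · subst e; simp
      · simp [e, Ne.symm e]
    have t3 : (if p + q = j then p + q else 0) = j * (if j = p + q then 1 else 0) := by
      by_cases e : p + q = j
      · subst e; simp
      · simp [e, Ne.symm e]
    rw [t1, t2, t3] at h3
    rw [mul_add, mul_add, mul_add]
    linarith

/-- Splitting a cycle. -/
theorem lens_swap_same (σ : Perm α) (z y : α) (hzy : z ≠ y) (h : σ.SameCycle z y) :
    ∃ a b : ℕ, 1 ≤ a ∧ 1 ≤ b ∧ a + b = Function.minimalPeriod σ z ∧
      lens (σ * swap z y) + {Function.minimalPeriod σ z} = lens σ + {a, b} := by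
  have hn := not_sameCycle_of_sameCycle σ hzy h
  have hm := lens_swap_diff (σ * swap z y) z y hn
  have hself : σ * swap z y * swap z y = σ := by
    rw [mul_assoc, swap_mul_self, mul_one]
  have hper := per_merge (σ * swap z y) hn
  rw [hself] at hm hper
  refine ⟨Function.minimalPeriod (σ * swap z y) z, Function.minimalPeriod (σ * swap z y) y,
    per_pos _ _, per_pos _ _, hper.symm, ?_⟩
  rw [hper]
  exact hm.symm

theorem lens_option_fixed (σ : Perm α) :
    lens (Equiv.optionCongr σ) = lens σ + {1} := by
  have hiter : ∀ (n : ℕ) (x : α), (Equiv.optionCongr σ)^[n] (some x) = some (σ^[n] x) := by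
    intro n x
    induction n with
    | zero => rfl
    | succ n ih =>
      rw [Function.iterate_succ_apply', ih, Function.iterate_succ_apply']
      simp
  have hsome : ∀ x : α, Function.minimalPeriod (Equiv.optionCongr σ) (some x) =
      Function.minimalPeriod σ x := by
    intro x
    rw [Function.minimalPeriod_eq_minimalPeriod_iff]
    intro n
    unfold Function.IsPeriodicPt Function.IsFixedPt
    rw [hiter]
    simp
  have hnone : Function.minimalPeriod (Equiv.optionCongr σ) none = 1 := by
    rw [Function.minimalPeriod_eq_one_iff_isFixedPt]
    simp [Function.IsFixedPt]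
  ext j
  rcases Nat.eq_zero_or_pos j with rfl | hj
  · simp [Multiset.count_add, count_lens_zero]
  · apply Nat.eq_of_mul_eq_mul_left hj
    rw [count_lens _ j hj, Multiset.count_add, mul_add, count_lens _ j hj, Finset.card_filter,
      Fintype.sum_option, Finset.card_filter, hnone]
    simp only [hsome]
    rw [add_comm, Multiset.count_singleton]
    by_cases e : j = 1
    · subst e
      simp
    · have e' : ¬ (1 = j) := fun h => e h.symm
      simp [e, e']

theorem per_option (σ : Perm α) (x : α) :
    Function.minimalPeriod (Equiv.optionCongr σ) (some x) = Function.minimalPeriod σ x := by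
  have hiter : ∀ (n : ℕ) (x : α), (Equiv.optionCongr σ)^[n] (some x) = some (σ^[n] x) := by
    intro n x
    induction n with
    | zero => rfl
    | succ n ih =>
      rw [Function.iterate_succ_apply', ih, Function.iterate_succ_apply']
      simp
  rw [Function.minimalPeriod_eq_minimalPeriod_iff]
  intro n
  unfold Function.IsPeriodicPt Function.IsFixedPt
  rw [hiter]
  simp

namespace SurgeryAux

/-- Decomposition of a permutation moving `none`. -/
theorem decompose (π : Perm (Option α)) (z : α) (hz : π (some z) = none) :
    π = Equiv.optionCongr (Equiv.removeNone π) * swap none (some z) := by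
  have hopt : ∀ (τ : Perm α) (a : α), Equiv.optionCongr τ (some a) = some (τ a) := by
    intro τ a
    simp
  have hopt0 : ∀ (τ : Perm α), Equiv.optionCongr τ none = none := by
    intro τ
    simp
  ext1 x
  rcases x with _ | a
  · rw [Perm.mul_apply, swap_apply_left, hopt, Equiv.removeNone_none π hz]
  · by_cases ha : a = z
    · subst ha
      rw [Perm.mul_apply, swap_apply_right, hopt0, hz]
    · have hne : π (some a) ≠ none := by
        intro h2
        have := π.injective (h2.trans hz.symm)
        exact ha (Option.some.inj this)
      obtain ⟨w, hw⟩ := Option.ne_none_iff_exists'.1 hne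
      have h3 : swap (none : Option α) (some z) (some a) = some a :=
        swap_apply_of_ne_of_ne (by simp) (by simpa using ha)
      have h4 : some (Equiv.removeNone π a) = π (some a) := Equiv.removeNone_some π ⟨w, hw⟩
      rw [Perm.mul_apply, h3, ← h4, hopt]

theorem not_same_none (τ : Perm α) (z : α) :
    ¬ Perm.SameCycle (Equiv.optionCongr τ) none (some z) := by
  intro h
  obtain ⟨i, hi⟩ := h
  have hfix : (Equiv.optionCongr τ) none = none := by simp
  have := Perm.zpow_apply_eq_self_of_apply_eq_self hfix i
  rw [this] at hi
  exact absurd hi (by simp)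

theorem per_none_fixed (τ : Perm α) : Function.minimalPeriod (Equiv.optionCongr τ) none = 1 := by
  rw [Function.minimalPeriod_eq_one_iff_isFixedPt]
  simp [Function.IsFixedPt]

theorem per_removeNone (π : Perm (Option α)) (z : α) (hz : π (some z) = none) :
    Function.minimalPeriod π none = 1 + Function.minimalPeriod (Equiv.removeNone π) z := by
  have hd := decompose π z hz
  have hm := per_merge (Equiv.optionCongr (Equiv.removeNone π)) (not_same_none (Equiv.removeNone π) z)
  rw [← hd, per_none_fixed, per_option] at hm
  exact hm

theorem exists_pre (π : Perm (Option α)) (h : π none ≠ none) : ∃ z : α, π (some z) = none := by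
  cases hw : π.symm none with
  | none =>
    have : π none = none := by
      have h2 : π (π.symm none) = none := by simp
      rwa [hw] at h2
    exact absurd this h
  | some z =>
    refine ⟨z, ?_⟩
    have h2 : π (π.symm none) = none := by simp
    rwa [hw] at h2

end SurgeryAux

/-- The cycle through `z = π⁻¹ none` after deleting `none`. -/
theorem minimalPeriod_removeNone (π : Perm (Option α)) (h : π none ≠ none) (z : α)
    (hz : π (some z) = none) :
    Function.minimalPeriod (Equiv.removeNone π) z = Function.minimalPeriod π none - 1 := by
  rw [per_removeNone π z hz]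
  omega

/-- Deleting the point `none` from a cycle of length `j ≥ 2`. -/
theorem lens_removeNone (π : Perm (Option α)) (h : π none ≠ none) :
    lens (Equiv.removeNone π) + {Function.minimalPeriod π none} =
      lens π + {Function.minimalPeriod π none - 1} := by
  obtain ⟨z, hz⟩ := exists_pre π h
  have hd := decompose π z hz
  have hL := per_removeNone π z hz
  have hm := lens_swap_diff (Equiv.optionCongr (Equiv.removeNone π)) none (some z)
    (not_same_none _ z)
  rw [← hd, per_none_fixed, per_option, lens_option_fixed, ← hL] at hm
  have hs : Function.minimalPeriod π none - 1 = Function.minimalPeriod (Equiv.removeNone π) z := by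
    omega
  rw [hs]
  ext j
  have := congrArg (Multiset.count j) hm
  simp only [Multiset.count_add, Multiset.insert_eq_cons, Multiset.count_cons,
    Multiset.count_singleton] at this ⊢
  split_ifs at this ⊢ <;> omega

/-- `minimalPeriod σ y` is a member of `lens σ`, and removing a swap changes the rank by at most 1:
the rank `support - number of cycles` for multiplication by a swap. -/
theorem minimalPeriod_mem_lens (σ : Perm α) (z : α) :
    Function.minimalPeriod σ z ∈ lens σ := by
  have hp := per_pos σ z
  rw [← Multiset.count_pos]
  have h1 := count_lens σ _ hp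
  have h2 : 0 < (univ.filter fun x => Function.minimalPeriod σ x = Function.minimalPeriod σ z).card :=
    Finset.card_pos.2 ⟨z, by simp⟩
  rw [← h1] at h2
  exact Nat.pos_of_mul_pos_left h2 |> fun h3 => h3

namespace SurgeryAux

/-- The rank read from the lengths. -/
theorem rank_eq (σ : Perm α) :
    σ.cycleType.sum - Multiset.card σ.cycleType = ((lens σ).map (fun j => j - 1)).sum := by
  have key : ∀ s : Multiset ℕ, (∀ j ∈ s, 1 ≤ j) →
      (s.map (fun j => j - 1)).sum + Multiset.card s = s.sum := by
    intro s
    induction s using Multiset.induction_on with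
    | empty => simp
    | cons a s ih =>
      intro hs
      have h1 := ih (fun j hj => hs j (Multiset.mem_cons_of_mem hj))
      have h2 := hs a (Multiset.mem_cons_self a s)
      simp only [Multiset.map_cons, Multiset.sum_cons, Multiset.card_cons]
      omega
  have h1 := key σ.cycleType (fun j hj => by
    have := Perm.two_le_of_mem_cycleType hj
    omega)
  rw [lens, Multiset.map_add, Multiset.sum_add, Multiset.map_replicate, Multiset.sum_replicate]
  simp only [Nat.sub_self, smul_eq_mul, mul_zero, add_zero]
  omega

end SurgeryAux

/-- The reflection length changes by one at most under a swap. -/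
theorem rank_mul_swap_ge (σ : Perm α) (a b : α) (hab : a ≠ b) :
    σ.cycleType.sum - Multiset.card σ.cycleType ≤
      (σ * swap a b).cycleType.sum - Multiset.card (σ * swap a b).cycleType + 1 := by
  rw [rank_eq, rank_eq]
  by_cases h : σ.SameCycle a b
  · obtain ⟨x, y, hx, hy, hxy, hl⟩ := lens_swap_same σ a b hab h
    have := congrArg (fun s : Multiset ℕ => (s.map (fun j => j - 1)).sum) hl
    simp only [Multiset.map_add, Multiset.sum_add, Multiset.insert_eq_cons, Multiset.map_cons,
      Multiset.sum_cons, Multiset.map_singleton, Multiset.sum_singleton] at this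
    omega
  · have hl := lens_swap_diff σ a b h
    have := congrArg (fun s : Multiset ℕ => (s.map (fun j => j - 1)).sum) hl
    simp only [Multiset.map_add, Multiset.sum_add, Multiset.insert_eq_cons, Multiset.map_cons,
      Multiset.sum_cons, Multiset.map_singleton, Multiset.sum_singleton] at this
    have h1 := per_pos σ a
    have h2 := per_pos σ b
    omega

/-- Multiplying by a swap with a point off the support raises the reflection length by one. -/
theorem rank_mul_swap_fresh (σ : Perm α) (a b : α) (hab : a ≠ b) (hb : σ b = b) :
    (σ * swap a b).cycleType.sum - Multiset.card (σ * swap a b).cycleType =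
      σ.cycleType.sum - Multiset.card σ.cycleType + 1 := by
  rw [rank_eq, rank_eq]
  have h : ¬ σ.SameCycle a b := by
    intro h2
    obtain ⟨i, hi⟩ := h2.symm
    have := Perm.zpow_apply_eq_self_of_apply_eq_self hb i
    rw [this] at hi
    exact hab hi.symm
  have hl := lens_swap_diff σ a b h
  have := congrArg (fun s : Multiset ℕ => (s.map (fun j => j - 1)).sum) hl
  simp only [Multiset.map_add, Multiset.sum_add, Multiset.insert_eq_cons, Multiset.map_cons,
    Multiset.sum_cons, Multiset.map_singleton, Multiset.sum_singleton] at this
  have h1 := per_pos σ a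
  have h2 := per_pos σ b
  omega

end Vale.Agent.Lib.P197
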