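import Vale.Agent.Lib.P197.Specht
import Vale.Agent.Lib.P197.Surgery

/-!
# P197 module CountN: the count of labelled factorisations (blueprint sec 9)
-/

open Equiv Finset

namespace Vale.Agent.Lib.P197

variable {n : ℕ} {μ : YoungDiagram}

section
variable {α : Type*} [Fintype α] [DecidableEq α]

open Classical in
/-- Injective placements of `α` in the diagram for which `π = a * b` with `a` preserving rows and
`b` preserving columns. -/
noncomputable def countN (μ : YoungDiagram) (π : Perm α) : ℕ :=
  (univ.filter fun f : α ↪ {c // c ∈ μ.cells} => ∃ a b : Perm α, π = a * b ∧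
    (∀ u, (f (a u)).1.1 = (f u).1.1) ∧ ∀ u, (f (b u)).1.2 = (f u).1.2).card

open Classical in
/-- The set counted by `countN`. -/
noncomputable def cnSet (μ : YoungDiagram) (π : Perm α) : Finset (α ↪ {c // c ∈ μ.cells}) :=
  univ.filter fun f : α ↪ {c // c ∈ μ.cells} => ∃ a b : Perm α, π = a * b ∧
    (∀ u, (f (a u)).1.1 = (f u).1.1) ∧ ∀ u, (f (b u)).1.2 = (f u).1.2

theorem countN_eq_card (μ : YoungDiagram) (π : Perm α) : countN μ π = (cnSet μ π).card := rfl

theorem mem_cnSet {μ : YoungDiagram} {π : Perm α} {f : α ↪ {c // c ∈ μ.cells}} :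
    f ∈ cnSet μ π ↔ ∃ a b : Perm α, π = a * b ∧
      (∀ u, (f (a u)).1.1 = (f u).1.1) ∧ ∀ u, (f (b u)).1.2 = (f u).1.2 := by
  simp [cnSet]

/-- Characterisation of `removeNone`. -/
theorem rn_spec (e : Perm (Option α)) (u : α) :
    some (Equiv.removeNone e u) = if e (some u) = none then e none else e (some u) := by
  split_ifs with h
  · exact Equiv.removeNone_none e h
  · obtain ⟨v, hv⟩ := Option.ne_none_iff_exists'.1 h
    exact Equiv.removeNone_some e ⟨v, hv⟩

/-- An invariant of `a` is an invariant of `removeNone a`. -/
theorem rn_pres {X : Type*} (a : Perm (Option α)) (r : Option α → X)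
    (h : ∀ u, r (a u) = r u) (u : α) :
    r (some (Equiv.removeNone a u)) = r (some u) := by
  rw [rn_spec]
  split_ifs with h1
  · rw [h none, ← h (some u), h1]
  · exact h _

/-- Case: `b` fixes `none`. -/
theorem rn_mul_left (a b : Perm (Option α)) (hb : b none = none) :
    Equiv.removeNone a * Equiv.removeNone b = Equiv.removeNone (a * b) := by
  ext1 u
  apply Option.some_injective
  have h1 : b (some u) ≠ none := by
    intro h
    have := b.injective (h.trans hb.symm)
    simp at this
  obtain ⟨v, hv⟩ := Option.ne_none_iff_exists'.1 h1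
  have h2 : Equiv.removeNone b u = v := by
    apply Option.some_injective
    rw [rn_spec, if_neg h1, hv]
  rw [Perm.mul_apply, h2, rn_spec, rn_spec]
  simp only [Perm.mul_apply, hv, hb]

/-- Case: `a` fixes `none`. -/
theorem rn_mul_right (a b : Perm (Option α)) (ha : a none = none) :
    Equiv.removeNone a * Equiv.removeNone b = Equiv.removeNone (a * b) := by
  ext1 u
  apply Option.some_injective
  have hA : ∀ v : α, some (Equiv.removeNone a v) = a (some v) := by
    intro v
    rw [rn_spec, if_neg]
    intro h
    have := a.injective (h.trans ha.symm)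
    simp at this
  rw [Perm.mul_apply, hA, rn_spec b, rn_spec (a * b)]
  simp only [Perm.mul_apply]
  by_cases h : b (some u) = none
  · simp [h, ha]
  · have h3 : a (b (some u)) ≠ none := by
      intro h4
      exact h (a.injective (h4.trans ha.symm))
    simp [h, h3]

/-- Case: neither fixes `none`; `y` is the `b` preimage of `none`, `z` the preimage under the
product. -/
theorem rn_mul_swap (a b : Perm (Option α)) (z y : α) (hzy : z ≠ y)
    (hb : b (some y) = none) (hz : a (b (some z)) = none) :
    Equiv.removeNone a * Equiv.removeNone b = Equiv.removeNone (a * b) * swap z y := by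
  have hw : a (b none) ≠ none := by
    intro h
    have h1 := b.injective (a.injective (h.trans hz.symm))
    simp at h1
  have ha : a none ≠ none := by
    intro h
    have h1 : b (some z) = none := a.injective (hz.trans h.symm)
    have h2 := b.injective (h1.trans hb.symm)
    exact hzy (Option.some_injective _ h2)
  ext1 u
  apply Option.some_injective
  rw [Perm.mul_apply, Perm.mul_apply]
  by_cases huy : u = y
  · subst huy
    rw [swap_apply_right, rn_spec (a * b), rn_spec a, rn_spec b]
    simp only [Perm.mul_apply, hz, if_true, hb]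
    simp [hw]
  · by_cases huz : u = z
    · subst huz
      rw [swap_apply_left, rn_spec (a * b), rn_spec a, rn_spec b]
      have h1 : b (some u) ≠ none := by
        intro h
        have h2 := b.injective (h.trans hb.symm)
        exact hzy (Option.some_injective _ h2)
      simp only [Perm.mul_apply, hb, ha, if_false, h1, hz, if_true]
    · rw [swap_apply_of_ne_of_ne huz huy, rn_spec (a * b), rn_spec a, rn_spec b]
      have h1 : b (some u) ≠ none := by
        intro h
        have h2 := b.injective (h.trans hb.symm)
        exact huy (Option.some_injective _ h2)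
      have h3 : a (b (some u)) ≠ none := by
        intro h
        have h2 := b.injective (a.injective (h.trans hz.symm))
        exact huz (Option.some_injective _ h2)
      simp only [Perm.mul_apply, h1, if_false, h3]

/-- Restriction of a placement. -/
def restr (f : Option α ↪ {c // c ∈ μ.cells}) : α ↪ {c // c ∈ μ.cells} :=
  ⟨fun u => f (some u), fun _ _ h => Option.some_injective _ (f.injective h)⟩

@[simp] theorem restr_apply (f : Option α ↪ {c // c ∈ μ.cells}) (u : α) :
    restr f u = f (some u) := rfl

theorem restr_ext {f f' : Option α ↪ {c // c ∈ μ.cells}} (h : restr f = restr f')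
    (h0 : f none = f' none) : f = f' := by
  ext1 x
  cases x with
  | none => exact h0
  | some u => exact congrArg (fun g : α ↪ {c // c ∈ μ.cells} => g u) h

/-- A factorisation descends to the restricted placement. -/
theorem restr_mem (f : Option α ↪ {c // c ∈ μ.cells}) (a b : Perm (Option α))
    (ha : ∀ u, (f (a u)).1.1 = (f u).1.1) (hb : ∀ u, (f (b u)).1.2 = (f u).1.2)
    (σ : Perm α) (hσ : σ = Equiv.removeNone a * Equiv.removeNone b) :
    restr f ∈ cnSet μ σ := by
  refine mem_cnSet.2 ⟨_, _, hσ, fun u => ?_, fun u => ?_⟩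
  · exact rn_pres a (fun x => (f x).1.1) ha u
  · exact rn_pres b (fun x => (f x).1.2) hb u

theorem card_row_le (μ : YoungDiagram) (r M : ℕ) (hr : μ.rowLen 0 ≤ M) :
    (univ.filter fun c : {c // c ∈ μ.cells} => c.1.1 = r).card ≤ M := by
  refine le_trans ?_ (le_trans (μ.rowLen_anti 0 r (Nat.zero_le _)) hr)
  rw [YoungDiagram.rowLen_eq_card]
  refine Finset.card_le_card_of_injOn (fun c => c.1) ?_ ?_
  · intro c hc
    simp only [coe_filter, mem_univ, true_and, Set.mem_ofPred_eq] at hc
    simp only [mem_coe] at *
    exact YoungDiagram.mem_row_iff.2 ⟨c.2, hc⟩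
  · intro c _ d _ h
    exact Subtype.ext h

theorem card_col_le (μ : YoungDiagram) (r M : ℕ) (hr : μ.colLen 0 ≤ M) :
    (univ.filter fun c : {c // c ∈ μ.cells} => c.1.2 = r).card ≤ M := by
  refine le_trans ?_ (le_trans (μ.colLen_anti 0 r (Nat.zero_le _)) hr)
  rw [YoungDiagram.colLen_eq_card]
  refine Finset.card_le_card_of_injOn (fun c => c.1) ?_ ?_
  · intro c hc
    simp only [coe_filter, mem_univ, true_and, Set.mem_ofPred_eq] at hc
    simp only [mem_coe] at *
    exact YoungDiagram.mem_col_iff.2 ⟨c.2, hc⟩
  · intro c _ d _ h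
    exact Subtype.ext h

/-- The recursion at a fixed point. -/
theorem countN_fixed (μ : YoungDiagram) (hμ : μ.card = n) (σ : Perm α) :
    countN μ (Equiv.optionCongr σ) ≤ n * countN μ σ := by
  classical
  rw [countN_eq_card, countN_eq_card]
  refine Finset.card_le_mul_card_image_of_maps_to (f := restr) ?_ n ?_
  · intro f hf
    obtain ⟨a, b, hπ, ha, hb⟩ := mem_cnSet.1 hf
    have h0 : (Equiv.optionCongr σ) none = none := by simp
    rw [hπ, Perm.mul_apply] at h0
    have h1 : b none = none := by
      apply f.injective
      apply Subtype.ext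
      apply Prod.ext
      · have := ha (b none)
        rw [h0] at this
        exact this.symm
      · exact hb none
    refine restr_mem f a b ha hb σ ?_
    rw [rn_mul_left a b h1, ← hπ, Equiv.removeNone_optionCongr]
  · intro g _
    have hcard : Fintype.card {c // c ∈ μ.cells} = n := by
      rw [Fintype.card_coe]
      exact hμ
    rw [← hcard, ← Finset.card_univ]
    refine Finset.card_le_card_of_injOn (fun f => f none) (fun _ _ => mem_univ _) ?_
    intro f hf f' hf' h
    have h1 := (Finset.mem_filter.1 hf).2
    have h2 := (Finset.mem_filter.1 hf').2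
    exact restr_ext (h1.trans h2.symm) h

/-- The recursion at a moved point; `z` is the preimage of `none`. -/
theorem countN_moved (μ : YoungDiagram) (M : ℕ) (hr : μ.rowLen 0 ≤ M) (hc : μ.colLen 0 ≤ M)
    (π : Perm (Option α)) (h : π none ≠ none) (z : α) (hz : π (some z) = none) :
    countN μ π ≤ 2 * M * countN μ (Equiv.removeNone π) +
      ∑ y ∈ univ.erase z, countN μ (Equiv.removeNone π * swap z y) := by
  classical
  obtain ⟨w, hw⟩ := Option.ne_none_iff_exists'.1 h
  rw [countN_eq_card]
  -- the three pieces
  set SA := (cnSet μ π).filter fun f => ∃ a b : Perm (Option α), π = a * b ∧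
    (∀ u, (f (a u)).1.1 = (f u).1.1) ∧ (∀ u, (f (b u)).1.2 = (f u).1.2) ∧ b none = none with hSA
  set SB := (cnSet μ π).filter fun f => ∃ a b : Perm (Option α), π = a * b ∧
    (∀ u, (f (a u)).1.1 = (f u).1.1) ∧ (∀ u, (f (b u)).1.2 = (f u).1.2) ∧ a none = none with hSB
  let SC : α → Finset (Option α ↪ {c // c ∈ μ.cells}) := fun y =>
    (cnSet μ π).filter fun f => ∃ a b : Perm (Option α), π = a * b ∧
      (∀ u, (f (a u)).1.1 = (f u).1.1) ∧ (∀ u, (f (b u)).1.2 = (f u).1.2) ∧
        b (some y) = none ∧ a none ≠ none
  have hcover : cnSet μ π ⊆ SA ∪ SB ∪ (univ.erase z).biUnion SC := by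
    intro f hf
    obtain ⟨a, b, hπ, ha, hb⟩ := mem_cnSet.1 hf
    by_cases h1 : b none = none
    · apply Finset.mem_union_left
      apply Finset.mem_union_left
      exact Finset.mem_filter.2 ⟨hf, a, b, hπ, ha, hb, h1⟩
    by_cases h2 : a none = none
    · apply Finset.mem_union_left
      apply Finset.mem_union_right
      exact Finset.mem_filter.2 ⟨hf, a, b, hπ, ha, hb, h2⟩
    · apply Finset.mem_union_right
      -- the preimage of none under b
      have h3 : b.symm none ≠ none := by
        intro h4
        apply h1
        have := congrArg b h4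
        simpa using this.symm
      obtain ⟨y, hy⟩ := Option.ne_none_iff_exists'.1 h3
      have hy' : b (some y) = none := by
        rw [← hy]
        simp
      refine Finset.mem_biUnion.2 ⟨y, Finset.mem_erase.2 ⟨?_, mem_univ _⟩, ?_⟩
      · rintro rfl
        rw [hπ, Perm.mul_apply, hy'] at hz
        exact h2 hz
      · exact Finset.mem_filter.2 ⟨hf, a, b, hπ, ha, hb, hy', h2⟩
  have hA : SA.card ≤ M * countN μ (Equiv.removeNone π) := by
    rw [countN_eq_card]
    refine Finset.card_le_mul_card_image_of_maps_to (f := restr) ?_ M ?_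
    · intro f hf
      obtain ⟨a, b, hπ, ha, hb, h1⟩ := (Finset.mem_filter.1 hf).2
      refine restr_mem f a b ha hb _ ?_
      rw [rn_mul_left a b h1, hπ]
    · intro g _
      refine le_trans ?_ (card_row_le μ (g w).1.1 M hr)
      refine Finset.card_le_card_of_injOn (fun f => f none) ?_ ?_
      · intro f hf
        have hf' := Finset.mem_filter.1 hf
        obtain ⟨a, b, hπ, ha, hb, h1⟩ := (Finset.mem_filter.1 hf'.1).2
        simp only [coe_filter, mem_univ, true_and, Set.mem_ofPred_eq]
        rw [← hf'.2, restr_apply, ← hw, hπ, Perm.mul_apply, h1]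
        exact (ha none).symm
      · intro f hf f' hf' h
        have h1 := (Finset.mem_filter.1 hf).2
        have h2 := (Finset.mem_filter.1 hf').2
        exact restr_ext (h1.trans h2.symm) h
  have hB : SB.card ≤ M * countN μ (Equiv.removeNone π) := by
    rw [countN_eq_card]
    refine Finset.card_le_mul_card_image_of_maps_to (f := restr) ?_ M ?_
    · intro f hf
      obtain ⟨a, b, hπ, ha, hb, h1⟩ := (Finset.mem_filter.1 hf).2
      refine restr_mem f a b ha hb _ ?_
      rw [rn_mul_right a b h1, hπ]
    · intro g _
      refine le_trans ?_ (card_col_le μ (g z).1.2 M hc)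
      refine Finset.card_le_card_of_injOn (fun f => f none) ?_ ?_
      · intro f hf
        have hf' := Finset.mem_filter.1 hf
        obtain ⟨a, b, hπ, ha, hb, h1⟩ := (Finset.mem_filter.1 hf'.1).2
        simp only [coe_filter, mem_univ, true_and, Set.mem_ofPred_eq]
        have h3 : b (some z) = none := by
          apply a.injective
          rw [h1, ← Perm.mul_apply, ← hπ, hz]
        rw [← hf'.2, restr_apply, ← hb (some z), h3]
      · intro f hf f' hf' h
        have h1 := (Finset.mem_filter.1 hf).2
        have h2 := (Finset.mem_filter.1 hf').2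
        exact restr_ext (h1.trans h2.symm) h
  have hC : ∀ y ∈ univ.erase z, (SC y).card ≤ countN μ (Equiv.removeNone π * swap z y) := by
    intro y hy
    have hzy : z ≠ y := (Finset.mem_erase.1 hy).1.symm
    rw [countN_eq_card]
    refine Finset.card_le_card_of_injOn restr ?_ ?_
    · intro f hf
      obtain ⟨a, b, hπ, ha, hb, h1, -⟩ := (Finset.mem_filter.1 hf).2
      refine restr_mem f a b ha hb _ ?_
      rw [rn_mul_swap a b z y hzy h1 (by rw [← Perm.mul_apply, ← hπ, hz]), hπ]
    · intro f hf f' hf' heq
      obtain ⟨a, b, hπ, ha, hb, h1, h2⟩ := (Finset.mem_filter.1 hf).2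
      obtain ⟨a', b', hπ', ha', hb', h1', h2'⟩ := (Finset.mem_filter.1 hf').2
      refine restr_ext heq ?_
      -- `π (some y)` is not none and determines the row
      have h3 : π (some y) = a none := by rw [hπ, Perm.mul_apply, h1]
      have h3' : π (some y) = a' none := by rw [hπ', Perm.mul_apply, h1']
      obtain ⟨v, hv⟩ := Option.ne_none_iff_exists'.1 h2
      have hgv : f (some v) = f' (some v) :=
        congrArg (fun g : α ↪ {c // c ∈ μ.cells} => g v) heq
      have hgy : f (some y) = f' (some y) :=
        congrArg (fun g : α ↪ {c // c ∈ μ.cells} => g y) heq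
      apply Subtype.ext
      apply Prod.ext
      · have e1 : (f none).1.1 = (f (some v)).1.1 := by
          rw [← hv]; exact (ha none).symm
        have e2 : (f' none).1.1 = (f' (some v)).1.1 := by
          have : a' none = some v := by rw [← h3', h3, hv]
          rw [← this]; exact (ha' none).symm
        rw [e1, e2, hgv]
      · have e1 : (f none).1.2 = (f (some y)).1.2 := by
          rw [← h1]; exact hb (some y)
        have e2 : (f' none).1.2 = (f' (some y)).1.2 := by
          rw [← h1']; exact hb' (some y)
        rw [e1, e2, hgy]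
  calc (cnSet μ π).card ≤ (SA ∪ SB ∪ (univ.erase z).biUnion SC).card :=
        Finset.card_le_card hcover
    _ ≤ (SA ∪ SB).card + ((univ.erase z).biUnion SC).card := Finset.card_union_le _ _
    _ ≤ SA.card + SB.card + ∑ y ∈ univ.erase z, (SC y).card :=
        Nat.add_le_add (Finset.card_union_le _ _) Finset.card_biUnion_le
    _ ≤ M * countN μ (Equiv.removeNone π) + M * countN μ (Equiv.removeNone π) +
          ∑ y ∈ univ.erase z, countN μ (Equiv.removeNone π * swap z y) :=
        Nat.add_le_add (Nat.add_le_add hA hB) (Finset.sum_le_sum hC)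
    _ = 2 * M * countN μ (Equiv.removeNone π) +
          ∑ y ∈ univ.erase z, countN μ (Equiv.removeNone π * swap z y) := by ring

/-- Invariance under relabelling. -/
theorem countN_congr {β : Type*} [Fintype β] [DecidableEq β] (μ : YoungDiagram) (e : α ≃ β)
    (π : Perm α) : countN μ (e.permCongr π) = countN μ π := by
  classical
  rw [countN_eq_card, countN_eq_card]
  refine Finset.card_bij' (fun f _ => e.toEmbedding.trans f) (fun f _ => e.symm.toEmbedding.trans f)
    ?_ ?_ ?_ ?_
  · intro f hf
    obtain ⟨a, b, hπ, ha, hb⟩ := mem_cnSet.1 hf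
    refine mem_cnSet.2 ⟨e.symm.permCongr a, e.symm.permCongr b, ?_, ?_, ?_⟩
    · ext1 u
      have h := congrArg (fun p : Perm β => p (e u)) hπ
      simp [Equiv.permCongr_apply] at h ⊢
      simpa using congrArg e.symm h
    · intro u
      simpa [Equiv.permCongr_apply] using ha (e u)
    · intro u
      simpa [Equiv.permCongr_apply] using hb (e u)
  · intro f hf
    obtain ⟨a, b, hπ, ha, hb⟩ := mem_cnSet.1 hf
    refine mem_cnSet.2 ⟨e.permCongr a, e.permCongr b, ?_, ?_, ?_⟩
    · rw [hπ]
      ext1 u
      simp [Equiv.permCongr_apply]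
    · intro u
      simpa [Equiv.permCongr_apply] using ha (e.symm u)
    · intro u
      simpa [Equiv.permCongr_apply] using hb (e.symm u)
  · intro f _
    ext1 u
    simp
  · intro f _
    ext1 u
    simp
end

/-- The number of permutations fixing a set pointwise. -/
theorem card_fix_support (S : Finset (Fin n)) :
    (univ.filter fun h : Perm (Fin n) => ∀ x ∈ S, h x = x).card = (n - S.card).factorial := by
  classical
  have h1 : Fintype.card (Perm {x // x ∉ S}) = (n - S.card).factorial := by
    rw [Fintype.card_perm]
    congr 1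
    have : Fintype.card {x // x ∉ S} = n - S.card := by
      rw [Fintype.card_subtype_compl]
      simp
    exact this
  rw [← h1, Fintype.card_congr (Perm.subtypeEquivSubtypePerm (fun x => x ∉ S)),
    Fintype.card_subtype]
  congr 1
  ext h
  simp

/-- The embedding attached to `g`. -/
def embG (T : Filling n μ) (S : Finset (Fin n)) (g : Perm (Fin n)) :
    {x // x ∈ S} ↪ {c // c ∈ μ.cells} :=
  ⟨fun x => T (g⁻¹ x.1), fun _ _ h => Subtype.ext (g⁻¹.injective (T.injective h))⟩

/-- The character is bounded by the count: with `k = sp π`,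
`|rr T π| ≤ (n-k)!/n! * countN μ (π restricted to its support)`. -/
theorem rr_abs_le_countN (T : Filling n μ) (π : Perm (Fin n)) :
    |rr T π| ≤ ((n - sp π).factorial : ℝ) / (n.factorial : ℝ) *
      (countN μ (π.subtypePerm (p := fun x => x ∈ π.support)
        (fun x => Perm.apply_mem_support)) : ℝ) := by
  classical
  set π₀ : Perm {x // x ∈ π.support} := π.subtypePerm (p := fun x => x ∈ π.support)
        (fun x => Perm.apply_mem_support) with hπ₀
  let Gs : Finset (Perm (Fin n)) := univ.filter fun g =>
    ∃ p ∈ rowStab T, ∃ q ∈ colStab T, g⁻¹ * π * g = p * q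
  have hmaps : ∀ g ∈ Gs, embG T π.support g ∈ cnSet μ π₀ := by
    intro g hg
    obtain ⟨p, hp, q, hq, hpq⟩ := (Finset.mem_filter.1 hg).2
    have hp' := (Finset.mem_filter.1 hp).2
    have hq' := (Finset.mem_filter.1 hq).2
    set a : Perm (Fin n) := g * p * g⁻¹ with ha
    set b : Perm (Fin n) := g * q * g⁻¹ with hb
    have hab : π = a * b := by
      have : π = g * (g⁻¹ * π * g) * g⁻¹ := by group
      rw [this, hpq, ha, hb]
      group
    have hra : ∀ u, rowOf T (g⁻¹ (a u)) = rowOf T (g⁻¹ u) := by
      intro u
      have : g⁻¹ (a u) = p (g⁻¹ u) := by simp [ha]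
      rw [this]
      exact hp' _
    have hcb : ∀ u, colOf T (g⁻¹ (b u)) = colOf T (g⁻¹ u) := by
      intro u
      have : g⁻¹ (b u) = q (g⁻¹ u) := by simp [hb]
      rw [this]
      exact hq' _
    have hfix : ∀ u, π u = u → a u = u ∧ b u = u := by
      intro u hu
      have hy : a (b u) = u := by
        rw [← Perm.mul_apply, ← hab, hu]
      have h1 : b u = u := by
        apply g⁻¹.injective
        apply T.injective
        apply Subtype.ext
        apply Prod.ext
        · have := hra (b u)
          rw [hy] at this
          exact this.symm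
        · exact hcb u
      refine ⟨?_, h1⟩
      rw [h1] at hy
      exact hy
    have hsa : ∀ x, a x ∈ π.support ↔ x ∈ π.support := by
      intro x
      rw [Perm.mem_support, Perm.mem_support]
      refine not_congr ⟨fun h => ?_, fun h => ?_⟩
      · have h2 := (hfix _ h).1
        have h3 : a x = x := a.injective h2
        rw [h3] at h
        exact h
      · rw [(hfix _ h).1]
        exact h
    have hsb : ∀ x, b x ∈ π.support ↔ x ∈ π.support := by
      intro x
      rw [Perm.mem_support, Perm.mem_support]
      refine not_congr ⟨fun h => ?_, fun h => ?_⟩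
      · have h2 := (hfix _ h).2
        have h3 : b x = x := b.injective h2
        rw [h3] at h
        exact h
      · rw [(hfix _ h).2]
        exact h
    refine mem_cnSet.2 ⟨a.subtypePerm hsa, b.subtypePerm hsb, ?_, ?_, ?_⟩
    · ext1 x
      apply Subtype.ext
      show π x.1 = a (b x.1)
      exact DFunLike.congr_fun hab x.1
    · intro u
      exact hra u.1
    · intro u
      exact hcb u.1
  have hfib : ∀ e ∈ cnSet μ π₀, (Gs.filter fun g => embG T π.support g = e).card ≤
      (n - sp π).factorial := by
    intro e _
    rcases (Gs.filter fun g => embG T π.support g = e).eq_empty_or_nonempty with h0 | ⟨g₀, hg₀⟩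
    · rw [h0]
      simp
    · have hg₀' := (Finset.mem_filter.1 hg₀).2
      rw [show sp π = π.support.card from Perm.sum_cycleType π, ← card_fix_support π.support]
      refine Finset.card_le_card_of_injOn (fun g => g₀ * g⁻¹) ?_ ?_
      · intro g hg
        have hg' := (Finset.mem_filter.1 hg).2
        simp only [coe_filter, mem_univ, true_and, Set.mem_ofPred_eq]
        intro x hx
        have h1 : embG T π.support g ⟨x, hx⟩ = embG T π.support g₀ ⟨x, hx⟩ := by
          rw [hg', hg₀']
        have h2 : g⁻¹ x = g₀⁻¹ x := T.injective h1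
        simp [Perm.mul_apply, h2]
      · intro g _ g' _ h
        have h2 : g⁻¹ = g'⁻¹ := mul_left_cancel h
        exact inv_injective h2
  have hcount : Gs.card ≤ (n - sp π).factorial * countN μ π₀ := by
    rw [countN_eq_card]
    exact Finset.card_le_mul_card_image_of_maps_to hmaps _ hfib
  have hsum : |∑ g : Perm (Fin n), (symCoeff T (g⁻¹ * π * g) : ℝ)| ≤ (Gs.card : ℝ) := by
    calc |∑ g : Perm (Fin n), (symCoeff T (g⁻¹ * π * g) : ℝ)|
        ≤ ∑ g : Perm (Fin n), |(symCoeff T (g⁻¹ * π * g) : ℝ)| := Finset.abs_sum_le_sum_abs _ _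
      _ ≤ ∑ g : Perm (Fin n), (if g ∈ Gs then (1 : ℝ) else 0) := by
          refine Finset.sum_le_sum fun g _ => ?_
          split_ifs with hg
          · have := symCoeff_abs_le T (g⁻¹ * π * g)
            have h2 : |(symCoeff T (g⁻¹ * π * g) : ℝ)| = ((|symCoeff T (g⁻¹ * π * g)| : ℤ) : ℝ) := by
              push_cast
              rfl
            rw [h2]
            exact_mod_cast this
          · have : symCoeff T (g⁻¹ * π * g) = 0 := by
              apply symCoeff_eq_zero
              intro h3
              exact hg (Finset.mem_filter.2 ⟨mem_univ _, h3⟩)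
            simp [this]
      _ = (Gs.card : ℝ) := by
          rw [Finset.sum_boole]
          simp
  have hfpos : (0 : ℝ) < (n.factorial : ℝ) := by exact_mod_cast n.factorial_pos
  rw [← rr_inv T π]
  unfold rr
  rw [inv_inv, abs_mul, abs_of_pos (inv_pos.2 hfpos)]
  have hcount' : (Gs.card : ℝ) ≤ ((n - sp π).factorial : ℝ) * (countN μ π₀ : ℝ) := by
    exact_mod_cast hcount
  calc (n.factorial : ℝ)⁻¹ * |∑ g : Perm (Fin n), (symCoeff T (g⁻¹ * π * g) : ℝ)|
      ≤ (n.factorial : ℝ)⁻¹ * (((n - sp π).factorial : ℝ) * (countN μ π₀ : ℝ)) := by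
        refine mul_le_mul_of_nonneg_left (hsum.trans hcount') (inv_pos.2 hfpos).le
    _ = ((n - sp π).factorial : ℝ) / (n.factorial : ℝ) * (countN μ π₀ : ℝ) := by
        field_simp

end Vale.Agent.Lib.P197
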