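import Mathlib

/-!
# P197: definitions for the Kronecker coefficients of Specht modules

`S^μ` is the left ideal of the group algebra `ℂ[S_n]` generated by the Young symmetrizer
`c_T = a_T * b_T` of a filling `T` of the diagram `μ` (Fulton-Harris, Lecture 4).
The Kronecker coefficient is the dimension of the space of equivariant maps
`S^ν → S^λ ⊗ S^μ` in the category `FDRep ℂ (S_n)`.
-/

open Equiv Finset CategoryTheory MonoidalCategory

namespace Vale.Agent.Lib.P197

/-- The group algebra of `S_n`. -/
abbrev GA (n : ℕ) := MonoidAlgebra ℂ (Perm (Fin n))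

/-- A filling of the Young diagram `μ` by `Fin n`: a bijection from `Fin n` to the cells. -/
abbrev Filling (n : ℕ) (μ : YoungDiagram) := Fin n ≃ {c // c ∈ μ.cells}

variable {n : ℕ} {μ : YoungDiagram}

/-- The row of `x` in the filling. -/
def rowOf (T : Filling n μ) (x : Fin n) : ℕ := (T x).1.1

/-- The column of `x` in the filling. -/
def colOf (T : Filling n μ) (x : Fin n) : ℕ := (T x).1.2

/-- The row stabiliser of `T`. -/
def rowStab (T : Filling n μ) : Finset (Perm (Fin n)) :=
  univ.filter fun p => ∀ x, rowOf T (p x) = rowOf T x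

/-- The column stabiliser of `T`. -/
def colStab (T : Filling n μ) : Finset (Perm (Fin n)) :=
  univ.filter fun q => ∀ x, colOf T (q x) = colOf T x

/-- The row symmetrizer. -/
noncomputable def rowSym (T : Filling n μ) : GA n :=
  ∑ p ∈ rowStab T, MonoidAlgebra.single p (1 : ℂ)

/-- The column antisymmetrizer. -/
noncomputable def colAnti (T : Filling n μ) : GA n :=
  ∑ q ∈ colStab T, MonoidAlgebra.single q (((Perm.sign q : ℤˣ) : ℤ) : ℂ)

/-- The Young symmetrizer `c_T = a_T * b_T`. -/
noncomputable def youngSym (T : Filling n μ) : GA n := rowSym T * colAnti T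

/-- The Specht module `S^μ = ℂ[S_n] * c_T`, as a subspace of the group algebra. -/
noncomputable def spechtSub (T : Filling n μ) : Submodule ℂ (GA n) :=
  LinearMap.range (LinearMap.mulRight ℂ (youngSym T))

/-- Left multiplication by a group element preserves the Specht module. -/
theorem specht_stable (T : Filling n μ) (g : Perm (Fin n)) (x : GA n) (hx : x ∈ spechtSub T) :
    LinearMap.mulLeft ℂ (MonoidAlgebra.single g (1 : ℂ) : GA n) x ∈ spechtSub T := by
  obtain ⟨y, rfl⟩ := hx
  exact ⟨MonoidAlgebra.single g (1 : ℂ) * y, by simp [mul_assoc]⟩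

/-- The action of `S_n` on the Specht module by left multiplication. -/
noncomputable def spechtRep (T : Filling n μ) :
    Representation ℂ (Perm (Fin n)) (spechtSub T) where
  toFun g := (LinearMap.mulLeft ℂ (MonoidAlgebra.single g (1 : ℂ) : GA n)).restrict
    (specht_stable T g)
  map_one' := by
    ext x
    simp
  map_mul' g h := by
    ext x
    simp [mul_assoc]

/-- The Specht module as an object of `FDRep`. -/
noncomputable def spechtFD (T : Filling n μ) : FDRep ℂ (Perm (Fin n)) :=
  FDRep.of (spechtRep T)

/-- The Kronecker coefficient `g(λ, μ, ν) = dim Hom_{S_n}(S^ν, S^λ ⊗ S^μ)`. -/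
noncomputable def kronecker {la mu nu : YoungDiagram} (T₁ : Filling n la) (T₂ : Filling n mu)
    (T₃ : Filling n nu) : ℕ :=
  Module.finrank ℂ (spechtFD T₃ ⟶ spechtFD T₁ ⊗ spechtFD T₂)

/-- The staircase `ρ_m = (m, m-1, ..., 1)`. -/
def staircase (m : ℕ) : YoungDiagram where
  cells := (range m ×ˢ range m).filter fun c => c.1 + c.2 < m
  isLowerSet := by
    intro a b hab ha
    simp only [coe_filter, mem_product, mem_range, Set.mem_ofPred_eq] at ha ⊢
    have h1 := hab.1
    have h2 := hab.2
    omega

end Vale.Agent.Lib.P197
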