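import Vale.Agent.Lib.P197.Core

/-!
# P197 module Staircase: the shape of the staircase
-/

open Equiv Finset

namespace Vale.Agent.Lib.P197

theorem mem_st (m : ℕ) (c : ℕ × ℕ) : c ∈ staircase m ↔ c.1 + c.2 < m := by
  change c ∈ ((range m ×ˢ range m).filter fun c => c.1 + c.2 < m) ↔ _
  simp only [mem_filter, mem_product, mem_range]
  omega

theorem staircase_rowLen (m i : ℕ) : (staircase m).rowLen i = m - i := by
  apply le_antisymm
  · by_contra h
    push Not at h
    have := (staircase m).mem_iff_lt_rowLen (i := i) (j := m - i)
    have h2 : (i, m - i) ∈ staircase m := this.2 h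
    have := (mem_st m _).1 h2
    simp at this
    omega
  · by_contra h
    push Not at h
    rcases Nat.lt_or_ge i m with hi | hi
    · have h3 : (i, (staircase m).rowLen i) ∈ staircase m := by
        apply (mem_st m _).2
        simp only
        omega
      have := (staircase m).mem_iff_lt_rowLen.1 h3
      omega
    · omega

theorem staircase_colLen (m j : ℕ) : (staircase m).colLen j = m - j := by
  apply le_antisymm
  · by_contra h
    push Not at h
    have := (staircase m).mem_iff_lt_colLen (i := m - j) (j := j)
    have h2 : (m - j, j) ∈ staircase m := this.2 h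
    have := (mem_st m _).1 h2
    simp at this
    omega
  · by_contra h
    push Not at h
    rcases Nat.lt_or_ge j m with hi | hi
    · have h3 : ((staircase m).colLen j, j) ∈ staircase m := by
        apply (mem_st m _).2
        simp only
        omega
      have := (staircase m).mem_iff_lt_colLen.1 h3
      omega
    · omega

theorem staircase_card (m : ℕ) : (staircase m).card = m * (m + 1) / 2 := by
  have h : ((staircase m).cells.card : ℕ) = ∑ i ∈ range m, (m - i) := by
    have : (staircase m).cells = (range m).biUnion (fun i => (range (m - i)).image (fun j => (i, j))) := by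
      ext c
      rcases c with ⟨a, b⟩
      simp only [YoungDiagram.mem_cells, mem_st, mem_biUnion, mem_range, mem_image, Prod.mk.injEq]
      constructor
      · intro h
        exact ⟨a, by omega, b, by omega, rfl, rfl⟩
      · rintro ⟨i, hi, j, hj, rfl, rfl⟩
        omega
    rw [this, card_biUnion]
    · apply sum_congr rfl
      intro i _
      rw [card_image_of_injective, card_range]
      intro x y hxy
      simpa using hxy
    · intro i _ k _ hik
      simp only [Function.onFun]
      rw [disjoint_left]
      intro c hc hc2
      simp only [mem_image, mem_range] at hc hc2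
      obtain ⟨j, _, rfl⟩ := hc
      obtain ⟨j2, _, h3⟩ := hc2
      simp only [Prod.mk.injEq] at h3
      exact hik h3.1.symm
  have h2 : ∑ i ∈ range m, (m - i) = m * (m + 1) / 2 := by
    rw [← Finset.sum_range_reflect]
    have : ∀ i ∈ range m, m - (m - 1 - i) = i + 1 := by
      intro i hi
      have := mem_range.1 hi
      omega
    rw [sum_congr rfl this]
    rw [Finset.sum_add_distrib, Finset.sum_range_id]
    simp only [sum_const, card_range, smul_eq_mul, mul_one]
    have h5 : ∀ k, (k - 1) * k / 2 + k = k * (k + 1) / 2 := by
      intro k
      cases k with
      | zero => rfl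
      | succ k =>
        have e1 : (k + 1 - 1) * (k + 1) = k * (k + 1) := by simp
        rw [e1]
        have e2 : (k + 1) * (k + 1 + 1) = k * (k + 1) + 2 * (k + 1) := by ring
        rw [e2, Nat.add_mul_div_left _ _ (by norm_num)]
    rw [mul_comm m (m-1)] 
    exact h5 m
  change (staircase m).cells.card = _
  rw [h, h2]

end Vale.Agent.Lib.P197
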