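import Vale.Agent.Lib.P197.Link
import Vale.Agent.Lib.P197.Staircase

/-!
# P197 module EvenVanish: staircase characters vanish at even cycles (blueprint sec 7)
-/

open Equiv Finset

namespace Vale.Agent.Lib.P197

variable {n : ℕ} {μ : YoungDiagram}

namespace EvenVanishAux

/-- Content of a colouring. -/
def contZ {m : ℕ} (φ : Fin n → Fin m) (k : Fin m) : ℤ :=
  (((univ.filter fun x => φ x = k).card : ℕ) : ℤ)

/-- The content of the term of index `w` for the staircase. -/
def alphaW (m : ℕ) (w : Perm (Fin m)) (i : Fin m) : ℤ :=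
  ((staircase m).rowLen (i : ℕ) : ℤ) - (i : ℕ) + ((w i : Fin m) : ℕ)

/-- The signed sum attached to a colouring. -/
def termF {m : ℕ} (φ : Fin n → Fin m) : ℤ :=
  ∑ w : Perm (Fin m), ((Perm.sign w : ℤˣ) : ℤ) *
    (if ∀ i, contZ φ i = alphaW m w i then 1 else 0)

theorem alphaW_eq (m : ℕ) (w : Perm (Fin m)) (i : Fin m) :
    alphaW m w i = (m : ℤ) - 2 * ((i : ℕ) : ℤ) + ((w i : Fin m) : ℕ) := by
  unfold alphaW
  rw [staircase_rowLen]
  have := i.2
  have h : ((m - (i : ℕ) : ℕ) : ℤ) = (m : ℤ) - ((i : ℕ) : ℤ) := by omega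
  rw [h]; ring

theorem frobF_eq_sum (m : ℕ) (π : Perm (Fin n)) :
    frobF m (staircase m) π =
      ∑ φ ∈ univ.filter (fun φ : Fin n → Fin m => ∀ x, φ (π x) = φ x), termF φ := by
  unfold frobF termF
  rw [Finset.sum_comm]
  refine Finset.sum_congr rfl fun w _ => ?_
  rw [← Finset.mul_sum]
  congr 1
  unfold psi
  rw [← Finset.filter_filter, Finset.card_filter]
  push_cast
  rfl

/-- Content split along a set on which the colouring is constant. -/
theorem contZ_split {m : ℕ} (C : Finset (Fin n)) (ψ : Fin n → Fin m) (i : Fin m)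
    (h : ∀ x ∈ C, ψ x = i) (k : Fin m) :
    contZ ψ k = (((univ.filter fun x => x ∉ C ∧ ψ x = k).card : ℕ) : ℤ) +
      (if k = i then (C.card : ℤ) else 0) := by
  unfold contZ
  have h1 : (univ.filter fun x => ψ x = k) =
      (univ.filter fun x => x ∉ C ∧ ψ x = k) ∪ (if k = i then C else ∅) := by
    ext x
    by_cases hk : k = i
    · subst hk
      simp only [mem_filter, mem_univ, true_and, if_true, mem_union]
      constructor
      · intro hx
        by_cases hxC : x ∈ C
        · exact Or.inr hxC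
        · exact Or.inl ⟨hxC, hx⟩
      · rintro (⟨_, hx⟩ | hx)
        · exact hx
        · exact h x hx
    · simp only [mem_filter, mem_univ, true_and, if_neg hk, mem_union, notMem_empty, or_false]
      constructor
      · intro hx
        refine ⟨fun hxC => hk ?_, hx⟩
        rw [← hx, h x hxC]
      · exact fun hx => hx.2
  have h2 : Disjoint (univ.filter fun x => x ∉ C ∧ ψ x = k) (if k = i then C else ∅) := by
    by_cases hk : k = i
    · simp only [if_pos hk]
      rw [Finset.disjoint_left]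
      intro x hx hxC
      exact (Finset.mem_filter.1 hx).2.1 hxC
    · simp [if_neg hk]
  rw [h1, Finset.card_union_of_disjoint h2]
  by_cases hk : k = i <;> simp [hk]

/-- The swapped colouring. -/
def twist {m : ℕ} (C : Finset (Fin n)) (i i' : Fin m) (φ : Fin n → Fin m) : Fin n → Fin m :=
  fun x => if x ∈ C then φ x else swap i i' (φ x)

theorem termF_twist {m : ℕ} (C : Finset (Fin n)) (J : ℕ) (hJ : 1 ≤ J) (hC : C.card = 2 * J)
    (φ : Fin n → Fin m) (i i' : Fin m) (hi' : (i' : ℕ) = (i : ℕ) + J)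
    (hφ : ∀ x ∈ C, φ x = i) :
    termF (twist C i i' φ) = - termF φ := by
  have hne : i ≠ i' := by
    intro h
    rw [← h] at hi'
    omega
  set t : Perm (Fin m) := swap i i' with ht
  have hφ' : ∀ x ∈ C, twist C i i' φ x = i := by
    intro x hx
    unfold twist
    rw [if_pos hx, hφ x hx]
  -- the key equivalence
  have hA : ∀ k, contZ φ k = (((univ.filter fun x => x ∉ C ∧ φ x = k).card : ℕ) : ℤ) +
      (if k = i then (C.card : ℤ) else 0) := contZ_split C φ i hφ
  have hB : ∀ k, contZ (twist C i i' φ) k =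
      (((univ.filter fun x => x ∉ C ∧ φ x = t k).card : ℕ) : ℤ) +
      (if k = i then (C.card : ℤ) else 0) := by
    intro k
    rw [contZ_split C _ i hφ' k]
    congr 3
    ext x
    simp only [mem_filter, mem_univ, true_and, and_congr_right_iff]
    intro hx
    unfold twist
    rw [if_neg hx]
    constructor
    · intro h
      rw [← h, ht, swap_apply_self]
    · intro h
      rw [h, ht, swap_apply_self]
  have hg : ∀ k : Fin m, 2 * (((t k : Fin m) : ℕ) : ℤ) -
      ((if k = i then (C.card : ℤ) else 0) - (if k = i' then (C.card : ℤ) else 0)) =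
      2 * (((k : Fin m) : ℕ) : ℤ) := by
    intro k
    by_cases h1 : k = i
    · subst h1
      rw [ht, swap_apply_left, if_pos rfl, if_neg hne, hi', hC]
      push_cast; ring
    · by_cases h2 : k = i'
      · subst h2
        rw [ht, swap_apply_right, if_neg h1, if_pos rfl, hi', hC]
        push_cast; ring
      · rw [ht, swap_apply_of_ne_of_ne h1 h2, if_neg h1, if_neg h2]
        ring
  have htt : ∀ k, t (t k) = k := fun k => by rw [ht, swap_apply_self]
  have ht_eq : ∀ k, (t k = i) ↔ k = i' := by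
    intro k
    constructor
    · intro h
      have := congrArg t h
      rw [htt, ht, swap_apply_left] at this
      exact this
    · intro h
      rw [h, ht, swap_apply_right]
  have key : ∀ w : Perm (Fin m), (∀ k, contZ (twist C i i' φ) k = alphaW m w k) ↔
      (∀ k, contZ φ k = alphaW m (w * t) k) := by
    intro w
    constructor
    · intro h k
      have h1 := h (t k)
      rw [hB, htt, alphaW_eq] at h1
      rw [hA, alphaW_eq, Perm.mul_apply]
      have h2 := hg k
      have h3 : (if t k = i then (C.card : ℤ) else 0) = if k = i' then (C.card : ℤ) else 0 := by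
        by_cases h4 : k = i'
        · rw [if_pos h4, if_pos ((ht_eq k).2 h4)]
        · rw [if_neg h4, if_neg (fun h5 => h4 ((ht_eq k).1 h5))]
      rw [h3] at h1
      linarith
    · intro h k
      have h1 := h (t k)
      rw [hA, alphaW_eq, Perm.mul_apply, htt] at h1
      rw [hB, alphaW_eq]
      have h2 := hg k
      have h3 : (if t k = i then (C.card : ℤ) else 0) = if k = i' then (C.card : ℤ) else 0 := by
        by_cases h4 : k = i'
        · rw [if_pos h4, if_pos ((ht_eq k).2 h4)]
        · rw [if_neg h4, if_neg (fun h5 => h4 ((ht_eq k).1 h5))]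
      rw [h3] at h1
      linarith
  have hs : Perm.sign t = -1 := Perm.sign_swap hne
  have hterm : ∀ w : Perm (Fin m),
      (if ∀ k, contZ (twist C i i' φ) k = alphaW m w k then (1 : ℤ) else 0) =
        if ∀ k, contZ φ k = alphaW m (w * t) k then 1 else 0 := by
    intro w
    simp only [key w]
  have hre : termF φ = ∑ w : Perm (Fin m), ((Perm.sign (w * t) : ℤˣ) : ℤ) *
      (if ∀ k, contZ φ k = alphaW m (w * t) k then 1 else 0) := by
    unfold termF
    exact (Equiv.sum_comp (Equiv.mulRight t)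
      (fun w : Perm (Fin m) => ((Perm.sign w : ℤˣ) : ℤ) *
        (if ∀ k, contZ φ k = alphaW m w k then (1 : ℤ) else 0))).symm
  rw [hre]
  unfold termF
  rw [← Finset.sum_neg_distrib]
  refine Finset.sum_congr rfl fun w _ => ?_
  rw [hterm w, Perm.sign_mul, hs]
  push_cast
  ring

theorem termF_zero {m : ℕ} (C : Finset (Fin n)) (J : ℕ) (hC : C.card = 2 * J)
    (φ : Fin n → Fin m) (i : Fin m) (hφ : ∀ x ∈ C, φ x = i) (hi : m ≤ (i : ℕ) + J) :
    termF φ = 0 := by
  unfold termF
  refine Finset.sum_eq_zero fun w _ => ?_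
  rw [if_neg, mul_zero]
  intro h
  have h1 := h i
  rw [contZ_split C φ i hφ i, if_pos rfl, alphaW_eq] at h1
  have h2 := (w i).2
  have h3 : (0 : ℤ) ≤ (((univ.filter fun x => x ∉ C ∧ φ x = i).card : ℕ) : ℤ) := by positivity
  rw [hC] at h1
  push_cast at h1
  omega

end EvenVanishAux

open EvenVanishAux in
/-- A sign-reversing involution on invariant colourings: the staircase is a 2-core. -/
theorem frobF_staircase_even (m : ℕ) (π : Perm (Fin n)) (h : ∃ j ∈ π.cycleType, Even j) :
    frobF m (staircase m) π = 0 := by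
  obtain ⟨j, hj, J, hJ⟩ := h
  -- a cycle of even length
  have hj' := hj
  rw [Perm.cycleType_def, Multiset.mem_map] at hj'
  obtain ⟨c, hc, hcj⟩ := hj'
  have hc' : c ∈ π.cycleFactorsFinset := hc
  have hcc := Perm.mem_cycleFactorsFinset_iff.1 hc'
  have h2 : 2 ≤ j := Perm.two_le_of_mem_cycleType hj
  set C := c.support with hCdef
  have hCcard : C.card = 2 * J := by
    have : C.card = j := hcj
    omega
  have hJ1 : 1 ≤ J := by omega
  obtain ⟨x₀, hx₀⟩ : C.Nonempty := by
    rw [← Finset.card_pos]; omega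
  -- invariance of `C`
  have hC1 : ∀ x, x ∈ C → π x ∈ C := by
    intro x hx
    rw [← hcc.2 x hx]
    exact Perm.apply_mem_support.2 hx
  have hC2 : ∀ x, π x ∈ C → x ∈ C := by
    intro x hx
    by_contra hxC
    have e : c (c⁻¹ (π x)) = π x := by simp
    have h4 : c⁻¹ (π x) ∈ C := Perm.apply_mem_support.1 (by rw [e]; exact hx)
    have h6 := hcc.2 _ h4
    rw [e] at h6
    have h7 := π.injective h6
    exact hxC (by rw [h7]; exact h4)
  have hconst : ∀ φ : Fin n → Fin m, (∀ x, φ (π x) = φ x) → ∀ x ∈ C, φ x = φ x₀ := by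
    intro φ hφ x hx
    obtain ⟨i, hi⟩ := hcc.1.exists_pow_eq (Perm.mem_support.1 hx₀) (Perm.mem_support.1 hx)
    rw [← hi]
    have aux : ∀ i : ℕ, (c ^ i) x₀ ∈ C ∧ φ ((c ^ i) x₀) = φ x₀ := by
      intro i
      induction i with
      | zero => simp [hx₀]
      | succ i ih =>
        rw [pow_succ', Perm.mul_apply]
        refine ⟨Perm.apply_mem_support.2 ih.1, ?_⟩
        rw [hcc.2 _ ih.1, hφ, ih.2]
    exact (aux i).2
  rw [frobF_eq_sum]
  classical
  -- the involution
  let g : (Fin n → Fin m) → (Fin n → Fin m) := fun φ =>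
    if hφ : (φ x₀ : ℕ) + J < m then twist C (φ x₀) ⟨(φ x₀ : ℕ) + J, hφ⟩ φ else φ
  have hg_x₀ : ∀ φ, g φ x₀ = φ x₀ := by
    intro φ
    simp only [g]
    split_ifs with hφ
    · simp [twist, hx₀]
    · rfl
  have hg_inv : ∀ φ, (∀ x, φ (π x) = φ x) → ∀ x, g φ (π x) = g φ x := by
    intro φ hφ x
    simp only [g]
    split_ifs with hφ'
    · unfold twist
      by_cases hx : x ∈ C
      · rw [if_pos (hC1 x hx), if_pos hx, hφ]
      · rw [if_neg (fun h => hx (hC2 x h)), if_neg hx, hφ]
    · exact hφ x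
  have hgg : ∀ φ, (g (g φ)) = φ := by
    intro φ
    have h0 := hg_x₀ φ
    funext x
    by_cases hφ : (φ x₀ : ℕ) + J < m
    · have e1 : g φ = twist C (φ x₀) ⟨(φ x₀ : ℕ) + J, hφ⟩ φ := by
        simp only [g]; rw [dif_pos hφ]
      have hφ2 : (g φ x₀ : ℕ) + J < m := by rw [h0]; exact hφ
      have e2 : g (g φ) = twist C (g φ x₀) ⟨(g φ x₀ : ℕ) + J, hφ2⟩ (g φ) := by
        show (if hφ : ((g φ) x₀ : ℕ) + J < m then twist C ((g φ) x₀) ⟨((g φ) x₀ : ℕ) + J, hφ⟩ (g φ) else (g φ)) = _
        rw [dif_pos hφ2]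
      rw [e2]
      have h8 : (⟨(g φ x₀ : ℕ) + J, hφ2⟩ : Fin m) = ⟨(φ x₀ : ℕ) + J, hφ⟩ := by
        apply Fin.ext; simp [h0]
      rw [h8, h0, e1]
      unfold twist
      by_cases hx : x ∈ C
      · rw [if_pos hx, if_pos hx]
      · rw [if_neg hx, if_neg hx, swap_apply_self]
    · have e1 : g φ = φ := by
        simp only [g]; rw [dif_neg hφ]
      rw [e1, e1]
  have hsum : ∀ φ, (∀ x, φ (π x) = φ x) → termF φ + termF (g φ) = 0 := by
    intro φ hφ
    by_cases hφ' : (φ x₀ : ℕ) + J < m
    · have e1 : g φ = twist C (φ x₀) ⟨(φ x₀ : ℕ) + J, hφ'⟩ φ := by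
        simp only [g]; rw [dif_pos hφ']
      rw [e1, termF_twist C J hJ1 hCcard φ (φ x₀) ⟨(φ x₀ : ℕ) + J, hφ'⟩ rfl (hconst φ hφ)]
      ring
    · have e1 : g φ = φ := by
        simp only [g]; rw [dif_neg hφ']
      rw [e1, termF_zero C J hCcard φ (φ x₀) (hconst φ hφ) (not_lt.1 hφ')]
      ring
  refine Finset.sum_involution (fun φ _ => g φ) ?_ ?_ ?_ ?_
  · intro φ hφ
    exact hsum φ (Finset.mem_filter.1 hφ).2
  · intro φ hφ hne heq
    have := hsum φ (Finset.mem_filter.1 hφ).2
    rw [heq] at this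
    apply hne
    omega
  · intro φ hφ
    exact Finset.mem_filter.2 ⟨mem_univ _, hg_inv φ (Finset.mem_filter.1 hφ).2⟩
  · intro φ _
    exact hgg φ

theorem rr_staircase_even (m : ℕ) (T : Filling n (staircase m)) (π : Perm (Fin n))
    (h : ∃ j ∈ π.cycleType, Even j) : rr T π = 0 := by
  have h1 := ff_rr_eq_frobF T m (by rw [staircase_colLen]; omega) π
  rw [frobF_staircase_even m π h] at h1
  have h2 : (ff T : ℝ) ≠ 0 := by
    have := ff_pos T
    positivity
  simpa [h2] using h1

end Vale.Agent.Lib.P197
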