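import Vale.Agent.Lib.P197.Core

open Equiv Finset

namespace Vale.Agent.Lib.P197

variable {n : ℕ}

open scoped Classical in
/-- The cycles of `Fin n`. -/
noncomputable def allCycles (n : ℕ) : Finset (Perm (Fin n)) := univ.filter Perm.IsCycle

lemma prod_cycleType_map (w : ℕ → ℝ) (π : Perm (Fin n)) :
    (π.cycleType.map w).prod = ∏ c ∈ π.cycleFactorsFinset, w c.support.card := by
  simp only [Perm.cycleType, Multiset.map_map, Finset.prod]
  rfl

lemma cycleFactors_subset (π : Perm (Fin n)) : π.cycleFactorsFinset ⊆ allCycles n := by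
  classical
  intro c hc
  simp only [allCycles, mem_filter, mem_univ, true_and]
  exact (Perm.mem_cycleFactorsFinset_iff.mp hc).1

lemma card_cycles_le (j : ℕ) (hj : j ∈ Icc 2 n) :
    (((allCycles n).filter fun c => c.support.card = j).card : ℝ) ≤ (n : ℝ) ^ j / j := by
  classical
  have hj2 : 2 ≤ j := (mem_Icc.mp hj).1
  have hjn : j ≤ n := (mem_Icc.mp hj).2
  have h1 : ((allCycles n).filter fun c => c.support.card = j) =
      (univ.filter fun g : Perm (Fin n) => g.cycleType = {j}) := by
    ext g
    simp only [allCycles, mem_filter, mem_univ, true_and]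
    constructor
    · rintro ⟨hc, hs⟩
      rw [hc.cycleType, hs]
    · intro h
      have hc : g.IsCycle := by
        rw [← Perm.card_cycleType_eq_one, h]
        rfl
      refine ⟨hc, ?_⟩
      rw [hc.cycleType] at h
      have := Multiset.singleton_inj.mp h
      exact this
  rw [h1]
  have h2 := Perm.card_of_cycleType_singleton (α := Fin n) hj2 (by simpa using hjn)
  simp only [Fintype.card_fin] at h2
  rw [h2]
  push_cast
  have h3 : ((n.choose j : ℕ) : ℝ) ≤ (n : ℝ) ^ j / (j.factorial : ℝ) := Nat.choose_le_pow_div j n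
  have hjpos : (0 : ℝ) < j := by exact_mod_cast (by omega : 0 < j)
  have hf : (j.factorial : ℝ) = j * ((j - 1).factorial : ℝ) := by
    have : j.factorial = j * (j - 1).factorial := (Nat.mul_factorial_pred (by omega)).symm
    exact_mod_cast this
  have hf0 : (0 : ℝ) < ((j - 1).factorial : ℝ) := by exact_mod_cast Nat.factorial_pos _
  calc ((j - 1).factorial : ℝ) * (n.choose j : ℝ)
      ≤ ((j - 1).factorial : ℝ) * ((n : ℝ) ^ j / (j.factorial : ℝ)) :=
        mul_le_mul_of_nonneg_left h3 hf0.le
    _ = (n : ℝ) ^ j / j := by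
        rw [hf]
        field_simp

lemma sum_allCycles_le (w : ℕ → ℝ) (hw : ∀ j, 0 ≤ w j) (lo : ℕ) (hlo : 2 ≤ lo)
    (P : Finset (Perm (Fin n))) (hP : ∀ c ∈ P, c ∈ allCycles n ∧ lo ≤ c.support.card) :
    ∑ c ∈ P, w c.support.card ≤ ∑ j ∈ Icc lo n, ((n : ℝ) ^ j / j) * w j := by
  classical
  have hmaps : ∀ c ∈ P, c.support.card ∈ Icc lo n := by
    intro c hc
    refine mem_Icc.mpr ⟨(hP c hc).2, ?_⟩
    simpa using Finset.card_le_univ c.support
  rw [← Finset.sum_fiberwise_of_maps_to hmaps]
  refine Finset.sum_le_sum fun j hj => ?_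
  have h1 : ∑ c ∈ P.filter (fun c => c.support.card = j), w c.support.card =
      ((P.filter fun c => c.support.card = j).card : ℝ) * w j := by
    rw [Finset.sum_congr rfl (g := fun _ => w j)
      (fun c hc => by rw [(mem_filter.mp hc).2]), Finset.sum_const, nsmul_eq_mul]
  rw [h1]
  refine mul_le_mul_of_nonneg_right ?_ (hw j)
  have hj' : j ∈ Icc 2 n := by
    have := mem_Icc.mp hj
    exact mem_Icc.mpr ⟨by omega, this.2⟩
  refine le_trans ?_ (card_cycles_le j hj')
  exact_mod_cast Finset.card_le_card (fun c hc => by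
    simp only [mem_filter] at hc ⊢
    exact ⟨(hP c hc.1).1, hc.2⟩)

lemma sum_perm_le_powerset (f : Finset (Perm (Fin n)) → ℝ) (hf : ∀ F, 0 ≤ f F)
    (𝓕 : Finset (Finset (Perm (Fin n)))) (S : Finset (Perm (Fin n)))
    (hS : ∀ π ∈ S, π.cycleFactorsFinset ∈ 𝓕) :
    ∑ π ∈ S, f π.cycleFactorsFinset ≤ ∑ F ∈ 𝓕, f F := by
  classical
  have hinj : Set.InjOn (fun π : Perm (Fin n) => π.cycleFactorsFinset) S :=
    fun a _ b _ h => Perm.cycleFactorsFinset_injective h
  rw [← Finset.sum_image (f := f) hinj]
  refine Finset.sum_le_sum_of_subset_of_nonneg ?_ (fun F _ _ => hf F)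
  intro F hF
  obtain ⟨π, hπ, rfl⟩ := mem_image.mp hF
  exact hS π hπ

lemma prod_one_add_le_exp (s : Finset (Perm (Fin n))) (a : Perm (Fin n) → ℝ) (ha : ∀ c, 0 ≤ a c) :
    ∏ c ∈ s, (1 + a c) ≤ Real.exp (∑ c ∈ s, a c) := by
  rw [Real.exp_sum]
  refine Finset.prod_le_prod (fun c _ => by have := ha c; linarith) (fun c _ => ?_)
  have := Real.add_one_le_exp (a c)
  linarith

/-- Each permutation is determined by its set of cycle factors (`cycleFactorsFinset_injective`), so
the sum is at most `∏_{cycles c} (1 + w |c|) ≤ exp ∑_c w |c|`; the number of `j`-cycles is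
`(j-1)! * choose n j ≤ n^j / j`. -/
theorem exp_sum (w : ℕ → ℝ) (hw : ∀ j, 0 ≤ w j) :
    ∑ π : Perm (Fin n), (π.cycleType.map w).prod ≤
      Real.exp (∑ j ∈ Icc 2 n, ((n : ℝ) ^ j / j) * w j) := by
  classical
  have h0 : ∀ F : Finset (Perm (Fin n)), 0 ≤ ∏ c ∈ F, w c.support.card :=
    fun F => Finset.prod_nonneg fun c _ => hw _
  calc ∑ π : Perm (Fin n), (π.cycleType.map w).prod
      = ∑ π : Perm (Fin n), ∏ c ∈ π.cycleFactorsFinset, w c.support.card :=
        Finset.sum_congr rfl fun π _ => prod_cycleType_map w π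
    _ ≤ ∑ F ∈ (allCycles n).powerset, ∏ c ∈ F, w c.support.card :=
        sum_perm_le_powerset (fun F => ∏ c ∈ F, w c.support.card) h0 _ _
          (fun π _ => mem_powerset.mpr (cycleFactors_subset π))
    _ = ∏ c ∈ allCycles n, (1 + w c.support.card) := (Finset.prod_one_add _).symm
    _ ≤ Real.exp (∑ c ∈ allCycles n, w c.support.card) :=
        prod_one_add_le_exp _ _ (fun c => hw _)
    _ ≤ _ := by
        apply Real.exp_le_exp.mpr
        refine sum_allCycles_le w hw 2 le_rfl _ (fun c hc => ⟨hc, ?_⟩)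
        have hc' : c.IsCycle := by
          simpa [allCycles] using hc
        exact hc'.two_le_card_support

open scoped Classical in
/-- The same, for permutations with a cycle of length at least 5: pull out one such cycle. -/
theorem exp_sum_five (w : ℕ → ℝ) (hw : ∀ j, 0 ≤ w j) :
    ∑ π ∈ (univ.filter fun π : Perm (Fin n) => ∃ j ∈ π.cycleType, 5 ≤ j),
        (π.cycleType.map w).prod ≤
      (∑ j ∈ Icc 5 n, ((n : ℝ) ^ j / j) * w j) *
        Real.exp (∑ j ∈ Icc 2 n, ((n : ℝ) ^ j / j) * w j) := by
  have h0 : ∀ F : Finset (Perm (Fin n)), 0 ≤ ∏ c ∈ F, w c.support.card :=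
    fun F => Finset.prod_nonneg fun c _ => hw _
  set Big : Finset (Perm (Fin n)) := (allCycles n).filter fun c => 5 ≤ c.support.card with hBig
  set 𝓕 : Finset (Finset (Perm (Fin n))) :=
    (allCycles n).powerset.filter fun F => ∃ c ∈ F, 5 ≤ c.support.card with h𝓕
  have hE : 0 ≤ ∑ j ∈ Icc 2 n, ((n : ℝ) ^ j / j) * w j := by
    refine Finset.sum_nonneg fun j _ => mul_nonneg ?_ (hw j)
    positivity
  have hstep : ∀ c ∈ Big, ∑ F ∈ (allCycles n).powerset.filter (fun F => c ∈ F),
      ∏ d ∈ F, w d.support.card ≤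
        w c.support.card * Real.exp (∑ j ∈ Icc 2 n, ((n : ℝ) ^ j / j) * w j) := by
    intro c hc
    have hcA : c ∈ allCycles n := (mem_filter.mp hc).1
    -- erase `c`
    have hbij : ∑ F ∈ (allCycles n).powerset.filter (fun F => c ∈ F), ∏ d ∈ F, w d.support.card =
        ∑ F ∈ ((allCycles n).erase c).powerset, ∏ d ∈ insert c F, w d.support.card := by
      refine Finset.sum_bij' (fun F _ => F.erase c) (fun F _ => insert c F) ?_ ?_ ?_ ?_ ?_
      · intro F hF
        simp only [mem_filter, mem_powerset] at hF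
        exact mem_powerset.mpr (Finset.erase_subset_erase _ hF.1)
      · intro F hF
        have hF' := mem_powerset.mp hF
        simp only [mem_filter, mem_powerset]
        refine ⟨Finset.insert_subset hcA (hF'.trans (Finset.erase_subset _ _)),
          Finset.mem_insert_self _ _⟩
      · intro F hF
        simp only [mem_filter, mem_powerset] at hF
        exact Finset.insert_erase hF.2
      · intro F hF
        have hF' := mem_powerset.mp hF
        have : c ∉ F := fun h => (Finset.mem_erase.mp (hF' h)).1 rfl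
        exact Finset.erase_insert this
      · intro F hF
        simp only [mem_filter, mem_powerset] at hF
        rw [Finset.insert_erase hF.2]
    rw [hbij]
    have hins : ∀ F ∈ ((allCycles n).erase c).powerset, ∏ d ∈ insert c F, w d.support.card =
        w c.support.card * ∏ d ∈ F, w d.support.card := by
      intro F hF
      have hF' := mem_powerset.mp hF
      have : c ∉ F := fun h => (Finset.mem_erase.mp (hF' h)).1 rfl
      exact Finset.prod_insert this
    rw [Finset.sum_congr rfl hins, ← Finset.mul_sum, ← Finset.prod_one_add]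
    refine mul_le_mul_of_nonneg_left ?_ (hw _)
    refine (prod_one_add_le_exp _ _ (fun c => hw _)).trans (Real.exp_le_exp.mpr ?_)
    refine sum_allCycles_le w hw 2 le_rfl _ (fun d hd => ?_)
    have hd' : d ∈ allCycles n := Finset.mem_of_mem_erase hd
    refine ⟨hd', ?_⟩
    have hc' : d.IsCycle := by simpa [allCycles] using hd'
    exact hc'.two_le_card_support
  calc ∑ π ∈ (univ.filter fun π : Perm (Fin n) => ∃ j ∈ π.cycleType, 5 ≤ j),
        (π.cycleType.map w).prod
      = ∑ π ∈ (univ.filter fun π : Perm (Fin n) => ∃ j ∈ π.cycleType, 5 ≤ j),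
          ∏ c ∈ π.cycleFactorsFinset, w c.support.card :=
        Finset.sum_congr rfl fun π _ => prod_cycleType_map w π
    _ ≤ ∑ F ∈ 𝓕, ∏ c ∈ F, w c.support.card := by
        refine sum_perm_le_powerset (fun F => ∏ c ∈ F, w c.support.card) h0 𝓕 _ ?_
        intro π hπ
        obtain ⟨j, hj, h5⟩ := (mem_filter.mp hπ).2
        simp only [h𝓕, mem_filter, mem_powerset]
        refine ⟨cycleFactors_subset π, ?_⟩
        simp only [Perm.cycleType, Multiset.mem_map, Function.comp] at hj
        obtain ⟨c, hc, rfl⟩ := hj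
        exact ⟨c, hc, h5⟩
    _ ≤ ∑ c ∈ Big, ∑ F ∈ (allCycles n).powerset.filter (fun F => c ∈ F),
          ∏ d ∈ F, w d.support.card := by
        -- each F is counted at least once
        have hsw : ∑ c ∈ Big, ∑ F ∈ (allCycles n).powerset.filter (fun F => c ∈ F),
            ∏ d ∈ F, w d.support.card =
            ∑ F ∈ (allCycles n).powerset, ∑ c ∈ Big.filter (fun c => c ∈ F),
              ∏ d ∈ F, w d.support.card := by
          simp only [Finset.sum_filter]
          rw [Finset.sum_comm]
        rw [hsw]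
        calc ∑ F ∈ 𝓕, ∏ c ∈ F, w c.support.card
            ≤ ∑ F ∈ 𝓕, ∑ c ∈ Big.filter (fun c => c ∈ F), ∏ d ∈ F, w d.support.card := by
              refine Finset.sum_le_sum fun F hF => ?_
              obtain ⟨hFp, c, hcF, hc5⟩ := mem_filter.mp hF
              have hcB : c ∈ Big.filter (fun c => c ∈ F) := by
                simp only [hBig, mem_filter]
                exact ⟨⟨mem_powerset.mp hFp hcF, hc5⟩, hcF⟩
              exact Finset.single_le_sum (f := fun _ => ∏ d ∈ F, w d.support.card)
                (fun _ _ => h0 F) hcB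
          _ ≤ _ := Finset.sum_le_sum_of_subset_of_nonneg (Finset.filter_subset _ _)
              (fun F _ _ => Finset.sum_nonneg fun _ _ => h0 F)
    _ ≤ ∑ c ∈ Big, w c.support.card * Real.exp (∑ j ∈ Icc 2 n, ((n : ℝ) ^ j / j) * w j) :=
        Finset.sum_le_sum hstep
    _ = (∑ c ∈ Big, w c.support.card) * Real.exp (∑ j ∈ Icc 2 n, ((n : ℝ) ^ j / j) * w j) := by
        rw [Finset.sum_mul]
    _ ≤ _ := by
        refine mul_le_mul_of_nonneg_right ?_ (Real.exp_pos _).le
        refine sum_allCycles_le w hw 5 (by norm_num) _ (fun c hc => ?_)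
        exact mem_filter.mp hc

end Vale.Agent.Lib.P197
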