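import Vale.Agent.Lib.P197.Specht

/-!
# P197 module KronLink: the Kronecker coefficient as a character sum (blueprint sec 2)
-/

open Equiv Finset CategoryTheory MonoidalCategory

namespace Vale.Agent.Lib.P197

variable {n : ℕ} {μ : YoungDiagram}

/-- The character of the Specht module in `FDRep`. -/
theorem spechtFD_character (T : Filling n μ) (π : Perm (Fin n)) :
    (spechtFD T).character π = (ff T : ℂ) * (rr T π : ℂ) := by
  unfold spechtFD FDRep.character
  rw [FDRep.of_ρ']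
  exact trace_spechtRep T π

/-- From `FDRep.scalar_product_char_eq_finrank_equivariant`, `FDRep.char_tensor` and
`trace_spechtRep`, `rr_inv`. -/
theorem kronecker_eq {la mu nu : YoungDiagram} (T₁ : Filling n la) (T₂ : Filling n mu)
    (T₃ : Filling n nu) :
    ((kronecker T₁ T₂ T₃ : ℕ) : ℝ) =
      ((n.factorial : ℕ) : ℝ)⁻¹ * (ff T₁ : ℝ) * (ff T₂ : ℝ) * (ff T₃ : ℝ) *
        ∑ π : Perm (Fin n), rr T₁ π * rr T₂ π * rr T₃ π := by
  have hcard : (Nat.card (Perm (Fin n)) : ℂ) = (n.factorial : ℂ) := by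
    simp [Nat.card_eq_fintype_card, Fintype.card_perm]
  have hne : (Nat.card (Perm (Fin n)) : ℂ) ≠ 0 := by
    rw [hcard]
    exact_mod_cast n.factorial_ne_zero
  let _ : Invertible (Nat.card (Perm (Fin n)) : ℂ) := invertibleOfNonzero hne
  have h := FDRep.scalar_product_char_eq_finrank_equivariant (spechtFD T₃)
    (spechtFD T₁ ⊗ spechtFD T₂)
  have hk : ((kronecker T₁ T₂ T₃ : ℕ) : ℂ) =
      (((n.factorial : ℕ) : ℝ)⁻¹ * (ff T₁ : ℝ) * (ff T₂ : ℝ) * (ff T₃ : ℝ) *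
        ∑ π : Perm (Fin n), rr T₁ π * rr T₂ π * rr T₃ π : ℝ) := by
    unfold kronecker
    rw [← h, hcard, FDRep.char_tensor]
    push_cast
    rw [Finset.mul_sum, Finset.mul_sum]
    refine Finset.sum_congr rfl fun π _ => ?_
    rw [Pi.mul_apply, spechtFD_character, spechtFD_character, spechtFD_character, rr_inv]
    ring
  exact_mod_cast hk

theorem kronecker_pos {la mu nu : YoungDiagram} (T₁ : Filling n la) (T₂ : Filling n mu)
    (T₃ : Filling n nu) (h : ∑ π : Perm (Fin n), rr T₁ π * rr T₂ π * rr T₃ π ≠ 0) :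
    0 < kronecker T₁ T₂ T₃ := by
  rcases Nat.eq_zero_or_pos (kronecker T₁ T₂ T₃) with h0 | h0
  · exfalso
    have he := kronecker_eq T₁ T₂ T₃
    rw [h0] at he
    have hf : ((n.factorial : ℕ) : ℝ)⁻¹ ≠ 0 :=
      inv_ne_zero (by exact_mod_cast n.factorial_ne_zero)
    have h1 : (ff T₁ : ℝ) ≠ 0 := by exact_mod_cast (ff_pos T₁).ne'
    have h2 : (ff T₂ : ℝ) ≠ 0 := by exact_mod_cast (ff_pos T₂).ne'
    have h3 : (ff T₃ : ℝ) ≠ 0 := by exact_mod_cast (ff_pos T₃).ne'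
    have : ((n.factorial : ℕ) : ℝ)⁻¹ * (ff T₁ : ℝ) * (ff T₂ : ℝ) * (ff T₃ : ℝ) *
        ∑ π : Perm (Fin n), rr T₁ π * rr T₂ π * rr T₃ π ≠ 0 :=
      mul_ne_zero (mul_ne_zero (mul_ne_zero (mul_ne_zero hf h1) h2) h3) h
    apply this
    rw [← he]
    simp
  · exact h0

end Vale.Agent.Lib.P197
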