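import Mathlib

/-!
# P197 module Hadamard: Hadamard's inequality (blueprint sec 8)
-/

open Finset Matrix

namespace Vale.Agent.Lib.P197

/-- Hadamard's inequality for a real square matrix, by rows. -/
theorem hadamard {N : ℕ} (A : Matrix (Fin N) (Fin N) ℝ) :
    A.det ^ 2 ≤ ∏ i, ∑ j, A i j ^ 2 := by
  classical
  let E := EuclideanSpace ℝ (Fin N)
  have : Fact (Module.finrank ℝ E = N) := ⟨by simp [E]⟩
  let v : Fin N → E := fun i => WithLp.toLp 2 (A i)
  let e : OrthonormalBasis (Fin N) ℝ E := EuclideanSpace.basisFun (Fin N) ℝ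
  let o : Orientation ℝ E (Fin N) := e.toBasis.orientation
  have h1 : |o.volumeForm v| ≤ ∏ i, ‖v i‖ := o.abs_volumeForm_apply_le v
  have h2 : |o.volumeForm v| = |e.toBasis.det v| := o.volumeForm_robust' e v
  have h3 : e.toBasis.det v = A.det := by
    rw [Module.Basis.det_apply, ← Matrix.det_transpose]
    congr 1
  rw [h2, h3] at h1
  have h4 : ∀ i, ‖v i‖ ^ 2 = ∑ j, A i j ^ 2 := by
    intro i
    rw [EuclideanSpace.norm_sq_eq]
    simp [v]
  calc A.det ^ 2 = |A.det| ^ 2 := (sq_abs _).symm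
    _ ≤ (∏ i, ‖v i‖) ^ 2 := pow_le_pow_left₀ (abs_nonneg _) h1 2
    _ = ∏ i, ‖v i‖ ^ 2 := by rw [Finset.prod_pow]
    _ = ∏ i, ∑ j, A i j ^ 2 := Finset.prod_congr rfl (fun i _ => h4 i)

end Vale.Agent.Lib.P197
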