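import Vale.Agent.Lib.P197.Core
import Vale.Agent.Lib.P197.Hadamard

/-!
# P197 module LemmaB: the determinant bound at the beads of the staircase (blueprint sec 8)
-/

open Equiv Finset

namespace Vale.Agent.Lib.P197

/-- The beads of the staircase: `β i = 2 (m - i) - 1` for `i < m`. -/
def bead (m : ℕ) (i : Fin m) : ℕ := 2 * (m - (i : ℕ)) - 1

namespace LemmaBAux

lemma bead_le (m : ℕ) (i : Fin m) : bead m i + 1 ≤ 2 * m := by
  have := i.2
  unfold bead
  omega

lemma bead_inj (m : ℕ) : Function.Injective (bead m) := by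
  intro i j h
  have h1 := i.2
  have h2 := j.2
  unfold bead at h
  ext
  omega

/-- The product over the beads, away from `y`, with the beads written in increasing order. -/
noncomputable def G (m y : ℕ) : ℝ :=
  ∏ k ∈ range m, (if 2 * k + 1 ≠ y then |(y : ℝ) - ((2 * k + 1 : ℕ) : ℝ)| else 1)

lemma prod_odd (m : ℕ) :
    ∏ k ∈ range m, ((2 * k + 1 : ℕ) : ℝ) = (((2 * m - 1).doubleFactorial : ℕ) : ℝ) := by
  induction m with
  | zero => simp
  | succ m ih =>
    rw [prod_range_succ, ih]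
    have h : (2 * (m + 1) - 1).doubleFactorial = (2 * m + 1) * (2 * m - 1).doubleFactorial := by
      have := Nat.doubleFactorial_add_one (2 * m)
      have e1 : 2 * (m + 1) - 1 = 2 * m + 1 := by omega
      have e2 : 2 * m - 1 = 2 * m - 1 := rfl
      rw [e1, this]
    rw [h]
    push_cast
    ring

lemma prod_even (m : ℕ) :
    ∏ k ∈ range m, ((2 * k + 2 : ℕ) : ℝ) = (((2 * m).doubleFactorial : ℕ) : ℝ) := by
  induction m with
  | zero => simp
  | succ m ih =>
    rw [prod_range_succ, ih]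
    have h : (2 * (m + 1)).doubleFactorial = (2 * m + 2) * (2 * m).doubleFactorial := by
      have e1 : 2 * (m + 1) = 2 * m + 2 := by omega
      rw [e1, Nat.doubleFactorial_add_two]
    rw [h]
    push_cast
    ring

lemma G_zero (m : ℕ) : G m 0 = (((2 * m - 1).doubleFactorial : ℕ) : ℝ) := by
  rw [← prod_odd, G]
  refine prod_congr rfl fun k _ => ?_
  have : 2 * k + 1 ≠ 0 := by omega
  rw [if_pos this]
  have h0 : ((2 * k + 1 : ℕ) : ℝ) ≥ 0 := Nat.cast_nonneg _
  simp only [Nat.cast_zero, zero_sub, abs_neg]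
  exact abs_of_nonneg h0

lemma G_one (m : ℕ) : G (m + 1) 1 = (((2 * m).doubleFactorial : ℕ) : ℝ) := by
  rw [← prod_even, G, prod_range_succ']
  have h0 : (if 2 * 0 + 1 ≠ 1 then |((1 : ℕ) : ℝ) - ((2 * 0 + 1 : ℕ) : ℝ)| else 1) = (1 : ℝ) := by
    simp
  rw [h0, mul_one]
  refine prod_congr rfl fun k _ => ?_
  have : 2 * (k + 1) + 1 ≠ 1 := by omega
  rw [if_pos this]
  push_cast
  have e : (1 : ℝ) - (2 * ((k : ℝ) + 1) + 1) = -(2 * (k : ℝ) + 2) := by ring
  rw [e, abs_neg]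
  exact abs_of_nonneg (by positivity)

lemma G_add_two (m y : ℕ) : G (m + 1) (y + 2) = G m y * ((y : ℝ) + 1) := by
  unfold G
  rw [prod_range_succ']
  have h0 : (if 2 * 0 + 1 ≠ y + 2 then |((y + 2 : ℕ) : ℝ) - ((2 * 0 + 1 : ℕ) : ℝ)| else 1)
      = (y : ℝ) + 1 := by
    have : 2 * 0 + 1 ≠ y + 2 := by omega
    rw [if_pos this]
    push_cast
    have e : (y : ℝ) + 2 - 1 = (y : ℝ) + 1 := by ring
    rw [e]
    exact abs_of_nonneg (by positivity)
  rw [h0]
  congr 1
  refine prod_congr rfl fun k _ => ?_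
  have iff1 : (2 * (k + 1) + 1 ≠ y + 2) ↔ (2 * k + 1 ≠ y) := by omega
  by_cases h : 2 * k + 1 ≠ y
  · rw [if_pos h, if_pos (iff1.2 h)]
    push_cast
    congr 1
    ring
  · rw [if_neg h, if_neg (fun hh => h (iff1.1 hh))]

theorem G_eq : ∀ (y m : ℕ), y + 1 ≤ 2 * m →
    G m y = (((y - 1).doubleFactorial : ℕ) : ℝ) * (((2 * m - 1 - y).doubleFactorial : ℕ) : ℝ)
  | 0, m, _ => by
    rw [G_zero]
    simp
  | 1, m, h => by
    obtain ⟨m', rfl⟩ : ∃ m', m = m' + 1 := ⟨m - 1, by omega⟩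
    rw [G_one]
    have e : 2 * (m' + 1) - 1 - 1 = 2 * m' := by omega
    rw [e]
    simp
  | y + 2, m, h => by
    obtain ⟨m', rfl⟩ : ∃ m', m = m' + 1 := ⟨m - 1, by omega⟩
    have h' : y + 1 ≤ 2 * m' := by omega
    rw [G_add_two, G_eq y m' h']
    have e1 : y + 2 - 1 = y + 1 := by omega
    have e2 : 2 * (m' + 1) - 1 - (y + 2) = 2 * m' - 1 - y := by omega
    rw [e1, e2, Nat.doubleFactorial_add_one]
    have e3 : y - 1 = y - 1 := rfl
    push_cast
    ring

/-- The product of the distances from `y` to the beads different from `y`. -/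
noncomputable def Wf (m y : ℕ) : ℝ :=
  ∏ t ∈ univ.filter (fun t : Fin m => bead m t ≠ y), |(y : ℝ) - (bead m t : ℝ)|

lemma bead_rev (m : ℕ) (t : Fin m) : bead m (Fin.rev t) = 2 * (t : ℕ) + 1 := by
  have := t.2
  unfold bead
  rw [Fin.val_rev]
  omega

lemma Wf_eq_G (m y : ℕ) : Wf m y = G m y := by
  unfold Wf G
  rw [prod_filter]
  rw [← Fin.revPerm.prod_comp (univ : Finset (Fin m))
    (fun t => if bead m t ≠ y then |(y : ℝ) - (bead m t : ℝ)| else 1)
    (by intro x _; simp)]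
  rw [← Fin.prod_univ_eq_prod_range
    (fun k => if 2 * k + 1 ≠ y then |(y : ℝ) - ((2 * k + 1 : ℕ) : ℝ)| else 1) m]
  refine prod_congr rfl fun t _ => ?_
  simp only [Fin.revPerm_apply, bead_rev]

lemma Wf_pos (m y : ℕ) : 0 < Wf m y := by
  unfold Wf
  refine prod_pos fun t ht => ?_
  have h := (mem_filter.1 ht).2
  rw [abs_pos, sub_ne_zero]
  intro h2
  exact h (by exact_mod_cast h2.symm)

lemma Wf_formula (m y : ℕ) (h : y + 1 ≤ 2 * m) :
    Wf m y = (((y - 1).doubleFactorial : ℕ) : ℝ) * (((2 * m - 1 - y).doubleFactorial : ℕ) : ℝ) := by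
  rw [Wf_eq_G, G_eq y m h]

lemma fact_eq (y : ℕ) : y.factorial = y.doubleFactorial * (y - 1).doubleFactorial := by
  cases y with
  | zero => rfl
  | succ y => exact Nat.factorial_eq_mul_doubleFactorial y

lemma dfac_pos (y : ℕ) : (0 : ℝ) < ((y.doubleFactorial : ℕ) : ℝ) := by
  exact_mod_cast Nat.doubleFactorial_pos y

/-- `Wf / y! = (2m-1-y)!! / y!!`. -/
lemma Wf_div (m y : ℕ) (h : y + 1 ≤ 2 * m) :
    Wf m y / ((y.factorial : ℕ) : ℝ) =
      (((2 * m - 1 - y).doubleFactorial : ℕ) : ℝ) / ((y.doubleFactorial : ℕ) : ℝ) := by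
  rw [Wf_formula m y h, fact_eq]
  have h1 := dfac_pos y
  have h2 := dfac_pos (y - 1)
  push_cast
  field_simp

/-! Double factorial ratios. -/

theorem dfac_one : ∀ p : ℕ,
    ((p + 1).doubleFactorial) ^ 2 ≤ 2 * (p + 1) * (p.doubleFactorial) ^ 2
  | 0 => by decide
  | 1 => by decide
  | p + 2 => by
    have ih := dfac_one p
    rw [Nat.doubleFactorial_add_two (p + 1), Nat.doubleFactorial_add_two p]
    have e : (p + 2 + 1 : ℕ) = p + 1 + 2 := by omega
    rw [e]
    have h1 : (p + 1 + 2) * (p + 1) ≤ (p + 2) * (p + 2) := by nlinarith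
    calc ((p + 1 + 2) * (p + 1).doubleFactorial) ^ 2
        = (p + 1 + 2) ^ 2 * ((p + 1).doubleFactorial) ^ 2 := by ring
      _ ≤ (p + 1 + 2) ^ 2 * (2 * (p + 1) * (p.doubleFactorial) ^ 2) :=
          Nat.mul_le_mul_left _ ih
      _ = 2 * (p + 1 + 2) * ((p + 1 + 2) * (p + 1)) * (p.doubleFactorial) ^ 2 := by ring
      _ ≤ 2 * (p + 1 + 2) * ((p + 2) * (p + 2)) * (p.doubleFactorial) ^ 2 := by
          apply Nat.mul_le_mul_right
          apply Nat.mul_le_mul_left
          exact h1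
      _ = _ := by ring

theorem dfac_step (p : ℕ) : ∀ s : ℕ, 1 ≤ s →
    ((p + s).doubleFactorial) ^ 2 ≤ 2 * (p + s + 1) ^ s * (p.doubleFactorial) ^ 2
  | 0, h => by omega
  | 1, _ => by
    have := dfac_one p
    calc ((p + 1).doubleFactorial) ^ 2 ≤ 2 * (p + 1) * (p.doubleFactorial) ^ 2 := this
      _ ≤ 2 * (p + 1 + 1) ^ 1 * (p.doubleFactorial) ^ 2 := by
          apply Nat.mul_le_mul_right
          rw [pow_one]
          omega
  | 2, _ => by
    have e : p + 2 = p + 2 := rfl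
    rw [Nat.doubleFactorial_add_two]
    have h1 : (p + 2) ^ 2 ≤ 2 * (p + 2 + 1) ^ 2 := by
      have h2 : (p + 2) ^ 2 ≤ (p + 2 + 1) ^ 2 := Nat.pow_le_pow_left (by omega) 2
      omega
    calc ((p + 2) * p.doubleFactorial) ^ 2 = (p + 2) ^ 2 * (p.doubleFactorial) ^ 2 := by ring
      _ ≤ _ := Nat.mul_le_mul_right _ h1
  | s + 3, _ => by
    have ih := dfac_step p (s + 1) (by omega)
    have e1 : p + (s + 3) = (p + (s + 1)) + 2 := by omega
    rw [e1, Nat.doubleFactorial_add_two]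
    have h1 : (p + (s + 1) + 2) ^ 2 * (p + (s + 1) + 1) ^ (s + 1) ≤
        (p + (s + 1) + 2 + 1) ^ (s + 3) := by
      calc (p + (s + 1) + 2) ^ 2 * (p + (s + 1) + 1) ^ (s + 1)
          ≤ (p + (s + 1) + 2 + 1) ^ 2 * (p + (s + 1) + 2 + 1) ^ (s + 1) := by
            apply Nat.mul_le_mul
            · apply Nat.pow_le_pow_left; omega
            · apply Nat.pow_le_pow_left; omega
        _ = _ := by ring
    calc ((p + (s + 1) + 2) * (p + (s + 1)).doubleFactorial) ^ 2
        = (p + (s + 1) + 2) ^ 2 * ((p + (s + 1)).doubleFactorial) ^ 2 := by ring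
      _ ≤ (p + (s + 1) + 2) ^ 2 * (2 * (p + (s + 1) + 1) ^ (s + 1) * (p.doubleFactorial) ^ 2) :=
          Nat.mul_le_mul_left _ ih
      _ = 2 * ((p + (s + 1) + 2) ^ 2 * (p + (s + 1) + 1) ^ (s + 1)) * (p.doubleFactorial) ^ 2 := by
          ring
      _ ≤ 2 * (p + (s + 1) + 2 + 1) ^ (s + 3) * (p.doubleFactorial) ^ 2 := by
          apply Nat.mul_le_mul_right
          apply Nat.mul_le_mul_left
          exact h1
      _ = 2 * (p + (s + 3) + 1) ^ (s + 3) * (p.doubleFactorial) ^ 2 := by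
          have e2 : p + (s + 1) + 2 + 1 = p + (s + 3) + 1 := by omega
          rw [e2]

/-- The factor of one row: the double factorial form. -/
noncomputable def Rr (m x b : ℕ) : ℝ :=
  (((2 * m - 1 - x).doubleFactorial : ℕ) : ℝ) / ((x.doubleFactorial : ℕ) : ℝ) *
    (((b.doubleFactorial : ℕ) : ℝ) / (((2 * m - 1 - b).doubleFactorial : ℕ) : ℝ))

lemma Rr_nonneg (m x b : ℕ) : 0 ≤ Rr m x b := by
  unfold Rr
  positivity

lemma Rr_self (m b : ℕ) : Rr m b b = 1 := by
  unfold Rr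
  have h1 := dfac_pos (2 * m - 1 - b)
  have h2 := dfac_pos b
  field_simp

lemma Rr_le (m x b : ℕ) (hxb : x < b) (hb : b + 1 ≤ 2 * m) :
    Rr m x b ≤ 2 * (2 * (m : ℝ)) ^ (b - x) := by
  obtain ⟨s, rfl⟩ : ∃ s, b = x + s := ⟨b - x, by omega⟩
  have hs : 1 ≤ s := by omega
  set P := 2 * m - 1 - (x + s) with hP
  have e1 : 2 * m - 1 - x = P + s := by omega
  have e2 : x + s - x = s := by omega
  rw [e2]
  unfold Rr
  rw [e1, ← hP]
  have h1 := dfac_step P s hs
  have h2 := dfac_step x s hs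
  have hP1 : P + s + 1 ≤ 2 * m := by omega
  have hx1 : x + s + 1 ≤ 2 * m := by omega
  have h1' : (((P + s).doubleFactorial : ℕ) : ℝ) ^ 2 ≤
      2 * (2 * (m : ℝ)) ^ s * ((P.doubleFactorial : ℕ) : ℝ) ^ 2 := by
    have h3 : ((P + s).doubleFactorial) ^ 2 ≤ 2 * (2 * m) ^ s * (P.doubleFactorial) ^ 2 :=
      h1.trans (Nat.mul_le_mul_right _ (Nat.mul_le_mul_left _ (Nat.pow_le_pow_left hP1 s)))
    exact_mod_cast h3
  have h2' : (((x + s).doubleFactorial : ℕ) : ℝ) ^ 2 ≤
      2 * (2 * (m : ℝ)) ^ s * ((x.doubleFactorial : ℕ) : ℝ) ^ 2 := by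
    have h3 : ((x + s).doubleFactorial) ^ 2 ≤ 2 * (2 * m) ^ s * (x.doubleFactorial) ^ 2 :=
      h2.trans (Nat.mul_le_mul_right _ (Nat.mul_le_mul_left _ (Nat.pow_le_pow_left hx1 s)))
    exact_mod_cast h3
  have hP0 := dfac_pos P
  have hx0 := dfac_pos x
  have hm0 : (0 : ℝ) ≤ (2 * (m : ℝ)) ^ s := by positivity
  set A : ℝ := (((P + s).doubleFactorial : ℕ) : ℝ)
  set B : ℝ := ((P.doubleFactorial : ℕ) : ℝ)
  set C : ℝ := (((x + s).doubleFactorial : ℕ) : ℝ)
  set D : ℝ := ((x.doubleFactorial : ℕ) : ℝ)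
  set Y : ℝ := (2 * (m : ℝ)) ^ s
  have hB2 : (A / B) ^ 2 ≤ 2 * Y := by
    rw [div_pow, div_le_iff₀ (by positivity)]
    exact h1'
  have hD2 : (C / D) ^ 2 ≤ 2 * Y := by
    rw [div_pow, div_le_iff₀ (by positivity)]
    exact h2'
  have hAB : 0 ≤ A / B := by positivity
  have hCD : 0 ≤ C / D := by positivity
  have key : (A / D * (C / B)) ^ 2 ≤ (2 * Y) ^ 2 := by
    have e : (A / D * (C / B)) ^ 2 = (A / B) ^ 2 * (C / D) ^ 2 := by
      field_simp
    rw [e]
    calc (A / B) ^ 2 * (C / D) ^ 2 ≤ (2 * Y) * (2 * Y) :=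
          mul_le_mul hB2 hD2 (by positivity) (by positivity)
      _ = (2 * Y) ^ 2 := by ring
  have h0 : 0 ≤ A / D * (C / B) := by positivity
  exact (pow_le_pow_iff_left₀ h0 (by positivity) (by norm_num)).1 key

/-! The sum over odd numbers. -/

lemma odd_range_sum (N : ℕ) :
    ∑ j ∈ range (N + 1), ((((2 * j + 1 : ℕ) : ℝ)) ^ 2)⁻¹ ≤ 5 / 4 - (4 * ((N : ℝ) + 1))⁻¹ := by
  induction N with
  | zero => norm_num
  | succ N ih =>
    rw [sum_range_succ]
    have h : (((2 * (N + 1) + 1 : ℕ) : ℝ) ^ 2)⁻¹ ≤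
        (4 * ((N : ℝ) + 1))⁻¹ - (4 * (((N + 1 : ℕ) : ℝ) + 1))⁻¹ := by
      push_cast
      have hN : (0 : ℝ) ≤ N := Nat.cast_nonneg N
      have e : (4 * ((N : ℝ) + 1))⁻¹ - (4 * ((N : ℝ) + 1 + 1))⁻¹ =
          (4 * ((N : ℝ) + 1) * ((N : ℝ) + 2))⁻¹ := by
        field_simp
        ring
      rw [e]
      apply inv_anti₀ (by positivity)
      nlinarith
    linarith

lemma odd_sum (C : Finset ℕ) (hC : ∀ c ∈ C, Odd c) :
    ∑ c ∈ C, ((c : ℝ) ^ 2)⁻¹ ≤ 5 / 4 := by
  set N := C.sup id with hN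
  have hsub : C ⊆ (range (N + 1)).image (fun j : ℕ => 2 * j + 1) := by
    intro c hc
    obtain ⟨j, rfl⟩ := hC c hc
    refine mem_image.2 ⟨j, ?_, rfl⟩
    have : (2 * j + 1) ≤ N := Finset.le_sup (f := id) hc
    exact mem_range.2 (by omega)
  calc ∑ c ∈ C, ((c : ℝ) ^ 2)⁻¹
      ≤ ∑ c ∈ (range (N + 1)).image (fun j : ℕ => 2 * j + 1), ((c : ℝ) ^ 2)⁻¹ :=
        sum_le_sum_of_subset_of_nonneg hsub (fun _ _ _ => by positivity)
    _ = ∑ j ∈ range (N + 1), (((2 * j + 1 : ℕ) : ℝ) ^ 2)⁻¹ := by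
        rw [sum_image]
        intro a _ b _ h
        have : 2 * a + 1 = 2 * b + 1 := h
        omega
    _ ≤ 5 / 4 - (4 * ((N : ℝ) + 1))⁻¹ := odd_range_sum N
    _ ≤ 5 / 4 := by
        have : (0 : ℝ) ≤ (4 * ((N : ℝ) + 1))⁻¹ := by positivity
        linarith

lemma bead_odd (m : ℕ) (t : Fin m) : Odd (bead m t) := by
  have := t.2
  unfold bead
  exact ⟨m - (t : ℕ) - 1, by omega⟩

/-- The row sum at a point which is not a bead. -/
lemma row_sum_nonbead (m x : ℕ) (hx : Even x) :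
    ∑ l : Fin m, (((x : ℝ) - (bead m l : ℝ)) ^ 2)⁻¹ ≤ 3 := by
  have hsplit := (sum_filter_add_sum_filter_not (univ : Finset (Fin m)) (fun l => bead m l < x)
    (fun l => (((x : ℝ) - (bead m l : ℝ)) ^ 2)⁻¹))
  rw [← hsplit]
  have h1 : ∑ l ∈ univ.filter (fun l : Fin m => bead m l < x),
      (((x : ℝ) - (bead m l : ℝ)) ^ 2)⁻¹ ≤ 5 / 4 := by
    have hinj : Set.InjOn (fun l : Fin m => x - bead m l)
        (univ.filter (fun l : Fin m => bead m l < x) : Finset (Fin m)) := by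
      intro a ha b hb hab
      have ha' := (mem_filter.1 (mem_coe.1 ha)).2
      have hb' := (mem_filter.1 (mem_coe.1 hb)).2
      have hab' : x - bead m a = x - bead m b := hab
      apply bead_inj m
      omega
    have := odd_sum ((univ.filter (fun l : Fin m => bead m l < x)).image
      (fun l : Fin m => x - bead m l)) (by
        intro c hc
        obtain ⟨l, hl, rfl⟩ := mem_image.1 hc
        have hl' := (mem_filter.1 hl).2
        exact Nat.Even.sub_odd hl'.le hx (bead_odd m l))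
    rw [sum_image hinj] at this
    refine le_trans (le_of_eq ?_) this
    refine sum_congr rfl fun l hl => ?_
    have hl' := (mem_filter.1 hl).2
    rw [Nat.cast_sub hl'.le]
  have h2 : ∑ l ∈ univ.filter (fun l : Fin m => ¬ bead m l < x),
      (((x : ℝ) - (bead m l : ℝ)) ^ 2)⁻¹ ≤ 5 / 4 := by
    have hinj : Set.InjOn (fun l : Fin m => bead m l - x)
        (univ.filter (fun l : Fin m => ¬ bead m l < x) : Finset (Fin m)) := by
      intro a ha b hb hab
      have ha' := (mem_filter.1 (mem_coe.1 ha)).2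
      have hb' := (mem_filter.1 (mem_coe.1 hb)).2
      have hab' : bead m a - x = bead m b - x := hab
      apply bead_inj m
      omega
    have := odd_sum ((univ.filter (fun l : Fin m => ¬ bead m l < x)).image
      (fun l : Fin m => bead m l - x)) (by
        intro c hc
        obtain ⟨l, hl, rfl⟩ := mem_image.1 hc
        have hl' := (mem_filter.1 hl).2
        exact Nat.Odd.sub_even (not_lt.1 hl') (bead_odd m l) hx)
    rw [sum_image hinj] at this
    refine le_trans (le_of_eq ?_) this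
    refine sum_congr rfl fun l hl => ?_
    have hl' := (mem_filter.1 hl).2
    rw [Nat.cast_sub (not_lt.1 hl')]
    have e : ((x : ℝ) - (bead m l : ℝ)) ^ 2 = ((bead m l : ℝ) - (x : ℝ)) ^ 2 := by ring
    rw [e]
  linarith

/-! The matrix identities. -/

open Polynomial in
/-- The Lagrange basis at the beads, evaluated at the points `x i`. -/
noncomputable def lagL (m : ℕ) (x : Fin m → ℕ) : Matrix (Fin m) (Fin m) ℝ :=
  fun i l => ∏ t ∈ univ.erase l, (((x i : ℝ) - (bead m t : ℝ)) / ((bead m l : ℝ) - (bead m t : ℝ)))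

lemma bead_cast_inj (m : ℕ) : Function.Injective (fun t : Fin m => (bead m t : ℝ)) := by
  intro a b h
  have h' : (bead m a : ℝ) = (bead m b : ℝ) := h
  exact bead_inj m (by exact_mod_cast h')

open Polynomial in
lemma vander_eq (m : ℕ) (x : Fin m → ℕ) :
    Matrix.vandermonde (fun i => (x i : ℝ)) =
      lagL m x * Matrix.vandermonde (fun t => (bead m t : ℝ)) := by
  ext i j
  rw [Matrix.mul_apply, Matrix.vandermonde_apply]
  have hinj : Set.InjOn (fun t : Fin m => (bead m t : ℝ)) ((univ : Finset (Fin m)) : Set (Fin m)) :=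
    (bead_cast_inj m).injOn
  have hdeg : ((X : ℝ[X]) ^ (j : ℕ)).degree < ((univ : Finset (Fin m)).card : WithBot ℕ) := by
    rw [degree_X_pow]
    simp only [card_univ, Fintype.card_fin]
    exact_mod_cast j.2
  have h := Lagrange.eq_interpolate hinj hdeg
  have h2 := congrArg (Polynomial.eval (x i : ℝ)) h
  rw [Lagrange.interpolate_apply, Polynomial.eval_finsetSum] at h2
  rw [Polynomial.eval_pow, Polynomial.eval_X] at h2
  rw [h2]
  refine sum_congr rfl fun l _ => ?_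
  rw [Matrix.vandermonde_apply, Polynomial.eval_mul, Polynomial.eval_C, Polynomial.eval_pow,
    Polynomial.eval_X, mul_comm]
  congr 1
  unfold Lagrange.basis lagL
  rw [Polynomial.eval_prod]
  refine prod_congr rfl fun t _ => ?_
  unfold Lagrange.basisDivisor
  simp only [Polynomial.eval_mul, Polynomial.eval_C, Polynomial.eval_sub, Polynomial.eval_X]
  rw [div_eq_mul_inv, mul_comm]

lemma abs_vdm (m : ℕ) (y : Fin m → ℕ) :
    |((vdm (fun i => (y i : ℤ)) : ℤ) : ℝ)| = |(Matrix.vandermonde (fun i => (y i : ℝ))).det| := by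
  rw [Matrix.det_vandermonde]
  unfold vdm
  push_cast
  simp only [Finset.abs_prod]
  exact prod_congr rfl fun i _ => prod_congr rfl fun j _ => abs_sub_comm _ _

/-- The normalised matrix. -/
noncomputable def matM (m : ℕ) (x : Fin m → ℕ) : Matrix (Fin m) (Fin m) ℝ :=
  fun i l => lagL m x i l * Wf m (bead m l) / Wf m (x i)

lemma det_lagL (m : ℕ) (x : Fin m → ℕ) :
    (lagL m x).det = (∏ i, Wf m (x i)) * ((∏ l, (Wf m (bead m l))⁻¹) * (matM m x).det) := by
  rw [← Matrix.det_mul_row, ← Matrix.det_mul_column]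
  congr 1
  ext i l
  simp only [Matrix.of_apply]
  unfold matM
  have h1 := (Wf_pos m (x i)).ne'
  have h2 := (Wf_pos m (bead m l)).ne'
  field_simp

lemma Wf_bead (m : ℕ) (l : Fin m) :
    Wf m (bead m l) = ∏ t ∈ univ.erase l, |(bead m l : ℝ) - (bead m t : ℝ)| := by
  unfold Wf
  refine prod_congr ?_ fun _ _ => rfl
  ext t
  simp only [mem_filter, mem_univ, true_and, mem_erase, and_true, ne_eq]
  constructor
  · intro h h2
    exact h (by rw [h2])
  · intro h h2
    exact h (bead_inj m h2)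

lemma abs_matM (m : ℕ) (x : Fin m → ℕ) (i l : Fin m) :
    |matM m x i l| = (∏ t ∈ univ.erase l, |(x i : ℝ) - (bead m t : ℝ)|) / Wf m (x i) := by
  unfold matM lagL
  rw [abs_div, abs_mul, abs_of_pos (Wf_pos m (x i)), abs_of_pos (Wf_pos m (bead m l)),
    Finset.abs_prod]
  have h : ∏ t ∈ univ.erase l,
      |((x i : ℝ) - (bead m t : ℝ)) / ((bead m l : ℝ) - (bead m t : ℝ))| =
      (∏ t ∈ univ.erase l, |(x i : ℝ) - (bead m t : ℝ)|) / Wf m (bead m l) := by
    rw [Wf_bead, ← prod_div_distrib]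
    exact prod_congr rfl fun t _ => abs_div _ _
  rw [h]
  have h2 := (Wf_pos m (bead m l)).ne'
  field_simp

/-- The row sum at a point which is not a bead. -/
lemma row_nonbead (m : ℕ) (x : Fin m → ℕ) (i : Fin m) (h : ∀ t, bead m t ≠ x i)
    (hb : x i + 1 ≤ 2 * m) : ∑ l, (matM m x i l) ^ 2 ≤ 3 := by
  have heven : Even (x i) := by
    by_contra hodd
    rw [Nat.not_even_iff_odd] at hodd
    obtain ⟨k, hk⟩ := hodd
    have hkm : k < m := by omega
    apply h (Fin.rev ⟨k, hkm⟩)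
    rw [bead_rev]
    exact hk.symm
  refine le_trans (le_of_eq ?_) (row_sum_nonbead m (x i) heven)
  refine sum_congr rfl fun l _ => ?_
  rw [← sq_abs, abs_matM]
  have hW : Wf m (x i) = ∏ t, |(x i : ℝ) - (bead m t : ℝ)| := by
    unfold Wf
    refine prod_congr ?_ fun _ _ => rfl
    ext t
    simp [h t]
  have hne : (x i : ℝ) - (bead m l : ℝ) ≠ 0 := by
    rw [sub_ne_zero]
    intro h2
    exact h l (by exact_mod_cast h2.symm)
  have hprod : ∏ t ∈ univ.erase l, |(x i : ℝ) - (bead m t : ℝ)| ≠ 0 := by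
    refine prod_ne_zero_iff.2 fun t _ => ?_
    rw [abs_ne_zero, sub_ne_zero]
    intro h2
    exact h t (by exact_mod_cast h2.symm)
  rw [hW, ← mul_prod_erase univ _ (mem_univ l)]
  have habs : |(x i : ℝ) - (bead m l : ℝ)| ≠ 0 := abs_ne_zero.2 hne
  rw [← sq_abs ((x i : ℝ) - (bead m l : ℝ))]
  field_simp

/-- The row sum at a bead. -/
lemma row_bead (m : ℕ) (x : Fin m → ℕ) (i p : Fin m) (h : x i = bead m p) :
    ∑ l, (matM m x i l) ^ 2 = 1 := by
  rw [sum_eq_single p]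
  · rw [← sq_abs, abs_matM, h, ← Wf_bead]
    have := (Wf_pos m (bead m p)).ne'
    field_simp
  · intro l _ hl
    rw [← sq_abs, abs_matM, h]
    have hz : ∏ t ∈ univ.erase l, |(bead m p : ℝ) - (bead m t : ℝ)| = 0 := by
      refine prod_eq_zero (mem_erase.2 ⟨hl.symm, mem_univ p⟩) ?_
      simp
    rw [hz]
    simp
  · intro hp
    exact absurd (mem_univ p) hp

lemma row_le (m : ℕ) (x : Fin m → ℕ) (i : Fin m) (hb : x i + 1 ≤ 2 * m) :
    ∑ l, (matM m x i l) ^ 2 ≤ if x i ≠ bead m i then 3 else 1 := by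
  by_cases h1 : x i ≠ bead m i
  · rw [if_pos h1]
    by_cases h2 : ∀ t, bead m t ≠ x i
    · exact row_nonbead m x i h2 hb
    · push Not at h2
      obtain ⟨p, hp⟩ := h2
      rw [row_bead m x i p hp.symm]
      norm_num
  · rw [if_neg h1]
    rw [not_not] at h1
    exact le_of_eq (row_bead m x i i h1)

lemma det_matM_le (m : ℕ) (x : Fin m → ℕ) (hx : ∀ i, x i ≤ bead m i) :
    |(matM m x).det| ≤ (Real.sqrt 3) ^ (univ.filter fun i => x i ≠ bead m i).card := by
  have h1 := hadamard (matM m x)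
  have h2 : ∏ i, ∑ l, (matM m x i l) ^ 2 ≤ ∏ i, (if x i ≠ bead m i then (3 : ℝ) else 1) := by
    refine prod_le_prod (fun i _ => sum_nonneg fun l _ => sq_nonneg _) fun i _ => ?_
    exact row_le m x i (by have := hx i; have := bead_le m i; omega)
  have h3 : ∏ i, (if x i ≠ bead m i then (3 : ℝ) else 1) =
      3 ^ (univ.filter fun i => x i ≠ bead m i).card := by
    rw [prod_ite]
    simp
  have h4 : (|(matM m x).det|) ^ 2 ≤
      ((Real.sqrt 3) ^ (univ.filter fun i => x i ≠ bead m i).card) ^ 2 := by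
    rw [sq_abs, ← pow_mul, mul_comm, pow_mul, Real.sq_sqrt (by norm_num), ← h3]
    exact h1.trans h2
  exact (pow_le_pow_iff_left₀ (abs_nonneg _) (by positivity) (by norm_num)).1 h4

lemma Rr_eq (m x b : ℕ) (hx : x + 1 ≤ 2 * m) (hb : b + 1 ≤ 2 * m) :
    Rr m x b = (Wf m x / ((x.factorial : ℕ) : ℝ)) * (((b.factorial : ℕ) : ℝ) / Wf m b) := by
  have h3 : ((b.factorial : ℕ) : ℝ) / Wf m b = (Wf m b / ((b.factorial : ℕ) : ℝ))⁻¹ :=
    (inv_div _ _).symm
  rw [Wf_div m x hx, h3, Wf_div m b hb]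
  unfold Rr
  rw [inv_div]

end LemmaBAux

open LemmaBAux in
/-- Lemma B. `x i ≤ bead i`, `S` is the number of moved beads, the total shift is `∑ (bead i - x i)`. -/
theorem lemmaB (m : ℕ) (x : Fin m → ℕ) (hx : ∀ i, x i ≤ bead m i) :
    ((∏ i, ((bead m i).factorial : ℝ)) / ∏ i, ((x i).factorial : ℝ)) *
        |(vdm (fun i => (x i : ℤ)) : ℝ)| / |(vdm (fun i => (bead m i : ℤ)) : ℝ)| ≤
      (2 * Real.sqrt 3) ^ (univ.filter fun i => x i ≠ bead m i).card *
        (2 * (m : ℝ)) ^ (∑ i, (bead m i - x i)) := by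
  set S := (univ.filter fun i => x i ≠ bead m i).card with hS
  have hbx : ∀ i, x i + 1 ≤ 2 * m := fun i => by
    have := hx i
    have := bead_le m i
    omega
  rw [abs_vdm m x, abs_vdm m (bead m)]
  have hV : (Matrix.vandermonde (fun t => (bead m t : ℝ))).det ≠ 0 :=
    Matrix.det_vandermonde_ne_zero_iff.2 (bead_cast_inj m)
  have hvpos : 0 < |(Matrix.vandermonde (fun t => (bead m t : ℝ))).det| := abs_pos.2 hV
  rw [vander_eq m x, Matrix.det_mul, abs_mul, det_lagL]
  have hcancel : ∀ a b : ℝ, a * (b * |(Matrix.vandermonde (fun t => (bead m t : ℝ))).det|) /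
      |(Matrix.vandermonde (fun t => (bead m t : ℝ))).det| = a * b := fun a b => by
    field_simp
  rw [hcancel]
  rw [abs_mul, abs_mul]
  rw [abs_of_pos (prod_pos fun i _ => Wf_pos m (x i)),
    abs_of_pos (prod_pos fun l _ => inv_pos.2 (Wf_pos m (bead m l)))]
  have hprod : ((∏ i, ((bead m i).factorial : ℝ)) / ∏ i, ((x i).factorial : ℝ)) *
      ((∏ i, Wf m (x i)) * (∏ l, (Wf m (bead m l))⁻¹)) = ∏ i, Rr m (x i) (bead m i) := by
    have : ∀ i, Rr m (x i) (bead m i) = (Wf m (x i) / ((x i).factorial : ℝ)) *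
        (((bead m i).factorial : ℝ) / Wf m (bead m i)) := fun i =>
      Rr_eq m (x i) (bead m i) (hbx i) (bead_le m i)
    simp only [this, prod_mul_distrib, div_eq_mul_inv, prod_inv_distrib]
    ring
  have hR : ∏ i, Rr m (x i) (bead m i) ≤
      2 ^ S * (2 * (m : ℝ)) ^ (∑ i, (bead m i - x i)) := by
    have h1 : ∀ i, Rr m (x i) (bead m i) ≤
        (if x i ≠ bead m i then (2 : ℝ) else 1) * (2 * (m : ℝ)) ^ (bead m i - x i) := by
      intro i
      by_cases h : x i ≠ bead m i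
      · rw [if_pos h]
        exact Rr_le m (x i) (bead m i) (lt_of_le_of_ne (hx i) h) (bead_le m i)
      · rw [if_neg h]
        rw [not_not] at h
        rw [h, Rr_self]
        simp
    calc ∏ i, Rr m (x i) (bead m i)
        ≤ ∏ i, ((if x i ≠ bead m i then (2 : ℝ) else 1) * (2 * (m : ℝ)) ^ (bead m i - x i)) :=
          prod_le_prod (fun i _ => Rr_nonneg _ _ _) fun i _ => h1 i
      _ = 2 ^ S * (2 * (m : ℝ)) ^ (∑ i, (bead m i - x i)) := by
          rw [prod_mul_distrib, prod_pow_eq_pow_sum, prod_ite]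
          simp [hS]
  have hdet := det_matM_le m x hx
  rw [← hS] at hdet
  have hRnn : 0 ≤ ∏ i, Rr m (x i) (bead m i) := prod_nonneg fun i _ => Rr_nonneg _ _ _
  calc ((∏ i, ((bead m i).factorial : ℝ)) / ∏ i, ((x i).factorial : ℝ)) *
        ((∏ i, Wf m (x i)) * ((∏ l, (Wf m (bead m l))⁻¹) * |(matM m x).det|))
      = (∏ i, Rr m (x i) (bead m i)) * |(matM m x).det| := by
        rw [← hprod]
        ring
    _ ≤ (2 ^ S * (2 * (m : ℝ)) ^ (∑ i, (bead m i - x i))) * (Real.sqrt 3) ^ S :=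
        mul_le_mul hR hdet (abs_nonneg _) (by positivity)
    _ = (2 * Real.sqrt 3) ^ S * (2 * (m : ℝ)) ^ (∑ i, (bead m i - x i)) := by
        rw [mul_pow]
        ring

end Vale.Agent.Lib.P197
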