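import Vale.Agent.Lib.P197.FrobFormula
import Vale.Agent.Lib.P197.EvenVanish
import Vale.Agent.Lib.P197.LemmaB

/-!
# P197 module StrongRho: the strong bound for the staircase character (blueprint sec 8)
-/

open Equiv Finset

namespace Vale.Agent.Lib.P197

variable {n : ℕ} {μ : YoungDiagram}

private lemma succ_pow_le (a j : ℕ) (hj : j ≤ a) : ((a : ℝ) + 1) ^ j ≤ 3 * (a : ℝ) ^ j := by
  rcases Nat.eq_zero_or_pos a with rfl | ha
  · have : j = 0 := by omega
    subst this
    norm_num
  have ha' : (0 : ℝ) < a := by exact_mod_cast ha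
  have h1 : (a : ℝ) + 1 = a * (1 + 1 / a) := by field_simp
  rw [h1, mul_pow]
  have h2 : (1 + 1 / (a : ℝ)) ^ j ≤ 3 := by
    have h3 : (1 + 1 / (a : ℝ)) ≤ Real.exp (1 / a) := by
      have := Real.add_one_le_exp (1 / (a : ℝ))
      linarith
    have h4 : (1 + 1 / (a : ℝ)) ^ j ≤ Real.exp (1 / a) ^ j :=
      pow_le_pow_left₀ (by positivity) h3 j
    have h5 : Real.exp (1 / a) ^ j = Real.exp ((j : ℝ) * (1 / a)) := by
      rw [← Real.exp_nat_mul]
    have h6 : (j : ℝ) * (1 / a) ≤ 1 := by
      have : (j : ℝ) ≤ a := by exact_mod_cast hj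
      rw [mul_one_div, div_le_one ha']
      exact this
    have h7 : Real.exp ((j : ℝ) * (1 / a)) ≤ Real.exp 1 := Real.exp_le_exp.mpr h6
    have h8 : Real.exp 1 < 3 := by
      have := Real.exp_one_lt_d9
      linarith
    rw [h5] at h4
    linarith
  have h9 : 0 ≤ (a : ℝ) ^ j := by positivity
  nlinarith

private lemma falling_ge : ∀ (a k : ℕ), k ≤ a →
    ((a : ℝ) / 3) ^ k * ((a - k).factorial : ℝ) ≤ (a.factorial : ℝ) := by
  intro a
  induction a with
  | zero =>
    intro k hk
    have : k = 0 := by omega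
    subst this
    simp
  | succ a ih =>
    intro k hk
    rcases k with _ | j
    · simp
    · have hj : j ≤ a := by omega
      have h1 := ih j hj
      have h2 : a + 1 - (j + 1) = a - j := by omega
      rw [h2, Nat.factorial_succ]
      push_cast
      have h3 := succ_pow_le a j hj
      have hfpos : (0 : ℝ) ≤ ((a - j).factorial : ℝ) := by positivity
      have h4 : (((a : ℝ) + 1) / 3) ^ (j + 1) * ((a - j).factorial : ℝ) =
          ((a : ℝ) + 1) * ((((a : ℝ) + 1) ^ j / 3 ^ (j + 1)) * ((a - j).factorial : ℝ)) := by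
        rw [div_pow, pow_succ ((a : ℝ) + 1)]
        ring
      rw [h4]
      apply mul_le_mul_of_nonneg_left _ (by positivity)
      calc (((a : ℝ) + 1) ^ j / 3 ^ (j + 1)) * ((a - j).factorial : ℝ)
          ≤ ((3 * (a : ℝ) ^ j) / 3 ^ (j + 1)) * ((a - j).factorial : ℝ) := by
            apply mul_le_mul_of_nonneg_right _ hfpos
            exact div_le_div_of_nonneg_right h3 (by positivity)
        _ = ((a : ℝ) / 3) ^ j * ((a - j).factorial : ℝ) := by
            rw [div_pow, pow_succ' (3 : ℝ)]
            field_simp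
        _ ≤ _ := h1

/-- For `k ≤ n`: `(n-k)!/n! ≤ (3/n)^k`. -/
theorem fact_ratio_le (k : ℕ) (hn : 0 < n) (hk : k ≤ n) :
    ((n - k).factorial : ℝ) / (n.factorial : ℝ) ≤ (3 / (n : ℝ)) ^ k := by
  have hn' : (0 : ℝ) < n := by exact_mod_cast hn
  have h := falling_ge n k hk
  have hf : (0 : ℝ) < (n.factorial : ℝ) := by positivity
  rw [div_le_iff₀ hf]
  have hpos : (0 : ℝ) < ((n : ℝ) / 3) ^ k := by positivity
  have hprod : (3 / (n : ℝ)) ^ k * ((n : ℝ) / 3) ^ k = 1 := by
    rw [← mul_pow]
    have : 3 / (n : ℝ) * ((n : ℝ) / 3) = 1 := by field_simp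
    rw [this, one_pow]
  calc ((n - k).factorial : ℝ)
      = (3 / (n : ℝ)) ^ k * (((n : ℝ) / 3) ^ k * ((n - k).factorial : ℝ)) := by
        rw [← mul_assoc, hprod, one_mul]
    _ ≤ (3 / (n : ℝ)) ^ k * (n.factorial : ℝ) := by
        apply mul_le_mul_of_nonneg_left h (by positivity)

private lemma rowLen_add (m : ℕ) (i : Fin m) :
    ((staircase m).rowLen (i : ℕ) : ℤ) + ((m - 1 - (i : ℕ) : ℕ) : ℤ) = (bead m i : ℤ) := by
  rw [staircase_rowLen, bead]
  have := i.2
  omega

/-- The staircase argument vector of `frobF_formula`. -/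
private lemma formula_staircase (m : ℕ) (hn : n = m * (m + 1) / 2) (π : Perm (Fin n)) :
    (frobF m (staircase m) π : ℝ) = ∑ φ ∈ invOn m π, dimX (n - sp π)
      (fun i => (bead m i : ℤ) - contOn φ i) := by
  have hc : (staircase m).card = n := by rw [staircase_card, hn]
  have hN : (staircase m).colLen 0 ≤ m := by rw [staircase_colLen]; omega
  rw [frobF_formula m hc hN π]
  refine Finset.sum_congr rfl fun φ _ => ?_
  congr 1
  funext i
  rw [rowLen_add]

private lemma sp_one : sp (1 : Perm (Fin n)) = 0 := by simp [sp]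

/-- The dimension of the staircase. -/
private lemma ff_staircase (m : ℕ) (hn : n = m * (m + 1) / 2) (T : Filling n (staircase m)) :
    (ff T : ℝ) = (n.factorial : ℝ) * (vdm (fun i => (bead m i : ℤ)) : ℝ) /
      ∏ i, ((bead m i).factorial : ℝ) := by
  have hN : (staircase m).colLen 0 ≤ m := by rw [staircase_colLen]; omega
  have h1 := ff_rr_eq_frobF T m hN (1 : Perm (Fin n))
  rw [rr_one, mul_one, formula_staircase m hn] at h1
  rw [h1]
  have hinv : invOn m (1 : Perm (Fin n)) = {fun x => absurd x.2 (by simp)} := by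
    ext φ
    simp only [invOn, mem_filter, mem_univ, true_and, mem_singleton]
    constructor
    · intro _
      funext x
      exact absurd x.2 (by simp)
    · intro _ x
      exact absurd x.2 (by simp)
  rw [hinv, Finset.sum_singleton, sp_one, Nat.sub_zero]
  have hcont : ∀ (φ : {x // x ∈ (1 : Perm (Fin n)).support} → Fin m) (i : Fin m),
      contOn φ i = 0 := by
    intro φ i
    simp only [contOn]
    have : (univ.filter fun x => φ x = i) = ∅ := by
      ext x
      exact absurd x.2 (by simp)
    rw [this]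
    simp
  have hv : (fun i : Fin m => (bead m i : ℤ) -
      contOn (fun x : {x // x ∈ (1 : Perm (Fin n)).support} => (absurd x.2 (by simp) : Fin m)) i) =
      fun i => (bead m i : ℤ) := by
    funext i
    rw [hcont]
    ring
  rw [hv]
  simp only [dimX]
  rw [if_pos (fun i => by positivity)]
  simp

/-- Bound for one colouring. -/
private lemma term_bound (m : ℕ) (hn : n = m * (m + 1) / 2) (T : Filling n (staircase m))
    (π : Perm (Fin n)) (φ : {x // x ∈ π.support} → Fin m) (hφ : φ ∈ invOn m π) :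
    |dimX (n - sp π) (fun i => (bead m i : ℤ) - contOn φ i)| / (ff T : ℝ) ≤
      ((n - sp π).factorial : ℝ) / (n.factorial : ℝ) *
        ((2 * Real.sqrt 3) ^ (Multiset.card π.cycleType) * (2 * (m : ℝ)) ^ sp π) := by
  have hff : (0 : ℝ) < (ff T : ℝ) := by exact_mod_cast ff_pos T
  have hnf : (0 : ℝ) < (n.factorial : ℝ) := by positivity
  have hs3 : (1 : ℝ) ≤ 2 * Real.sqrt 3 := by
    have : (1 : ℝ) ≤ Real.sqrt 3 := by
      rw [Real.one_le_sqrt]
      norm_num
    linarith
  by_cases hnn : ∀ i, 0 ≤ (bead m i : ℤ) - contOn φ i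
  swap
  · simp only [dimX]
    rw [if_neg hnn]
    simp only [abs_zero, zero_div]
    positivity
  -- all entries are nonnegative
  set x : Fin m → ℕ := fun i => ((bead m i : ℤ) - contOn φ i).toNat with hxdef
  have hxcast : ∀ i, ((x i : ℕ) : ℤ) = (bead m i : ℤ) - contOn φ i := fun i =>
    Int.toNat_of_nonneg (hnn i)
  have hcont0 : ∀ i, 0 ≤ contOn φ i := fun i => by
    simp only [contOn]
    positivity
  have hxle : ∀ i, x i ≤ bead m i := by
    intro i
    have h1 := hxcast i
    have h2 := hcont0 i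
    omega
  have hB := lemmaB m x hxle
  -- the dimension in terms of x
  have hvec : (fun i => (bead m i : ℤ) - contOn φ i) = fun i => ((x i : ℕ) : ℤ) := by
    funext i
    exact (hxcast i).symm
  have hdim : dimX (n - sp π) (fun i => (bead m i : ℤ) - contOn φ i) =
      ((n - sp π).factorial : ℝ) * (vdm (fun i => ((x i : ℕ) : ℤ)) : ℝ) /
        ∏ i, ((x i).factorial : ℝ) := by
    rw [hvec]
    simp only [dimX]
    rw [if_pos (fun i => by positivity)]
    simp
  have hffv := ff_staircase m hn T
  set Vb : ℝ := (vdm (fun i => (bead m i : ℤ)) : ℝ) with hVb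
  set Pb : ℝ := ∏ i, ((bead m i).factorial : ℝ) with hPb
  set Vx : ℝ := (vdm (fun i => ((x i : ℕ) : ℤ)) : ℝ) with hVx
  set Px : ℝ := ∏ i, ((x i).factorial : ℝ) with hPx
  have hPbpos : 0 < Pb := Finset.prod_pos fun i _ => by positivity
  have hPxpos : 0 < Px := Finset.prod_pos fun i _ => by positivity
  have hVbpos : 0 < Vb := by
    have h1 : 0 < (n.factorial : ℝ) * Vb / Pb := by rw [← hffv]; exact hff
    have h2 : 0 < (n.factorial : ℝ) * Vb := by
      have := mul_pos h1 hPbpos
      rwa [div_mul_cancel₀ _ hPbpos.ne'] at this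
    exact (mul_pos_iff_of_pos_left hnf).mp h2
  have hLHS : |dimX (n - sp π) (fun i => (bead m i : ℤ) - contOn φ i)| / (ff T : ℝ) =
      ((n - sp π).factorial : ℝ) / (n.factorial : ℝ) *
        ((Pb / Px) * |Vx| / |Vb|) := by
    rw [hdim, hffv, abs_div, abs_mul, abs_of_pos hPxpos, abs_of_pos hVbpos,
      abs_of_nonneg (by positivity : (0 : ℝ) ≤ ((n - sp π).factorial : ℝ))]
    field_simp
  rw [hLHS]
  apply mul_le_mul_of_nonneg_left _ (by positivity)
  rw [abs_of_pos hVbpos] at *
  -- now use Lemma B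
  have hS : (univ.filter fun i => x i ≠ bead m i).card ≤ Multiset.card π.cycleType := by
    refine le_trans (Finset.card_le_card ?_) (invOn_image_card_le m π φ hφ)
    intro i hi
    simp only [mem_filter, mem_univ, true_and] at hi ⊢
    intro h0
    apply hi
    have h1 := hxcast i
    rw [h0] at h1
    omega
  have hsum : ∑ i, (bead m i - x i) = sp π := by
    have h1 := contOn_sum m π φ
    have h2 : ((∑ i, (bead m i - x i) : ℕ) : ℤ) = ∑ i, contOn φ i := by
      push_cast
      refine Finset.sum_congr rfl fun i _ => ?_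
      have h3 := hxcast i
      have h4 := hxle i
      omega
    rw [h1] at h2
    exact_mod_cast h2
  rw [hsum] at hB
  calc (Pb / Px) * |Vx| / Vb ≤ (2 * Real.sqrt 3) ^ (univ.filter fun i => x i ≠ bead m i).card *
        (2 * (m : ℝ)) ^ sp π := hB
    _ ≤ _ := by
        apply mul_le_mul_of_nonneg_right _ (by positivity)
        exact pow_le_pow_right₀ hs3 hS

/-- The bound from Lemma B and `frobF_formula`. -/
theorem rr_staircase_le (m : ℕ) (hn : n = m * (m + 1) / 2) (T : Filling n (staircase m))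
    (π : Perm (Fin n)) :
    |rr T π| ≤ ((n - sp π).factorial : ℝ) / (n.factorial : ℝ) *
      (2 * Real.sqrt 3 * (m : ℝ)) ^ (Multiset.card π.cycleType) * (2 * (m : ℝ)) ^ sp π := by
  have hff : (0 : ℝ) < (ff T : ℝ) := by exact_mod_cast ff_pos T
  have hN : (staircase m).colLen 0 ≤ m := by rw [staircase_colLen]; omega
  have h1 := ff_rr_eq_frobF T m hN π
  have h2 : rr T π = (frobF m (staircase m) π : ℝ) / (ff T : ℝ) := by
    rw [← h1]
    field_simp
  rw [h2, formula_staircase m hn, abs_div, abs_of_pos hff]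
  set C : ℝ := ((n - sp π).factorial : ℝ) / (n.factorial : ℝ) *
        ((2 * Real.sqrt 3) ^ (Multiset.card π.cycleType) * (2 * (m : ℝ)) ^ sp π) with hC
  have h3 : |∑ φ ∈ invOn m π, dimX (n - sp π) (fun i => (bead m i : ℤ) - contOn φ i)| / (ff T : ℝ)
      ≤ ∑ φ ∈ invOn m π, C := by
    rw [div_le_iff₀ hff, Finset.sum_mul]
    refine (Finset.abs_sum_le_sum_abs _ _).trans (Finset.sum_le_sum fun φ hφ => ?_)
    have := term_bound m hn T π φ hφ
    rwa [div_le_iff₀ hff] at this
  rw [Finset.sum_const, nsmul_eq_mul] at h3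
  have hCnn : 0 ≤ C := by positivity
  have h4 : ((invOn m π).card : ℝ) ≤ (m : ℝ) ^ Multiset.card π.cycleType := by
    exact_mod_cast invOn_card_le m π
  calc _ ≤ ((invOn m π).card : ℝ) * C := h3
    _ ≤ (m : ℝ) ^ Multiset.card π.cycleType * C := mul_le_mul_of_nonneg_right h4 hCnn
    _ = _ := by
        rw [hC, mul_pow]
        ring

/-- The strong bound, in the form used later. -/
theorem rr_staircase_strong (m : ℕ) (hm : 0 < m) (hn : n = m * (m + 1) / 2)
    (T : Filling n (staircase m)) (π : Perm (Fin n)) :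
    |rr T π| ≤ (45 : ℝ) ^ sp π * ((Real.sqrt n)⁻¹) ^ rk π := by
  have h2n : 2 * n = m * (m + 1) := by
    rw [hn]
    exact Nat.two_mul_div_two_of_even (Nat.even_mul_succ_self m)
  have hnpos : 0 < n := by
    rcases Nat.eq_zero_or_pos n with h | h
    · rw [h] at h2n
      have : 0 < m * (m + 1) := by positivity
      omega
    · exact h
  have hn' : (0 : ℝ) < n := by exact_mod_cast hnpos
  have hm' : (0 : ℝ) < m := by exact_mod_cast hm
  set k := sp π with hk
  set l := Multiset.card π.cycleType with hl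
  have hrk : rk π = k - l := rfl
  have hlk : l ≤ k := by
    have h := Multiset.card_nsmul_le_sum (s := π.cycleType) (a := 2)
      (fun x hx => Equiv.Perm.two_le_of_mem_cycleType hx)
    simp only [smul_eq_mul] at h
    have h2 : k = π.cycleType.sum := rfl
    omega
  have hkn : k ≤ n := by
    have h : k = π.support.card := Equiv.Perm.sum_cycleType π
    rw [h]
    simpa using Finset.card_le_univ π.support
  have h0 := rr_staircase_le m hn T π
  have h1 := fact_ratio_le (n := n) k hnpos hkn
  -- abbreviations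
  set s := Real.sqrt (n : ℝ) with hs
  have hspos : 0 < s := Real.sqrt_pos.mpr hn'
  have hss : s * s = n := Real.mul_self_sqrt hn'.le
  have hmm : (m : ℝ) * m ≤ 2 * n := by
    have : ((m * (m + 1) : ℕ) : ℝ) = 2 * n := by
      rw [← h2n]
      push_cast
      ring
    push_cast at this
    nlinarith
  have hm2s : (m : ℝ) ≤ 2 * s := by
    by_contra hcon
    have hcon' := not_le.mp hcon
    nlinarith
  have hs3 : Real.sqrt 3 ≤ 1.8 := by
    rw [Real.sqrt_le_left (by norm_num)]
    norm_num
  have hs30 : 0 ≤ Real.sqrt 3 := Real.sqrt_nonneg 3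
  set a : ℝ := 3 / (n : ℝ) with ha
  set c : ℝ := 2 * Real.sqrt 3 * (m : ℝ) with hc
  set d : ℝ := 2 * (m : ℝ) with hd
  have ha0 : 0 ≤ a := by positivity
  have hc0 : 0 ≤ c := by positivity
  have hd0 : 0 ≤ d := by positivity
  have hacd : a * c * d ≤ 45 := by
    have : a * c * d = 12 * Real.sqrt 3 * ((m : ℝ) * m) / n := by
      rw [ha, hc, hd]
      field_simp
      ring
    rw [this, div_le_iff₀ hn']
    have h5 : 12 * Real.sqrt 3 * ((m : ℝ) * m) ≤ 12 * Real.sqrt 3 * (2 * n) :=
      mul_le_mul_of_nonneg_left hmm (by positivity)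
    nlinarith
  have had : a * d ≤ 45 * s⁻¹ := by
    have h6 : a * d = 6 * (m : ℝ) / (s * s) := by
      rw [ha, hd, hss]
      field_simp
      ring
    have h7 : 45 * s⁻¹ = 45 * s / (s * s) := by
      field_simp
    rw [h6, h7]
    apply div_le_div_of_nonneg_right _ (by positivity)
    nlinarith
  obtain ⟨r, hr⟩ : ∃ r, k = l + r := ⟨k - l, by omega⟩
  have hrr : k - l = r := by omega
  rw [hrk, hrr]
  calc |rr T π| ≤ ((n - k).factorial : ℝ) / (n.factorial : ℝ) * c ^ l * d ^ k := h0
    _ ≤ a ^ k * c ^ l * d ^ k := by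
        apply mul_le_mul_of_nonneg_right _ (by positivity)
        apply mul_le_mul_of_nonneg_right h1 (by positivity)
    _ = (a * c * d) ^ l * (a * d) ^ r := by
        rw [hr]
        ring_nf
    _ ≤ 45 ^ l * (45 * s⁻¹) ^ r := by
        apply mul_le_mul
        · exact pow_le_pow_left₀ (by positivity) hacd l
        · exact pow_le_pow_left₀ (by positivity) had r
        · positivity
        · positivity
    _ = 45 ^ k * s⁻¹ ^ r := by
        rw [hr, pow_add, mul_pow]
        ring

theorem rhoB_staircase (m : ℕ) (hm : 0 < m) (hn : n = m * (m + 1) / 2)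
    (T : Filling n (staircase m)) : RhoB n (rr T) :=
  ⟨fun π h => rr_staircase_even m T π h, fun π => rr_staircase_strong m hm hn T π⟩

end Vale.Agent.Lib.P197
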