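import Vale.Agent.Lib.P197.CountN
import Vale.Agent.Lib.P197.StrongRho

/-!
# P197 module PropN: the weighted bound for the count (blueprint sec 9)
-/

open Equiv Finset

namespace Vale.Agent.Lib.P197

variable {n : ℕ} {μ : YoungDiagram}

/-- The weight of a cycle of length `j`. -/
noncomputable def wtW (n R κ : ℝ) (j : ℕ) : ℝ := n * R ^ (j - 1) * κ ^ (j - 3)

/-- The product of the weights over all cycles. -/
noncomputable def phiW {α : Type*} [Fintype α] [DecidableEq α] (n R κ : ℝ) (π : Perm α) : ℝ :=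
  ((lens π).map (wtW n R κ)).prod

/-- The ratio bounds behind the recursion: `j ≥ 2`. -/
theorem wtW_delete (n R κ : ℝ) (hn : 0 < n) (hR : 0 < R) (hκ : 2 ≤ κ) (j : ℕ) (hj : 2 ≤ j) :
    wtW n R κ (j - 1) ≤ wtW n R κ j / R := by
  unfold wtW
  obtain ⟨i, rfl⟩ : ∃ i, j = i + 2 := ⟨j - 2, by omega⟩
  have e1 : i + 2 - 1 - 1 = i := by omega
  have e2 : i + 2 - 1 = i + 1 := by omega
  rw [e1, e2]
  have hκ1 : (1 : ℝ) ≤ κ := by linarith
  have hp : κ ^ (i + 1 - 3) ≤ κ ^ (i + 2 - 3) := pow_le_pow_right₀ hκ1 (by omega)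
  rw [le_div_iff₀ hR]
  have hpos : 0 ≤ n * R ^ i * R := by positivity
  calc n * R ^ i * κ ^ (i + 1 - 3) * R = (n * R ^ i * R) * κ ^ (i + 1 - 3) := by ring
    _ ≤ (n * R ^ i * R) * κ ^ (i + 2 - 3) := mul_le_mul_of_nonneg_left hp hpos
    _ = n * R ^ (i + 1) * κ ^ (i + 2 - 3) := by ring

/-- Split ratio, lengths `a + b + 1 = j`. -/
theorem wtW_split (n R κ : ℝ) (hn : 0 < n) (hR : 0 < R) (hκ : 2 ≤ κ) (a b : ℕ) (ha : 1 ≤ a)
    (hb : 1 ≤ b) :
    wtW n R κ a * wtW n R κ b ≤
      wtW n R κ (a + b + 1) * (n / R ^ 2) * (if a + b + 1 = 3 then 1 else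
        if a + b + 1 = 4 then κ⁻¹ else (κ ^ 2)⁻¹) := by
  unfold wtW
  obtain ⟨a', rfl⟩ : ∃ a', a = a' + 1 := ⟨a - 1, by omega⟩
  obtain ⟨b', rfl⟩ : ∃ b', b = b' + 1 := ⟨b - 1, by omega⟩
  have e1 : a' + 1 - 1 = a' := by omega
  have e2 : b' + 1 - 1 = b' := by omega
  have e3 : a' + 1 + (b' + 1) + 1 - 1 = a' + b' + 2 := by omega
  have e4 : a' + 1 + (b' + 1) + 1 - 3 = a' + b' := by omega
  rw [e1, e2, e3, e4]
  have hκ0 : 0 < κ := by linarith
  have hκ1 : (1 : ℝ) ≤ κ := by linarith
  set c : ℝ := (if a' + 1 + (b' + 1) + 1 = 3 then 1 else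
        if a' + 1 + (b' + 1) + 1 = 4 then κ⁻¹ else (κ ^ 2)⁻¹) with hc
  have key : κ ^ (a' + 1 - 3) * κ ^ (b' + 1 - 3) ≤ κ ^ (a' + b') * c := by
    rw [← pow_add]
    by_cases h3 : a' + b' = 0
    · have ha0 : a' = 0 := by omega
      have hb0 : b' = 0 := by omega
      subst ha0; subst hb0
      simp [hc]
    · by_cases h4 : a' + b' = 1
      · have h5 : c = κ⁻¹ := by
          rw [hc, if_neg (by omega), if_pos (by omega)]
        rw [h5, h4, pow_one, mul_inv_cancel₀ hκ0.ne']
        have : a' + 1 - 3 + (b' + 1 - 3) = 0 := by omega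
        rw [this, pow_zero]
      · have h5 : c = (κ ^ 2)⁻¹ := by
          rw [hc, if_neg (by omega), if_neg (by omega)]
        rw [h5]
        obtain ⟨s, hs⟩ : ∃ s, a' + b' = s + 2 := ⟨a' + b' - 2, by omega⟩
        have h6 : κ ^ (a' + b') * (κ ^ 2)⁻¹ = κ ^ s := by
          rw [hs, pow_add]
          field_simp
        rw [h6]
        exact pow_le_pow_right₀ hκ1 (by omega)
  have hR2 : R ^ (a' + b' + 2) * (n / R ^ 2) = R ^ (a' + b') * n := by
    rw [pow_add]
    field_simp
  have hpos : 0 ≤ n ^ 2 * R ^ (a' + b') := by positivity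
  calc n * R ^ a' * κ ^ (a' + 1 - 3) * (n * R ^ b' * κ ^ (b' + 1 - 3))
      = (n ^ 2 * R ^ (a' + b')) * (κ ^ (a' + 1 - 3) * κ ^ (b' + 1 - 3)) := by
        rw [pow_add]; ring
    _ ≤ (n ^ 2 * R ^ (a' + b')) * (κ ^ (a' + b') * c) := mul_le_mul_of_nonneg_left key hpos
    _ = n * (R ^ (a' + b' + 2) * (n / R ^ 2)) * κ ^ (a' + b') * c := by
        rw [hR2]; ring
    _ = n * R ^ (a' + b' + 2) * κ ^ (a' + b') * (n / R ^ 2) * c := by ring

/-- Join ratio. -/
theorem wtW_join (n R κ : ℝ) (hn : 0 < n) (hR : 0 < R) (hκ : 2 ≤ κ) (j j' : ℕ) (hj : 2 ≤ j)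
    (hj' : 1 ≤ j') :
    wtW n R κ (j - 1 + j') * n ≤ wtW n R κ j * wtW n R κ j' * κ ^ 2 := by
  unfold wtW
  obtain ⟨i, rfl⟩ : ∃ i, j = i + 2 := ⟨j - 2, by omega⟩
  obtain ⟨i', rfl⟩ : ∃ i', j' = i' + 1 := ⟨j' - 1, by omega⟩
  have e1 : i + 2 - 1 + (i' + 1) - 1 = (i + 1) + i' := by omega
  have e2 : i + 2 - 1 = i + 1 := by omega
  have e3 : i' + 1 - 1 = i' := by omega
  rw [e1, e2, e3]
  have hκ1 : (1 : ℝ) ≤ κ := by linarith
  have key : κ ^ (i + 1 + (i' + 1) - 3) ≤ κ ^ (i + 2 - 3) * κ ^ (i' + 1 - 3) * κ ^ 2 := by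
    rw [← pow_add, ← pow_add]
    exact pow_le_pow_right₀ hκ1 (by omega)
  have hpos : 0 ≤ n ^ 2 * (R ^ (i + 1) * R ^ i') := by positivity
  calc n * R ^ (i + 1 + i') * κ ^ (i + 1 + (i' + 1) - 3) * n
      = (n ^ 2 * (R ^ (i + 1) * R ^ i')) * κ ^ (i + 1 + (i' + 1) - 3) := by
        rw [pow_add R (i + 1)]; ring
    _ ≤ (n ^ 2 * (R ^ (i + 1) * R ^ i')) * (κ ^ (i + 2 - 3) * κ ^ (i' + 1 - 3) * κ ^ 2) :=
        mul_le_mul_of_nonneg_left key hpos
    _ = _ := by ring

section lensAux
variable {α : Type*} [Fintype α] [DecidableEq α]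

theorem lens_permCongr {β : Type*} [Fintype β] [DecidableEq β] (e : α ≃ β) (π : Perm α) :
    lens (e.permCongr π) = lens π := by
  have hc : (e.permCongr π).cycleType = π.cycleType := by
    let f : α ≃ {_b : β // True} := e.trans (Equiv.subtypeUnivEquiv (fun _ => trivial)).symm
    have hf : π.extendDomain f = e.permCongr π := by
      ext x
      have h := Equiv.Perm.extendDomain_apply_subtype π f (b := x) trivial
      rw [h]
      simp [f, Equiv.permCongr_apply]
    rw [← hf]
    exact Equiv.Perm.cycleType_extendDomain f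
  unfold lens
  rw [hc, ← Equiv.Perm.sum_cycleType (e.permCongr π), hc, ← Equiv.Perm.sum_cycleType π,
    Fintype.card_congr e]

theorem phiW_permCongr {β : Type*} [Fintype β] [DecidableEq β] (n R κ : ℝ) (e : α ≃ β)
    (π : Perm α) : phiW n R κ (e.permCongr π) = phiW n R κ π := by
  unfold phiW
  rw [lens_permCongr]

theorem wtW_pos {n R κ : ℝ} (hn : 0 < n) (hR : 0 < R) (hκ : 0 < κ) (j : ℕ) : 0 < wtW n R κ j := by
  unfold wtW
  positivity

theorem prod_map_pos {f : ℕ → ℝ} (hf : ∀ j, 0 < f j) (s : Multiset ℕ) : 0 < (s.map f).prod := by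
  induction s using Multiset.induction_on with
  | empty => simp
  | cons a t ih =>
    rw [Multiset.map_cons, Multiset.prod_cons]
    exact mul_pos (hf a) ih

theorem phiW_pos {n R κ : ℝ} (hn : 0 < n) (hR : 0 < R) (hκ : 0 < κ) (π : Perm α) :
    0 < phiW n R κ π :=
  prod_map_pos (wtW_pos hn hR hκ) _

theorem minimalPeriod_pos_perm (σ : Perm α) (z : α) : 0 < Function.minimalPeriod σ z := by
  rw [← card_sameCycle]
  exact Finset.card_pos.mpr ⟨z, by simp [Equiv.Perm.SameCycle.refl]⟩

theorem phiW_eq1 {β : Type*} [Fintype β] [DecidableEq β] (n R κ : ℝ) (a : Perm α) (b : Perm β)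
    {x y : ℕ} (h : lens a + {x} = lens b + {y}) :
    phiW n R κ a * wtW n R κ x = phiW n R κ b * wtW n R κ y := by
  have := congrArg (fun s => (s.map (wtW n R κ)).prod) h
  simp only [Multiset.map_add, Multiset.prod_add, Multiset.map_singleton,
    Multiset.prod_singleton] at this
  exact this

theorem phiW_eq2 (n R κ : ℝ) (a b : Perm α)
    {x p q : ℕ} (h : lens a + {x} = lens b + {p, q}) :
    phiW n R κ a * wtW n R κ x = phiW n R κ b * (wtW n R κ p * wtW n R κ q) := by
  have := congrArg (fun s => (s.map (wtW n R κ)).prod) h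
  simp only [Multiset.map_add, Multiset.prod_add, Multiset.map_singleton,
    Multiset.prod_singleton, Multiset.insert_eq_cons, Multiset.map_cons,
    Multiset.prod_cons] at this
  exact this

theorem phiW_eq3 (n R κ : ℝ) (a b : Perm α)
    {x y z : ℕ} (h : lens a + {x, y} = lens b + {z}) :
    phiW n R κ a * (wtW n R κ x * wtW n R κ y) = phiW n R κ b * wtW n R κ z := by
  have := congrArg (fun s => (s.map (wtW n R κ)).prod) h
  simp only [Multiset.map_add, Multiset.prod_add, Multiset.map_singleton,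
    Multiset.prod_singleton, Multiset.insert_eq_cons, Multiset.map_cons,
    Multiset.prod_cons] at this
  exact this

end lensAux

/-- The constant for the same cycle case. -/
private theorem const_same {N R κ : ℝ} {k₁ j : ℕ} (hN : 0 < N) (hR : 0 < R) (hκ : 2 ≤ κ)
    (hRn : 4 * N ≤ R ^ 2) (h1 : 4 * (k₁ : ℝ) * N ≤ (κ * R) ^ 2) (hj2 : 2 ≤ j) (hjk : j - 1 ≤ k₁) :
    ((j : ℝ) - 2) * (N / R ^ 2 * (if j = 3 then 1 else if j = 4 then κ⁻¹ else (κ ^ 2)⁻¹)) ≤
      1 / 4 := by
  have hκ0 : 0 < κ := by linarith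
  have hR2 : 0 < R ^ 2 := by positivity
  have hnR : N / R ^ 2 ≤ 1 / 4 := by
    rw [div_le_iff₀ hR2]; linarith
  have hnR0 : 0 ≤ N / R ^ 2 := by positivity
  have hκi : κ⁻¹ ≤ 1 / 2 := by
    rw [inv_le_comm₀ hκ0 (by norm_num)]
    norm_num; linarith
  have hκi0 : 0 < κ⁻¹ := by positivity
  by_cases h3 : j = 3
  · rw [if_pos h3, h3]
    norm_num
    linarith
  · by_cases h4 : j = 4
    · rw [if_neg h3, if_pos h4, h4]
      norm_num
      have := mul_le_mul hnR hκi hκi0.le (by norm_num)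
      linarith
    · rw [if_neg h3, if_neg h4]
      by_cases h2' : j = 2
      · rw [h2']; norm_num
      have hj5 : 5 ≤ j := by omega
      have hjr : (j : ℝ) - 2 ≤ k₁ := by
        have h5 : ((j - 1 : ℕ) : ℝ) ≤ k₁ := by exact_mod_cast hjk
        rw [Nat.cast_sub (by omega)] at h5
        push_cast at h5
        linarith
      have hpos2 : 0 < (κ * R) ^ 2 := by positivity
      have e : ((j : ℝ) - 2) * (N / R ^ 2 * (κ ^ 2)⁻¹) = ((j : ℝ) - 2) * N / (κ * R) ^ 2 := by
        field_simp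
      rw [e, div_le_iff₀ hpos2]
      have := mul_le_mul_of_nonneg_right hjr hN.le
      linarith

/-- The key recursion in the case of a moved point. -/
private theorem propN_moved {β : Type} [Fintype β] [DecidableEq β] (μ : YoungDiagram)
    (hn0 : 0 < n) (M : ℕ) (hr : μ.rowLen 0 ≤ M)
    (hc : μ.colLen 0 ≤ M) (R κ : ℝ) (k₁ : ℕ) (hRM : 4 * (M : ℝ) ≤ R) (hRn : 4 * (n : ℝ) ≤ R ^ 2)
    (hκ : 2 ≤ κ) (h1 : 4 * (k₁ : ℝ) * n ≤ (κ * R) ^ 2) (h2 : 4 * (k₁ : ℝ) * κ ^ 2 ≤ n)
    (hβ : Fintype.card β ≤ k₁)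
    (IH : ∀ σ : Perm β, (countN μ σ : ℝ) ≤ phiW n R κ σ)
    (π : Perm (Option β)) (h : π none ≠ none) :
    (countN μ π : ℝ) ≤ phiW n R κ π := by
  classical
  have hn' : (0 : ℝ) < n := by exact_mod_cast hn0
  have hκ0 : 0 < κ := by linarith
  have hM0 : (0 : ℝ) ≤ M := Nat.cast_nonneg _
  have hR0 : 0 ≤ R := by linarith
  have hRpos : 0 < R := by
    rcases hR0.lt_or_eq with h' | h'
    · exact h'
    · exfalso
      rw [← h'] at hRn
      nlinarith
  -- the preimage of `none`
  obtain ⟨z, hz⟩ : ∃ z : β, π (some z) = none := by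
    cases hs : π.symm none with
    | none =>
      exfalso
      apply h
      have := congrArg π hs
      simpa using this.symm
    | some z =>
      refine ⟨z, ?_⟩
      have := congrArg π hs
      simpa using this.symm
  set W := wtW (n : ℝ) R κ with hW
  have hWpos : ∀ j, 0 < W j := wtW_pos hn' hRpos hκ0
  set π' : Perm β := Equiv.removeNone π with hπ'
  set j := Function.minimalPeriod π none with hj
  have hmp : Function.minimalPeriod π' z = j - 1 := minimalPeriod_removeNone π h z hz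
  have hmp_pos : 0 < Function.minimalPeriod π' z := minimalPeriod_pos_perm π' z
  have hj2 : 2 ≤ j := by omega
  set P := phiW (n : ℝ) R κ π with hP
  have hPpos : 0 < P := phiW_pos hn' hRpos hκ0 π
  -- the deletion identity
  have Eq1 : phiW (n : ℝ) R κ π' * W j = P * W (j - 1) :=
    phiW_eq1 _ _ _ π' π (lens_removeNone π h)
  have Bound0 : phiW (n : ℝ) R κ π' * R ≤ P := by
    have hd := wtW_delete (n : ℝ) R κ hn' hRpos hκ j hj2
    have hd' : W (j - 1) * R ≤ W j := by
      rw [le_div_iff₀ hRpos] at hd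
      exact hd
    have : phiW (n : ℝ) R κ π' * R * W j ≤ P * W j := by
      calc phiW (n : ℝ) R κ π' * R * W j = (phiW (n : ℝ) R κ π' * W j) * R := by ring
        _ = P * (W (j - 1) * R) := by rw [Eq1]; ring
        _ ≤ P * W j := mul_le_mul_of_nonneg_left hd' hPpos.le
    exact le_of_mul_le_mul_right this (hWpos j)
  -- the constants
  set cj : ℝ := (if j = 3 then 1 else if j = 4 then κ⁻¹ else (κ ^ 2)⁻¹) with hcj
  -- same cycle
  have BoundA : ∀ y, y ≠ z → π'.SameCycle z y →
      phiW (n : ℝ) R κ (π' * swap z y) ≤ P * ((n : ℝ) / R ^ 2 * cj) := by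
    intro y hyz hsc
    obtain ⟨a, b, ha, hb, hab, hl⟩ := lens_swap_same π' z y hyz.symm hsc
    have hsum : a + b + 1 = j := by omega
    have E2 : phiW (n : ℝ) R κ (π' * swap z y) * W (j - 1) = phiW (n : ℝ) R κ π' * (W a * W b) := by
      rw [hmp] at hl
      exact phiW_eq2 _ _ _ _ _ hl
    have hs := wtW_split (n : ℝ) R κ hn' hRpos hκ a b ha hb
    rw [hsum] at hs
    have key : phiW (n : ℝ) R κ (π' * swap z y) * W j = P * (W a * W b) := by
      have hm := hWpos (j - 1)
      apply mul_right_cancel₀ hm.ne'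
      calc phiW (n : ℝ) R κ (π' * swap z y) * W j * W (j - 1)
          = (phiW (n : ℝ) R κ (π' * swap z y) * W (j - 1)) * W j := by ring
        _ = (phiW (n : ℝ) R κ π' * W j) * (W a * W b) := by rw [E2]; ring
        _ = P * (W a * W b) * W (j - 1) := by rw [Eq1]; ring
    have hb2 : phiW (n : ℝ) R κ (π' * swap z y) * W j ≤ P * ((n : ℝ) / R ^ 2 * cj) * W j := by
      rw [key]
      calc P * (W a * W b) ≤ P * (W j * ((n : ℝ) / R ^ 2) * cj) :=
            mul_le_mul_of_nonneg_left hs hPpos.le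
        _ = P * ((n : ℝ) / R ^ 2 * cj) * W j := by ring
    exact le_of_mul_le_mul_right hb2 (hWpos j)
  -- different cycle
  have BoundB : ∀ y, ¬ π'.SameCycle z y →
      phiW (n : ℝ) R κ (π' * swap z y) ≤ P * (κ ^ 2 / n) := by
    intro y hsc
    have hl := lens_swap_diff π' z y hsc
    set j' := Function.minimalPeriod π' y with hj'
    have hj'1 : 1 ≤ j' := minimalPeriod_pos_perm π' y
    have E2 : phiW (n : ℝ) R κ (π' * swap z y) * (W (j - 1) * W j') =
        phiW (n : ℝ) R κ π' * W (j - 1 + j') := by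
      rw [hmp] at hl
      exact phiW_eq3 _ _ _ _ _ hl
    have hs := wtW_join (n : ℝ) R κ hn' hRpos hκ j j' hj2 hj'1
    have key : phiW (n : ℝ) R κ (π' * swap z y) * (W j' * W j) = P * W (j - 1 + j') := by
      have hm := hWpos (j - 1)
      apply mul_right_cancel₀ hm.ne'
      calc phiW (n : ℝ) R κ (π' * swap z y) * (W j' * W j) * W (j - 1)
          = (phiW (n : ℝ) R κ (π' * swap z y) * (W (j - 1) * W j')) * W j := by ring
        _ = (phiW (n : ℝ) R κ π' * W j) * W (j - 1 + j') := by rw [E2]; ring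
        _ = P * W (j - 1 + j') * W (j - 1) := by rw [Eq1]; ring
    have hWW : 0 < W j' * W j := mul_pos (hWpos _) (hWpos _)
    have hb2 : phiW (n : ℝ) R κ (π' * swap z y) * (W j' * W j) ≤ P * (κ ^ 2 / n) * (W j' * W j) := by
      rw [key]
      have : W (j - 1 + j') ≤ W j * W j' * κ ^ 2 / n := by
        rw [le_div_iff₀ hn']
        exact hs
      calc P * W (j - 1 + j') ≤ P * (W j * W j' * κ ^ 2 / n) :=
            mul_le_mul_of_nonneg_left this hPpos.le
        _ = P * (κ ^ 2 / n) * (W j' * W j) := by ring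
    exact le_of_mul_le_mul_right hb2 hWW
  -- the recursion
  have hrec := countN_moved μ M hr hc π h z hz
  have hrec' : (countN μ π : ℝ) ≤ 2 * M * phiW (n : ℝ) R κ π' +
      ∑ y ∈ univ.erase z, phiW (n : ℝ) R κ (π' * swap z y) := by
    have hcast : (countN μ π : ℝ) ≤ 2 * M * (countN μ π' : ℝ) +
        ∑ y ∈ univ.erase z, (countN μ (π' * swap z y) : ℝ) := by
      exact_mod_cast hrec
    refine hcast.trans ?_
    apply add_le_add
    · exact mul_le_mul_of_nonneg_left (IH π') (by positivity)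
    · exact Finset.sum_le_sum (fun y _ => IH _)
  -- counting
  set Sm := (univ.erase z).filter (fun y => π'.SameCycle z y) with hSm
  set Df := (univ.erase z).filter (fun y => ¬ π'.SameCycle z y) with hDf
  have hSmcard : (Sm.card : ℝ) = (j : ℝ) - 2 := by
    have h1' : (univ.filter fun y => π'.SameCycle z y).card = j - 1 := by
      rw [card_sameCycle, hmp]
    have h2' : Sm = (univ.filter fun y => π'.SameCycle z y).erase z := by
      ext y
      simp [hSm, and_comm]
    have h3' : Sm.card = j - 1 - 1 := by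
      rw [h2', Finset.card_erase_of_mem
        (Finset.mem_filter.mpr ⟨Finset.mem_univ _, Equiv.Perm.SameCycle.refl _ _⟩), h1']
    rw [h3']
    have : j - 1 - 1 = j - 2 := by omega
    rw [this, Nat.cast_sub hj2]
    norm_num
  have hjk : j - 1 ≤ k₁ := by
    have h1' : (univ.filter fun y => π'.SameCycle z y).card = j - 1 := by
      rw [card_sameCycle, hmp]
    have := Finset.card_filter_le (univ : Finset β) (fun y => π'.SameCycle z y)
    rw [h1', Finset.card_univ] at this
    omega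
  have hDfcard : (Df.card : ℝ) ≤ k₁ := by
    have h1' : Df.card ≤ (univ : Finset β).card :=
      Finset.card_le_card (fun y hy => Finset.mem_univ y)
    rw [Finset.card_univ] at h1'
    exact_mod_cast h1'.trans hβ
  have hsplit : ∑ y ∈ univ.erase z, phiW (n : ℝ) R κ (π' * swap z y) =
      ∑ y ∈ Sm, phiW (n : ℝ) R κ (π' * swap z y) +
      ∑ y ∈ Df, phiW (n : ℝ) R κ (π' * swap z y) := by
    rw [hSm, hDf, Finset.sum_filter_add_sum_filter_not]
  have hSmB : ∑ y ∈ Sm, phiW (n : ℝ) R κ (π' * swap z y) ≤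
      Sm.card * (P * ((n : ℝ) / R ^ 2 * cj)) := by
    rw [← nsmul_eq_mul]
    apply Finset.sum_le_card_nsmul
    intro y hy
    rw [hSm, Finset.mem_filter, Finset.mem_erase] at hy
    exact BoundA y hy.1.1 hy.2
  have hDfB : ∑ y ∈ Df, phiW (n : ℝ) R κ (π' * swap z y) ≤
      Df.card * (P * (κ ^ 2 / n)) := by
    rw [← nsmul_eq_mul]
    apply Finset.sum_le_card_nsmul
    intro y hy
    rw [hDf, Finset.mem_filter] at hy
    exact BoundB y hy.2
  -- the three constants
  have hc1 : 2 * (M : ℝ) * phiW (n : ℝ) R κ π' ≤ P / 2 := by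
    have h3 : 2 * (M : ℝ) * phiW (n : ℝ) R κ π' * 2 ≤ R * phiW (n : ℝ) R κ π' := by
      have hphi := (phiW_pos hn' hRpos hκ0 π').le
      nlinarith
    nlinarith
  have hc2 : (Sm.card : ℝ) * (P * ((n : ℝ) / R ^ 2 * cj)) ≤ P / 4 := by
    rw [hSmcard]
    have hmain : ((j : ℝ) - 2) * ((n : ℝ) / R ^ 2 * cj) ≤ 1 / 4 :=
      const_same hn' hRpos hκ hRn h1 hj2 hjk
    calc ((j : ℝ) - 2) * (P * ((n : ℝ) / R ^ 2 * cj))
        = P * (((j : ℝ) - 2) * ((n : ℝ) / R ^ 2 * cj)) := by ring
      _ ≤ P * (1 / 4) := mul_le_mul_of_nonneg_left hmain hPpos.le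
      _ = P / 4 := by ring
  have hc3 : (Df.card : ℝ) * (P * (κ ^ 2 / n)) ≤ P / 4 := by
    have hk0 : 0 ≤ P * (κ ^ 2 / n) := by positivity
    have : (Df.card : ℝ) * (P * (κ ^ 2 / n)) ≤ (k₁ : ℝ) * (P * (κ ^ 2 / n)) :=
      mul_le_mul_of_nonneg_right hDfcard hk0
    refine this.trans ?_
    have e : (k₁ : ℝ) * (P * (κ ^ 2 / n)) = P * ((k₁ : ℝ) * κ ^ 2 / n) := by ring
    rw [e]
    have h5 : (k₁ : ℝ) * κ ^ 2 / n ≤ 1 / 4 := by
      rw [div_le_iff₀ hn']
      linarith
    calc P * ((k₁ : ℝ) * κ ^ 2 / n) ≤ P * (1 / 4) := mul_le_mul_of_nonneg_left h5 hPpos.le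
      _ = P / 4 := by ring
  rw [hsplit] at hrec'
  linarith

/-- Prop N. `|α| ≤ k₁`. -/
theorem propN (μ : YoungDiagram) (hn : μ.card = n) (hn0 : 0 < n) (M : ℕ) (hr : μ.rowLen 0 ≤ M)
    (hc : μ.colLen 0 ≤ M) (R κ : ℝ) (k₁ : ℕ) (hRM : 4 * (M : ℝ) ≤ R) (hRn : 4 * (n : ℝ) ≤ R ^ 2)
    (hκ : 2 ≤ κ) (h1 : 4 * (k₁ : ℝ) * n ≤ (κ * R) ^ 2) (h2 : 4 * (k₁ : ℝ) * κ ^ 2 ≤ n)
    {α : Type} [Fintype α] [DecidableEq α] (hα : Fintype.card α ≤ k₁) (π : Perm α) :
    (countN μ π : ℝ) ≤ phiW n R κ π := by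
  have hn' : (0 : ℝ) < n := by exact_mod_cast hn0
  have hκ0 : 0 < κ := by linarith
  have main : ∀ (k : ℕ) (α : Type) [Fintype α] [DecidableEq α], Fintype.card α = k → k ≤ k₁ →
      ∀ π : Perm α, (countN μ π : ℝ) ≤ phiW n R κ π := by
    intro k
    induction k with
    | zero =>
      intro α _ _ hk _ π
      have hemp : IsEmpty α := Fintype.card_eq_zero_iff.mp hk
      have hc1 : countN μ π ≤ 1 := by
        unfold countN
        apply Finset.card_le_one.2
        intro a _ b _
        exact DFunLike.ext _ _ (fun x => (hemp.false x).elim)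
      have hphi : phiW (n : ℝ) R κ π = 1 := by
        have hπ : π = 1 := Subsingleton.elim _ _
        subst hπ
        simp [phiW, lens]
      rw [hphi]
      exact_mod_cast hc1
    | succ k ih =>
      intro α _ _ hk hkk π
      have hcardO : Fintype.card (Option (Fin k)) = Fintype.card α := by
        rw [hk, Fintype.card_option, Fintype.card_fin]
      let e : α ≃ Option (Fin k) := Fintype.equivOfCardEq hcardO.symm
      have h1' : countN μ (e.permCongr π) = countN μ π := countN_congr μ e π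
      have h2' : phiW (n : ℝ) R κ (e.permCongr π) = phiW (n : ℝ) R κ π := phiW_permCongr _ _ _ e π
      rw [← h1', ← h2']
      generalize e.permCongr π = π'
      have IH : ∀ σ : Perm (Fin k), (countN μ σ : ℝ) ≤ phiW n R κ σ :=
        ih (Fin k) (Fintype.card_fin k) (by omega)
      by_cases h : π' none = none
      · -- a fixed point
        have hπ : π' = Equiv.optionCongr (Equiv.removeNone π') := by
          ext1 x
          cases x with
          | none => simpa using h
          | some x =>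
            have hne : ∃ x', π' (some x) = some x' := by
              cases hs : π' (some x) with
              | none =>
                exfalso
                have := π'.injective (hs.trans h.symm)
                simp at this
              | some y => exact ⟨y, rfl⟩
            have := Equiv.removeNone_some π' hne
            simp only [Equiv.optionCongr_apply, Option.map_some]
            exact this.symm ▸ rfl
        rw [hπ]
        have hfix := countN_fixed μ hn (Equiv.removeNone π')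
        have hphi : phiW (n : ℝ) R κ (Equiv.optionCongr (Equiv.removeNone π')) =
            phiW (n : ℝ) R κ (Equiv.removeNone π') * n := by
          unfold phiW
          rw [lens_option_fixed]
          simp [Multiset.map_add, Multiset.prod_add, wtW]
        rw [hphi]
        have hcast : (countN μ (Equiv.optionCongr (Equiv.removeNone π')) : ℝ) ≤
            (n : ℝ) * (countN μ (Equiv.removeNone π') : ℝ) := by
          exact_mod_cast hfix
        calc _ ≤ (n : ℝ) * (countN μ (Equiv.removeNone π') : ℝ) := hcast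
          _ ≤ (n : ℝ) * phiW (n : ℝ) R κ (Equiv.removeNone π') :=
              mul_le_mul_of_nonneg_left (IH _) hn'.le
          _ = _ := by ring
      · exact propN_moved μ hn0 M hr hc R κ k₁ hRM hRn hκ h1 h2
          (by rw [Fintype.card_fin]; omega) IH π' h
  exact main _ α rfl hα π

/-- An algebraic identity for the product over cycle lengths. -/
private theorem prod_weights (n R κ : ℝ) (hn : n ≠ 0) (s : Multiset ℕ) (hs : ∀ j ∈ s, 1 ≤ j) :
    (3 / n) ^ s.sum * (s.map (wtW n R κ)).prod =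
      (3 : ℝ) ^ s.sum * (s.map fun j => (R / n) ^ (j - 1) * κ ^ (j - 3)).prod := by
  induction s using Multiset.induction_on with
  | empty => simp
  | cons a t ih =>
    have ha : 1 ≤ a := hs a (Multiset.mem_cons_self a t)
    have hih := ih (fun j hj => hs j (Multiset.mem_cons_of_mem hj))
    rw [Multiset.map_cons, Multiset.prod_cons, Multiset.map_cons, Multiset.prod_cons,
      Multiset.sum_cons, pow_add, pow_add]
    have hone : (3 / n) ^ a * wtW n R κ a = (3 : ℝ) ^ a * ((R / n) ^ (a - 1) * κ ^ (a - 3)) := by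
      unfold wtW
      obtain ⟨b, rfl⟩ : ∃ b, a = b + 1 := ⟨a - 1, by omega⟩
      have e : b + 1 - 1 = b := by omega
      rw [e, div_pow, div_pow, pow_succ n b]
      field_simp
    calc (3 / n) ^ a * (3 / n) ^ t.sum * (wtW n R κ a * (t.map (wtW n R κ)).prod)
        = ((3 / n) ^ a * wtW n R κ a) * ((3 / n) ^ t.sum * (t.map (wtW n R κ)).prod) := by ring
      _ = _ := by rw [hone, hih]; ring

/-- The character bound `NuB` for a diagram with at most `M` rows and columns. -/
theorem nuB_of_shape (T : Filling n μ) (hn0 : 0 < n) (M : ℝ) (hr : (μ.rowLen 0 : ℝ) ≤ M)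
    (hc : (μ.colLen 0 : ℝ) ≤ M) : NuB n M (rr T) := by
  intro π R κ k₁ hRM hRn hκ h1 h2 hsp
  have hn' : (0 : ℝ) < n := by exact_mod_cast hn0
  have hcard : μ.card = n := by
    have := Fintype.card_congr T
    simpa [YoungDiagram.card] using this.symm
  -- the restriction of `π` to its support
  set τ : Perm {x // x ∈ π.support} := π.subtypePerm (p := fun x => x ∈ π.support)
    (fun x => Perm.apply_mem_support) with hτ
  have hof : Equiv.Perm.ofSubtype τ = π :=
    Equiv.Perm.ofSubtype_subtypePerm _ (fun x hx => Equiv.Perm.mem_support.mpr hx)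
  have hτc : τ.cycleType = π.cycleType := by
    rw [← Equiv.Perm.cycleType_ofSubtype (g := τ), hof]
  have hlens : lens τ = π.cycleType := by
    unfold lens
    rw [hτc, ← Equiv.Perm.sum_cycleType τ, hτc, Equiv.Perm.sum_cycleType π, Fintype.card_coe]
    simp
  have hspc : sp π = π.support.card := Equiv.Perm.sum_cycleType π
  have hk : sp π ≤ n := by
    rw [hspc]
    calc π.support.card ≤ (univ : Finset (Fin n)).card := Finset.card_le_univ _
      _ = n := by simp
  -- apply Prop N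
  set M' := max (μ.rowLen 0) (μ.colLen 0) with hM'
  have hM'M : (M' : ℝ) ≤ M := by
    rw [hM']
    rcases max_cases (μ.rowLen 0) (μ.colLen 0) with ⟨h, _⟩ | ⟨h, _⟩
    · rw [h]; exact hr
    · rw [h]; exact hc
  have hcardα : Fintype.card {x // x ∈ π.support} ≤ k₁ := by
    rw [Fintype.card_coe, ← hspc]
    exact hsp
  have hP := propN μ hcard hn0 M' (le_max_left _ _) (le_max_right _ _) R κ k₁
    (by linarith) hRn hκ h1 h2 hcardα τ
  have hbound := rr_abs_le_countN T π
  have hfr := fact_ratio_le (n := n) (sp π) hn0 hk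
  have hphi : phiW (n : ℝ) R κ τ = (π.cycleType.map (wtW (n : ℝ) R κ)).prod := by
    unfold phiW
    rw [hlens]
  have hpos : ∀ j ∈ π.cycleType, 1 ≤ j := fun j hj =>
    le_trans (by norm_num) (Equiv.Perm.two_le_of_mem_cycleType hj)
  have hid := prod_weights (n : ℝ) R κ hn'.ne' π.cycleType hpos
  have h3n : 0 ≤ (3 / (n : ℝ)) ^ sp π := by positivity
  calc |rr T π| ≤ ((n - sp π).factorial : ℝ) / (n.factorial : ℝ) * (countN μ τ : ℝ) := hbound
    _ ≤ (3 / (n : ℝ)) ^ sp π * (countN μ τ : ℝ) :=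
        mul_le_mul_of_nonneg_right hfr (Nat.cast_nonneg _)
    _ ≤ (3 / (n : ℝ)) ^ sp π * phiW (n : ℝ) R κ τ := mul_le_mul_of_nonneg_left hP h3n
    _ = (3 : ℝ) ^ sp π * (π.cycleType.map fun j => (R / n) ^ (j - 1) * κ ^ (j - 3)).prod := by
        rw [hphi]
        exact hid

end Vale.Agent.Lib.P197
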