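import Vale.Agent.Lib.P197.Assemble
import Vale.Agent.Lib.P197.KronLink
import Vale.Agent.Lib.P197.PropN

/-!
# P197 module Final: the theorem (blueprint sec 16)
-/

open Equiv Finset

namespace Vale.Agent.Lib.P197

variable {n : ℕ}

/-- The hypotheses of `assemble` for the staircase and a balanced diagram. -/
theorem hugeHyp_of (A : ℝ) (m : ℕ) (hm : 0 < m) (hn : n = m * (m + 1) / 2) {ν : YoungDiagram}
    (T₁ : Filling n (staircase m)) (T₃ : Filling n ν)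
    (hr : (ν.rowLen 0 : ℝ) ≤ A * Real.sqrt n) (hc : (ν.colLen 0 : ℝ) ≤ A * Real.sqrt n) :
    HugeHyp n A (rr T₁) (rr T₃) := by
  have hn2 : 2 * n = m * (m + 1) := by
    rw [hn]
    exact Nat.two_mul_div_two_of_even (Nat.even_mul_succ_self m)
  have hn0 : 0 < n := by
    have : 0 < m * (m + 1) := by positivity
    omega
  have hnR : (0 : ℝ) < n := by exact_mod_cast hn0
  have hfacR : (0 : ℝ) < (n.factorial : ℝ) := by exact_mod_cast Nat.factorial_pos n
  constructor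
  · -- first part
    have hnorm := rr_norm T₁
    have hlow := ff_lower T₁
    rw [staircase_rowLen, staircase_colLen] at hlow
    simp only [Nat.sub_zero] at hlow
    have hfact := fact_ratio_le (n := n) n hn0 le_rfl
    simp only [Nat.sub_self, Nat.factorial_zero, Nat.cast_one] at hfact
    set F : ℝ := ((n.factorial : ℕ) : ℝ) with hF
    set f : ℝ := (ff T₁ : ℝ) with hf
    set S : ℝ := ∑ π : Perm (Fin n), rr T₁ π ^ 2 with hS
    have hm2 : (m : ℝ) * m ≤ 2 * n := by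
      have : (m : ℝ) * (m + 1) = 2 * n := by exact_mod_cast hn2.symm
      nlinarith [(Nat.cast_nonneg m : (0 : ℝ) ≤ m)]
    have hf0 : (0 : ℝ) ≤ f := Nat.cast_nonneg _
    have hmR : (0 : ℝ) ≤ (m : ℝ) + m := by positivity
    have hSeq : f ^ 2 * S = F := by
      have : f ^ 2 * F⁻¹ * S = 1 := hnorm
      have hFne : F ≠ 0 := hfacR.ne'
      field_simp at this
      linarith
    have hS0 : 0 ≤ S := Finset.sum_nonneg fun π _ => sq_nonneg _
    -- `F^2 ≤ f^2 (2m)^(2n)`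
    have h2 : F ^ 2 ≤ f ^ 2 * ((m : ℝ) + m) ^ (2 * n) := by
      have : F ^ 2 ≤ (f * ((m : ℝ) + m) ^ n) ^ 2 := by
        exact pow_le_pow_left₀ hfacR.le hlow 2
      calc F ^ 2 ≤ (f * ((m : ℝ) + m) ^ n) ^ 2 := this
        _ = f ^ 2 * ((m : ℝ) + m) ^ (2 * n) := by rw [mul_pow, ← pow_mul, mul_comm n 2]
    -- `S F ≤ (2m)^(2n)`
    have h3 : S * F ≤ ((m : ℝ) + m) ^ (2 * n) := by
      have hfne : f ≠ 0 := by
        intro h
        rw [h] at hSeq
        simp at hSeq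
        exact hfacR.ne' hSeq.symm
      have hfpos : 0 < f ^ 2 := by positivity
      have : f ^ 2 * (S * F) ≤ f ^ 2 * ((m : ℝ) + m) ^ (2 * n) := by
        calc f ^ 2 * (S * F) = (f ^ 2 * S) * F := by ring
          _ = F * F := by rw [hSeq]
          _ = F ^ 2 := by ring
          _ ≤ _ := h2
      exact le_of_mul_le_mul_left this hfpos
    -- `(2m)^2 ≤ 8 n`
    have h4 : ((m : ℝ) + m) ^ (2 * n) ≤ (8 * (n : ℝ)) ^ n := by
      rw [pow_mul]
      refine pow_le_pow_left₀ (by positivity) ?_ n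
      nlinarith
    -- `1/F ≤ (3/n)^n`
    have h5 : S ≤ (8 * (n : ℝ)) ^ n * (3 / (n : ℝ)) ^ n := by
      have h6 : S * F ≤ (8 * (n : ℝ)) ^ n := h3.trans h4
      have h7 : S = S * F * (1 / F) := by field_simp
      rw [h7]
      refine mul_le_mul h6 hfact (by positivity) (by positivity)
    calc S ≤ (8 * (n : ℝ)) ^ n * (3 / (n : ℝ)) ^ n := h5
      _ = (24 : ℝ) ^ n := by
        rw [← mul_pow]
        congr 1
        field_simp
        norm_num
  · intro π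
    have hcl := rr_sq_class T₃ π
    have hlow := ff_lower T₃
    set F : ℝ := ((n.factorial : ℕ) : ℝ) with hF
    set f : ℝ := (ff T₃ : ℝ) with hf
    set c : ℝ := (((univ.filter fun σ : Perm (Fin n) => σ.cycleType = π.cycleType).card : ℕ) : ℝ)
      with hc'
    have hc0 : 0 ≤ c := Nat.cast_nonneg _
    have hf0 : 0 ≤ f := Nat.cast_nonneg _
    have hrc0 : (0 : ℝ) ≤ (ν.rowLen 0 : ℝ) + (ν.colLen 0 : ℝ) := by positivity
    have hrc : (ν.rowLen 0 : ℝ) + (ν.colLen 0 : ℝ) ≤ 2 * A * Real.sqrt n := by linarith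
    have h1 : F ≤ f * (2 * A * Real.sqrt n) ^ n :=
      hlow.trans (mul_le_mul_of_nonneg_left (pow_le_pow_left₀ hrc0 hrc n) hf0)
    have hB : 0 ≤ 2 * A * Real.sqrt n := hrc0.trans hrc
    have h2 : F ^ 2 ≤ f ^ 2 * (2 * A * Real.sqrt n) ^ (2 * n) := by
      calc F ^ 2 ≤ (f * (2 * A * Real.sqrt n) ^ n) ^ 2 := pow_le_pow_left₀ hfacR.le h1 2
        _ = _ := by rw [mul_pow, ← pow_mul, mul_comm n 2]
    have hnn : 0 ≤ rr T₃ π ^ 2 * c := by positivity
    calc rr T₃ π ^ 2 * c * F ^ 2 ≤ rr T₃ π ^ 2 * c * (f ^ 2 * (2 * A * Real.sqrt n) ^ (2 * n)) :=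
          mul_le_mul_of_nonneg_left h2 hnn
      _ = (f ^ 2 * rr T₃ π ^ 2 * c) * (2 * A * Real.sqrt n) ^ (2 * n) := by ring
      _ ≤ F * (2 * A * Real.sqrt n) ^ (2 * n) :=
          mul_le_mul_of_nonneg_right hcl (pow_nonneg hB _)

private theorem balanced_aux (A : ℝ) (n₀ : ℕ)
    (hn₀ : ∀ n ≥ n₀, ∀ rho nu : Perm (Fin n) → ℝ,
      RhoB n rho → NuB n (max A 1 * Real.sqrt n) nu → ClassMult n rho → ClassMult n nu →
      rho 1 = 1 → nu 1 = 1 → HugeHyp n (max A 1) rho nu →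
      0 < ∑ π, rho π ^ 2 * nu π)
    (m n : ℕ) (hm : max n₀ 1 ≤ m) (hn : n = m * (m + 1) / 2) (ν : YoungDiagram)
    (hr : (ν.rowLen 0 : ℝ) ≤ A * Real.sqrt (n : ℝ))
    (hc : (ν.colLen 0 : ℝ) ≤ A * Real.sqrt (n : ℝ))
    (T₁ T₂ : Filling n (staircase m)) (T₃ : Filling n ν) : 0 < kronecker T₁ T₂ T₃ := by
  have hm1 : 0 < m := by
    have : 1 ≤ max n₀ 1 := le_max_right _ _
    omega
  have hmn₀ : n₀ ≤ m := (le_max_left _ _).trans hm
  have hn2 : 2 * n = m * (m + 1) := by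
    rw [hn]
    exact Nat.two_mul_div_two_of_even (Nat.even_mul_succ_self m)
  have hnm : m ≤ n := by nlinarith
  have hn0 : 0 < n := by omega
  have hAle : A * Real.sqrt n ≤ max A 1 * Real.sqrt n :=
    mul_le_mul_of_nonneg_right (le_max_left _ _) (Real.sqrt_nonneg _)
  have hr' := hr.trans hAle
  have hc' := hc.trans hAle
  have hcm : ClassMult n (rr T₃) :=
    ⟨fun π σ h => rr_of_cycleType_eq T₃ π σ h, fun x y => rr_mul T₃ x y⟩
  have hcm1 : ClassMult n (rr T₁) :=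
    ⟨fun π σ h => rr_of_cycleType_eq T₁ π σ h, fun x y => rr_mul T₁ x y⟩
  have hpos := hn₀ n (hmn₀.trans hnm) (rr T₁) (rr T₃) (rhoB_staircase m hm1 hn T₁)
    (nuB_of_shape T₃ hn0 _ hr' hc') hcm1 hcm (rr_one T₁) (rr_one T₃)
    (hugeHyp_of (max A 1) m hm1 hn T₁ T₃ hr' hc')
  apply kronecker_pos
  have h2 : rr T₂ = rr T₁ := rr_indep T₂ T₁
  rw [h2]
  have : ∑ π : Perm (Fin n), rr T₁ π * rr T₁ π * rr T₃ π = ∑ π, rr T₁ π ^ 2 * rr T₃ π :=
    Finset.sum_congr rfl fun π _ => by ring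
  rw [this]
  exact hpos.ne'

/-- **Balanced Theorem.** For every `A` there is `m₀` such that for `m ≥ m₀` every diagram `ν` of
size `N_m` with at most `A √N_m` rows and at most `A √N_m` columns occurs in the tensor square of
the staircase Specht module. -/
theorem balanced (A : ℝ) : ∃ m₀ : ℕ, ∀ m ≥ m₀, ∀ ν : YoungDiagram, ν.card = m * (m + 1) / 2 →
    (ν.rowLen 0 : ℝ) ≤ A * Real.sqrt ((m * (m + 1) / 2 : ℕ) : ℝ) →
    (ν.colLen 0 : ℝ) ≤ A * Real.sqrt ((m * (m + 1) / 2 : ℕ) : ℝ) →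
    ∀ (T₁ T₂ : Filling (m * (m + 1) / 2) (staircase m)) (T₃ : Filling (m * (m + 1) / 2) ν),
      0 < kronecker T₁ T₂ T₃ := by
  obtain ⟨n₀, hn₀⟩ := assemble (max A 1) (le_max_right _ _)
  refine ⟨max n₀ 1, fun m hm ν _ hr hc T₁ T₂ T₃ => ?_⟩
  exact balanced_aux A n₀ hn₀ m _ hm rfl ν hr hc T₁ T₂ T₃

end Vale.Agent.Lib.P197
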