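import Vale.Agent.Lib.P197.Link

/-!
# P197 module FrobFormula: fixed points summed out; the dimension bound (blueprint sec 6)
-/

open Equiv Finset

namespace Vale.Agent.Lib.P197

variable {n : ℕ} {μ : YoungDiagram}

namespace FrobAux

/-- Reciprocal factorial on the integers, zero at negative arguments. -/
noncomputable def gInv (t : ℤ) : ℝ := if 0 ≤ t then ((t.toNat.factorial : ℕ) : ℝ)⁻¹ else 0

lemma gInv_sub_one (t : ℤ) : gInv (t - 1) = (t : ℝ) * gInv t := by
  unfold gInv
  by_cases h0 : 1 ≤ t
  · have h1 : 0 ≤ t - 1 := by omega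
    have h2 : 0 ≤ t := by omega
    rw [if_pos h1, if_pos h2]
    obtain ⟨m, rfl⟩ : ∃ m : ℕ, t = (m : ℤ) + 1 := ⟨(t-1).toNat, by omega⟩
    have e1 : ((m:ℤ) + 1 - 1).toNat = m := by simp
    rw [e1]
    have e2 : ((m:ℤ) + 1).toNat = m + 1 := by omega
    rw [e2, Nat.factorial_succ]
    push_cast
    have h4 : ((m:ℝ)+1) ≠ 0 := by positivity
    have h3 : ((m.factorial : ℕ):ℝ) ≠ 0 := by positivity
    field_simp
  · by_cases h2 : t = 0
    · subst h2; simp
    · have h1 : ¬ 0 ≤ t - 1 := by omega
      have h3 : ¬ 0 ≤ t := by omega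
      rw [if_neg h1, if_neg h3]; simp

lemma gInv_zero : gInv 0 = 1 := by simp [gInv]

lemma gInv_neg {t : ℤ} (h : t < 0) : gInv t = 0 := by
  unfold gInv; rw [if_neg (by omega)]

/-- Removing a colour `a` from the content multiplies the reciprocal factorials by `v a`. -/
lemma prod_gInv_erase {N : ℕ} (v : Fin N → ℤ) (a : Fin N) :
    ∏ i, gInv (v i - (if i = a then 1 else 0)) = (v a : ℝ) * ∏ i, gInv (v i) := by
  have : ∀ i, gInv (v i - (if i = a then 1 else 0)) =
      (if i = a then (v i : ℝ) else 1) * gInv (v i) := by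
    intro i
    by_cases h : i = a
    · simp [h, gInv_sub_one]
    · simp [h]
  simp_rw [this]
  rw [Finset.prod_mul_distrib, Finset.prod_ite_eq' univ a]
  simp

/-- The number of colourings of `Fin f` with given content. -/
lemma count_fin (N : ℕ) : ∀ (f : ℕ) (v : Fin N → ℤ), ∑ i, v i = f →
    (((univ.filter fun φ : Fin f → Fin N =>
        ∀ i, (((univ.filter fun x => φ x = i).card : ℕ) : ℤ) = v i).card : ℕ) : ℝ) =
      (f.factorial : ℝ) * ∏ i, gInv (v i) := by
  intro f
  induction f with
  | zero =>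
    intro v hv
    by_cases h : ∀ i, v i = 0
    · have h1 : ∏ i, gInv (v i) = 1 := by simp [h, gInv_zero]
      rw [h1]
      have : (univ.filter fun φ : Fin 0 → Fin N =>
          ∀ i, (((univ.filter fun x => φ x = i).card : ℕ) : ℤ) = v i) = univ := by
        apply Finset.filter_true_of_mem
        intro φ _ i
        simp [h]
      rw [this]
      simp
    · have hneg : ∃ i, v i < 0 := by
        by_contra hcon
        push Not at hcon
        apply h
        have := (Finset.sum_eq_zero_iff_of_nonneg (fun i _ => hcon i)).1 (by simpa using hv)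
        intro i; exact this i (Finset.mem_univ i)
      obtain ⟨i0, hi0⟩ := hneg
      have h1 : ∏ i, gInv (v i) = 0 :=
        Finset.prod_eq_zero (Finset.mem_univ i0) (gInv_neg hi0)
      rw [h1]
      have : (univ.filter fun φ : Fin 0 → Fin N =>
          ∀ i, (((univ.filter fun x => φ x = i).card : ℕ) : ℤ) = v i) = ∅ := by
        apply Finset.filter_false_of_mem
        intro φ _ hφ
        have := hφ i0
        simp at this
        omega
      rw [this]
      simp
  | succ f ih =>
    intro v hv
    -- cons decomposition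
    have hcount : ∀ (a : Fin N) (φ' : Fin f → Fin N) (i : Fin N),
        (((univ.filter fun x => (Fin.cons a φ' : Fin (f+1) → Fin N) x = i).card : ℕ) : ℤ) =
          (if i = a then 1 else 0) + (((univ.filter fun x => φ' x = i).card : ℕ) : ℤ) := by
      intro a φ' i
      rw [Finset.card_filter, Finset.card_filter, Fin.sum_univ_succ]
      simp only [Fin.cons_zero, Fin.cons_succ]
      push_cast
      by_cases h : i = a
      · subst h; simp
      · have h' : a ≠ i := fun e => h e.symm
        simp [h, h']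
    have hsplit : ((univ.filter fun φ : Fin (f+1) → Fin N =>
        ∀ i, (((univ.filter fun x => φ x = i).card : ℕ) : ℤ) = v i).card : ℕ) =
        ∑ a : Fin N, (univ.filter fun φ' : Fin f → Fin N =>
          ∀ i, (((univ.filter fun x => φ' x = i).card : ℕ) : ℤ) =
            v i - (if i = a then 1 else 0)).card := by
      rw [Finset.card_filter]
      rw [← (Fin.consEquiv (fun _ : Fin (f+1) => Fin N)).sum_comp]
      rw [Fintype.sum_prod_type]
      apply Finset.sum_congr rfl
      intro a _
      rw [Finset.card_filter]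
      apply Finset.sum_congr rfl
      intro φ' _
      have hiff : (∀ i, (((univ.filter fun x =>
            (Fin.consEquiv (fun _ : Fin (f+1) => Fin N)) (a, φ') x = i).card : ℕ) : ℤ) = v i) ↔
          (∀ i, (((univ.filter fun x => φ' x = i).card : ℕ) : ℤ) =
            v i - (if i = a then 1 else 0)) := by
        apply forall_congr'
        intro i
        have := hcount a φ' i
        have h2 : (Fin.consEquiv (fun _ : Fin (f+1) => Fin N)) (a, φ') = Fin.cons a φ' := rfl
        rw [h2, this]
        constructor <;> intro h <;> omega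
      simp only [hiff]
    rw [hsplit]
    push_cast
    have hih : ∀ a : Fin N, (((univ.filter fun φ' : Fin f → Fin N =>
          ∀ i, (((univ.filter fun x => φ' x = i).card : ℕ) : ℤ) =
            v i - (if i = a then 1 else 0)).card : ℕ) : ℝ) =
        (f.factorial : ℝ) * ((v a : ℝ) * ∏ i, gInv (v i)) := by
      intro a
      rw [ih (fun i => v i - (if i = a then 1 else 0)), prod_gInv_erase]
      rw [Finset.sum_sub_distrib, hv]
      simp
    simp_rw [hih]
    rw [← Finset.mul_sum, ← Finset.sum_mul]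
    have hs : (∑ a, (v a : ℝ)) = (f : ℝ) + 1 := by
      have : ((∑ a, v a : ℤ) : ℝ) = (((f+1 : ℕ) : ℤ) : ℝ) := by rw [hv]
      push_cast at this
      exact this
    rw [hs, Nat.factorial_succ]
    push_cast
    ring

/-- The number of colourings of a finite type with given content. -/
lemma count_type (N : ℕ) (X : Type*) [Fintype X] [DecidableEq X] (v : Fin N → ℤ)
    (hv : ∑ i, v i = Fintype.card X) :
    (((univ.filter fun φ : X → Fin N =>
        ∀ i, (((univ.filter fun x => φ x = i).card : ℕ) : ℤ) = v i).card : ℕ) : ℝ) =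
      ((Fintype.card X).factorial : ℝ) * ∏ i, gInv (v i) := by
  rw [← count_fin N (Fintype.card X) v hv]
  congr 1
  have e := Fintype.equivFin X
  apply Finset.card_equiv (Equiv.arrowCongr e (Equiv.refl _))
  intro φ
  simp only [Finset.mem_filter, Finset.mem_univ, true_and]
  apply forall_congr'
  intro i
  have : (univ.filter fun x => φ x = i).card =
      (univ.filter fun x => (Equiv.arrowCongr e (Equiv.refl _)) φ x = i).card := by
    apply Finset.card_equiv e
    intro x
    simp
  rw [this]


/-- Vandermonde in the reversed exponents. -/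
lemma det_rev_vdm {N : ℕ} (a : Fin N → ℕ) :
    (Matrix.of fun i j : Fin N => (((a i).descFactorial (N - 1 - (j : ℕ)) : ℕ) : ℤ)).det =
      ∏ i, ∏ j ∈ Ioi i, ((a i : ℤ) - (a j : ℤ)) := by
  set y : Fin N → ℤ := fun i => (a (Fin.rev i) : ℤ) with hy
  have h1 := Matrix.det_eval_matrixOfPolynomials_eq_det_vandermonde y
    (fun i : Fin N => descPochhammer ℤ (i : ℕ))
    (fun i => descPochhammer_natDegree ℤ (i : ℕ)) (fun i => monic_descPochhammer ℤ (i : ℕ))
  have h2 : (Matrix.of fun i j : Fin N => (((a i).descFactorial (N - 1 - (j : ℕ)) : ℕ) : ℤ)) =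
      (Matrix.of fun i j : Fin N =>
        ((descPochhammer ℤ (j : ℕ)).eval (y i))).submatrix Fin.revPerm Fin.revPerm := by
    ext i j
    simp only [Matrix.of_apply, Matrix.submatrix_apply, hy, Fin.revPerm_apply, Fin.rev_rev]
    rw [descPochhammer_eval_eq_descFactorial]
    congr 2
    simp [Fin.val_rev]
    omega
  rw [h2, Matrix.det_submatrix_equiv_self, ← h1, Matrix.det_vandermonde]
  -- reindex the double product
  have h3 : ∏ i : Fin N, ∏ j ∈ Ioi i, (y j - y i) =
      ∏ x ∈ (univ : Finset (Fin N × Fin N)).filter (fun p => p.1 < p.2), (y x.2 - y x.1) := by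
    rw [Finset.prod_filter, Fintype.prod_prod_type]
    apply Finset.prod_congr rfl
    intro i _
    rw [← Finset.prod_filter]
    apply Finset.prod_congr _ (fun _ _ => rfl)
    ext j; simp
  have h4 : ∏ i : Fin N, ∏ j ∈ Ioi i, ((a i : ℤ) - (a j : ℤ)) =
      ∏ x ∈ (univ : Finset (Fin N × Fin N)).filter (fun p => p.1 < p.2),
        ((a x.1 : ℤ) - (a x.2 : ℤ)) := by
    rw [Finset.prod_filter, Fintype.prod_prod_type]
    apply Finset.prod_congr rfl
    intro i _
    rw [← Finset.prod_filter]
    apply Finset.prod_congr _ (fun _ _ => rfl)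
    ext j; simp
  rw [h3, h4]
  apply Finset.prod_bij (fun p _ => (Fin.rev p.2, Fin.rev p.1))
  · intro p hp
    simp only [Finset.mem_filter, Finset.mem_univ, true_and] at hp ⊢
    exact Fin.rev_lt_rev.2 hp
  · intro p _ q _ h
    simp only [Prod.mk.injEq, Fin.rev_inj] at h
    exact Prod.ext h.2 h.1
  · intro p hp
    simp only [Finset.mem_filter, Finset.mem_univ, true_and] at hp
    refine ⟨(Fin.rev p.2, Fin.rev p.1), ?_, ?_⟩
    · simp only [Finset.mem_filter, Finset.mem_univ, true_and]
      exact Fin.rev_lt_rev.2 hp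
    · simp
  · intro p _
    simp [hy]

lemma gInv_sub_nat (a d : ℕ) :
    gInv ((a : ℤ) - (d : ℤ)) = ((a.descFactorial d : ℕ) : ℝ) / ((a.factorial : ℕ) : ℝ) := by
  unfold gInv
  by_cases h : d ≤ a
  · have h0 : (0:ℤ) ≤ (a : ℤ) - d := by omega
    rw [if_pos h0]
    have e : ((a : ℤ) - (d : ℤ)).toNat = a - d := by omega
    rw [e]
    have h1 := Nat.factorial_mul_descFactorial h
    have h2 : (((a - d).factorial : ℕ) : ℝ) * ((a.descFactorial d : ℕ) : ℝ) = ((a.factorial : ℕ) : ℝ) := by
      exact_mod_cast h1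
    rw [← h2]
    have h3 : (((a - d).factorial : ℕ) : ℝ) ≠ 0 := by positivity
    have h4 : ((a.descFactorial d : ℕ) : ℝ) ≠ 0 := by
      have : a.descFactorial d ≠ 0 := by
        rw [Ne, Nat.descFactorial_eq_zero_iff_lt]; omega
      exact_mod_cast this
    field_simp
  · have h0 : ¬ (0:ℤ) ≤ (a : ℤ) - d := by omega
    rw [if_neg h0, Nat.descFactorial_eq_zero_iff_lt.2 (by omega)]
    simp

/-- The determinant identity behind the dimension formula. -/
lemma sum_sign_gInv {N : ℕ} (x : Fin N → ℤ) (hx : ∀ i, 0 ≤ x i) :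
    ∑ w : Perm (Fin N), (((Perm.sign w : ℤˣ) : ℤ) : ℝ) *
        ∏ i, gInv (x i - ((N - 1 - ((w i : Fin N) : ℕ) : ℕ) : ℤ)) =
      ((∏ i, ∏ j ∈ Ioi i, (x i - x j) : ℤ) : ℝ) / ∏ i, (((x i).toNat.factorial : ℕ) : ℝ) := by
  set a : Fin N → ℕ := fun i => (x i).toNat with ha
  have hxa : ∀ i, x i = (a i : ℤ) := fun i => (Int.toNat_of_nonneg (hx i)).symm
  have h1 : ∏ i, ∏ j ∈ Ioi i, (x i - x j) = ∏ i, ∏ j ∈ Ioi i, ((a i : ℤ) - (a j : ℤ)) := by
    simp_rw [hxa]
  rw [h1, ← det_rev_vdm a, ← Matrix.det_transpose, Matrix.det_apply']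
  push_cast
  rw [Finset.sum_div]
  apply Finset.sum_congr rfl
  intro w _
  rw [mul_div_assoc]
  congr 1
  rw [← Finset.prod_div_distrib]
  apply Finset.prod_congr rfl
  intro i _
  have e : gInv (x i - ((N - 1 - ((w i : Fin N) : ℕ) : ℕ) : ℤ)) =
      gInv ((a i : ℤ) - ((N - 1 - ((w i : Fin N) : ℕ) : ℕ) : ℤ)) := by rw [← hxa i]
  rw [e, gInv_sub_nat]
  simp only [Matrix.transpose_apply, Matrix.of_apply, Int.cast_natCast]
  rfl


/-- Splitting an invariant colouring into its parts on and off the support. -/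
lemma psi_decomp (N : ℕ) (α : Fin N → ℤ) (π : Perm (Fin n)) :
    psi N α π = ∑ φ ∈ invOn N π, (univ.filter fun χ : {x // x ∉ π.support} → Fin N =>
      ∀ i, (((univ.filter fun x => χ x = i).card : ℕ) : ℤ) = α i - contOn φ i).card := by
  classical
  unfold psi
  set e := Equiv.piEquivPiSubtypeProd (fun x => x ∈ π.support) (fun _ : Fin n => Fin N) with he
  have key : ∀ (φ : {x // x ∈ π.support} → Fin N) (χ : {x // x ∉ π.support} → Fin N),
      (∀ x, (e.symm (φ, χ)) (π x) = (e.symm (φ, χ)) x) ∧
        (∀ i, (((univ.filter fun x => (e.symm (φ, χ)) x = i).card : ℕ) : ℤ) = α i) ↔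
      (φ ∈ invOn N π) ∧
        (∀ i, (((univ.filter fun x => χ x = i).card : ℕ) : ℤ) = α i - contOn φ i) := by
    intro φ χ
    have happly1 : ∀ x (h : x ∈ π.support), (e.symm (φ, χ)) x = φ ⟨x, h⟩ := by
      intro x h
      have h' : π x ≠ x := Perm.mem_support.1 h
      simp [he, Equiv.piEquivPiSubtypeProd, h']
    have happly2 : ∀ x (h : x ∉ π.support), (e.symm (φ, χ)) x = χ ⟨x, h⟩ := by
      intro x h
      have h' : π x = x := by simpa using h
      simp [he, Equiv.piEquivPiSubtypeProd, h']
    have hcont : ∀ i, (((univ.filter fun x => (e.symm (φ, χ)) x = i).card : ℕ) : ℤ) =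
        contOn φ i + (((univ.filter fun x => χ x = i).card : ℕ) : ℤ) := by
      intro i
      unfold contOn
      rw [Finset.card_filter, Finset.card_filter, Finset.card_filter]
      push_cast
      rw [← Fintype.sum_subtype_add_sum_subtype (fun x => x ∈ π.support)]
      congr 1
      · refine Finset.sum_equiv (Equiv.refl _) (fun _ => by simp) ?_
        intro x _
        rw [Equiv.refl_apply, happly1 x.1 x.2]
      · refine Finset.sum_equiv (Equiv.refl _) (fun _ => by simp) ?_
        intro x _
        rw [Equiv.refl_apply, happly2 x.1 x.2]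
    have hinv : (∀ x, (e.symm (φ, χ)) (π x) = (e.symm (φ, χ)) x) ↔ φ ∈ invOn N π := by
      unfold invOn
      simp only [Finset.mem_filter, Finset.mem_univ, true_and]
      constructor
      · intro h x
        have h1 := h x.1
        rw [happly1 x.1 x.2, happly1 (π x.1) (Perm.apply_mem_support.2 x.2)] at h1
        exact h1
      · intro h x
        by_cases hx : x ∈ π.support
        · rw [happly1 x hx, happly1 (π x) (Perm.apply_mem_support.2 hx)]
          exact h ⟨x, hx⟩
        · have : π x = x := by simpa using hx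
          rw [this]
    rw [hinv]
    apply and_congr_right
    intro _
    apply forall_congr'
    intro i
    rw [hcont i]
    constructor <;> intro h <;> omega
  rw [Finset.card_filter, ← e.symm.sum_comp, Fintype.sum_prod_type]
  have : ∀ φ : {x // x ∈ π.support} → Fin N,
      ∑ χ : {x // x ∉ π.support} → Fin N,
        (if (∀ x, (e.symm (φ, χ)) (π x) = (e.symm (φ, χ)) x) ∧
          (∀ i, (((univ.filter fun x => (e.symm (φ, χ)) x = i).card : ℕ) : ℤ) = α i) then 1 else 0) =
      if φ ∈ invOn N π then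
        (univ.filter fun χ : {x // x ∉ π.support} → Fin N =>
          ∀ i, (((univ.filter fun x => χ x = i).card : ℕ) : ℤ) = α i - contOn φ i).card else 0 := by
    intro φ
    simp_rw [key]
    by_cases h : φ ∈ invOn N π
    · simp only [h, true_and, if_true]
      rw [Finset.card_filter]
    · simp [h]
  simp_rw [this]
  rw [Finset.sum_ite_mem]
  simp

lemma sum_rowLen (μ : YoungDiagram) (N : ℕ) (hN : μ.colLen 0 ≤ N) :
    ∑ i : Fin N, μ.rowLen (i : ℕ) = μ.card := by
  rw [Fin.sum_univ_eq_sum_range (fun i => μ.rowLen i) N]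
  have h : μ.card = μ.cells.card := rfl
  rw [h, Finset.card_eq_sum_card_fiberwise (f := Prod.fst) (t := range N)]
  · apply Finset.sum_congr rfl
    intro i _
    rw [YoungDiagram.rowLen_eq_card]
    rfl
  · intro c hc
    have hc' : c ∈ μ := hc
    have h0 : (c.1, 0) ∈ μ := μ.up_left_mem (le_refl _) (Nat.zero_le _) (by simpa using hc')
    have := YoungDiagram.mem_iff_lt_colLen.1 h0
    simp only [Finset.mem_coe, Finset.mem_range]
    omega


end FrobAux

open FrobAux

theorem contOn_sum (N : ℕ) (π : Perm (Fin n)) (φ : {x // x ∈ π.support} → Fin N) :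
    ∑ i, contOn φ i = sp π := by
  unfold contOn sp
  rw [Perm.sum_cycleType]
  have h : (univ : Finset {x // x ∈ π.support}).card =
      ∑ i : Fin N, (univ.filter fun x => φ x = i).card :=
    Finset.card_eq_sum_card_fiberwise (fun x _ => Finset.mem_coe.2 (Finset.mem_univ _))
  have h2 : (univ : Finset {x // x ∈ π.support}).card = π.support.card := by
    simp
  rw [← h2, h]
  push_cast
  rfl


namespace FrobAux

lemma card_off (π : Perm (Fin n)) : Fintype.card {x // x ∉ π.support} = n - sp π := by
  unfold sp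
  rw [Perm.sum_cycleType, Fintype.card_of_subtype (π.support)ᶜ (by simp), Finset.card_compl]
  simp

lemma sp_le (π : Perm (Fin n)) : sp π ≤ n := by
  unfold sp
  simpa using Perm.sum_cycleType_le π


end FrobAux

/-- The fixed points of `π` are summed out by the multinomial theorem and the determinant
`det(1/(x_i-δ_j)!) = vdm x / ∏ x_i!`. -/
theorem frobF_formula (N : ℕ) (hμ : μ.card = n) (hN : μ.colLen 0 ≤ N) (π : Perm (Fin n)) :
    (frobF N μ π : ℝ) = ∑ φ ∈ invOn N π, dimX (n - sp π)
      (fun i => (μ.rowLen (i : ℕ) : ℤ) + ((N - 1 - (i : ℕ) : ℕ) : ℤ) - contOn φ i) := by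
  have hcount : ∀ (w : Perm (Fin N)) (φ : {x // x ∈ π.support} → Fin N),
      (((univ.filter fun χ : {x // x ∉ π.support} → Fin N =>
        ∀ i : Fin N, (((univ.filter fun x => χ x = i).card : ℕ) : ℤ) =
          ((μ.rowLen (i : ℕ) : ℤ) - (i : ℕ) + ((w i : Fin N) : ℕ)) - contOn φ i).card : ℕ) : ℝ) =
      (((n - sp π).factorial : ℕ) : ℝ) *
        ∏ i : Fin N, gInv (((μ.rowLen (i : ℕ) : ℤ) + ((N - 1 - (i : ℕ) : ℕ) : ℤ) - contOn φ i) -
          ((N - 1 - ((w i : Fin N) : ℕ) : ℕ) : ℤ)) := by
    intro w φ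
    have hsum : ∑ i : Fin N, (((μ.rowLen (i : ℕ) : ℤ) - (i : ℕ) + ((w i : Fin N) : ℕ)) - contOn φ i) =
        (Fintype.card {x // x ∉ π.support} : ℤ) := by
      rw [card_off, Nat.cast_sub (sp_le π), Finset.sum_sub_distrib, Finset.sum_add_distrib,
        Finset.sum_sub_distrib, contOn_sum]
      have h1 : ∑ i : Fin N, ((w i : Fin N) : ℤ) = ∑ i : Fin N, ((i : ℕ) : ℤ) :=
        Equiv.sum_comp w (fun i : Fin N => ((i : ℕ) : ℤ))
      have h1' : ∑ i : Fin N, (((w i : Fin N) : ℕ) : ℤ) = ∑ i : Fin N, ((i : ℕ) : ℤ) := h1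
      rw [h1']
      have h2 : ∑ i : Fin N, ((μ.rowLen (i : ℕ) : ℕ) : ℤ) = n := by
        have := sum_rowLen μ N hN
        rw [hμ] at this
        exact_mod_cast this
      rw [h2]
      ring
    have := count_type N {x // x ∉ π.support} _ hsum
    rw [this, card_off]
    congr 1
    apply Finset.prod_congr rfl
    intro i _
    congr 1
    have hi := i.isLt
    have hwi := (w i).isLt
    push_cast [Nat.sub_sub]
    rw [Nat.cast_sub (by omega), Nat.cast_sub (by omega)]
    push_cast
    ring
  unfold frobF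
  push_cast
  simp_rw [psi_decomp]
  push_cast
  simp_rw [hcount]
  simp_rw [Finset.mul_sum]
  rw [Finset.sum_comm]
  apply Finset.sum_congr rfl
  intro φ _
  set x : Fin N → ℤ := fun i =>
    (μ.rowLen (i : ℕ) : ℤ) + ((N - 1 - (i : ℕ) : ℕ) : ℤ) - contOn φ i with hx
  unfold dimX
  by_cases hpos : ∀ i, 0 ≤ x i
  · rw [if_pos hpos]
    have := sum_sign_gInv x hpos
    have h3 : (vdm x : ℝ) = ((∏ i, ∏ j ∈ Ioi i, (x i - x j) : ℤ) : ℝ) := rfl
    rw [h3, mul_div_assoc, ← this, Finset.mul_sum]
    apply Finset.sum_congr rfl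
    intro w _
    ring
  · rw [if_neg hpos]
    push Not at hpos
    obtain ⟨i0, hi0⟩ := hpos
    apply Finset.sum_eq_zero
    intro w _
    have : ∏ i, gInv (x i - ((N - 1 - ((w i : Fin N) : ℕ) : ℕ) : ℤ)) = 0 :=
      Finset.prod_eq_zero (Finset.mem_univ i0) (gInv_neg (by omega))
    rw [this]
    ring


namespace FrobAux

/-- Invariant colourings are constant on cycles. -/
lemma invOn_const (N : ℕ) (π : Perm (Fin n)) (φ : {x // x ∈ π.support} → Fin N)
    (hφ : φ ∈ invOn N π) (x y : {x // x ∈ π.support}) (h : π.SameCycle x.1 y.1) : φ x = φ y := by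
  have hinv : ∀ x : {x // x ∈ π.support}, φ ⟨π x.1, Perm.apply_mem_support.2 x.2⟩ = φ x := by
    simpa [invOn] using hφ
  have key : ∀ (k : ℕ) (x : {x // x ∈ π.support}) (h' : (π ^ k) x.1 ∈ π.support),
      φ ⟨(π ^ k) x.1, h'⟩ = φ x := by
    intro k
    induction k with
    | zero =>
      intro x h'
      simp
    | succ k ih =>
      intro x h'
      have h1 : (π ^ k) x.1 ∈ π.support := by
        rw [pow_succ', Perm.mul_apply] at h'
        exact Perm.apply_mem_support.1 h'
      have h2 := hinv ⟨(π ^ k) x.1, h1⟩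
      rw [← ih x h1, ← h2]
      congr 2
      rw [pow_succ', Perm.mul_apply]
  obtain ⟨k, -, hk⟩ := h.exists_pow_eq'
  have h3 := key k x (by rw [hk]; exact y.2)
  rw [← h3]
  congr 1
  exact Subtype.ext hk

/-- A representative of each cycle. -/
lemma exists_rep (π : Perm (Fin n)) (c : {c // c ∈ π.cycleFactorsFinset}) :
    ∃ r : {x // x ∈ π.support}, r.1 ∈ c.1.support := by
  have hc := Perm.mem_cycleFactorsFinset_iff.1 c.2
  have hne : c.1 ≠ 1 := hc.1.ne_one
  have : c.1.support.Nonempty := by
    rw [Finset.nonempty_iff_ne_empty, Ne, Perm.support_eq_empty_iff]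
    exact hne
  obtain ⟨r, hr⟩ := this
  exact ⟨⟨r, Perm.mem_cycleFactorsFinset_support_le c.2 hr⟩, hr⟩

/-- Choice of the representative. -/
noncomputable def repOf (π : Perm (Fin n)) (c : {c // c ∈ π.cycleFactorsFinset}) :
    {x // x ∈ π.support} := (exists_rep π c).choose

lemma repOf_mem (π : Perm (Fin n)) (c : {c // c ∈ π.cycleFactorsFinset}) :
    (repOf π c).1 ∈ c.1.support := (exists_rep π c).choose_spec

/-- Each point of the support is in the cycle of a representative. -/
lemma exists_cycle_rep (π : Perm (Fin n)) (x : {x // x ∈ π.support}) :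
    ∃ c : {c // c ∈ π.cycleFactorsFinset}, π.SameCycle x.1 (repOf π c).1 := by
  have hmem : π.cycleOf x.1 ∈ π.cycleFactorsFinset :=
    Perm.cycleOf_mem_cycleFactorsFinset_iff.2 x.2
  refine ⟨⟨π.cycleOf x.1, hmem⟩, ?_⟩
  have := repOf_mem π ⟨π.cycleOf x.1, hmem⟩
  exact (Perm.mem_support_cycleOf_iff.1 this).1

lemma card_factors (π : Perm (Fin n)) :
    Multiset.card π.cycleType = π.cycleFactorsFinset.card := by
  rw [Perm.cycleType_def, Multiset.card_map]
  rfl

/-- A factorial is at most the product of a set of its factors times a power of an upper bound. -/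
lemma factorial_le_prod (B R : ℕ) (hBR : B ≤ R) (D : Finset ℕ) (hD : D ⊆ Finset.Ico 1 (B + 1)) :
    B.factorial ≤ (∏ d ∈ D, d) * R ^ (B - D.card) := by
  have h1 : B.factorial = ∏ t ∈ Finset.Ico 1 (B + 1), t := (Finset.prod_Ico_id_eq_factorial B).symm
  have h2 : ∏ t ∈ Finset.Ico 1 (B + 1), t = (∏ t ∈ Finset.Ico 1 (B + 1) \ D, t) * ∏ t ∈ D, t :=
    (Finset.prod_sdiff hD).symm
  rw [h1, h2, mul_comm]
  apply Nat.mul_le_mul_left
  have h3 : (Finset.Ico 1 (B + 1) \ D).card = B - D.card := by
    rw [Finset.card_sdiff_of_subset hD]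
    simp
  rw [← h3]
  apply Finset.prod_le_pow_card
  intro t ht
  have := (Finset.mem_Ico.1 (Finset.mem_sdiff.1 ht).1).2
  omega

/-- The combinatorial heart of the hook-type bound. -/
lemma prod_beads_le (N : ℕ) (b : Fin N → ℕ) (r : Fin N → ℕ) (R : ℕ) (hb : StrictAnti b)
    (hr : ∀ i, b i = r i + (N - 1 - (i : ℕ))) (hR : ∀ i, b i ≤ R) :
    ∏ i, (b i).factorial ≤ (∏ i, ∏ j ∈ Ioi i, (b i - b j)) * R ^ (∑ i, r i) := by
  rw [← Finset.prod_pow_eq_pow_sum, ← Finset.prod_mul_distrib]
  apply Finset.prod_le_prod'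
  intro i _
  set D : Finset ℕ := (Ioi i).image (fun j => b i - b j) with hD
  have hinj : Set.InjOn (fun j => b i - b j) (Ioi i : Finset (Fin N)) := by
    intro j hj k hk hjk
    have hj' : i < j := by simpa using hj
    have hk' : i < k := by simpa using hk
    have h1 := hb hj'
    have h2 := hb hk'
    have h3 : b j = b k := by
      simp only at hjk
      omega
    exact hb.injective h3
  have hsub : D ⊆ Finset.Ico 1 (b i + 1) := by
    intro d hd
    obtain ⟨j, hj, rfl⟩ := Finset.mem_image.1 hd
    have hj' : i < j := by simpa using hj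
    have h1 := hb hj'
    exact Finset.mem_Ico.2 ⟨by omega, by omega⟩
  have hcard : D.card = N - 1 - (i : ℕ) := by
    rw [hD, Finset.card_image_of_injOn hinj]
    simp [Fin.card_Ioi]
  have := factorial_le_prod (b i) R (hR i) D hsub
  rw [hcard] at this
  have h5 : b i - (N - 1 - (i : ℕ)) = r i := by
    rw [hr i]; omega
  rw [h5] at this
  rw [hD, Finset.prod_image hinj] at this
  exact this



end FrobAux

/-- The number of invariant colourings of the support. -/
theorem invOn_card_le (N : ℕ) (π : Perm (Fin n)) :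
    (invOn N π).card ≤ N ^ Multiset.card π.cycleType := by
  classical
  have h : (invOn N π).card ≤
      (univ : Finset ({c // c ∈ π.cycleFactorsFinset} → Fin N)).card := by
    apply Finset.card_le_card_of_injOn (fun φ c => φ (repOf π c))
    · intro φ _
      exact Finset.mem_coe.2 (Finset.mem_univ _)
    · intro φ hφ ψ hψ hEq
      funext x
      obtain ⟨c, hc⟩ := exists_cycle_rep π x
      rw [invOn_const N π φ hφ x _ hc, invOn_const N π ψ hψ x _ hc]
      exact congrFun hEq c
  refine h.trans (le_of_eq ?_)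
  rw [card_factors, Finset.card_univ, Fintype.card_fun, Fintype.card_fin]
  congr 1
  simp

/-- An invariant colouring of the support uses at most as many colours as cycles. -/
theorem invOn_image_card_le (N : ℕ) (π : Perm (Fin n)) (φ : {x // x ∈ π.support} → Fin N)
    (hφ : φ ∈ invOn N π) :
    (univ.filter fun i => contOn φ i ≠ 0).card ≤ Multiset.card π.cycleType := by
  classical
  have hsub : (univ.filter fun i => contOn φ i ≠ 0) ⊆
      (univ : Finset {c // c ∈ π.cycleFactorsFinset}).image (fun c => φ (repOf π c)) := by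
    intro i hi
    have hi' : contOn φ i ≠ 0 := (Finset.mem_filter.1 hi).2
    unfold contOn at hi'
    have hne : (univ.filter fun x => φ x = i).Nonempty := by
      rw [Finset.nonempty_iff_ne_empty]
      intro he
      apply hi'
      rw [he]
      simp
    obtain ⟨x, hx⟩ := hne
    have hx' : φ x = i := (Finset.mem_filter.1 hx).2
    obtain ⟨c, hc⟩ := exists_cycle_rep π x
    refine Finset.mem_image.2 ⟨c, Finset.mem_univ _, ?_⟩
    rw [← hx', invOn_const N π φ hφ x _ hc]
  refine (Finset.card_le_card hsub).trans (Finset.card_image_le.trans (le_of_eq ?_))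
  rw [card_factors]
  simp

/-- The hook-type lower bound for the dimension. -/
theorem ff_lower (T : Filling n μ) :
    ((n.factorial : ℕ) : ℝ) ≤ (ff T : ℝ) * ((μ.rowLen 0 : ℝ) + (μ.colLen 0 : ℝ)) ^ n := by
  classical
  set N := μ.colLen 0 with hN
  set R := μ.rowLen 0 + N with hRdef
  have hμ : μ.card = n := by
    have h1 : Fintype.card (Fin n) = Fintype.card {c // c ∈ μ.cells} := Fintype.card_congr T
    simp only [Fintype.card_fin, Fintype.card_coe] at h1
    exact h1.symm
  have h1 := ff_rr_eq_frobF T N le_rfl 1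
  rw [rr_one, mul_one] at h1
  -- the beads
  set b : Fin N → ℕ := fun i => μ.rowLen (i : ℕ) + (N - 1 - (i : ℕ)) with hb
  have hbanti : StrictAnti b := by
    intro i j hij
    have h2 : μ.rowLen (j : ℕ) ≤ μ.rowLen (i : ℕ) := μ.rowLen_anti _ _ (le_of_lt hij)
    have h3 : (i : ℕ) < j := hij
    have h4 := j.isLt
    simp only [hb]
    omega
  have hbR : ∀ i, b i ≤ R := by
    intro i
    have h2 : μ.rowLen (i : ℕ) ≤ μ.rowLen 0 := μ.rowLen_anti _ _ (Nat.zero_le _)
    have h4 := i.isLt
    simp only [hb, hRdef]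
    omega
  have hmain := prod_beads_le N b (fun i => μ.rowLen (i : ℕ)) R hbanti (fun i => rfl) hbR
  rw [sum_rowLen μ N le_rfl, hμ] at hmain
  -- evaluate the formula at the identity
  have hform := frobF_formula N hμ le_rfl (1 : Perm (Fin n))
  have hsupp : ∀ x : {x // x ∈ (1 : Perm (Fin n)).support}, False := by
    intro x
    have := x.2
    simp at this
  let φ0 : {x // x ∈ (1 : Perm (Fin n)).support} → Fin N := fun x => (hsupp x).elim
  have hinv : invOn N (1 : Perm (Fin n)) = {φ0} := by
    ext φ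
    simp only [invOn, Finset.mem_filter, Finset.mem_univ, true_and, Finset.mem_singleton]
    constructor
    · intro _
      funext x
      exact (hsupp x).elim
    · intro _ x
      exact (hsupp x).elim
  have hcont : ∀ i, contOn φ0 i = 0 := by
    intro i
    unfold contOn
    have : (univ.filter fun x => φ0 x = i) = ∅ := by
      apply Finset.filter_false_of_mem
      intro x _
      exact (hsupp x).elim
    rw [this]
    simp
  have hsp : sp (1 : Perm (Fin n)) = 0 := by simp [sp]
  rw [hinv, Finset.sum_singleton, hsp, Nat.sub_zero] at hform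
  simp_rw [hcont, sub_zero] at hform
  have hxb : ∀ i : Fin N, (μ.rowLen (i : ℕ) : ℤ) + ((N - 1 - (i : ℕ) : ℕ) : ℤ) = (b i : ℤ) := by
    intro i
    simp only [hb]
    push_cast
    ring
  simp_rw [hxb] at hform
  unfold dimX at hform
  rw [if_pos (fun i => Int.natCast_nonneg _)] at hform
  simp only [Int.toNat_natCast] at hform
  -- the vandermonde in natural numbers
  have hvdm : (vdm (fun i => (b i : ℤ)) : ℝ) = ((∏ i, ∏ j ∈ Ioi i, (b i - b j) : ℕ) : ℝ) := by
    unfold vdm
    push_cast
    apply Finset.prod_congr rfl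
    intro i _
    apply Finset.prod_congr rfl
    intro j hj
    have hj' : i < j := by simpa using hj
    have := hbanti hj'
    rw [Nat.cast_sub (le_of_lt this)]
  rw [hvdm] at hform
  have hF : (0:ℝ) < ∏ i, (((b i).factorial : ℕ) : ℝ) :=
    Finset.prod_pos (fun i _ => by positivity)
  have hfR : ((ff T : ℕ) : ℝ) = (n.factorial : ℝ) * ((∏ i, ∏ j ∈ Ioi i, (b i - b j) : ℕ) : ℝ) /
      ∏ i, (((b i).factorial : ℕ) : ℝ) := by
    rw [h1]; exact hform
  have hmainR : ∏ i, (((b i).factorial : ℕ) : ℝ) ≤
      ((∏ i, ∏ j ∈ Ioi i, (b i - b j) : ℕ) : ℝ) * (R : ℝ) ^ n := by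
    exact_mod_cast hmain
  have hRcast : ((μ.rowLen 0 : ℝ) + (N : ℝ)) = (R : ℝ) := by
    simp [hRdef]
  rw [hRcast, hfR]
  have hn : (0:ℝ) ≤ (n.factorial : ℝ) := by positivity
  rw [div_mul_eq_mul_div, le_div_iff₀ hF, mul_assoc]
  exact mul_le_mul_of_nonneg_left hmainR hn


end Vale.Agent.Lib.P197
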