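import Vale.Agent.Lib.P197.Core

/-!
# P197 module PermChar: Burnside for pairs of colourings (blueprint sec 3)
-/

open Equiv Finset

namespace Vale.Agent.Lib.P197

variable {n : ℕ} {μ : YoungDiagram}

private lemma card_comp {N : ℕ} (φ : Fin n → Fin N) (g : Perm (Fin n)) (i : Fin N) :
    (univ.filter fun x => φ (g x) = i).card = (univ.filter fun x => φ x = i).card :=
  Finset.card_equiv g (by simp)

theorem psi_conj (N : ℕ) (α : Fin N → ℤ) (g π : Perm (Fin n)) :
    psi N α (g * π * g⁻¹) = psi N α π := by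
  unfold psi
  refine Finset.card_bij' (fun φ _ => fun x => φ (g x)) (fun φ _ => fun x => φ (g⁻¹ x)) ?_ ?_ ?_ ?_
  · intro φ hφ
    simp only [mem_filter, mem_univ, true_and] at hφ ⊢
    refine ⟨fun x => ?_, fun i => ?_⟩
    · have := hφ.1 (g x)
      simpa using this
    · have := hφ.2 i
      rw [← this]
      rw [card_comp φ g i]
  · intro φ hφ
    simp only [mem_filter, mem_univ, true_and] at hφ ⊢
    refine ⟨fun x => ?_, fun i => ?_⟩
    · have := hφ.1 (g⁻¹ x)
      simpa using this
    · have := hφ.2 i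
      rw [← this]
      rw [card_comp φ g⁻¹ i]
  · intro φ _
    ext x
    simp
  · intro φ _
    ext x
    simp

theorem psi_inv (N : ℕ) (α : Fin N → ℤ) (π : Perm (Fin n)) : psi N α π⁻¹ = psi N α π := by
  unfold psi
  congr 1
  ext φ
  simp only [mem_filter, mem_univ, true_and]
  refine and_congr_left fun _ => ⟨fun h x => ?_, fun h x => ?_⟩
  · have := h (π x)
    simpa using this.symm
  · have := h (π⁻¹ x)
    simpa using this.symm

/-- The content condition. -/
private def ContOK {N : ℕ} (α : Fin N → ℤ) (φ : Fin n → Fin N) : Prop :=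
  ∀ i, (((univ.filter fun x => φ x = i).card : ℕ) : ℤ) = α i

private lemma ContOK.comp {N : ℕ} {α : Fin N → ℤ} {φ : Fin n → Fin N} (h : ContOK α φ)
    (g : Perm (Fin n)) : ContOK α (fun x => φ (g x)) := by
  intro i
  rw [← h i]
  rw [card_comp φ g i]

/-- The pairs of colourings with given contents. -/
private def PairT (n N : ℕ) (α γ : Fin N → ℤ) : Type :=
  {P : (Fin n → Fin N) × (Fin n → Fin N) // ContOK α P.1 ∧ ContOK γ P.2}

private noncomputable instance (N : ℕ) (α γ : Fin N → ℤ) : Fintype (PairT n N α γ) := by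
  unfold PairT
  classical
  infer_instance

private instance (N : ℕ) (α γ : Fin N → ℤ) : MulAction (Perm (Fin n)) (PairT n N α γ) where
  smul g P := ⟨(fun x => P.1.1 (g⁻¹ x), fun x => P.1.2 (g⁻¹ x)), P.2.1.comp g⁻¹, P.2.2.comp g⁻¹⟩
  one_smul P := by
    apply Subtype.ext
    show (fun x => P.1.1 ((1 : Perm (Fin n))⁻¹ x), fun x => P.1.2 ((1 : Perm (Fin n))⁻¹ x)) = P.1
    ext x <;> simp
  mul_smul g h P := by
    apply Subtype.ext
    show (fun x => P.1.1 ((g * h)⁻¹ x), fun x => P.1.2 ((g * h)⁻¹ x)) =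
      (fun x => P.1.1 (h⁻¹ (g⁻¹ x)), fun x => P.1.2 (h⁻¹ (g⁻¹ x)))
    ext x <;> simp

private lemma smul_val {N : ℕ} {α γ : Fin N → ℤ} (g : Perm (Fin n)) (P : PairT n N α γ) :
    (g • P).1 = (fun x => P.1.1 (g⁻¹ x), fun x => P.1.2 (g⁻¹ x)) := rfl

/-- The matrix of a pair. -/
private def matOf {N : ℕ} (P : (Fin n → Fin N) × (Fin n → Fin N)) (i j : Fin N) : ℕ :=
  (univ.filter fun x => P.1 x = i ∧ P.2 x = j).card

private lemma matOf_row {N : ℕ} (P : (Fin n → Fin N) × (Fin n → Fin N)) (i : Fin N) :
    ∑ j, matOf P i j = (univ.filter fun x => P.1 x = i).card := by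
  rw [Finset.card_eq_sum_card_fiberwise (f := P.2) (t := univ) (fun _ _ => mem_univ _)]
  simp only [matOf, filter_filter]

private lemma matOf_col {N : ℕ} (P : (Fin n → Fin N) × (Fin n → Fin N)) (j : Fin N) :
    ∑ i, matOf P i j = (univ.filter fun x => P.2 x = j).card := by
  rw [Finset.card_eq_sum_card_fiberwise (f := P.1) (t := univ) (fun _ _ => mem_univ _)]
  simp only [matOf, filter_filter]
  refine Finset.sum_congr rfl fun i _ => ?_
  congr 1
  ext x
  simp [and_comm]

private lemma matOf_smul {N : ℕ} {α γ : Fin N → ℤ} (g : Perm (Fin n)) (P : PairT n N α γ) :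
    matOf (g • P).1 = matOf P.1 := by
  funext i j
  rw [smul_val]
  exact Finset.card_equiv g⁻¹ (by simp)

/-- The set of matrices with the given margins. -/
private def MatS (N : ℕ) (α γ : Fin N → ℤ) : Set (Fin N → Fin N → ℕ) :=
  {m | (∀ i, (((∑ j, m i j : ℕ)) : ℤ) = α i) ∧ ∀ j, (((∑ i, m i j : ℕ)) : ℤ) = γ j}

private lemma matOf_mem {N : ℕ} {α γ : Fin N → ℤ} (P : PairT n N α γ) :
    matOf P.1 ∈ MatS N α γ := by
  refine ⟨fun i => ?_, fun j => ?_⟩
  · rw [matOf_row]; exact P.2.1 i
  · rw [matOf_col]; exact P.2.2 j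

/-- Same matrix implies same orbit. -/
private lemma exists_smul_of_matOf_eq {N : ℕ} {α γ : Fin N → ℤ} (P Q : PairT n N α γ)
    (h : matOf P.1 = matOf Q.1) : ∃ g : Perm (Fin n), g • Q = P := by
  classical
  -- fibres of the two joint maps have the same size
  let f : Fin n → Fin N × Fin N := fun x => (P.1.1 x, P.1.2 x)
  let f' : Fin n → Fin N × Fin N := fun x => (Q.1.1 x, Q.1.2 x)
  have hfib : ∀ c, Fintype.card {x // f' x = c} = Fintype.card {x // f x = c} := by
    intro c
    have h1 := congrFun (congrFun h c.1) c.2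
    simp only [matOf] at h1
    rw [Fintype.card_subtype, Fintype.card_subtype]
    have e1 : (univ.filter fun x => f x = c) = (univ.filter fun x => P.1.1 x = c.1 ∧ P.1.2 x = c.2) := by
      ext x
      simp [f, Prod.ext_iff]
    have e2 : (univ.filter fun x => f' x = c) = (univ.filter fun x => Q.1.1 x = c.1 ∧ Q.1.2 x = c.2) := by
      ext x
      simp [f', Prod.ext_iff]
    rw [e1, e2, h1]
  let e : ∀ c, {x // f' x = c} ≃ {x // f x = c} := fun c => Fintype.equivOfCardEq (hfib c)
  let g : Perm (Fin n) := Equiv.ofFiberEquiv e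
  refine ⟨g, ?_⟩
  apply Subtype.ext
  rw [smul_val]
  have key : ∀ x, f (g x) = f' x := fun x => Equiv.ofFiberEquiv_map e x
  ext x
  · have := congrArg Prod.fst (key (g.symm x))
    simp only [f, f', Equiv.apply_symm_apply] at this
    show ((Q.1.1 (g⁻¹ x) : Fin N) : ℕ) = ((P.1.1 x : Fin N) : ℕ)
    exact congrArg _ this.symm
  · have := congrArg Prod.snd (key (g.symm x))
    simp only [f, f', Equiv.apply_symm_apply] at this
    show ((Q.1.2 (g⁻¹ x) : Fin N) : ℕ) = ((P.1.2 x : Fin N) : ℕ)
    exact congrArg _ this.symm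

/-- Every matrix with the right margins comes from a pair. -/
private lemma exists_pair_of_mem {N : ℕ} {α γ : Fin N → ℤ} (hα : ∑ i, α i = n)
    (m : Fin N → Fin N → ℕ) (hm : m ∈ MatS N α γ) : ∃ P : PairT n N α γ, matOf P.1 = m := by
  classical
  have htot : ∑ c : Fin N × Fin N, m c.1 c.2 = n := by
    have h1 : ((∑ i, ∑ j, m i j : ℕ) : ℤ) = n := by
      rw [← hα]
      push_cast
      refine Finset.sum_congr rfl fun i _ => ?_
      have := hm.1 i
      push_cast at this
      exact this
    rw [Fintype.sum_prod_type]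
    exact_mod_cast h1
  have hcard : Fintype.card (Σ c : Fin N × Fin N, Fin (m c.1 c.2)) = Fintype.card (Fin n) := by
    simp [htot]
  let e : Fin n ≃ (Σ c : Fin N × Fin N, Fin (m c.1 c.2)) := (Fintype.equivOfCardEq hcard).symm
  let f : Fin n → Fin N × Fin N := fun x => (e x).1
  have hfib : ∀ c, (univ.filter fun x => f x = c).card = m c.1 c.2 := by
    intro c
    have h1 : (univ.filter fun x => f x = c).card = (univ.filter fun y : (Σ c : Fin N × Fin N, Fin (m c.1 c.2)) => y.1 = c).card :=
      Finset.card_equiv e (by simp [f])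
    rw [h1]
    have h2 : (univ.filter fun y : (Σ c : Fin N × Fin N, Fin (m c.1 c.2)) => y.1 = c).card =
        Fintype.card (Fin (m c.1 c.2)) := by
      have h3 : (univ.filter fun y : (Σ c : Fin N × Fin N, Fin (m c.1 c.2)) => y.1 = c) =
          (univ : Finset (Fin (m c.1 c.2))).image
            (fun a => (⟨c, a⟩ : Σ c : Fin N × Fin N, Fin (m c.1 c.2))) := by
        ext ⟨c', a⟩
        simp only [mem_filter, mem_univ, true_and, mem_image]
        constructor
        · rintro rfl
          exact ⟨a, rfl⟩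
        · rintro ⟨b, hb⟩
          exact (congrArg Sigma.fst hb).symm
      rw [h3, Finset.card_image_of_injective _ sigma_mk_injective, Finset.card_univ]
    rw [h2, Fintype.card_fin]
  have hmat : matOf ((fun x => (f x).1), (fun x => (f x).2)) = m := by
    funext i j
    simp only [matOf]
    rw [← hfib (i, j)]
    congr 1
    ext x
    simp [Prod.ext_iff]
  refine ⟨⟨((fun x => (f x).1), (fun x => (f x).2)), ?_, ?_⟩, hmat⟩
  · intro i
    have := matOf_row ((fun x => (f x).1), (fun x => (f x).2)) i
    rw [hmat] at this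
    rw [← hm.1 i, this]
  · intro j
    have := matOf_col ((fun x => (f x).1), (fun x => (f x).2)) j
    rw [hmat] at this
    rw [← hm.2 j, this]

private lemma fixed_iff {N : ℕ} {α γ : Fin N → ℤ} (π : Perm (Fin n)) (P : PairT n N α γ) :
    π • P = P ↔ (∀ y, P.1.1 (π⁻¹ y) = P.1.1 y) ∧ (∀ y, P.1.2 (π⁻¹ y) = P.1.2 y) := by
  constructor
  · intro h
    have h1 := congrArg Subtype.val h
    rw [smul_val] at h1
    exact ⟨fun y => congrFun (congrArg Prod.fst h1) y, fun y => congrFun (congrArg Prod.snd h1) y⟩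
  · rintro ⟨h1, h2⟩
    apply Subtype.ext
    rw [smul_val]
    exact Prod.ext (funext h1) (funext h2)

/-- Burnside: orbits of `S_n` on pairs of colourings with given contents are the matrices with
given margins. -/
theorem psi_inner (N : ℕ) (α γ : Fin N → ℤ) (hα : ∑ i, α i = n) (hγ : ∑ i, γ i = n) :
    ∑ π : Perm (Fin n), (psi N α π : ℤ) * (psi N γ π : ℤ) =
      (n.factorial : ℤ) * (matCount N α γ : ℤ) := by
  classical
  -- the fixed points
  have hfix : ∀ π : Perm (Fin n), Nat.card (MulAction.fixedBy (PairT n N α γ) π) =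
      psi N α π * psi N γ π := by
    intro π
    rw [← psi_inv N α π, ← psi_inv N γ π]
    unfold psi
    rw [← Finset.card_product, ← Fintype.card_coe, ← Nat.card_eq_fintype_card]
    refine Nat.card_congr ⟨fun x => ⟨x.1.1, ?_⟩, fun q => ⟨⟨q.1, ?_⟩, ?_⟩, ?_, ?_⟩
    · have hx := (fixed_iff π x.1).1 x.2
      simp only [mem_product, mem_filter, mem_univ, true_and]
      exact ⟨⟨hx.1, x.1.2.1⟩, ⟨hx.2, x.1.2.2⟩⟩
    · have hq := q.2
      simp only [mem_product, mem_filter, mem_univ, true_and] at hq
      exact ⟨hq.1.2, hq.2.2⟩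
    · have hq := q.2
      simp only [mem_product, mem_filter, mem_univ, true_and] at hq
      exact (fixed_iff π _).2 ⟨hq.1.1, hq.2.1⟩
    · intro x
      rfl
    · intro q
      rfl
  have hb := MulAction.sum_card_fixedBy_eq_card_orbits_mul_card_group (Perm (Fin n)) (PairT n N α γ)
  simp only [Fintype.card_eq_nat_card] at hb
  have hq : Nat.card (MulAction.orbitRel.Quotient (Perm (Fin n)) (PairT n N α γ)) = matCount N α γ := by
    let Φ : MulAction.orbitRel.Quotient (Perm (Fin n)) (PairT n N α γ) → MatS N α γ :=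
      Quotient.lift (fun P => ⟨matOf P.1, matOf_mem P⟩) (by
        intro a b hab
        obtain ⟨g, hg⟩ := MulAction.mem_orbit_iff.1 (MulAction.orbitRel_apply.1 hab)
        apply Subtype.ext
        show matOf a.1 = matOf b.1
        rw [← hg, matOf_smul])
    have hΦ : Function.Bijective Φ := by
      constructor
      · intro A B
        induction A using Quotient.inductionOn with
        | h a =>
          induction B using Quotient.inductionOn with
          | h b =>
            intro hab
            have h' : matOf a.1 = matOf b.1 := congrArg Subtype.val hab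
            obtain ⟨g, hg⟩ := exists_smul_of_matOf_eq a b h'
            exact Quotient.sound (MulAction.orbitRel_apply.2 (MulAction.mem_orbit_iff.2 ⟨g, hg⟩))
      · rintro ⟨m, hm⟩
        obtain ⟨P, hP⟩ := exists_pair_of_mem hα m hm
        exact ⟨Quotient.mk _ P, Subtype.ext hP⟩
    rw [Nat.card_congr (Equiv.ofBijective Φ hΦ)]
    exact Nat.card_coe_set_eq _
  have hsum : ∑ π : Perm (Fin n), (psi N α π * psi N γ π) = matCount N α γ * n.factorial := by
    have hp : Nat.card (Perm (Fin n)) = n.factorial := by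
      rw [Nat.card_eq_fintype_card, Fintype.card_perm, Fintype.card_fin]
    rw [← hq, ← hp, ← Finset.sum_congr rfl (fun π _ => hfix π)]
    exact hb
  have hfinal : ((∑ π : Perm (Fin n), (psi N α π * psi N γ π) : ℕ) : ℤ) =
      ((matCount N α γ * n.factorial : ℕ) : ℤ) := by rw [hsum]
  push_cast at hfinal
  rw [hfinal, mul_comm]

end Vale.Agent.Lib.P197
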