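import Vale.Agent.Lib.P197.Specht
import Vale.Agent.Lib.P197.PermChar

/-!
# P197 module Triangular: pairing of the character with permutation characters (blueprint sec 5)
-/

open Equiv Finset

namespace Vale.Agent.Lib.P197

variable {n : ℕ} {μ : YoungDiagram}

/-- Expansion of a pairing with the coefficients of the symmetrizer. -/
theorem sum_symCoeff_mul (T : Filling n μ) (ψ : Perm (Fin n) → ℝ) :
    ∑ h, (symCoeff T h : ℝ) * ψ h =
      ∑ p ∈ rowStab T, ∑ q ∈ colStab T, (((Perm.sign q : ℤˣ) : ℤ) : ℝ) * ψ (p * q) := by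
  classical
  unfold symCoeff
  push_cast
  simp_rw [Finset.sum_mul]
  rw [Finset.sum_comm]
  refine Finset.sum_congr rfl fun p _ => ?_
  rw [Finset.sum_comm]
  refine Finset.sum_congr rfl fun q _ => ?_
  rw [Finset.sum_eq_single (p * q)]
  · simp
  · intro b _ hb
    rw [if_neg (fun h => hb h.symm), zero_mul]
  · intro h
    exact absurd (mem_univ _) h

/-- The number of cells in the first `r` rows bounds a column injective colouring. -/
theorem count_le_of_col_inj (T : Filling n μ) {N : ℕ} (φ : Fin n → Fin N)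
    (hinj : ∀ u v, colOf T u = colOf T v → φ u = φ v → u = v) (r : ℕ) :
    (univ.filter fun x => ((φ x : Fin N) : ℕ) < r).card ≤ ∑ i ∈ range r, μ.rowLen i := by
  classical
  set J := range (μ.rowLen 0) with hJ
  have hcol : ∀ x, colOf T x ∈ J := by
    intro x
    rw [hJ, mem_range]
    exact lt_of_lt_of_le (lt_rowLen T x) (μ.rowLen_anti 0 _ (Nat.zero_le _))
  have h1 : (univ.filter fun x => ((φ x : Fin N) : ℕ) < r).card =
      ∑ j ∈ J, ((univ.filter fun x => ((φ x : Fin N) : ℕ) < r).filter
        fun x => colOf T x = j).card :=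
    Finset.card_eq_sum_card_fiberwise (fun x _ => hcol x)
  rw [h1]
  have h2 : ∀ j ∈ J, ((univ.filter fun x => ((φ x : Fin N) : ℕ) < r).filter
        fun x => colOf T x = j).card ≤ ((range r).filter fun i => j < μ.rowLen i).card := by
    intro j _
    have hc : ((range r).filter fun i => j < μ.rowLen i) = range (min r (μ.colLen j)) := by
      ext i
      simp only [mem_filter, mem_range, lt_min_iff]
      constructor
      · rintro ⟨h1, h2⟩
        exact ⟨h1, YoungDiagram.mem_iff_lt_colLen.1 (YoungDiagram.mem_iff_lt_rowLen.2 h2)⟩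
      · rintro ⟨h1, h2⟩
        exact ⟨h1, YoungDiagram.mem_iff_lt_rowLen.1 (YoungDiagram.mem_iff_lt_colLen.2 h2)⟩
    rw [hc, card_range, le_min_iff]
    constructor
    · have := Finset.card_le_card_of_injOn (s := ((univ.filter fun x => ((φ x : Fin N) : ℕ) < r).filter
        fun x => colOf T x = j)) (t := range r) (fun x => ((φ x : Fin N) : ℕ))
        (by
          intro x hx
          simp only [coe_filter, mem_filter, mem_univ, true_and, Set.mem_ofPred_eq] at hx
          simpa using hx.1)
        (by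
          intro x hx y hy hxy
          simp only [coe_filter, mem_filter, mem_univ, true_and, Set.mem_ofPred_eq] at hx hy
          exact hinj x y (hx.2.trans hy.2.symm) (Fin.ext hxy))
      simpa using this
    · rw [← card_col T j]
      apply Finset.card_le_card
      intro x hx
      simp only [mem_filter, mem_univ, true_and] at hx ⊢
      exact hx.2
  refine (Finset.sum_le_sum h2).trans ?_
  have h3 : ∑ j ∈ J, ((range r).filter fun i => j < μ.rowLen i).card =
      ∑ i ∈ range r, (J.filter fun j => j < μ.rowLen i).card :=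
    Finset.sum_card_bipartiteAbove_eq_sum_card_bipartiteBelow (fun j i => j < μ.rowLen i)
  rw [h3]
  refine le_of_eq (Finset.sum_congr rfl fun i _ => ?_)
  have h4 : (J.filter fun j => j < μ.rowLen i) = range (μ.rowLen i) := by
    ext j
    simp only [hJ, mem_filter, mem_range]
    constructor
    · exact fun h => h.2
    · exact fun h => ⟨lt_of_lt_of_le h (μ.rowLen_anti 0 _ (Nat.zero_le _)), h⟩
  rw [h4, card_range]

/-- A colouring of content `ν + δ - δ ∘ w` with `w ≠ 1` is not injective on all columns. -/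
theorem exists_col_collision (T : Filling n μ) {N : ℕ} (w : Perm (Fin N)) (hw : w ≠ 1)
    (φ : Fin n → Fin N)
    (hφ : ∀ i, (((univ.filter fun x => φ x = i).card : ℕ) : ℤ) =
      (μ.rowLen (i : ℕ) : ℤ) - (i : ℕ) + ((w i : Fin N) : ℕ)) :
    ∃ u v, u ≠ v ∧ colOf T u = colOf T v ∧ φ u = φ v := by
  classical
  by_contra hcon
  push Not at hcon
  have hinj : ∀ u v, colOf T u = colOf T v → φ u = φ v → u = v := by
    intro u v h1 h2
    by_contra h3
    exact hcon u v h3 h1 h2
  -- the minimal moved colour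
  have hex : ∃ i, w i ≠ i := by
    by_contra h
    push Not at h
    exact hw (Equiv.ext h)
  classical
  set S : Finset (Fin N) := univ.filter fun i => w i ≠ i with hS
  have hSne : S.Nonempty := by
    obtain ⟨i, hi⟩ := hex
    exact ⟨i, by simp [hS, hi]⟩
  set i₀ := S.min' hSne with hi₀
  have hi₀S : w i₀ ≠ i₀ := by
    have := S.min'_mem hSne
    simpa [hS] using this
  have hfix : ∀ i, i < i₀ → w i = i := by
    intro i hi
    by_contra h
    have : i ∈ S := by simp [hS, h]
    exact absurd (S.min'_le i this) (not_le.2 hi)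
  have hgt : i₀ < w i₀ := by
    rcases lt_trichotomy (w i₀) i₀ with h | h | h
    · exfalso
      have := hfix _ h
      have h2 := w.injective this
      exact hi₀S h2
    · exact absurd h hi₀S
    · exact h
  set A : Finset (Fin N) := univ.filter fun i => i ≤ i₀ with hA
  have hcount : (univ.filter fun x => ((φ x : Fin N) : ℕ) < (i₀ : ℕ) + 1).card =
      ∑ i ∈ A, (univ.filter fun x => φ x = i).card := by
    have h1 : (univ.filter fun x => ((φ x : Fin N) : ℕ) < (i₀ : ℕ) + 1) =
        univ.filter fun x => φ x ∈ A := by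
      ext x
      simp only [hA, mem_filter, mem_univ, true_and, Fin.le_def, Nat.lt_succ_iff]
    rw [h1, Finset.card_eq_sum_card_fiberwise (f := φ) (t := A) (fun x hx => by simpa using hx)]
    refine Finset.sum_congr rfl fun i hi => ?_
    congr 1
    ext x
    simp only [mem_filter, mem_univ, true_and]
    constructor
    · exact fun h => h.2
    · exact fun h => ⟨h ▸ hi, h⟩
  have hrow : ∑ i ∈ range ((i₀ : ℕ) + 1), μ.rowLen i = ∑ i ∈ A, μ.rowLen (i : ℕ) := by
    symm
    refine Finset.sum_nbij (fun i : Fin N => (i : ℕ)) ?_ ?_ ?_ ?_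
    · intro i hi
      simp only [hA, mem_filter, mem_univ, true_and, Fin.le_def] at hi
      simpa [Nat.lt_succ_iff] using hi
    · intro i _ j _ h
      exact Fin.ext h
    · intro j hj
      simp only [coe_range, Set.mem_Iio] at hj
      have hjN : j < N := lt_of_le_of_lt (Nat.lt_succ_iff.1 hj) i₀.2
      refine ⟨⟨j, hjN⟩, ?_, rfl⟩
      simp only [hA, coe_filter, mem_univ, true_and, Fin.le_def]
      exact Nat.lt_succ_iff.1 hj
    · intro i _
      rfl
  have hle := count_le_of_col_inj T φ hinj ((i₀ : ℕ) + 1)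
  rw [hcount, hrow] at hle
  have hle' : (∑ i ∈ A, (((univ.filter fun x => φ x = i).card : ℕ) : ℤ)) ≤
      ∑ i ∈ A, (μ.rowLen (i : ℕ) : ℤ) := by
    exact_mod_cast hle
  simp_rw [hφ] at hle'
  have hsum : ∑ i ∈ A, (((μ.rowLen (i : ℕ) : ℤ) - (i : ℕ) + ((w i : Fin N) : ℕ))) =
      ∑ i ∈ A, (μ.rowLen (i : ℕ) : ℤ) + (((w i₀ : Fin N) : ℕ) - ((i₀ : Fin N) : ℕ)) := by
    have h1 : ∀ i : Fin N, ((μ.rowLen (i : ℕ) : ℤ) - (i : ℕ) + ((w i : Fin N) : ℕ)) =
        (μ.rowLen (i : ℕ) : ℤ) + (((w i : Fin N) : ℕ) - ((i : Fin N) : ℕ)) := fun i => by ring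
    simp_rw [h1]
    rw [Finset.sum_add_distrib]
    congr 1
    rw [Finset.sum_eq_single i₀]
    · intro i hi hne
      simp only [hA, mem_filter, mem_univ, true_and] at hi
      rw [hfix i (lt_of_le_of_ne hi hne)]
      ring
    · intro h
      exact absurd (by simp [hA]) h
  rw [hsum] at hle'
  have hgt' : ((i₀ : Fin N) : ℕ) < ((w i₀ : Fin N) : ℕ) := hgt
  omega

/-- The transposition of two entries of a column is in the column stabiliser. -/
theorem swap_mem_colStab (T : Filling n μ) {u v : Fin n} (h : colOf T u = colOf T v) :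
    swap u v ∈ colStab T := by
  classical
  simp only [colStab, mem_filter, mem_univ, true_and]
  intro x
  rcases eq_or_ne x u with rfl | hu
  · simpa using h.symm
  rcases eq_or_ne x v with rfl | hv
  · simpa using h
  rw [swap_apply_of_ne_of_ne hu hv]

/-- Sign reversing involution on the column stabiliser. -/
theorem signed_sum_zero (T : Filling n μ) {N : ℕ} (φ' φ : Fin n → Fin N) {u v : Fin n}
    (huv : u ≠ v) (hcol : colOf T u = colOf T v) (hφ : φ' u = φ' v) :
    ∑ q ∈ colStab T, (((Perm.sign q : ℤˣ) : ℤ) : ℝ) *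
      (if ∀ x, φ' (q x) = φ x then (1 : ℝ) else 0) = 0 := by
  classical
  have hsw : ∀ y, φ' (swap u v y) = φ' y := by
    intro y
    rcases eq_or_ne y u with rfl | hu
    · simpa using hφ.symm
    rcases eq_or_ne y v with rfl | hv
    · simpa using hφ
    rw [swap_apply_of_ne_of_ne hu hv]
  refine Finset.sum_involution (fun q _ => swap u v * q) ?_ ?_ ?_ ?_
  · intro q _
    have h1 : (∀ x, φ' ((swap u v * q) x) = φ x) ↔ ∀ x, φ' (q x) = φ x := by
      simp only [Perm.mul_apply, hsw]
    simp only [h1, Perm.sign_mul, Perm.sign_swap huv]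
    push_cast
    split_ifs <;> ring
  · intro q _ _ h
    have h2 : swap u v = 1 := by
      have := mul_right_cancel (a := swap u v) (b := q) (c := 1) (by simpa using h)
      exact this
    have h3 := congrArg (fun f : Perm (Fin n) => f u) h2
    simp only [swap_apply_left, Perm.one_apply] at h3
    exact huv h3.symm
  · intro q hq
    exact colStab_mul T (swap_mem_colStab T hcol) hq
  · intro q _
    simp [← mul_assoc]

/-- The pairing of the symmetrizer with a permutation character whose colourings are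
never injective on all columns vanishes. -/
theorem pairing_eq_zero (T : Filling n μ) {N : ℕ} (α : Fin N → ℤ)
    (h : ∀ φ : Fin n → Fin N, (∀ i, (((univ.filter fun x => φ x = i).card : ℕ) : ℤ) = α i) →
      ∃ u v, u ≠ v ∧ colOf T u = colOf T v ∧ φ u = φ v) :
    ∑ h, (symCoeff T h : ℝ) * (psi N α h : ℝ) = 0 := by
  classical
  rw [sum_symCoeff_mul]
  refine Finset.sum_eq_zero fun p hp => ?_
  have hpsi : ∀ π : Perm (Fin n), (psi N α π : ℝ) =
      ∑ φ ∈ (univ.filter fun φ : Fin n → Fin N =>
        ∀ i, (((univ.filter fun x => φ x = i).card : ℕ) : ℤ) = α i),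
        if ∀ x, φ (π x) = φ x then (1 : ℝ) else 0 := by
    intro π
    unfold psi
    rw [Finset.sum_boole, Finset.filter_filter]
    congr 2
    ext φ
    simp only [mem_filter, mem_univ, true_and]
    tauto
  simp_rw [hpsi, Finset.mul_sum]
  rw [Finset.sum_comm]
  refine Finset.sum_eq_zero fun φ hφ => ?_
  simp only [mem_filter, mem_univ, true_and] at hφ
  -- the content of `φ ∘ p` is still `α`
  have hcont : ∀ i, (((univ.filter fun x => φ (p x) = i).card : ℕ) : ℤ) = α i := by
    intro i
    rw [← hφ i]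
    congr 1
    refine Finset.card_bij (fun x _ => p x) ?_ ?_ ?_
    · intro x hx
      simpa using hx
    · intro x _ y _ hxy
      exact p.injective hxy
    · intro y hy
      refine ⟨p⁻¹ y, ?_, by simp⟩
      simpa using hy
  obtain ⟨u, v, huv, hcol, hval⟩ := h (fun x => φ (p x)) hcont
  have := signed_sum_zero T (fun x => φ (p x)) φ huv hcol hval
  simp only [Perm.mul_apply]
  exact this

/-- If `w ≠ 1` the permutation character of type `ν + δ - δ∘w` is orthogonal to `χ_T`:
no colouring of the diagram injective on columns has that content. -/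
theorem inner_vanish (T : Filling n μ) (N : ℕ) (hN : μ.colLen 0 ≤ N) (w : Perm (Fin N))
    (hw : w ≠ 1) :
    ∑ π : Perm (Fin n), rr T π *
      (psi N (fun i => (μ.rowLen (i : ℕ) : ℤ) - (i : ℕ) + ((w i : Fin N) : ℕ)) π : ℝ) = 0 := by
  rw [rr_inner T (fun π => (psi N (fun i => (μ.rowLen (i : ℕ) : ℤ) - (i : ℕ) + ((w i : Fin N) : ℕ)) π : ℝ))
    (fun g π => by rw [psi_conj]) (fun π => by rw [psi_inv])]
  exact pairing_eq_zero T _ (fun φ hφ => exists_col_collision T w hw φ hφ)

/-- Trace of a two-sided multiplication of the group algebra. -/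
theorem trace_two_sided (x y : GA n) :
    LinearMap.trace ℂ (GA n) (LinearMap.mulLeft ℂ x ∘ₗ LinearMap.mulRight ℂ y) =
      ∑ g : Perm (Fin n), (x * MonoidAlgebra.single g (1 : ℂ) * y).coeff g := by
  classical
  rw [LinearMap.trace_eq_matrix_trace ℂ (MonoidAlgebra.basis (Perm (Fin n)) ℂ), Matrix.trace]
  refine Finset.sum_congr rfl fun g _ => ?_
  rw [Matrix.diag_apply, LinearMap.toMatrix_apply]
  simp only [MonoidAlgebra.basis_apply, LinearMap.comp_apply, LinearMap.mulRight_apply,
    LinearMap.mulLeft_apply, mul_assoc]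
  rfl

/-- The row symmetrizer squares to a multiple of itself. -/
theorem rowSym_mul_self (T : Filling n μ) :
    rowSym T * rowSym T = (((rowStab T).card : ℕ) : ℂ) • rowSym T := by
  classical
  have h1 : rowSym T * rowSym T = ∑ p ∈ rowStab T, (MonoidAlgebra.single p (1 : ℂ) * rowSym T) := by
    rw [← Finset.sum_mul]
    rfl
  rw [h1, Finset.sum_congr rfl (fun p hp => single_mul_rowSym T hp), Finset.sum_const]
  rw [Nat.cast_smul_eq_nsmul]

/-- The coefficient of the sandwich `c g a` at `g`. -/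
theorem coeff_sandwich (T : Filling n μ) (g : Perm (Fin n)) :
    (youngSym T * MonoidAlgebra.single g (1 : ℂ) * rowSym T).coeff g =
      ∑ p ∈ rowStab T, (symCoeff T (g * p⁻¹ * g⁻¹) : ℂ) := by
  classical
  conv_lhs => rw [rowSym, Finset.mul_sum, MonoidAlgebra.coeff_sum, Finsupp.finsetSum_apply]
  refine Finset.sum_congr rfl fun p _ => ?_
  rw [mul_assoc, MonoidAlgebra.single_mul_single, one_mul, coeff_mul_single', youngSym_coeff]
  have h1 : g * (g * p)⁻¹ = g * p⁻¹ * g⁻¹ := by group
  rw [h1]

/-- The row of an entry as a colour. -/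
noncomputable def rowF (T : Filling n μ) {N : ℕ} (hN : μ.colLen 0 ≤ N) (x : Fin n) : Fin N :=
  ⟨rowOf T x, by
    have h : (rowOf T x, colOf T x) ∈ μ := (T x).2
    exact lt_of_lt_of_le (YoungDiagram.mem_iff_lt_colLen.1 h)
      ((μ.colLen_anti 0 _ (Nat.zero_le _)).trans hN)⟩

theorem rowF_val (T : Filling n μ) {N : ℕ} (hN : μ.colLen 0 ≤ N) (x : Fin n) :
    ((rowF T hN x : Fin N) : ℕ) = rowOf T x := rfl

theorem rowF_eq_iff (T : Filling n μ) {N : ℕ} (hN : μ.colLen 0 ≤ N) (p : Perm (Fin n)) :
    (∀ x, rowF T hN (p x) = rowF T hN x) ↔ p ∈ rowStab T := by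
  classical
  simp only [rowStab, mem_filter, mem_univ, true_and, Fin.ext_iff, rowF_val]

/-- Each colouring with the row content is `rowF ∘ g⁻¹`. -/
theorem exists_rowF_comp (T : Filling n μ) {N : ℕ} (hN : μ.colLen 0 ≤ N) (φ : Fin n → Fin N)
    (hφ : ∀ i : Fin N, (((univ.filter fun x => φ x = i).card : ℕ) : ℤ) = (μ.rowLen (i : ℕ) : ℤ)) :
    ∃ g : Perm (Fin n), ∀ x, rowF T hN (g⁻¹ x) = φ x := by
  classical
  have hcard : ∀ c : Fin N, Fintype.card {a // φ a = c} = Fintype.card {b // rowF T hN b = c} := by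
    intro c
    rw [Fintype.card_subtype, Fintype.card_subtype]
    have h1 : (univ.filter fun x => φ x = c).card = μ.rowLen (c : ℕ) := by
      exact_mod_cast hφ c
    rw [h1, ← card_row T (c : ℕ)]
    congr 1
    ext x
    simp only [mem_filter, mem_univ, true_and, Fin.ext_iff, rowF_val]
  let e : ∀ c : Fin N, {a // φ a = c} ≃ {b // rowF T hN b = c} :=
    fun c => Fintype.equivOfCardEq (hcard c)
  refine ⟨(Equiv.ofFiberEquiv e)⁻¹, fun x => ?_⟩
  rw [inv_inv]
  exact Equiv.ofFiberEquiv_map e x

theorem conj_mem_of_comp (T : Filling n μ) {N : ℕ} (hN : μ.colLen 0 ≤ N) {h g : Perm (Fin n)}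
    {φ : Fin n → Fin N} (hg : ∀ y, rowF T hN (g⁻¹ y) = φ y) (hφ : ∀ x, φ (h x) = φ x) :
    g⁻¹ * h * g ∈ rowStab T := by
  rw [← rowF_eq_iff T hN]
  intro x
  have h1 := hg (h (g x))
  have h2 := hg (g x)
  rw [hφ] at h1
  simp only [Perm.mul_apply]
  rw [h1, ← h2]
  simp

/-- Counting conjugates landing in the row group through colourings. -/
theorem card_conj_mem (T : Filling n μ) {N : ℕ} (hN : μ.colLen 0 ≤ N) (h : Perm (Fin n)) :
    (univ.filter fun g : Perm (Fin n) => g⁻¹ * h * g ∈ rowStab T).card =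
      (rowStab T).card * psi N (fun i : Fin N => (μ.rowLen (i : ℕ) : ℤ)) h := by
  classical
  set Φ : Finset (Fin n → Fin N) := univ.filter fun φ : Fin n → Fin N =>
    (∀ x, φ (h x) = φ x) ∧ ∀ i : Fin N, (((univ.filter fun x => φ x = i).card : ℕ) : ℤ) =
      (μ.rowLen (i : ℕ) : ℤ) with hΦ
  have hmaps : ∀ g ∈ (univ.filter fun g : Perm (Fin n) => g⁻¹ * h * g ∈ rowStab T),
      (fun x => rowF T hN (g⁻¹ x)) ∈ Φ := by
    intro g hg
    simp only [mem_filter, mem_univ, true_and] at hg
    simp only [hΦ, mem_filter, mem_univ, true_and]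
    constructor
    · intro x
      have := (rowF_eq_iff T hN _).2 hg (g⁻¹ x)
      simpa [Perm.mul_apply] using this
    · intro i
      have h1 : (univ.filter fun x => rowF T hN (g⁻¹ x) = i).card = μ.rowLen (i : ℕ) := by
        rw [← card_row T (i : ℕ)]
        refine Finset.card_bij (fun x _ => g⁻¹ x) ?_ ?_ ?_
        · intro x hx
          simp only [mem_filter, mem_univ, true_and, Fin.ext_iff, rowF_val] at hx ⊢
          exact hx
        · intro x _ y _ hxy
          exact g⁻¹.injective hxy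
        · intro y hy
          refine ⟨g y, ?_, by simp⟩
          simp only [mem_filter, mem_univ, true_and, Fin.ext_iff, rowF_val] at hy ⊢
          simpa using hy
      exact_mod_cast h1
  rw [Finset.card_eq_sum_card_fiberwise hmaps]
  have hfib : ∀ φ ∈ Φ, ((univ.filter fun g : Perm (Fin n) => g⁻¹ * h * g ∈ rowStab T).filter
      fun g => (fun x => rowF T hN (g⁻¹ x)) = φ).card = (rowStab T).card := by
    intro φ hφ
    simp only [hΦ, mem_filter, mem_univ, true_and] at hφ
    obtain ⟨g₀, hg₀⟩ := exists_rowF_comp T hN φ hφ.2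
    symm
    refine Finset.card_bij (fun r _ => g₀ * r) ?_ ?_ ?_
    · intro r hr
      simp only [mem_filter, mem_univ, true_and]
      have hfun : (fun x => rowF T hN ((g₀ * r)⁻¹ x)) = φ := by
        funext x
        rw [← hg₀ x, mul_inv_rev, Perm.mul_apply]
        exact (rowF_eq_iff T hN _).2 (rowStab_inv T hr) _
      exact ⟨conj_mem_of_comp T hN (fun y => congrFun hfun y) hφ.1, hfun⟩
    · intro a _ b _ hab
      exact mul_left_cancel hab
    · intro g hg
      simp only [mem_filter, mem_univ, true_and] at hg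
      refine ⟨g₀⁻¹ * g, ?_, by simp⟩
      rw [← rowF_eq_iff T hN]
      intro x
      have h1 := hg₀ (g x)
      have h2 := congrFun hg.2 (g x)
      simp only [Perm.mul_apply]
      rw [h1, ← h2]
      simp
  rw [Finset.sum_congr rfl hfib, Finset.sum_const, smul_eq_mul, mul_comm]
  rfl

/-- The trace of `z ↦ c z a`. -/
theorem trace_sandwich (T : Filling n μ) {N : ℕ} (hN : μ.colLen 0 ≤ N) :
    LinearMap.trace ℂ (GA n) (LinearMap.mulLeft ℂ (youngSym T) ∘ₗ LinearMap.mulRight ℂ (rowSym T)) =
      (((rowStab T).card : ℕ) : ℂ) * ∑ h : Perm (Fin n), (symCoeff T h : ℂ) *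
        (psi N (fun i : Fin N => (μ.rowLen (i : ℕ) : ℤ)) h : ℂ) := by
  classical
  rw [trace_two_sided]
  simp_rw [coeff_sandwich]
  have h1 : ∀ g : Perm (Fin n), ∑ p ∈ rowStab T, (symCoeff T (g * p⁻¹ * g⁻¹) : ℂ) =
      ∑ h : Perm (Fin n), if g⁻¹ * h * g ∈ rowStab T then (symCoeff T h : ℂ) else 0 := by
    intro g
    rw [← Finset.sum_filter]
    refine Finset.sum_bij (fun p _ => g * p⁻¹ * g⁻¹) ?_ ?_ ?_ ?_
    · intro p hp
      simp only [mem_filter, mem_univ, true_and]
      have : g⁻¹ * (g * p⁻¹ * g⁻¹) * g = p⁻¹ := by group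
      rw [this]
      exact rowStab_inv T hp
    · intro a _ b _ hab
      have : a⁻¹ = b⁻¹ := by
        have h2 : g * a⁻¹ = g * b⁻¹ := mul_right_cancel hab
        exact mul_left_cancel h2
      exact inv_injective this
    · intro h hh
      simp only [mem_filter, mem_univ, true_and] at hh
      refine ⟨(g⁻¹ * h * g)⁻¹, rowStab_inv T hh, ?_⟩
      group
    · intro p _
      rfl
  simp_rw [h1]
  rw [Finset.sum_comm, Finset.mul_sum]
  refine Finset.sum_congr rfl fun h _ => ?_
  have h2 : (∑ g : Perm (Fin n), if g⁻¹ * h * g ∈ rowStab T then (symCoeff T h : ℂ) else 0) =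
      ((univ.filter fun g : Perm (Fin n) => g⁻¹ * h * g ∈ rowStab T).card : ℂ) * (symCoeff T h : ℂ) := by
    rw [← Finset.sum_filter, Finset.sum_const, nsmul_eq_mul]
  rw [h2, card_conj_mem T hN h]
  push_cast
  ring

theorem youngSym_ne_zero_tri (T : Filling n μ) : youngSym T ≠ 0 := by
  intro h0
  have h1 := youngSym_coeff T 1
  rw [h0, symCoeff_one] at h1
  simp at h1

/-- The sandwich `c * a` does not vanish. -/
theorem youngSym_mul_rowSym_ne_zero (T : Filling n μ) : youngSym T * rowSym T ≠ 0 := by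
  intro h0
  obtain ⟨κ, hκ, hcc, _⟩ := exists_kappa T
  have h1 : youngSym T * youngSym T = (youngSym T * rowSym T) * colAnti T := by
    rw [mul_assoc]
    rfl
  rw [h0, zero_mul] at h1
  rw [h1] at hcc
  have h2 := smul_eq_zero.1 hcc.symm
  rcases h2 with h2 | h2
  · exact hκ h2
  · exact youngSym_ne_zero_tri T h2

/-- For the row type itself the pairing is the rank of a nonzero idempotent, hence at least 1. -/
theorem inner_ge_one (T : Filling n μ) (N : ℕ) (hN : μ.colLen 0 ≤ N) :
    1 ≤ (ff T : ℝ) * ((n.factorial : ℕ) : ℝ)⁻¹ * ∑ π : Perm (Fin n), rr T π *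
      (psi N (fun i => (μ.rowLen (i : ℕ) : ℤ)) π : ℝ) := by
  classical
  rw [rr_inner T (fun π => (psi N (fun i => (μ.rowLen (i : ℕ) : ℤ)) π : ℝ))
    (fun g π => by rw [psi_conj]) (fun π => by rw [psi_inv])]
  obtain ⟨κ, hκ, hcc, hκf⟩ := exists_kappa T
  have hR : (((rowStab T).card : ℕ) : ℂ) ≠ 0 := by
    have : (rowStab T).card ≠ 0 := Finset.card_ne_zero_of_mem (rowStab_one T)
    exact_mod_cast this
  set c := youngSym T with hc
  set a := rowSym T with ha
  set ρ : ℂ := (((rowStab T).card : ℕ) : ℂ) with hρ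
  set s : ℂ := (κ * ρ)⁻¹ with hs
  have hsv : s * (κ * ρ) = 1 := inv_mul_cancel₀ (mul_ne_zero hκ hR)
  set Q : Module.End ℂ (GA n) := s • (LinearMap.mulLeft ℂ c ∘ₗ LinearMap.mulRight ℂ a) with hQ
  have hQa : ∀ z, Q z = s • (c * (z * a)) := by
    intro z
    simp [hQ]
  have hidem : IsIdempotentElem Q := by
    unfold IsIdempotentElem
    refine LinearMap.ext fun z => ?_
    have haa : a * a = ρ • a := rowSym_mul_self T
    rw [Module.End.mul_apply, hQa, hQa]
    have h1 : c * ((s • (c * (z * a))) * a) = (s * (κ * ρ)) • (c * (z * a)) := by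
      rw [smul_mul_assoc, mul_smul_comm]
      have h2 : c * (c * (z * a) * a) = (c * c) * (z * (a * a)) := by
        simp only [mul_assoc]
      have h3 : (κ • c) * (z * (ρ • a)) = (κ * ρ) • (c * (z * a)) := by
        rw [mul_smul_comm, smul_mul_assoc, mul_smul_comm, smul_smul]
      rw [h2, hcc, haa, h3, smul_smul]
    rw [h1, hsv, one_smul]
  have hQ0 : Q ≠ 0 := by
    intro h0
    have h1 := hQa 1
    rw [h0, LinearMap.zero_apply, one_mul] at h1
    have h2 := smul_eq_zero.1 h1.symm
    rcases h2 with h2 | h2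
    · rw [h2, zero_mul] at hsv
      exact zero_ne_one hsv
    · exact youngSym_mul_rowSym_ne_zero T h2
  have htr := (LinearMap.IsIdempotentElem.isProj_range Q hidem).trace
  have hrk : 1 ≤ Module.finrank ℂ (LinearMap.range Q) := by
    rw [Submodule.one_le_finrank_iff]
    intro h
    exact hQ0 (LinearMap.range_eq_bot.1 h)
  rw [hQ, map_smul, trace_sandwich T hN, ← hQ] at htr
  have hfac : (((n.factorial : ℕ) : ℂ)) ≠ 0 := by
    exact_mod_cast Nat.factorial_ne_zero n
  have hffne : (ff T : ℂ) ≠ 0 := by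
    intro h
    rw [h, mul_zero] at hκf
    exact hfac hκf.symm
  have hff : (ff T : ℂ) * ((n.factorial : ℕ) : ℂ)⁻¹ = s * ρ := by
    rw [← hκf, hs]
    field_simp
  have hcast : (((ff T : ℝ) * ((n.factorial : ℕ) : ℝ)⁻¹ * ∑ h : Perm (Fin n), (symCoeff T h : ℝ) *
      (psi N (fun i : Fin N => (μ.rowLen (i : ℕ) : ℤ)) h : ℝ) : ℝ) : ℂ) =
      ((Module.finrank ℂ (LinearMap.range Q) : ℕ) : ℂ) := by
    rw [← htr]
    push_cast
    rw [hff, smul_eq_mul]
    ring
  have hreal : (ff T : ℝ) * ((n.factorial : ℕ) : ℝ)⁻¹ * ∑ h : Perm (Fin n), (symCoeff T h : ℝ) *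
      (psi N (fun i : Fin N => (μ.rowLen (i : ℕ) : ℤ)) h : ℝ) =
      ((Module.finrank ℂ (LinearMap.range Q) : ℕ) : ℝ) := by
    apply Complex.ofReal_injective
    rw [hcast]
    push_cast
    rfl
  rw [hreal]
  exact_mod_cast hrk

end Vale.Agent.Lib.P197
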