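import Vale.Agent.Lib.P197.Orthonormal
import Vale.Agent.Lib.P197.Triangular

/-!
# P197 module Link: the Frobenius character formula (blueprint sec 5)
-/

open Equiv Finset

namespace Vale.Agent.Lib.P197

variable {n : ℕ} {μ : YoungDiagram}

/-- The pairing of the normalised character with `frobF` reduces to the term `w = 1`. -/
theorem sum_rr_frobF (T : Filling n μ) (N : ℕ) (hN : μ.colLen 0 ≤ N) :
    ∑ π : Perm (Fin n), rr T π * (frobF N μ π : ℝ) =
      ∑ π : Perm (Fin n), rr T π * (psi N (fun i => (μ.rowLen (i : ℕ) : ℤ)) π : ℝ) := by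
  classical
  have hexp : ∀ π : Perm (Fin n), rr T π * (frobF N μ π : ℝ) =
      ∑ w : Perm (Fin N), ((((Perm.sign w : ℤˣ) : ℤ) : ℝ)) * (rr T π *
        (psi N (fun i => (μ.rowLen (i : ℕ) : ℤ) - (i : ℕ) + ((w i : Fin N) : ℕ)) π : ℝ)) := by
    intro π
    unfold frobF
    push_cast
    rw [Finset.mul_sum]
    refine Finset.sum_congr rfl fun w _ => ?_
    ring
  simp_rw [hexp]
  rw [Finset.sum_comm]
  rw [Finset.sum_eq_single (1 : Perm (Fin N))]
  · have hfun : (fun i : Fin N => (μ.rowLen (i : ℕ) : ℤ) - (i : ℕ) +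
        (((1 : Perm (Fin N)) i : Fin N) : ℕ)) = fun i : Fin N => (μ.rowLen (i : ℕ) : ℤ) := by
      funext i
      simp
    rw [hfun]
    simp
  · intro w _ hw
    rw [← Finset.mul_sum, inner_vanish T N hN w hw, mul_zero]
  · intro h
    exact absurd (Finset.mem_univ _) h

/-- `χ_T = frobF`: both have norm one and their pairing is at least one. -/
theorem ff_rr_eq_frobF (T : Filling n μ) (N : ℕ) (hN : μ.colLen 0 ≤ N) (π : Perm (Fin n)) :
    (ff T : ℝ) * rr T π = (frobF N μ π : ℝ) := by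
  classical
  have hμ : μ.card = n := by
    have h := Fintype.card_congr T
    simp only [Fintype.card_fin, Fintype.card_coe] at h
    exact h.symm
  have hf : (0 : ℝ) < ((n.factorial : ℕ) : ℝ) := by positivity
  -- the norm of `frobF`
  have h1 : ∑ π : Perm (Fin n), (frobF N μ π : ℝ) ^ 2 = ((n.factorial : ℕ) : ℝ) := by
    have h := frobF_norm (n := n) (μ := μ) N hμ hN
    have h' : ((∑ π : Perm (Fin n), (frobF N μ π) ^ 2 : ℤ) : ℝ) = (((n.factorial : ℕ) : ℤ) : ℝ) := by
      rw [h]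
    push_cast at h'
    exact h'
  -- the norm of the character
  have h2 : ∑ π : Perm (Fin n), ((ff T : ℝ) * rr T π) ^ 2 = ((n.factorial : ℕ) : ℝ) := by
    have h := rr_norm T
    simp only [mul_pow]
    rw [← Finset.mul_sum]
    have hne := hf.ne'
    have h3 : (ff T : ℝ) ^ 2 * ∑ π : Perm (Fin n), (rr T π) ^ 2 =
        ((n.factorial : ℕ) : ℝ) * ((ff T : ℝ) ^ 2 * ((n.factorial : ℕ) : ℝ)⁻¹ *
          ∑ π : Perm (Fin n), (rr T π) ^ 2) := by
      field_simp
    rw [h3, h, mul_one]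
  -- the pairing
  have h3 : ((n.factorial : ℕ) : ℝ) ≤
      ∑ π : Perm (Fin n), ((ff T : ℝ) * rr T π) * (frobF N μ π : ℝ) := by
    have h := inner_ge_one T N hN
    simp only [mul_assoc]
    rw [← Finset.mul_sum, sum_rr_frobF T N hN]
    have h4 : (ff T : ℝ) * ∑ π : Perm (Fin n), rr T π *
          (psi N (fun i => (μ.rowLen (i : ℕ) : ℤ)) π : ℝ) =
        ((n.factorial : ℕ) : ℝ) * ((ff T : ℝ) * ((n.factorial : ℕ) : ℝ)⁻¹ *
          ∑ π : Perm (Fin n), rr T π *
            (psi N (fun i => (μ.rowLen (i : ℕ) : ℤ)) π : ℝ)) := by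
      field_simp
    rw [h4]
    nlinarith
  -- the square of the difference sums to at most zero
  have h4 : ∑ π : Perm (Fin n), ((ff T : ℝ) * rr T π - (frobF N μ π : ℝ)) ^ 2 ≤ 0 := by
    have h5 : ∑ π : Perm (Fin n), ((ff T : ℝ) * rr T π - (frobF N μ π : ℝ)) ^ 2 =
        ∑ π : Perm (Fin n), ((ff T : ℝ) * rr T π) ^ 2 -
          2 * ∑ π : Perm (Fin n), ((ff T : ℝ) * rr T π) * (frobF N μ π : ℝ) +
          ∑ π : Perm (Fin n), (frobF N μ π : ℝ) ^ 2 := by
      rw [Finset.mul_sum, ← Finset.sum_sub_distrib, ← Finset.sum_add_distrib]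
      refine Finset.sum_congr rfl fun σ _ => ?_
      ring
    rw [h5, h1, h2]
    linarith
  have h5 : ∑ π : Perm (Fin n), ((ff T : ℝ) * rr T π - (frobF N μ π : ℝ)) ^ 2 = 0 :=
    le_antisymm h4 (Finset.sum_nonneg fun _ _ => sq_nonneg _)
  have h6 := (Finset.sum_eq_zero_iff_of_nonneg (fun _ _ => sq_nonneg _)).1 h5 π (Finset.mem_univ _)
  have h7 := pow_eq_zero_iff (two_ne_zero) |>.1 h6
  linarith

end Vale.Agent.Lib.P197
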