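import Vale.Agent.Lib.P197.PermChar
import Vale.Agent.Lib.P197.CauchyCoeff

/-!
# P197 module Orthonormal: the Frobenius sum has norm one (blueprint sec 4)
-/

open Equiv Finset

namespace Vale.Agent.Lib.P197

variable {n : ℕ} {μ : YoungDiagram}

/-- The number of cells is the sum of the row lengths over any range containing all rows. -/
theorem sum_rowLen_eq (N : ℕ) (μ : YoungDiagram) (hN : μ.colLen 0 ≤ N) :
    ∑ i : Fin N, μ.rowLen (i : ℕ) = μ.card := by
  classical
  have hmem : ∀ c ∈ μ.cells, c.1 ∈ range N := by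
    intro c hc
    have h0 : (c.1, 0) ∈ μ := μ.up_left_mem le_rfl (Nat.zero_le _) (by simpa using hc)
    have := YoungDiagram.mem_iff_lt_colLen.mp h0
    exact mem_range.mpr (lt_of_lt_of_le this hN)
  have h1 : μ.card = ∑ i ∈ range N, (μ.cells.filter fun c => c.1 = i).card :=
    Finset.card_eq_sum_card_fiberwise (f := fun c : ℕ × ℕ => c.1) (t := range N) hmem
  have h2 : ∀ i, (μ.cells.filter fun c => c.1 = i).card = μ.rowLen i := by
    intro i
    have : (μ.cells.filter fun c => c.1 = i) = (range (μ.rowLen i)).image fun j => (i, j) := by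
      ext c
      simp only [mem_filter, mem_image, mem_range]
      constructor
      · rintro ⟨hc, rfl⟩
        exact ⟨c.2, YoungDiagram.mem_iff_lt_rowLen.mp (by simpa using hc), rfl⟩
      · rintro ⟨j, hj, rfl⟩
        exact ⟨by simpa using YoungDiagram.mem_iff_lt_rowLen.mpr hj, rfl⟩
    rw [this, card_image_of_injective _ (fun a b h => (Prod.mk.inj h).2), card_range]
  rw [h1, Finset.sum_congr rfl fun i _ => h2 i, Finset.sum_range]

private theorem sum_alpha (N : ℕ) (hμ : μ.card = n) (hN : μ.colLen 0 ≤ N) (w : Perm (Fin N)) :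
    ∑ i : Fin N, ((μ.rowLen (i : ℕ) : ℤ) - (i : ℕ) + ((w i : Fin N) : ℕ)) = n := by
  have h1 : ∑ i : Fin N, (((w i : Fin N) : ℕ) : ℤ) = ∑ i : Fin N, (((i : Fin N) : ℕ) : ℤ) :=
    Equiv.sum_comp w fun i : Fin N => (((i : Fin N) : ℕ) : ℤ)
  have h2 : ∑ i : Fin N, ((μ.rowLen (i : ℕ) : ℕ) : ℤ) = n := by
    rw [← hμ, ← sum_rowLen_eq N μ hN]
    push_cast
    rfl
  rw [Finset.sum_add_distrib, Finset.sum_sub_distrib, h1, h2]
  ring

/-- The strictly decreasing exponents `β i = rowLen i + N - 1 - i`. -/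
private def betaOf (N : ℕ) (μ : YoungDiagram) (i : Fin N) : ℕ :=
  μ.rowLen (i : ℕ) + (N - 1 - (i : ℕ))

private theorem betaOf_strictAnti (N : ℕ) (μ : YoungDiagram) : StrictAnti (betaOf N μ) := by
  intro i j hij
  have h1 : μ.rowLen (j : ℕ) ≤ μ.rowLen (i : ℕ) := μ.rowLen_anti _ _ (le_of_lt hij)
  have h2 : (i : ℕ) < j := hij
  have h3 : (j : ℕ) < N := j.2
  unfold betaOf
  omega

private theorem alpha_eq (N : ℕ) (μ : YoungDiagram) (w : Perm (Fin N)) (i : Fin N) :
    ((betaOf N μ i : ℕ) : ℤ) - ((N - 1 - ((w i : Fin N) : ℕ) : ℕ) : ℤ) =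
      (μ.rowLen (i : ℕ) : ℤ) - (i : ℕ) + ((w i : Fin N) : ℕ) := by
  have h1 : (i : ℕ) < N := i.2
  have h2 : ((w i : Fin N) : ℕ) < N := (w i).2
  unfold betaOf
  omega

/-- Norm one of `frobF`, for a diagram of size `n` with at most `N` rows. -/
theorem frobF_norm (N : ℕ) (hμ : μ.card = n) (hN : μ.colLen 0 ≤ N) :
    ∑ π : Perm (Fin n), (frobF N μ π) ^ 2 = (n.factorial : ℤ) := by
  have hc := cauchy_coeff N (betaOf N μ) (betaOf N μ) (betaOf_strictAnti N μ)
    (betaOf_strictAnti N μ)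
  simp only [if_true] at hc
  have hα : ∀ w : Perm (Fin N), (fun i : Fin N => ((betaOf N μ i : ℕ) : ℤ) -
        ((N - 1 - ((w i : Fin N) : ℕ) : ℕ) : ℤ)) =
      fun i : Fin N => (μ.rowLen (i : ℕ) : ℤ) - (i : ℕ) + ((w i : Fin N) : ℕ) :=
    fun w => funext fun i => alpha_eq N μ w i
  simp only [hα] at hc
  calc ∑ π : Perm (Fin n), (frobF N μ π) ^ 2
      = ∑ π : Perm (Fin n), ∑ w : Perm (Fin N), ∑ w' : Perm (Fin N),
          ((Perm.sign w : ℤˣ) : ℤ) * ((Perm.sign w' : ℤˣ) : ℤ) *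
            ((psi N (fun i => (μ.rowLen (i : ℕ) : ℤ) - (i : ℕ) + ((w i : Fin N) : ℕ)) π : ℤ) *
             (psi N (fun i => (μ.rowLen (i : ℕ) : ℤ) - (i : ℕ) + ((w' i : Fin N) : ℕ)) π : ℤ)) := by
        refine Finset.sum_congr rfl fun π _ => ?_
        rw [sq, frobF, Finset.sum_mul_sum]
        refine Finset.sum_congr rfl fun w _ => Finset.sum_congr rfl fun w' _ => ?_
        ring
    _ = ∑ w : Perm (Fin N), ∑ w' : Perm (Fin N),
          ((Perm.sign w : ℤˣ) : ℤ) * ((Perm.sign w' : ℤˣ) : ℤ) *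
            ∑ π : Perm (Fin n),
            ((psi N (fun i => (μ.rowLen (i : ℕ) : ℤ) - (i : ℕ) + ((w i : Fin N) : ℕ)) π : ℤ) *
             (psi N (fun i => (μ.rowLen (i : ℕ) : ℤ) - (i : ℕ) + ((w' i : Fin N) : ℕ)) π : ℤ)) := by
        rw [Finset.sum_comm]
        refine Finset.sum_congr rfl fun w _ => ?_
        rw [Finset.sum_comm]
        refine Finset.sum_congr rfl fun w' _ => ?_
        rw [Finset.mul_sum]
    _ = ∑ w : Perm (Fin N), ∑ w' : Perm (Fin N),
          ((Perm.sign w : ℤˣ) : ℤ) * ((Perm.sign w' : ℤˣ) : ℤ) *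
            ((n.factorial : ℤ) * (matCount N
              (fun i => (μ.rowLen (i : ℕ) : ℤ) - (i : ℕ) + ((w i : Fin N) : ℕ))
              (fun i => (μ.rowLen (i : ℕ) : ℤ) - (i : ℕ) + ((w' i : Fin N) : ℕ)) : ℤ)) := by
        refine Finset.sum_congr rfl fun w _ => Finset.sum_congr rfl fun w' _ => ?_
        rw [psi_inner N _ _ (sum_alpha N hμ hN w) (sum_alpha N hμ hN w')]
    _ = (n.factorial : ℤ) * ∑ w : Perm (Fin N), ∑ w' : Perm (Fin N),
          ((Perm.sign w : ℤˣ) : ℤ) * ((Perm.sign w' : ℤˣ) : ℤ) * (matCount N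
              (fun i => (μ.rowLen (i : ℕ) : ℤ) - (i : ℕ) + ((w i : Fin N) : ℕ))
              (fun i => (μ.rowLen (i : ℕ) : ℤ) - (i : ℕ) + ((w' i : Fin N) : ℕ)) : ℤ) := by
        rw [Finset.mul_sum]
        refine Finset.sum_congr rfl fun w _ => ?_
        rw [Finset.mul_sum]
        refine Finset.sum_congr rfl fun w' _ => ?_
        ring
    _ = (n.factorial : ℤ) := by
        rw [hc, mul_one]

theorem frobF_conj (N : ℕ) (μ : YoungDiagram) (g π : Perm (Fin n)) :
    frobF N μ (g * π * g⁻¹) = frobF N μ π := by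
  unfold frobF
  exact Finset.sum_congr rfl fun w _ => by rw [psi_conj]

theorem frobF_inv (N : ℕ) (μ : YoungDiagram) (π : Perm (Fin n)) :
    frobF N μ π⁻¹ = frobF N μ π := by
  unfold frobF
  exact Finset.sum_congr rfl fun w _ => by rw [psi_inv]

end Vale.Agent.Lib.P197
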