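import Vale.Agent.Lib.P197.Core
import Vale.Agent.Lib.P197.Surgery

/-!
# P197 module Overlap: a three-cycle against a conjugate, reflection length and counting
(blueprint sec 13)
-/

open Equiv Finset

namespace Vale.Agent.Lib.P197

variable {n : ℕ}

private theorem sp_eq_card (x : Perm (Fin n)) : sp x = x.support.card := Perm.sum_cycleType x

/-- A three-cycle as a product of two swaps, from any point of its support. -/
private theorem three_cycle_decomp (x : Perm (Fin n)) (hx : x.cycleType = {3}) (p : Fin n)
    (hp : p ∈ x.support) :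
    x.support = {p, x p, x (x p)} ∧ x (x (x p)) = p ∧ p ≠ x p ∧ x p ≠ x (x p) ∧ x (x p) ≠ p ∧
      x = swap p (x p) * swap (x p) (x (x p)) := by
  have hcard : x.support.card = 3 := by
    rw [← Perm.sum_cycleType, hx]; simp
  have hcyc : x.IsCycle := by
    rw [← Perm.card_cycleType_eq_one, hx]; simp
  have hord : orderOf x = 3 := by
    rw [hcyc.orderOf, hcard]
  have hpow : x ^ 3 = 1 := by
    rw [← hord]; exact pow_orderOf_eq_one x
  have h3 : x (x (x p)) = p := by
    have := congrArg (fun f : Perm (Fin n) => f p) hpow
    simpa [pow_succ, Perm.mul_apply] using this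
  have hp' : x p ≠ p := Perm.mem_support.1 hp
  have h1 : p ≠ x p := hp'.symm
  have h2 : x p ≠ x (x p) := fun h => h1 (x.injective h)
  have h4 : x (x p) ≠ p := by
    intro h
    rw [h] at h3
    exact hp' h3
  have hmem1 : x p ∈ x.support := Perm.apply_mem_support.2 hp
  have hmem2 : x (x p) ∈ x.support := Perm.apply_mem_support.2 hmem1
  have hsupp : x.support = {p, x p, x (x p)} := by
    symm
    apply Finset.eq_of_subset_of_card_le
    · intro z hz
      simp only [mem_insert, mem_singleton] at hz
      rcases hz with rfl | rfl | rfl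
      · exact hp
      · exact hmem1
      · exact hmem2
    · rw [hcard, Finset.card_insert_of_notMem, Finset.card_insert_of_notMem, Finset.card_singleton]
      · simpa using h2
      · simp only [mem_insert, mem_singleton, not_or]
        exact ⟨h1, h4.symm⟩
  refine ⟨hsupp, h3, h1, h2, h4, ?_⟩
  ext z
  congr 1
  by_cases hz : z ∈ x.support
  · rw [hsupp] at hz
    simp only [mem_insert, mem_singleton] at hz
    rcases hz with rfl | rfl | rfl
    · simp [Perm.mul_apply, swap_apply_of_ne_of_ne h1 h4.symm]
    · simp [Perm.mul_apply]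
      rw [swap_apply_of_ne_of_ne h4 h2.symm]
    · simp [Perm.mul_apply, h3]
  · have hfix : x z = z := by simpa using hz
    have hne : z ∉ ({p, x p, x (x p)} : Finset (Fin n)) := by rwa [← hsupp]
    simp only [mem_insert, mem_singleton, not_or] at hne
    rw [hfix]
    simp [Perm.mul_apply, swap_apply_of_ne_of_ne hne.2.1 hne.2.2,
      swap_apply_of_ne_of_ne hne.1 hne.2.1]

private theorem rk_mul_comm (x y : Perm (Fin n)) : rk (x * y) = rk (y * x) := by
  have : (y * x).cycleType = (x * y).cycleType := by
    have h := Perm.cycleType_conj (σ := x * y) (τ := y)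
    rw [← h]
    congr 1
    group
  unfold rk
  rw [this]

private theorem rk_mul_swap_ge (σ : Perm (Fin n)) (a b : Fin n) (hab : a ≠ b) :
    rk σ ≤ rk (σ * swap a b) + 1 := rank_mul_swap_ge σ a b hab

private theorem rk_mul_swap_fresh (σ : Perm (Fin n)) (a b : Fin n) (hab : a ≠ b) (hb : σ b = b) :
    rk (σ * swap a b) = rk σ + 1 := rank_mul_swap_fresh σ a b hab hb

/-- A three-cycle overlapping `y` in `t ≥ 1` points: `rk (x * y) ≥ rk y + 4 - 2 t`. -/
theorem rk_three_mul (x y : Perm (Fin n)) (hx : x.cycleType = {3})
    (ht : 1 ≤ (x.support ∩ y.support).card) :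
    rk y + 4 ≤ rk (x * y) + 2 * (x.support ∩ y.support).card := by
  have hcard : x.support.card = 3 := by
    rw [← Perm.sum_cycleType, hx]; simp
  have hle : (x.support ∩ y.support).card ≤ 3 := by
    rw [← hcard]; exact card_le_card inter_subset_left
  rw [rk_mul_comm]
  obtain ⟨p₀, hp₀⟩ := Finset.card_pos.1 ht
  have hp₀x : p₀ ∈ x.support := (mem_inter.1 hp₀).1
  -- the case analysis on the overlap
  by_cases h3 : (x.support ∩ y.support).card = 3
  · -- all three points are moved
    obtain ⟨-, -, h1, h2, -, hdec⟩ := three_cycle_decomp x hx p₀ hp₀x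
    have e1 := rk_mul_swap_ge y p₀ (x p₀) h1
    have e2 := rk_mul_swap_ge (y * swap p₀ (x p₀)) (x p₀) (x (x p₀)) h2
    have : y * x = y * swap p₀ (x p₀) * swap (x p₀) (x (x p₀)) := by
      rw [mul_assoc, ← hdec]
    rw [this, h3]
    omega
  by_cases h2c : (x.support ∩ y.support).card = 2
  · -- there is a point `r` of the support of `x` fixed by `y`
    have : ∃ r ∈ x.support, y r = r := by
      by_contra hno
      push Not at hno
      have : x.support ∩ y.support = x.support := by
        apply inter_eq_left.2
        intro z hz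
        exact Perm.mem_support.2 (hno z hz)
      rw [this, hcard] at h2c
      omega
    obtain ⟨r, hr, hyr⟩ := this
    -- `p = x r`, `q = x p`, `x q = r`
    obtain ⟨-, h3', h1, h2, h4, hdec⟩ := three_cycle_decomp x hx (x r) (Perm.apply_mem_support.2 hr)
    have hxq : x (x (x r)) = r := by
      obtain ⟨-, h3'', -⟩ := three_cycle_decomp x hx r hr
      exact h3''
    have hzero : (y * swap (x r) (x (x r))) (x (x (x r))) = x (x (x r)) := by
      rw [hxq]
      have hrne1 : r ≠ x r := (Perm.mem_support.1 hr).symm
      have hrne2 : r ≠ x (x r) := by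
        intro h
        have := congrArg x h
        rw [hxq] at this
        exact (Perm.mem_support.1 hr) this
      rw [Perm.mul_apply, swap_apply_of_ne_of_ne hrne1 hrne2, hyr]
    have e1 := rk_mul_swap_ge y (x r) (x (x r)) h1
    have e2 := rk_mul_swap_fresh (y * swap (x r) (x (x r))) (x (x r)) (x (x (x r))) h2 hzero
    have : y * x = y * swap (x r) (x (x r)) * swap (x (x r)) (x (x (x r))) := by
      rw [mul_assoc, ← hdec]
    rw [this, h2c]
    omega
  · -- exactly one point of the support of `x` is moved by `y`
    have h1c : (x.support ∩ y.support).card = 1 := by omega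
    obtain ⟨p, hp⟩ := Finset.card_eq_one.1 h1c
    have hpmem : p ∈ x.support ∩ y.support := by rw [hp]; simp
    have hpx : p ∈ x.support := (mem_inter.1 hpmem).1
    obtain ⟨-, h3', h1, h2, h4, hdec⟩ := three_cycle_decomp x hx p hpx
    have hfix : ∀ z ∈ x.support, z ≠ p → y z = z := by
      intro z hz hzp
      by_contra hyz
      have : z ∈ x.support ∩ y.support := mem_inter.2 ⟨hz, Perm.mem_support.2 hyz⟩
      rw [hp] at this
      exact hzp (by simpa using this)
    have hq : y (x p) = x p := hfix _ (Perm.apply_mem_support.2 hpx) h1.symm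
    have hr : y (x (x p)) = x (x p) :=
      hfix _ (Perm.apply_mem_support.2 (Perm.apply_mem_support.2 hpx)) h4
    have e1 := rk_mul_swap_fresh y p (x p) h1 hq
    have hzero : (y * swap p (x p)) (x (x p)) = x (x p) := by
      rw [Perm.mul_apply, swap_apply_of_ne_of_ne h4 h2.symm, hr]
    have e2 := rk_mul_swap_fresh (y * swap p (x p)) (x p) (x (x p)) h2 hzero
    have : y * x = y * swap p (x p) * swap (x p) (x (x p)) := by
      rw [mul_assoc, ← hdec]
    rw [this, h1c]
    omega

/-- `sp (x * y) ≤ sp x + sp y`. -/
theorem sp_mul_le (x y : Perm (Fin n)) : sp (x * y) ≤ sp x + sp y := by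
  simp only [sp_eq_card]
  calc (x * y).support.card ≤ (x.support ⊔ y.support).card :=
        card_le_card (Perm.support_mul_le x y)
    _ ≤ _ := card_union_le _ _

/-- Disjoint supports: the cycle types add. -/
theorem cycleType_mul_of_disjoint_support (x y : Perm (Fin n))
    (h : x.support ∩ y.support = ∅) : (x * y).cycleType = x.cycleType + y.cycleType := by
  apply Perm.Disjoint.cycleType_mul
  rw [Perm.disjoint_iff_disjoint_support]
  exact Finset.disjoint_iff_inter_eq_empty.2 h

/-- The support of a conjugate. -/
theorem support_conj (g y : Perm (Fin n)) : (g * y * g⁻¹).support = y.support.map g.toEmbedding :=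
  Perm.support_conj

/-- The permutations with prescribed values on an injective tuple. -/
private theorem card_fix_le (t : ℕ) (u s : Fin t → Fin n) (hu : Function.Injective u) :
    (univ.filter fun g : Perm (Fin n) => ∀ i, g (u i) = s i).card ≤ (n - t).factorial := by
  classical
  by_cases hne : (univ.filter fun g : Perm (Fin n) => ∀ i, g (u i) = s i).Nonempty
  · obtain ⟨g0, hg0⟩ := hne
    simp only [mem_filter, mem_univ, true_and] at hg0
    have hcard : Fintype.card {x // x ∉ Set.range u} = n - t := by
      have h1 := Fintype.card_subtype_compl (fun x => x ∈ Set.range u)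
      have h2 : Fintype.card {x // x ∈ Set.range u} = t :=
        (Fintype.card_congr (Equiv.ofInjective u hu).symm).trans (Fintype.card_fin t)
      rw [h1, h2]
      simp
    have hfixes : ∀ g : Perm (Fin n), (∀ i, g (u i) = s i) → ∀ i, (g0⁻¹ * g) (u i) = u i := by
      intro g hg i
      rw [Perm.mul_apply, hg i, ← hg0 i]
      simp
    have hstab : ∀ g : Perm (Fin n), (∀ i, g (u i) = s i) →
        ∀ x, (g0⁻¹ * g) x ∉ Set.range u ↔ x ∉ Set.range u := by
      intro g hg x
      refine not_congr ⟨?_, ?_⟩
      · rintro ⟨i, hi⟩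
        refine ⟨i, ?_⟩
        apply (g0⁻¹ * g).injective
        rw [hfixes g hg i, hi]
      · rintro ⟨i, rfl⟩
        exact ⟨i, (hfixes g hg i).symm⟩
    let f : {g // g ∈ univ.filter fun g : Perm (Fin n) => ∀ i, g (u i) = s i} →
        Perm {x // x ∉ Set.range u} := fun g =>
      (g0⁻¹ * g.1).subtypePerm (hstab g.1 (mem_filter.1 g.2).2)
    have hf : Function.Injective f := by
      rintro ⟨g1, hg1⟩ ⟨g2, hg2⟩ h
      simp only [mem_filter, mem_univ, true_and] at hg1 hg2
      apply Subtype.ext
      ext x
      congr 1
      by_cases hx : x ∈ Set.range u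
      · obtain ⟨i, rfl⟩ := hx
        rw [hg1 i, hg2 i]
      · have := congrArg (fun e : Perm {x // x ∉ Set.range u} => (e ⟨x, hx⟩).1) h
        simpa [f] using this
    have := Fintype.card_le_of_injective f hf
    rw [Fintype.card_perm, hcard, Fintype.card_coe] at this
    exact this
  · rw [not_nonempty_iff_eq_empty.1 hne]
    simp

/-- The number of `g` mapping at least `t` points of `U` into `S`. -/
theorem count_overlap (S U : Finset (Fin n)) (t : ℕ) (ht : t ≤ n) :
    (univ.filter fun g : Perm (Fin n) => t ≤ (S ∩ U.map g.toEmbedding).card).card ≤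
      (S.card * U.card) ^ t * (n - t).factorial := by
  classical
  let I : Finset ((Fin t → Fin n) × (Fin t → Fin n)) :=
    ((Fintype.piFinset fun _ : Fin t => U) ×ˢ (Fintype.piFinset fun _ : Fin t => S)).filter
      fun p => Function.Injective p.1
  have hI : I.card ≤ (S.card * U.card) ^ t := by
    calc I.card ≤ _ := card_filter_le _ _
      _ = (S.card * U.card) ^ t := by
        simp [mul_pow, mul_comm, Fintype.card_piFinset]
  have hsub : (univ.filter fun g : Perm (Fin n) => t ≤ (S ∩ U.map g.toEmbedding).card) ⊆
      I.biUnion fun p => univ.filter fun g : Perm (Fin n) => ∀ i, g (p.1 i) = p.2 i := by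
    intro g hg
    simp only [mem_filter, mem_univ, true_and] at hg
    have hc : Fintype.card (Fin t) ≤ Fintype.card {x // x ∈ S ∩ U.map g.toEmbedding} := by
      rw [Fintype.card_fin, Fintype.card_coe]; exact hg
    obtain ⟨e⟩ := Function.Embedding.nonempty_of_card_le hc
    simp only [mem_biUnion, mem_filter, mem_univ, true_and]
    have hmem : ∀ i, (e i).1 ∈ S ∧ g⁻¹ (e i).1 ∈ U := by
      intro i
      have h := (e i).2
      rw [mem_inter, mem_map] at h
      obtain ⟨h1, a, ha, hae⟩ := h
      refine ⟨h1, ?_⟩
      have : a = g⁻¹ (e i).1 := by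
        rw [← hae]; simp
      rwa [← this]
    refine ⟨(fun i => g⁻¹ (e i).1, fun i => (e i).1), ?_, ?_⟩
    · simp only [I, mem_filter, mem_product, Fintype.mem_piFinset]
      refine ⟨⟨fun i => (hmem i).2, fun i => (hmem i).1⟩, ?_⟩
      intro i j hij
      have : (e i).1 = (e j).1 := g⁻¹.injective hij
      exact e.injective (Subtype.ext this)
    · intro i
      simp
  calc _ ≤ (I.biUnion _).card := card_le_card hsub
    _ ≤ I.card * (n - t).factorial :=
        card_biUnion_le_card_mul _ _ _ (fun p hp => card_fix_le t p.1 p.2 (mem_filter.1 hp).2)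
    _ ≤ _ := Nat.mul_le_mul_right _ hI

end Vale.Agent.Lib.P197
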