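import Vale.Agent.Lib.P197.Young

/-!
# P197 module Specht: idempotent, traces, normalised characters (blueprint sec 2)
-/

open Equiv Finset

namespace Vale.Agent.Lib.P197

variable {n : ℕ} {μ : YoungDiagram}

/-! ### Traces in the group algebra -/

lemma card_perm_fin (n : ℕ) : Fintype.card (Perm (Fin n)) = n.factorial := by
  rw [Fintype.card_perm, Fintype.card_fin]

/-- The trace of a linear map of the group algebra as a sum of diagonal coefficients. -/
lemma trace_eq_sum_coeff (f : GA n →ₗ[ℂ] GA n) :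
    LinearMap.trace ℂ (GA n) f =
      ∑ g : Perm (Fin n), (f (MonoidAlgebra.single g (1 : ℂ))).coeff g := by
  classical
  rw [LinearMap.trace_eq_matrix_trace ℂ (MonoidAlgebra.basis (Perm (Fin n)) ℂ) f, Matrix.trace]
  refine Finset.sum_congr rfl (fun g _ => ?_)
  rw [Matrix.diag_apply, LinearMap.toMatrix_apply]
  rw [MonoidAlgebra.basis_apply]
  rfl

/-- The coefficient of a product, as a sum over the whole group. -/
lemma coeff_mul_sum (x y : GA n) (g : Perm (Fin n)) :
    (x * y).coeff g = ∑ a : Perm (Fin n), x.coeff a * y.coeff (a⁻¹ * g) := by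
  rw [MonoidAlgebra.coeff_mul_apply_left, Finsupp.sum_fintype]
  intro a
  simp

/-- The map `z ↦ x * z * y`. -/
noncomputable def lrMap (x y : GA n) : GA n →ₗ[ℂ] GA n :=
  LinearMap.mulLeft ℂ x ∘ₗ LinearMap.mulRight ℂ y

lemma lrMap_apply (x y z : GA n) : lrMap x y z = x * (z * y) := rfl

/-- The trace of `z ↦ π * z * y` for a group element `π`. -/
lemma trace_lr_single (π : Perm (Fin n)) (y : GA n) :
    LinearMap.trace ℂ (GA n) (lrMap (MonoidAlgebra.single π (1 : ℂ)) y) =
      ∑ g : Perm (Fin n), y.coeff (g⁻¹ * π⁻¹ * g) := by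
  rw [trace_eq_sum_coeff]
  refine Finset.sum_congr rfl (fun g _ => ?_)
  rw [lrMap_apply, coeff_single_mul', coeff_single_mul']
  refine congrArg y.coeff ?_
  group

/-- The trace of `z ↦ x * z * y`. -/
lemma trace_lr (x y : GA n) :
    LinearMap.trace ℂ (GA n) (lrMap x y) =
      ∑ k : Perm (Fin n), ∑ a : Perm (Fin n), x.coeff a * y.coeff (k⁻¹ * a⁻¹ * k) := by
  rw [trace_eq_sum_coeff]
  refine Finset.sum_congr rfl (fun k _ => ?_)
  rw [lrMap_apply, coeff_mul_sum]
  refine Finset.sum_congr rfl (fun a _ => ?_)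
  rw [coeff_single_mul']
  refine congrArg (fun t => x.coeff a * y.coeff t) ?_
  group

/-- The orthogonality identity. -/
lemma sum_trace_mul (x y : GA n) :
    ∑ π : Perm (Fin n),
        (∑ g : Perm (Fin n), x.coeff (g⁻¹ * π⁻¹ * g)) * (∑ h : Perm (Fin n), y.coeff (h⁻¹ * π * h)) =
      (n.factorial : ℂ) * LinearMap.trace ℂ (GA n) (lrMap x y) := by
  rw [trace_lr]
  have e1 : ∀ π : Perm (Fin n),
      (∑ g : Perm (Fin n), x.coeff (g⁻¹ * π⁻¹ * g)) * (∑ h : Perm (Fin n), y.coeff (h⁻¹ * π * h)) =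
        ∑ g : Perm (Fin n), ∑ h : Perm (Fin n), x.coeff (g⁻¹ * π⁻¹ * g) * y.coeff (h⁻¹ * π * h) := by
    intro π
    rw [Finset.sum_mul_sum]
  rw [Finset.sum_congr rfl (fun π _ => e1 π), Finset.sum_comm]
  have e2 : ∀ g : Perm (Fin n),
      ∑ π : Perm (Fin n), ∑ h : Perm (Fin n), x.coeff (g⁻¹ * π⁻¹ * g) * y.coeff (h⁻¹ * π * h) =
        ∑ k : Perm (Fin n), ∑ a : Perm (Fin n), x.coeff a * y.coeff (k⁻¹ * a⁻¹ * k) := by
    intro g
    rw [Finset.sum_comm]
    refine Fintype.sum_equiv (Equiv.mulLeft g⁻¹) _ _ (fun h => ?_)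
    refine Fintype.sum_equiv (((Equiv.inv (Perm (Fin n))).trans (Equiv.mulLeft g⁻¹)).trans
      (Equiv.mulRight g)) _ _ (fun π => ?_)
    simp only [Equiv.trans_apply, Equiv.coe_mulLeft, Equiv.coe_mulRight, Equiv.inv_apply]
    refine congrArg₂ (fun s t => x.coeff s * y.coeff t) rfl ?_
    group
  rw [Finset.sum_congr rfl (fun g _ => e2 g), Finset.sum_const, Finset.card_univ, card_perm_fin,
    nsmul_eq_mul]

/-! ### The idempotent -/

lemma youngSym_coeff_one (T : Filling n μ) : (youngSym T).coeff 1 = 1 := by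
  rw [youngSym_coeff, symCoeff_one]
  simp

lemma youngSym_ne_zero (T : Filling n μ) : youngSym T ≠ 0 := by
  intro h
  have := youngSym_coeff_one T
  rw [h] at this
  simp at this

/-- The trace of right multiplication by the Young symmetrizer. -/
lemma trace_mulRight (T : Filling n μ) :
    LinearMap.trace ℂ (GA n) (LinearMap.mulRight ℂ (youngSym T)) = (n.factorial : ℂ) := by
  rw [trace_eq_sum_coeff]
  have e : ∀ g : Perm (Fin n), ((LinearMap.mulRight ℂ (youngSym T))
      (MonoidAlgebra.single g (1 : ℂ))).coeff g = 1 := by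
    intro g
    rw [LinearMap.mulRight_apply, coeff_single_mul', inv_mul_cancel, youngSym_coeff_one]
  rw [Finset.sum_congr rfl (fun g _ => e g), Finset.sum_const, Finset.card_univ, card_perm_fin]
  simp

lemma factorial_ne_zero_c (n : ℕ) : (n.factorial : ℂ) ≠ 0 := by
  exact_mod_cast n.factorial_ne_zero

/-- `c² = κ c` with `κ ≠ 0`, `κ * dim = n!`. -/
theorem exists_kappa (T : Filling n μ) :
    ∃ κ : ℂ, κ ≠ 0 ∧ youngSym T * youngSym T = κ • youngSym T ∧
      κ * (ff T : ℂ) = (n.factorial : ℂ) := by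
  obtain ⟨κ, hκ⟩ := sandwich T 1
  rw [mul_one] at hκ
  have hκ0 : κ ≠ 0 := by
    intro h0
    rw [h0, zero_smul] at hκ
    have hnil : IsNilpotent (LinearMap.mulRight ℂ (youngSym T)) := by
      refine ⟨2, LinearMap.ext fun z => ?_⟩
      rw [pow_two]
      show z * youngSym T * youngSym T = 0
      rw [mul_assoc, hκ, mul_zero]
    have h1 := LinearMap.isNilpotent_trace_of_isNilpotent hnil
    rw [trace_mulRight, isNilpotent_iff_eq_zero] at h1
    exact factorial_ne_zero_c n h1
  refine ⟨κ, hκ0, hκ, ?_⟩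
  have hproj : LinearMap.IsProj (spechtSub T) (κ⁻¹ • LinearMap.mulRight ℂ (youngSym T)) := by
    constructor
    · intro z
      refine ⟨κ⁻¹ • z, ?_⟩
      simp [LinearMap.mulRight_apply]
    · rintro x ⟨y, rfl⟩
      simp only [LinearMap.smul_apply, LinearMap.mulRight_apply]
      rw [mul_assoc, hκ, mul_smul_comm, smul_smul, inv_mul_cancel₀ hκ0, one_smul]
  have h2 := hproj.trace
  rw [map_smul, trace_mulRight, smul_eq_mul] at h2
  have h3 : κ⁻¹ * (n.factorial : ℂ) = (ff T : ℂ) := h2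
  rw [← h3]
  field_simp

theorem ff_pos (T : Filling n μ) : 0 < ff T := by
  obtain ⟨κ, _, _, h⟩ := exists_kappa T
  rw [Nat.pos_iff_ne_zero]
  intro h0
  rw [h0] at h
  simp only [Nat.cast_zero, mul_zero] at h
  exact factorial_ne_zero_c n h.symm

/-! ### The normalised character -/

/-- The sum defining the normalised character. -/
noncomputable def rrS (T : Filling n μ) (π : Perm (Fin n)) : ℝ :=
  ∑ g : Perm (Fin n), (symCoeff T (g⁻¹ * π⁻¹ * g) : ℝ)

lemma rr_eq_div (T : Filling n μ) (π : Perm (Fin n)) :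
    rr T π = ((n.factorial : ℕ) : ℝ)⁻¹ * rrS T π := rfl

lemma factorial_ne_zero_r (n : ℕ) : ((n.factorial : ℕ) : ℝ) ≠ 0 := by
  exact_mod_cast n.factorial_ne_zero

lemma rrS_eq (T : Filling n μ) (π : Perm (Fin n)) :
    rrS T π = ((n.factorial : ℕ) : ℝ) * rr T π := by
  rw [rr_eq_div, ← mul_assoc, mul_inv_cancel₀ (factorial_ne_zero_r n), one_mul]

lemma rrS_complex (T : Filling n μ) (π : Perm (Fin n)) :
    ((rrS T π : ℝ) : ℂ) = ∑ g : Perm (Fin n), (youngSym T).coeff (g⁻¹ * π⁻¹ * g) := by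
  simp only [rrS, youngSym_coeff]
  push_cast
  rfl

lemma trace_lr_young (T : Filling n μ) (π : Perm (Fin n)) :
    LinearMap.trace ℂ (GA n) (lrMap (MonoidAlgebra.single π (1 : ℂ)) (youngSym T)) =
      ((rrS T π : ℝ) : ℂ) := by
  rw [trace_lr_single, rrS_complex]

/-- The trace of the Specht representation. -/
theorem trace_spechtRep (T : Filling n μ) (π : Perm (Fin n)) :
    LinearMap.trace ℂ (spechtSub T) (spechtRep T π) = (ff T : ℂ) * (rr T π : ℂ) := by
  obtain ⟨κ, hκ0, hκ, hκf⟩ := exists_kappa T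
  set P : GA n →ₗ[ℂ] GA n := κ⁻¹ • LinearMap.mulRight ℂ (youngSym T) with hP
  have hmem : ∀ z, P z ∈ spechtSub T := by
    intro z
    refine ⟨κ⁻¹ • z, ?_⟩
    simp [hP, LinearMap.mulRight_apply]
  have hid : ∀ x ∈ spechtSub T, P x = x := by
    rintro x ⟨y, rfl⟩
    simp only [hP, LinearMap.smul_apply, LinearMap.mulRight_apply]
    rw [mul_assoc, hκ, mul_smul_comm, smul_smul, inv_mul_cancel₀ hκ0, one_smul]
  set pr : GA n →ₗ[ℂ] spechtSub T := P.codRestrict (spechtSub T) hmem with hpr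
  set L : spechtSub T →ₗ[ℂ] GA n :=
    LinearMap.mulLeft ℂ (MonoidAlgebra.single π (1 : ℂ) : GA n) ∘ₗ (spechtSub T).subtype with hL
  have e1 : spechtRep T π = pr ∘ₗ L := by
    ext x
    have h1 : ((pr ∘ₗ L) x : GA n) = P (L x) := rfl
    rw [h1]
    have h2 : L x ∈ spechtSub T := specht_stable T π _ x.2
    rw [hid _ h2]
    rfl
  have e2 : L ∘ₗ pr = LinearMap.mulLeft ℂ (MonoidAlgebra.single π (1 : ℂ) : GA n) ∘ₗ P := by
    ext z
    rfl
  have e3 : LinearMap.mulLeft ℂ (MonoidAlgebra.single π (1 : ℂ) : GA n) ∘ₗ P =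
      κ⁻¹ • lrMap (MonoidAlgebra.single π (1 : ℂ)) (youngSym T) := by
    simp only [hP, lrMap, LinearMap.comp_smul]
  rw [e1, LinearMap.trace_comp_comm', e2, e3, map_smul, trace_lr_young, smul_eq_mul, rrS_eq]
  push_cast
  rw [← hκf]
  have h3 : (κ * (ff T : ℂ)) = (n.factorial : ℂ) := hκf
  rw [hκf, ← mul_assoc, ← h3]
  field_simp

theorem rr_one (T : Filling n μ) : rr T 1 = 1 := by
  rw [rr_eq_div]
  have e : rrS T 1 = ((n.factorial : ℕ) : ℝ) := by
    simp only [rrS, inv_one, mul_one, inv_mul_cancel, symCoeff_one]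
    rw [Finset.sum_const, Finset.card_univ, card_perm_fin]
    simp
  rw [e, inv_mul_cancel₀ (factorial_ne_zero_r n)]

theorem rr_conj (T : Filling n μ) (g π : Perm (Fin n)) : rr T (g * π * g⁻¹) = rr T π := by
  rw [rr_eq_div, rr_eq_div]
  refine congrArg _ ?_
  simp only [rrS]
  refine Fintype.sum_equiv (Equiv.mulLeft g⁻¹) _ _ (fun h => ?_)
  refine congrArg (fun t => ((symCoeff T t : ℤ) : ℝ)) ?_
  simp only [Equiv.coe_mulLeft]
  group

theorem rr_of_cycleType_eq (T : Filling n μ) (π σ : Perm (Fin n))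
    (h : π.cycleType = σ.cycleType) : rr T π = rr T σ := by
  obtain ⟨c, hc⟩ := isConj_iff.1 (Perm.isConj_iff_cycleType_eq.2 h)
  rw [← hc, rr_conj]

theorem rr_inv (T : Filling n μ) (π : Perm (Fin n)) : rr T π⁻¹ = rr T π :=
  rr_of_cycleType_eq T _ _ (Perm.cycleType_inv π)

/-! ### The central elements -/

/-- The class sum. -/
noncomputable def zz (π : Perm (Fin n)) : GA n :=
  ∑ g : Perm (Fin n), MonoidAlgebra.single (g * π * g⁻¹) (1 : ℂ)

lemma zz_single_comm (π h : Perm (Fin n)) (r : ℂ) :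
    MonoidAlgebra.single h r * zz π = zz π * MonoidAlgebra.single h r := by
  simp only [zz, Finset.mul_sum, Finset.sum_mul, MonoidAlgebra.single_mul_single]
  refine Fintype.sum_equiv (Equiv.mulLeft h) _ _ (fun g => ?_)
  simp only [Equiv.coe_mulLeft, mul_one, one_mul]
  refine congrArg (fun t => MonoidAlgebra.single t r) ?_
  group

lemma zz_comm (π : Perm (Fin n)) (w : GA n) : w * zz π = zz π * w := by
  induction w using MonoidAlgebra.induction_linear with
  | zero => simp
  | add a b ha hb => rw [add_mul, mul_add, ha, hb]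
  | single h r => exact zz_single_comm π h r

/-- The coefficient at the identity of `c * Z(π)`. -/
lemma coeff_one_mul_zz (T : Filling n μ) (π : Perm (Fin n)) :
    (youngSym T * zz π).coeff 1 = ((rrS T π : ℝ) : ℂ) := by
  rw [rrS_complex]
  simp only [zz, Finset.mul_sum, MonoidAlgebra.coeff_sum, Finsupp.coe_finsetSum, Finset.sum_apply,
    coeff_mul_single']
  refine Fintype.sum_equiv (Equiv.inv (Perm (Fin n))) _ _ (fun g => ?_)
  refine congrArg (youngSym T).coeff ?_
  simp only [Equiv.inv_apply]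
  group

/-- Central elements act by the scalar `n! rr`. -/
lemma young_mul_zz (T : Filling n μ) (π : Perm (Fin n)) :
    youngSym T * zz π = ((rrS T π : ℝ) : ℂ) • youngSym T := by
  obtain ⟨κ, hκ0, hκ, _⟩ := exists_kappa T
  obtain ⟨l, hl⟩ := sandwich T (zz π)
  have e1 : youngSym T * zz π * youngSym T = κ • (youngSym T * zz π) := by
    rw [mul_assoc, ← zz_comm, ← mul_assoc, hκ, smul_mul_assoc]
  rw [e1] at hl
  have e2 : youngSym T * zz π = (κ⁻¹ * l) • youngSym T := by
    rw [mul_smul, ← hl, smul_smul, inv_mul_cancel₀ hκ0, one_smul]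
  have e3 := coeff_one_mul_zz T π
  rw [e2, MonoidAlgebra.coeff_smul_apply, youngSym_coeff_one, smul_eq_mul, mul_one] at e3
  rw [e2, e3]

/-- The product of two class sums. -/
lemma zz_mul_zz (x y : Perm (Fin n)) :
    zz x * zz y = ∑ h : Perm (Fin n), zz (x * (h * y * h⁻¹)) := by
  simp only [zz, Finset.mul_sum, Finset.sum_mul, MonoidAlgebra.single_mul_single, mul_one]
  rw [Finset.sum_comm]
  conv_rhs => rw [Finset.sum_comm]
  refine Finset.sum_congr rfl (fun g _ => ?_)
  refine Fintype.sum_equiv (Equiv.mulLeft g⁻¹) _ _ (fun h => ?_)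
  refine congrArg (fun t => MonoidAlgebra.single t (1 : ℂ)) ?_
  simp only [Equiv.coe_mulLeft]
  group

/-- The product formula (central elements act by scalars). -/
theorem rr_mul (T : Filling n μ) (x y : Perm (Fin n)) :
    rr T x * rr T y =
      ((n.factorial : ℕ) : ℝ)⁻¹ * ∑ g : Perm (Fin n), rr T (x * (g * y * g⁻¹)) := by
  have h1 : youngSym T * (zz x * zz y) =
      (((rrS T x : ℝ) : ℂ) * ((rrS T y : ℝ) : ℂ)) • youngSym T := by
    rw [← mul_assoc, young_mul_zz, smul_mul_assoc, young_mul_zz, smul_smul]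
  have h2 : youngSym T * (zz x * zz y) =
      (∑ h : Perm (Fin n), ((rrS T (x * (h * y * h⁻¹)) : ℝ) : ℂ)) • youngSym T := by
    rw [zz_mul_zz, Finset.mul_sum, Finset.sum_smul]
    exact Finset.sum_congr rfl (fun h _ => young_mul_zz T _)
  have h3 : ((rrS T x : ℝ) : ℂ) * ((rrS T y : ℝ) : ℂ) =
      ∑ h : Perm (Fin n), ((rrS T (x * (h * y * h⁻¹)) : ℝ) : ℂ) := by
    have := congrArg (fun w : GA n => w.coeff 1) (h1.symm.trans h2)
    simpa [MonoidAlgebra.coeff_smul_apply, youngSym_coeff_one] using this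
  have h4 : rrS T x * rrS T y = ∑ h : Perm (Fin n), rrS T (x * (h * y * h⁻¹)) := by
    exact_mod_cast h3
  have hf := factorial_ne_zero_r n
  simp only [rrS_eq] at h4
  rw [← Finset.mul_sum] at h4
  have h5 : ((n.factorial : ℕ) : ℝ) * (rr T x * rr T y) =
      ∑ h : Perm (Fin n), rr T (x * (h * y * h⁻¹)) := by
    apply mul_left_cancel₀ hf
    rw [← h4]
    ring
  rw [← h5, ← mul_assoc, inv_mul_cancel₀ hf, one_mul]

/-! ### Norm one -/

/-- The trace of `z ↦ c * z * c` is `κ²`. -/
lemma trace_lr_young_young (T : Filling n μ) {κ : ℂ} (hκ0 : κ ≠ 0)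
    (hκ : youngSym T * youngSym T = κ • youngSym T) :
    LinearMap.trace ℂ (GA n) (lrMap (youngSym T) (youngSym T)) = κ ^ 2 := by
  have hproj : LinearMap.IsProj (Submodule.span ℂ {youngSym T})
      ((κ ^ 2)⁻¹ • lrMap (youngSym T) (youngSym T)) := by
    constructor
    · intro z
      obtain ⟨l, hl⟩ := sandwich T z
      simp only [LinearMap.smul_apply, lrMap_apply]
      rw [← mul_assoc, hl, smul_smul]
      exact Submodule.smul_mem _ _ (Submodule.mem_span_singleton_self _)
    · intro x hx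
      obtain ⟨a, rfl⟩ := Submodule.mem_span_singleton.1 hx
      simp only [LinearMap.smul_apply, lrMap_apply]
      rw [smul_mul_assoc, mul_smul_comm, hκ, mul_smul_comm, hκ, smul_smul, smul_smul, smul_smul]
      refine congrArg (fun t : ℂ => t • youngSym T) ?_
      field_simp
  have h2 := hproj.trace
  rw [map_smul, smul_eq_mul, finrank_span_singleton (youngSym_ne_zero T)] at h2
  have hκ2 : κ ^ 2 ≠ 0 := pow_ne_zero 2 hκ0
  simp only [Nat.cast_one] at h2
  field_simp at h2
  exact h2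

/-- Norm one of the character. -/
theorem rr_norm (T : Filling n μ) :
    (ff T : ℝ) ^ 2 * ((n.factorial : ℕ) : ℝ)⁻¹ * ∑ π : Perm (Fin n), (rr T π) ^ 2 = 1 := by
  obtain ⟨κ, hκ0, hκ, hκf⟩ := exists_kappa T
  have h1 := sum_trace_mul (youngSym T) (youngSym T)
  rw [trace_lr_young_young T hκ0 hκ] at h1
  have h2 : ∀ π : Perm (Fin n),
      (∑ g : Perm (Fin n), (youngSym T).coeff (g⁻¹ * π⁻¹ * g)) *
          (∑ h : Perm (Fin n), (youngSym T).coeff (h⁻¹ * π * h)) =
        (((n.factorial : ℕ) : ℝ) ^ 2 * rr T π ^ 2 : ℝ) := by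
    intro π
    rw [← rrS_complex]
    have e : (∑ h : Perm (Fin n), (youngSym T).coeff (h⁻¹ * π * h)) = ((rrS T π⁻¹ : ℝ) : ℂ) := by
      rw [rrS_complex, inv_inv]
    rw [e, rrS_eq, rrS_eq, rr_inv]
    push_cast
    ring
  rw [Finset.sum_congr rfl (fun π _ => h2 π)] at h1
  have hf := factorial_ne_zero_r n
  have h3 : ∑ π : Perm (Fin n), ((n.factorial : ℕ) : ℝ) ^ 2 * rr T π ^ 2 =
      ((n.factorial : ℕ) : ℝ) * ((ff T : ℝ)⁻¹ * ((n.factorial : ℕ) : ℝ)) ^ 2 := by
    have h4 : κ = (((ff T : ℝ)⁻¹ * ((n.factorial : ℕ) : ℝ) : ℝ) : ℂ) := by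
      have hff : (ff T : ℂ) ≠ 0 := by
        exact_mod_cast (ff_pos T).ne'
      push_cast
      rw [← hκf]
      field_simp
    rw [h4] at h1
    exact_mod_cast h1
  rw [← Finset.mul_sum] at h3
  have hff : (ff T : ℝ) ≠ 0 := by
    exact_mod_cast (ff_pos T).ne'
  field_simp at h3 ⊢
  nlinarith [h3]

/-! ### Other facts -/

/-- Conjugation of the coefficients under a change of filling. -/
lemma symCoeff_change (T T' : Filling n μ) (h : Perm (Fin n)) :
    symCoeff T' h = symCoeff T ((T'.trans T.symm) * h * (T'.trans T.symm)⁻¹) := by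
  classical
  set s : Perm (Fin n) := T'.trans T.symm with hs
  have hTs : ∀ x, T (s x) = T' x := fun x => by simp [hs]
  have hrow : ∀ x, rowOf T (s x) = rowOf T' x := fun x => by simp [rowOf, hTs]
  have hcol : ∀ x, colOf T (s x) = colOf T' x := fun x => by simp [colOf, hTs]
  have hR : ∀ p, p ∈ rowStab T' ↔ s * p * s⁻¹ ∈ rowStab T := by
    intro p
    simp only [rowStab, Finset.mem_filter, Finset.mem_univ, true_and]
    constructor
    · intro h x
      have h1 := h (s⁻¹ x)
      rw [← hrow, ← hrow] at h1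
      simpa [Equiv.Perm.mul_apply] using h1
    · intro h x
      have h1 := h (s x)
      rw [← hrow, ← hrow]
      simpa [Equiv.Perm.mul_apply] using h1
  have hC : ∀ q, q ∈ colStab T' ↔ s * q * s⁻¹ ∈ colStab T := by
    intro q
    simp only [colStab, Finset.mem_filter, Finset.mem_univ, true_and]
    constructor
    · intro h x
      have h1 := h (s⁻¹ x)
      rw [← hcol, ← hcol] at h1
      simpa [Equiv.Perm.mul_apply] using h1
    · intro h x
      have h1 := h (s x)
      rw [← hcol, ← hcol]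
      simpa [Equiv.Perm.mul_apply] using h1
  have hconj : ∀ y : Perm (Fin n), s⁻¹ * (s * y * s⁻¹) * s = y := by
    intro y
    group
  let E : Perm (Fin n) ≃ Perm (Fin n) :=
    { toFun := fun p => s * p * s⁻¹
      invFun := fun p => s⁻¹ * p * s
      left_inv := fun p => by
        show s⁻¹ * (s * p * s⁻¹) * s = p
        group
      right_inv := fun p => by
        show s * (s⁻¹ * p * s) * s⁻¹ = p
        group }
  have hE : ∀ p, E p = s * p * s⁻¹ := fun _ => rfl
  have hmulE : ∀ p q, E p * E q = E (p * q) := by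
    intro p q
    simp only [hE]
    group
  have hinj : ∀ a b : Perm (Fin n), (E a = E b) ↔ a = b := fun a b => E.injective.eq_iff
  unfold symCoeff
  refine Finset.sum_bij (fun p _ => E p) ?_ ?_ ?_ ?_
  · intro p hp
    exact (hR p).1 hp
  · intro a _ b _ hab
    exact E.injective hab
  · intro b hb
    refine ⟨E.symm b, ?_, E.apply_symm_apply b⟩
    apply (hR _).2
    rw [← hE, E.apply_symm_apply]
    exact hb
  · intro p hp
    refine Finset.sum_bij (fun q _ => E q) ?_ ?_ ?_ ?_
    · intro q hq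
      exact (hC q).1 hq
    · intro a _ b _ hab
      exact E.injective hab
    · intro b hb
      refine ⟨E.symm b, ?_, E.apply_symm_apply b⟩
      apply (hC _).2
      rw [← hE, E.apply_symm_apply]
      exact hb
    · intro q _
      have hsign : Perm.sign (E q) = Perm.sign q := by
        rw [hE, Perm.sign_mul, Perm.sign_mul, Perm.sign_inv, mul_comm (Perm.sign s), mul_assoc,
          Int.units_mul_self, mul_one]
      have hiff : (E p * E q = s * h * s⁻¹) ↔ p * q = h := by
        rw [hmulE, ← hE h, hinj]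
      by_cases hpq : p * q = h
      · rw [if_pos hpq, if_pos (hiff.2 hpq), hsign]
      · rw [if_neg hpq, if_neg (fun e => hpq (hiff.1 e))]

/-- The normalised character does not depend on the filling. -/
theorem rr_indep (T T' : Filling n μ) : rr T = rr T' := by
  funext π
  rw [rr_eq_div, rr_eq_div]
  refine congrArg _ ?_
  simp only [rrS]
  set s : Perm (Fin n) := T'.trans T.symm with hs
  refine (Fintype.sum_equiv (Equiv.mulRight s⁻¹) _ _ (fun g => ?_)).symm
  rw [symCoeff_change T T']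
  refine congrArg (fun t => ((symCoeff T t : ℤ) : ℝ)) ?_
  simp only [Equiv.coe_mulRight, ← hs]
  group

/-- The pairing with a conjugation invariant, inversion invariant function. -/
theorem rr_inner (T : Filling n μ) (ψ : Perm (Fin n) → ℝ)
    (h1 : ∀ g π, ψ (g * π * g⁻¹) = ψ π) (h2 : ∀ π, ψ π⁻¹ = ψ π) :
    ∑ π, rr T π * ψ π = ∑ h, (symCoeff T h : ℝ) * ψ h := by
  have hf := factorial_ne_zero_r n
  have e1 : ∀ π : Perm (Fin n), rr T π * ψ π =
      ((n.factorial : ℕ) : ℝ)⁻¹ * ∑ g : Perm (Fin n), (symCoeff T (g⁻¹ * π⁻¹ * g) : ℝ) * ψ π := by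
    intro π
    rw [rr, mul_assoc, Finset.sum_mul]
  rw [Finset.sum_congr rfl (fun π _ => e1 π), ← Finset.mul_sum, Finset.sum_comm]
  have e2 : ∀ g : Perm (Fin n),
      ∑ π : Perm (Fin n), (symCoeff T (g⁻¹ * π⁻¹ * g) : ℝ) * ψ π =
        ∑ h : Perm (Fin n), (symCoeff T h : ℝ) * ψ h := by
    intro g
    refine Fintype.sum_equiv (((Equiv.inv (Perm (Fin n))).trans (Equiv.mulLeft g⁻¹)).trans
      (Equiv.mulRight g)) _ _ (fun π => ?_)
    simp only [Equiv.trans_apply, Equiv.coe_mulLeft, Equiv.coe_mulRight, Equiv.inv_apply]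
    refine congrArg _ ?_
    rw [← h2 π, ← h1 g⁻¹ π⁻¹, inv_inv]
  rw [Finset.sum_congr rfl (fun g _ => e2 g), Finset.sum_const, Finset.card_univ, card_perm_fin,
    nsmul_eq_mul, ← mul_assoc, inv_mul_cancel₀ hf, one_mul]

/-- The pointwise bound from the norm: the square of the character times the class size is at most `n!`. -/
theorem rr_sq_class (T : Filling n μ) (π : Perm (Fin n)) :
    (ff T : ℝ) ^ 2 * rr T π ^ 2 *
        (((univ.filter fun σ : Perm (Fin n) => σ.cycleType = π.cycleType).card : ℕ) : ℝ) ≤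
      ((n.factorial : ℕ) : ℝ) := by
  have hf := factorial_ne_zero_r n
  have hn := rr_norm T
  have h1 : (ff T : ℝ) ^ 2 * ∑ σ : Perm (Fin n), rr T σ ^ 2 = ((n.factorial : ℕ) : ℝ) := by
    field_simp at hn
    linarith
  have h2 : rr T π ^ 2 * (((univ.filter fun σ : Perm (Fin n) => σ.cycleType = π.cycleType).card : ℕ) : ℝ) ≤
      ∑ σ : Perm (Fin n), rr T σ ^ 2 := by
    calc rr T π ^ 2 * (((univ.filter fun σ : Perm (Fin n) => σ.cycleType = π.cycleType).card : ℕ) : ℝ)
        = ∑ σ ∈ univ.filter (fun σ : Perm (Fin n) => σ.cycleType = π.cycleType), rr T σ ^ 2 := by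
          rw [Finset.sum_congr rfl (g := fun _ => rr T π ^ 2) (fun σ hσ => by
            rw [rr_of_cycleType_eq T σ π (Finset.mem_filter.1 hσ).2]), Finset.sum_const,
            nsmul_eq_mul, mul_comm]
      _ ≤ _ := Finset.sum_le_sum_of_subset_of_nonneg (Finset.filter_subset _ _)
          (fun σ _ _ => sq_nonneg _)
  calc (ff T : ℝ) ^ 2 * rr T π ^ 2 *
        (((univ.filter fun σ : Perm (Fin n) => σ.cycleType = π.cycleType).card : ℕ) : ℝ)
      = (ff T : ℝ) ^ 2 * (rr T π ^ 2 *
        (((univ.filter fun σ : Perm (Fin n) => σ.cycleType = π.cycleType).card : ℕ) : ℝ)) := by ring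
    _ ≤ (ff T : ℝ) ^ 2 * ∑ σ : Perm (Fin n), rr T σ ^ 2 :=
        mul_le_mul_of_nonneg_left h2 (sq_nonneg _)
    _ = _ := h1

end Vale.Agent.Lib.P197
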