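import Vale.Agent.Lib.P197.ExpSum

/-!
# P197 module Tail: supports up to a small multiple of n (blueprint sec 11)
-/

open Equiv Finset

namespace Vale.Agent.Lib.P197

variable {n : ℕ}

/-- Splitting a product over a multiset of positive integers. -/
theorem tail_prod_split (s : Multiset ℕ) (hs : ∀ j ∈ s, 1 ≤ j) (a b : ℝ) (f : ℕ → ℝ) :
    Multiset.card s ≤ s.sum ∧
    (s.map fun j => a ^ j * b ^ (j - 1) * f j).prod =
      a ^ s.sum * b ^ (s.sum - Multiset.card s) * (s.map f).prod := by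
  induction s using Multiset.induction_on with
  | empty => simp
  | cons j s ih =>
    have hj : 1 ≤ j := hs j (Multiset.mem_cons_self j s)
    have hs' : ∀ i ∈ s, 1 ≤ i := fun i hi => hs i (Multiset.mem_cons_of_mem hi)
    obtain ⟨h1, h2⟩ := ih hs'
    constructor
    · simp only [Multiset.sum_cons, Multiset.card_cons]; omega
    · simp only [Multiset.map_cons, Multiset.prod_cons, Multiset.sum_cons, Multiset.card_cons, h2]
      have e : j + s.sum - (Multiset.card s + 1) = (j - 1) + (s.sum - Multiset.card s) := by omega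
      rw [e, pow_add, pow_add]; ring

/-- Per-permutation estimate for `sp π = k`, all cycles odd:
`u^k * rho² * |nu| ≤ ∏_c w |c|` with `w j = (D u)^j n^(1-j) (R/n)^(j-1) κ^(j-3)`, `D = 6075`. -/
theorem tail_term (rho nu : Perm (Fin n) → ℝ) (R κ u : ℝ) (hn : 0 < n) (hu : 0 ≤ u) (hκ : 2 ≤ κ)
    (hR : 0 < R) (hrho : RhoB n rho) (π : Perm (Fin n))
    (hnu : |nu π| ≤ (3 : ℝ) ^ sp π * (π.cycleType.map fun j => (R / n) ^ (j - 1) * κ ^ (j - 3)).prod) :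
    u ^ sp π * (rho π ^ 2 * |nu π|) ≤ (π.cycleType.map fun j =>
      if Odd j then (6075 * u) ^ j * ((n : ℝ)⁻¹) ^ (j - 1) * (R / n) ^ (j - 1) * κ ^ (j - 3)
      else 0).prod := by
  classical
  have hN : (0 : ℝ) < n := by exact_mod_cast hn
  have hκ0 : (0 : ℝ) < κ := by linarith
  by_cases hev : ∃ j ∈ π.cycleType, Even j
  · have h0 := hrho.1 π hev
    obtain ⟨j, hj, hje⟩ := hev
    have hp : (π.cycleType.map fun j =>
      if Odd j then (6075 * u) ^ j * ((n : ℝ)⁻¹) ^ (j - 1) * (R / n) ^ (j - 1) * κ ^ (j - 3)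
      else 0).prod = 0 := by
      apply Multiset.prod_eq_zero
      rw [Multiset.mem_map]
      refine ⟨j, hj, ?_⟩
      have : ¬ Odd j := Nat.not_odd_iff_even.2 hje
      simp [this]
    rw [hp, h0]
    simp
  · push Not at hev
    have hodd : ∀ j ∈ π.cycleType, Odd j := fun j hj => Nat.not_even_iff_odd.1 (hev j hj)
    have hmap : (π.cycleType.map fun j =>
        if Odd j then (6075 * u) ^ j * ((n : ℝ)⁻¹) ^ (j - 1) * (R / n) ^ (j - 1) * κ ^ (j - 3)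
        else 0) = π.cycleType.map fun j => (6075 * u) ^ j * ((n : ℝ)⁻¹) ^ (j - 1) *
          ((R / n) ^ (j - 1) * κ ^ (j - 3)) := by
      apply Multiset.map_congr rfl
      intro j hj
      simp only [hodd j hj, if_true]
      ring
    rw [hmap]
    have hs : ∀ j ∈ π.cycleType, 1 ≤ j := fun j hj =>
      le_trans (by norm_num) (Equiv.Perm.two_le_of_mem_cycleType hj)
    obtain ⟨-, hsplit⟩ := tail_prod_split π.cycleType hs (6075 * u) ((n : ℝ)⁻¹)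
      (fun j => (R / n) ^ (j - 1) * κ ^ (j - 3))
    rw [hsplit]
    set P := (π.cycleType.map fun j => (R / n) ^ (j - 1) * κ ^ (j - 3)).prod with hP
    have hP0 : 0 ≤ P := by
      apply Multiset.prod_nonneg
      intro a ha
      rw [Multiset.mem_map] at ha
      obtain ⟨j, -, rfl⟩ := ha
      positivity
    have hsq : Real.sqrt n * Real.sqrt n = n := Real.mul_self_sqrt hN.le
    have hrho2 : rho π ^ 2 ≤ (2025 : ℝ) ^ sp π * ((n : ℝ)⁻¹) ^ rk π := by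
      have h := hrho.2 π
      have h' : rho π ^ 2 ≤ ((45 : ℝ) ^ sp π * ((Real.sqrt n)⁻¹) ^ rk π) ^ 2 := by
        rw [← sq_abs (rho π)]
        exact pow_le_pow_left₀ (abs_nonneg _) h 2
      have e : ((45 : ℝ) ^ sp π * ((Real.sqrt n)⁻¹) ^ rk π) ^ 2 =
          (2025 : ℝ) ^ sp π * ((n : ℝ)⁻¹) ^ rk π := by
        have e2 : ((n : ℝ)⁻¹) = ((Real.sqrt n)⁻¹) ^ 2 := by
          rw [inv_pow, sq, hsq]
        calc ((45 : ℝ) ^ sp π * ((Real.sqrt n)⁻¹) ^ rk π) ^ 2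
            = ((45 : ℝ) ^ 2) ^ sp π * (((Real.sqrt n)⁻¹) ^ 2) ^ rk π := by
              rw [mul_pow, ← pow_mul, ← pow_mul, ← pow_mul, ← pow_mul, mul_comm (sp π), mul_comm (rk π)]
          _ = (2025 : ℝ) ^ sp π * ((n : ℝ)⁻¹) ^ rk π := by
              rw [show ((45 : ℝ) ^ 2) = 2025 by norm_num, ← e2]
      rwa [e] at h'
    have hsp : π.cycleType.sum = sp π := rfl
    have hrk : π.cycleType.sum - Multiset.card π.cycleType = rk π := rfl
    rw [hrk, hsp]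
    calc u ^ sp π * (rho π ^ 2 * |nu π|)
        ≤ u ^ sp π * (((2025 : ℝ) ^ sp π * ((n : ℝ)⁻¹) ^ rk π) * ((3 : ℝ) ^ sp π * P)) := by
          apply mul_le_mul_of_nonneg_left _ (by positivity)
          exact mul_le_mul hrho2 hnu (abs_nonneg _) (by positivity)
      _ = (6075 * u) ^ sp π * ((n : ℝ)⁻¹) ^ rk π * P := by
          have e1 : (6075 * u) ^ sp π = (2025 : ℝ) ^ sp π * (3 : ℝ) ^ sp π * u ^ sp π := by
            rw [← mul_pow, ← mul_pow]; norm_num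
          rw [e1]; ring

/-- The sum of the weights over cycle lengths. -/
theorem tail_weight_sum (n : ℕ) (hn : 5 ≤ n) (L κ R : ℝ) (hL : 0 < L) (hκ : 0 < κ) (hR : 0 < R)
    (ht : L * (R / n) * κ ≤ 1 / 2) :
    ∑ j ∈ Icc 2 n, (((n : ℝ) ^ j / j) *
        (if Odd j then L ^ j * ((n : ℝ)⁻¹) ^ (j - 1) * (R / n) ^ (j - 1) * κ ^ (j - 3) else 0)) ≤
      ((n : ℝ) / 3 * L ^ 3 * (R / n) ^ 2) +
        2 * ((n : ℝ) / 5 * (L / κ ^ 2) * (L * (R / n) * κ) ^ 4) := by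
  classical
  have hN : (0 : ℝ) < n := by positivity
  set t := L * (R / n) * κ with ht_def
  have ht0 : 0 ≤ t := by positivity
  set Q := (n : ℝ) / 5 * (L / κ ^ 2) * t ^ 4 with hQ
  have hQ0 : 0 ≤ Q := by positivity
  let f : ℕ → ℝ := fun j => (((n : ℝ) ^ j / j) *
        (if Odd j then L ^ j * ((n : ℝ)⁻¹) ^ (j - 1) * (R / n) ^ (j - 1) * κ ^ (j - 3) else 0))
  have hf2 : f 2 = 0 := by simp [f, show ¬ Odd 2 by decide]
  have hf4 : f 4 = 0 := by simp [f, show ¬ Odd 4 by decide]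
  have hf3 : f 3 = (n : ℝ) / 3 * L ^ 3 * (R / n) ^ 2 := by
    simp only [f, show Odd 3 by decide, if_true]
    norm_num
    field_simp
  have hf5 : ∀ j, 5 ≤ j → f j ≤ Q * (1 / 2) ^ (j - 5) := by
    intro j hj
    by_cases hodd : Odd j
    · simp only [f, hodd, if_true]
      have hj0 : (0 : ℝ) < j := by
        have : 0 < j := by omega
        exact_mod_cast this
      have hj5 : (5 : ℝ) ≤ j := by exact_mod_cast hj
      have e1 : (n : ℝ) ^ j * ((n : ℝ)⁻¹) ^ (j - 1) = n := by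
        obtain ⟨i, rfl⟩ : ∃ i, j = i + 1 := ⟨j - 1, by omega⟩
        simp only [Nat.add_sub_cancel]
        rw [pow_succ, inv_pow]
        field_simp
      have e2 : L ^ j * (R / n) ^ (j - 1) * κ ^ (j - 3) = (L / κ ^ 2) * t ^ (j - 1) := by
        obtain ⟨i, rfl⟩ : ∃ i, j = i + 3 := ⟨j - 3, by omega⟩
        have e3 : i + 3 - 1 = i + 2 := by omega
        have e4 : i + 3 - 3 = i := by omega
        rw [e3, e4, ht_def]
        field_simp
        ring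
      have e5 : t ^ (j - 1) = t ^ 4 * t ^ (j - 5) := by
        rw [← pow_add]; congr 1; omega
      have e6 : ((n : ℝ) ^ j / j) * (L ^ j * ((n : ℝ)⁻¹) ^ (j - 1) * (R / n) ^ (j - 1) * κ ^ (j - 3))
          = ((n : ℝ) ^ j * ((n : ℝ)⁻¹) ^ (j - 1)) / j * (L ^ j * (R / n) ^ (j - 1) * κ ^ (j - 3)) := by
        ring
      rw [e6, e1, e2, e5]
      have h1 : (n : ℝ) / j ≤ (n : ℝ) / 5 := div_le_div_of_nonneg_left hN.le (by norm_num) hj5
      have h2 : t ^ (j - 5) ≤ (1 / 2) ^ (j - 5) := pow_le_pow_left₀ ht0 ht _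
      calc (n : ℝ) / j * (L / κ ^ 2 * (t ^ 4 * t ^ (j - 5)))
          ≤ (n : ℝ) / 5 * (L / κ ^ 2 * (t ^ 4 * (1 / 2) ^ (j - 5))) := by
            apply mul_le_mul h1 _ (by positivity) (by positivity)
            apply mul_le_mul_of_nonneg_left _ (by positivity)
            exact mul_le_mul_of_nonneg_left h2 (by positivity)
        _ = Q * (1 / 2) ^ (j - 5) := by rw [hQ]; ring
    · simp only [f, hodd, if_false, mul_zero]
      positivity
  have hsplit : Icc 2 n = insert 2 (insert 3 (insert 4 (Icc 5 n))) := by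
    ext j
    simp only [mem_Icc, mem_insert]
    omega
  have hgeo : ∑ j ∈ Icc 5 n, Q * (1 / 2 : ℝ) ^ (j - 5) ≤ 2 * Q := by
    have h1 : ∑ j ∈ Icc 5 n, (1 / 2 : ℝ) ^ (j - 5) ≤ 2 := by
      have h2 : ∀ m : ℕ, ∑ j ∈ Icc 5 (m + 5), (1 / 2 : ℝ) ^ (j - 5) = 2 - 2 * (1 / 2) ^ (m + 1) := by
        intro m
        induction m with
        | zero => norm_num
        | succ m ih =>
          have : Icc 5 (m + 1 + 5) = insert (m + 1 + 5) (Icc 5 (m + 5)) := by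
            ext j
            simp only [mem_Icc, mem_insert]
            omega
          rw [this, sum_insert (by simp), ih]
          have e : m + 1 + 5 - 5 = m + 1 := by omega
          rw [e]
          ring
      obtain ⟨m, rfl⟩ : ∃ m, n = m + 5 := ⟨n - 5, by omega⟩
      rw [h2 m]
      have : (0 : ℝ) ≤ 2 * (1 / 2) ^ (m + 1) := by positivity
      linarith
    calc ∑ j ∈ Icc 5 n, Q * (1 / 2 : ℝ) ^ (j - 5) = Q * ∑ j ∈ Icc 5 n, (1 / 2 : ℝ) ^ (j - 5) := by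
          rw [mul_sum]
      _ ≤ Q * 2 := mul_le_mul_of_nonneg_left h1 hQ0
      _ = 2 * Q := by ring
  change ∑ j ∈ Icc 2 n, f j ≤ _
  rw [hsplit, sum_insert (by simp), sum_insert (by simp), sum_insert (by simp), hf2, hf3, hf4]
  have h5 : ∑ j ∈ Icc 5 n, f j ≤ ∑ j ∈ Icc 5 n, Q * (1 / 2 : ℝ) ^ (j - 5) :=
    sum_le_sum fun j hj => hf5 j (mem_Icc.1 hj).1
  linarith

/-- Numerical facts. -/
theorem tail_num1 (L C0 k N E : ℝ) (hL : 2 ≤ L) (hC0 : 4 ≤ C0) (hk : 0 ≤ k)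
    (hNb : 32 * L ^ 6 * C0 ^ 2 + 7 * L ^ 9 * C0 ^ 4 ≤ N) (hkN : k * (16 * L ^ 4) ≤ N)
    (hE : E = C0 ^ 2 + k / L ^ 4) :
    16 * L ^ 6 * E ≤ N ∧ 8 / 5 * L ^ 9 * E ^ 2 ≤ (1 / 2 + k / 2) * N := by
  have hL0 : 0 < L := by linarith
  have hL2 : (4 : ℝ) ≤ L ^ 2 := by nlinarith
  have h4 : 2 * L ^ 2 ≤ L ^ 4 := by
    have e : L ^ 4 = L ^ 2 * L ^ 2 := by ring
    rw [e]; nlinarith
  have h9 : 0 ≤ L ^ 9 * C0 ^ 4 := by positivity
  have h6 : 0 ≤ L ^ 6 * C0 ^ 2 := by positivity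
  constructor
  · have e : 16 * L ^ 6 * E = 16 * (L ^ 6 * C0 ^ 2) + 16 * L ^ 2 * k := by
      rw [hE]; field_simp
    rw [e]
    have h2 : 32 * L ^ 2 * k ≤ k * (16 * L ^ 4) := by
      have : k * (32 * L ^ 2) ≤ k * (16 * L ^ 4) := mul_le_mul_of_nonneg_left (by linarith) hk
      linarith
    nlinarith
  · have hE2 : E ^ 2 ≤ 2 * C0 ^ 4 + 2 * (k / L ^ 4) ^ 2 := by
      rw [hE]; nlinarith [sq_nonneg (C0 ^ 2 - k / L ^ 4)]
    have e2 : L ^ 9 * (k / L ^ 4) ^ 2 = L * k ^ 2 := by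
      field_simp
    have h1 : 8 / 5 * L ^ 9 * E ^ 2 ≤ 16 / 5 * (L ^ 9 * C0 ^ 4) + 16 / 5 * (L * k ^ 2) := by
      have h9' : 0 ≤ 8 / 5 * L ^ 9 := by positivity
      have := mul_le_mul_of_nonneg_left hE2 h9'
      have e3 : 8 / 5 * L ^ 9 * (2 * C0 ^ 4 + 2 * (k / L ^ 4) ^ 2) =
          16 / 5 * (L ^ 9 * C0 ^ 4) + 16 / 5 * (L ^ 9 * (k / L ^ 4) ^ 2) := by ring
      rw [e3, e2] at this
      exact this
    have h2 : 16 / 5 * (L ^ 9 * C0 ^ 4) ≤ 1 / 2 * N := by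
      have h6' : 0 ≤ 32 * L ^ 6 * C0 ^ 2 := by positivity
      have e : 7 * L ^ 9 * C0 ^ 4 = 7 * (L ^ 9 * C0 ^ 4) := by ring
      rw [e] at hNb
      linarith
    have h3 : 16 / 5 * (L * k ^ 2) ≤ k / 2 * N := by
      have h5 : 32 / 5 * L * k ≤ N := by
        have h31 : L ≤ L ^ 4 := by
          have : (1 : ℝ) ≤ L ^ 3 := one_le_pow₀ (by linarith)
          nlinarith
        have : k * (32 / 5 * L) ≤ k * (16 * L ^ 4) :=
          mul_le_mul_of_nonneg_left (by nlinarith) hk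
        linarith
      have := mul_le_mul_of_nonneg_left h5 hk
      nlinarith
    have e : (1 / 2 + k / 2) * N = 1 / 2 * N + k / 2 * N := by ring
    rw [e]
    linarith

/-- The terms in the exponent. -/
theorem tail_num2 (L C0 k N E R κ t : ℝ) (hL : 2 ≤ L) (hk : 0 ≤ k) (hN : 0 < N)
    (hR2 : R ^ 2 = E * N) (hR : 0 < R) (hκ : κ = 2 * L ^ 2)
    (hE : E = C0 ^ 2 + k / L ^ 4)
    (ht : t = L * (R / N) * κ)
    (h1 : 16 * L ^ 6 * E ≤ N) (h2 : 8 / 5 * L ^ 9 * E ^ 2 ≤ (1 / 2 + k / 2) * N) :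
    t ≤ 1 / 2 ∧ N / 3 * L ^ 3 * (R / N) ^ 2 ≤ L ^ 3 * C0 ^ 2 / 3 + k / 2 ∧
      2 * (N / 5 * (L / κ ^ 2) * t ^ 4) ≤ 1 / 2 + k / 2 := by
  have hL0 : 0 < L := by linarith
  have hκ0 : 0 < κ := by rw [hκ]; positivity
  have ht0 : 0 ≤ t := by rw [ht]; positivity
  have ht2 : t ^ 2 = 4 * L ^ 6 * E / N := by
    rw [ht, mul_pow, mul_pow, div_pow, hR2, hκ]
    field_simp
    ring
  refine ⟨?_, ?_, ?_⟩
  · have h4 : t ^ 2 ≤ 1 / 4 := by
      rw [ht2, div_le_iff₀ hN]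
      linarith
    by_contra hcon
    push Not at hcon
    nlinarith
  · have e : N / 3 * L ^ 3 * (R / N) ^ 2 = L ^ 3 * C0 ^ 2 / 3 + k / (3 * L) := by
      rw [div_pow, hR2, hE]
      field_simp
    rw [e]
    have : k / (3 * L) ≤ k / 2 :=
      div_le_div_of_nonneg_left hk (by norm_num) (by linarith)
    linarith
  · have e : 2 * (N / 5 * (L / κ ^ 2) * t ^ 4) = 8 / 5 * L ^ 9 * E ^ 2 / N := by
      have e4 : t ^ 4 = (t ^ 2) ^ 2 := by ring
      rw [e4, ht2, hκ]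
      field_simp
      ring
    rw [e, div_le_iff₀ hN]
    exact h2

/-- The conditions of `NuB`. -/
theorem tail_conds (A L C0 k N E R κ : ℝ) (hA : 1 ≤ A) (hL : 2 ≤ L) (hC0 : C0 = 4 * A) (hk : 0 ≤ k)
    (hN : 0 < N) (hR2 : R ^ 2 = E * N) (hR : R = Real.sqrt (E * N)) (hκ : κ = 2 * L ^ 2)
    (hE : E = C0 ^ 2 + k / L ^ 4) (hkN : k * (16 * L ^ 4) ≤ N) :
    4 * (A * Real.sqrt N) ≤ R ∧ 4 * N ≤ R ^ 2 ∧ 2 ≤ κ ∧ 4 * k * N ≤ (κ * R) ^ 2 ∧
      4 * k * κ ^ 2 ≤ N := by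
  have hL0 : 0 < L := by linarith
  have hC04 : 4 ≤ C0 := by rw [hC0]; linarith
  have hEk : 0 ≤ k / L ^ 4 := by positivity
  refine ⟨?_, ?_, ?_, ?_, ?_⟩
  · rw [hR]
    apply Real.le_sqrt_of_sq_le
    have hs : Real.sqrt N ^ 2 = N := Real.sq_sqrt hN.le
    have e : (4 * (A * Real.sqrt N)) ^ 2 = C0 ^ 2 * N := by
      rw [hC0, mul_pow, mul_pow, hs]; ring
    rw [e]
    apply mul_le_mul_of_nonneg_right _ hN.le
    rw [hE]; linarith
  · rw [hR2]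
    have : (4 : ℝ) ≤ E := by rw [hE]; nlinarith
    exact mul_le_mul_of_nonneg_right this hN.le
  · rw [hκ]; nlinarith [sq_nonneg L, hL]
  · rw [mul_pow, hR2, hκ, hE]
    have e : (2 * L ^ 2) ^ 2 * ((C0 ^ 2 + k / L ^ 4) * N) = 4 * L ^ 4 * C0 ^ 2 * N + 4 * k * N := by
      field_simp
      norm_num
    rw [e]
    have : 0 ≤ 4 * L ^ 4 * C0 ^ 2 * N := by positivity
    linarith
  · rw [hκ]
    have e : 4 * k * (2 * L ^ 2) ^ 2 = k * (16 * L ^ 4) := by ring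
    rw [e]
    exact hkN

/-- From the bound of the sum to the geometric decay. -/
theorem tail_final (S X : ℝ) (k : ℕ) (h : (11 : ℝ) ^ k * S ≤ Real.exp (X + k)) :
    S ≤ Real.exp X * (1 / 4 : ℝ) ^ k := by
  have h11 : (0 : ℝ) < 11 ^ k := by positivity
  have hfin : Real.exp (X + k) ≤ (11 : ℝ) ^ k * (Real.exp X * (1 / 4 : ℝ) ^ k) := by
    rw [Real.exp_add]
    have e1 : Real.exp (k : ℝ) = Real.exp 1 ^ k := by
      rw [← Real.exp_nat_mul]; simp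
    rw [e1]
    have h2 : Real.exp 1 ^ k ≤ (11 / 4 : ℝ) ^ k := by
      apply pow_le_pow_left₀ (Real.exp_pos _).le
      have := Real.exp_one_lt_d9
      linarith
    have h3 : (11 : ℝ) ^ k * (1 / 4 : ℝ) ^ k = (11 / 4 : ℝ) ^ k := by
      rw [← mul_pow]; norm_num
    have h4 := mul_le_mul_of_nonneg_left h2 (Real.exp_pos X).le
    calc Real.exp X * Real.exp 1 ^ k ≤ Real.exp X * (11 / 4 : ℝ) ^ k := h4
      _ = (11 : ℝ) ^ k * (Real.exp X * (1 / 4 : ℝ) ^ k) := by rw [← h3]; ring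
  exact le_of_mul_le_mul_left (le_trans h hfin) h11

/-- The sum over one support size, for fixed parameters. -/
theorem tail_sum (rho nu : Perm (Fin n) → ℝ) (L R κ Y : ℝ) (k : ℕ) (hL : L = 6075 * 11) (hκ : 2 ≤ κ)
    (hR : 0 < R) (hn : 0 < n) (hrho : RhoB n rho)
    (hnu : ∀ π : Perm (Fin n), sp π = k →
      |nu π| ≤ (3 : ℝ) ^ sp π * (π.cycleType.map fun j => (R / n) ^ (j - 1) * κ ^ (j - 3)).prod)
    (hexp : ∑ j ∈ Icc 2 n, (((n : ℝ) ^ j / j) *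
        (if Odd j then L ^ j * ((n : ℝ)⁻¹) ^ (j - 1) * (R / n) ^ (j - 1) * κ ^ (j - 3) else 0)) ≤ Y) :
    (11 : ℝ) ^ k * ∑ π ∈ (univ.filter fun π : Perm (Fin n) => sp π = k),
      rho π ^ 2 * |nu π| ≤ Real.exp Y := by
  classical
  have hL0 : 0 < L := by rw [hL]; norm_num
  have hκ0 : 0 < κ := by linarith
  let w : ℕ → ℝ := fun j =>
    if Odd j then L ^ j * ((n : ℝ)⁻¹) ^ (j - 1) * (R / n) ^ (j - 1) * κ ^ (j - 3) else 0
  have hw0 : ∀ j, 0 ≤ w j := by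
    intro j
    simp only [w]
    split_ifs
    · positivity
    · exact le_rfl
  have hprod0 : ∀ π : Perm (Fin n), 0 ≤ (π.cycleType.map w).prod := by
    intro π
    apply Multiset.prod_nonneg
    intro a ha
    rw [Multiset.mem_map] at ha
    obtain ⟨j, -, rfl⟩ := ha
    exact hw0 j
  have hterm : ∀ π ∈ (univ.filter fun π : Perm (Fin n) => sp π = k),
      (11 : ℝ) ^ k * (rho π ^ 2 * |nu π|) ≤ (π.cycleType.map w).prod := by
    intro π hπ
    have hsp : sp π = k := (mem_filter.1 hπ).2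
    have h := tail_term rho nu R κ 11 hn (by norm_num) hκ hR hrho π (hnu π hsp)
    rw [hsp, ← hL] at h
    exact h
  rw [mul_sum]
  calc ∑ π ∈ (univ.filter fun π : Perm (Fin n) => sp π = k), (11 : ℝ) ^ k * (rho π ^ 2 * |nu π|)
      ≤ ∑ π ∈ (univ.filter fun π : Perm (Fin n) => sp π = k), (π.cycleType.map w).prod :=
        sum_le_sum hterm
    _ ≤ ∑ π : Perm (Fin n), (π.cycleType.map w).prod :=
        sum_le_sum_of_subset_of_nonneg (filter_subset _ _) (fun π _ _ => hprod0 π)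
    _ ≤ Real.exp (∑ j ∈ Icc 2 n, ((n : ℝ) ^ j / j) * w j) := exp_sum w hw0
    _ ≤ _ := Real.exp_le_exp.2 hexp

/-- The geometric decay on the range `1 ≤ k ≤ c n`. -/
theorem tail (A : ℝ) (hA : 1 ≤ A) : ∃ X c : ℝ, 0 < c ∧ ∃ n₀ : ℕ, ∀ n ≥ n₀,
    ∀ rho nu : Perm (Fin n) → ℝ, RhoB n rho → NuB n (A * Real.sqrt n) nu →
      ∀ k : ℕ, 1 ≤ k → (k : ℝ) ≤ c * n →
        ∑ π ∈ (univ.filter fun π : Perm (Fin n) => sp π = k), rho π ^ 2 * |nu π| ≤
          Real.exp X * (1 / 4 : ℝ) ^ k := by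
  classical
  obtain ⟨L, hLdef⟩ : ∃ L : ℝ, L = 6075 * 11 := ⟨_, rfl⟩
  have hL1 : (2 : ℝ) ≤ L := by rw [hLdef]; norm_num
  have hL0 : (0 : ℝ) < L := by linarith
  obtain ⟨C0, hC0⟩ : ∃ C0 : ℝ, C0 = 4 * A := ⟨_, rfl⟩
  have hC04 : (4 : ℝ) ≤ C0 := by rw [hC0]; linarith
  refine ⟨L ^ 3 * C0 ^ 2 / 3 + 1 / 2, 1 / (16 * L ^ 4), by positivity,
    ⌈32 * L ^ 6 * C0 ^ 2 + 7 * L ^ 9 * C0 ^ 4⌉₊ + 5, ?_⟩
  intro n hn rho nu hrho hnu k hk1 hk
  have hn5 : 5 ≤ n := by omega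
  have hnpos : 0 < n := by omega
  have hNb : 32 * L ^ 6 * C0 ^ 2 + 7 * L ^ 9 * C0 ^ 4 ≤ (n : ℝ) := by
    have h1 : ⌈32 * L ^ 6 * C0 ^ 2 + 7 * L ^ 9 * C0 ^ 4⌉₊ ≤ n := by omega
    exact le_trans (Nat.le_ceil _) (by exact_mod_cast h1)
  have hN0 : (0 : ℝ) < n := by exact_mod_cast hnpos
  have hk0 : (0 : ℝ) ≤ k := by positivity
  have hkN : (k : ℝ) * (16 * L ^ 4) ≤ n := by
    have h2 := mul_le_mul_of_nonneg_right hk (by positivity : (0 : ℝ) ≤ 16 * L ^ 4)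
    have h3 : 1 / (16 * L ^ 4) * (n : ℝ) * (16 * L ^ 4) = n := by field_simp
    rwa [h3] at h2
  obtain ⟨E, hE⟩ : ∃ E : ℝ, E = C0 ^ 2 + k / L ^ 4 := ⟨_, rfl⟩
  have hE0 : 0 < E := by rw [hE]; positivity
  obtain ⟨R, hR⟩ : ∃ R : ℝ, R = Real.sqrt (E * n) := ⟨_, rfl⟩
  have hR2 : R ^ 2 = E * n := by rw [hR]; exact Real.sq_sqrt (by positivity)
  have hR0 : 0 < R := by rw [hR]; exact Real.sqrt_pos.2 (by positivity)
  obtain ⟨κ, hκ⟩ : ∃ κ : ℝ, κ = 2 * L ^ 2 := ⟨_, rfl⟩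
  obtain ⟨c1, c2, hκ2, c3, c4⟩ := tail_conds A L C0 k n E R κ hA hL1 hC0 hk0 hN0 hR2 hR hκ hE hkN
  obtain ⟨h1, h2⟩ := tail_num1 L C0 k n E hL1 hC04 hk0 hNb hkN hE
  obtain ⟨t, ht⟩ : ∃ t : ℝ, t = L * (R / n) * κ := ⟨_, rfl⟩
  obtain ⟨htle, hT3, hQ⟩ := tail_num2 L C0 k n E R κ t hL1 hk0 hN0 hR2 hR0 hκ hE ht h1 h2
  have hκ0 : 0 < κ := by linarith
  have hw := tail_weight_sum n hn5 L κ R hL0 hκ0 hR0 (by rw [← ht]; exact htle)
  rw [← ht] at hw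
  have hexp : ∑ j ∈ Icc 2 n, (((n : ℝ) ^ j / j) *
        (if Odd j then L ^ j * ((n : ℝ)⁻¹) ^ (j - 1) * (R / n) ^ (j - 1) * κ ^ (j - 3) else 0)) ≤
      (L ^ 3 * C0 ^ 2 / 3 + 1 / 2) + k := by
    refine le_trans hw ?_
    linarith
  have hsum := tail_sum rho nu L R κ _ k hLdef hκ2 hR0 hnpos hrho
    (fun π hsp => hnu π R κ k c1 c2 hκ2 c3 c4 hsp.le) hexp
  exact tail_final _ _ k hsum

end Vale.Agent.Lib.P197
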