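import Vale.Agent.Lib.P197.Core

/-!
# P197 module Young: the Young symmetrizer (blueprint sec 1)
-/

open Equiv Finset

namespace Vale.Agent.Lib.P197

variable {n : ℕ} {μ : YoungDiagram}

theorem card_row (T : Filling n μ) (i : ℕ) :
    (univ.filter fun x => rowOf T x = i).card = μ.rowLen i := by
  rw [YoungDiagram.rowLen_eq_card]
  refine Finset.card_bij (fun x _ => (T x).1) ?_ ?_ ?_
  · intro x hx
    simp only [mem_filter, mem_univ, true_and] at hx
    rw [YoungDiagram.mem_row_iff]
    exact ⟨(T x).2, hx⟩
  · intro x _ y _ h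
    exact T.injective (Subtype.ext h)
  · intro c hc
    rw [YoungDiagram.mem_row_iff] at hc
    refine ⟨T.symm ⟨c, hc.1⟩, ?_, by simp⟩
    rw [mem_filter]
    refine ⟨mem_univ _, ?_⟩
    simpa [rowOf] using hc.2

theorem card_col (T : Filling n μ) (j : ℕ) :
    (univ.filter fun x => colOf T x = j).card = μ.colLen j := by
  rw [YoungDiagram.colLen_eq_card]
  refine Finset.card_bij (fun x _ => (T x).1) ?_ ?_ ?_
  · intro x hx
    simp only [mem_filter, mem_univ, true_and] at hx
    rw [YoungDiagram.mem_col_iff]
    exact ⟨(T x).2, hx⟩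
  · intro x _ y _ h
    exact T.injective (Subtype.ext h)
  · intro c hc
    rw [YoungDiagram.mem_col_iff] at hc
    refine ⟨T.symm ⟨c, hc.1⟩, ?_, by simp⟩
    rw [mem_filter]
    refine ⟨mem_univ _, ?_⟩
    simpa [colOf] using hc.2

theorem lt_rowLen (T : Filling n μ) (x : Fin n) : colOf T x < μ.rowLen (rowOf T x) := by
  have h : (rowOf T x, colOf T x) ∈ μ := (T x).2
  exact YoungDiagram.mem_iff_lt_rowLen.1 h

/-- The key step: the placement `x ↦ (row of g x, column of x)` stays inside the diagram. -/
theorem young_in_diagram (T : Filling n μ) (g : Perm (Fin n))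
    (h : ∀ x y, x ≠ y → rowOf T (g x) = rowOf T (g y) → colOf T x ≠ colOf T y) (i : ℕ) :
    ∀ x, rowOf T (g x) = i → colOf T x < μ.rowLen i := by
  induction i using Nat.strong_induction_on with
  | _ i ih =>
    intro x hx
    by_contra hcon
    push Not at hcon
    set j := colOf T x with hj
    -- `(i,j)` is outside the diagram so the column has length at most `i`.
    have hcol : μ.colLen j ≤ i := by
      by_contra hlt
      push Not at hlt
      have : (i, j) ∈ μ := YoungDiagram.mem_iff_lt_colLen.2 hlt
      have := YoungDiagram.mem_iff_lt_rowLen.1 this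
      omega
    -- fullness of the earlier rows
    have hfull : ∀ i' < i, ∀ j' < μ.rowLen i', ∃ z, rowOf T (g z) = i' ∧ colOf T z = j' := by
      intro i' hi' j' hj'
      have hinj : Set.InjOn (colOf T) (univ.filter fun z => rowOf T (g z) = i' : Finset (Fin n)) := by
        intro a ha b hb hab
        by_contra hne
        simp only [coe_filter, mem_univ, true_and, Set.mem_ofPred_eq] at ha hb
        exact h a b hne (ha.trans hb.symm) hab
      have hcard : (univ.filter fun z => rowOf T (g z) = i').card = μ.rowLen i' := by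
        rw [← card_row T i']
        refine Finset.card_bij (fun z _ => g z) ?_ ?_ ?_
        · intro a ha
          simpa using ha
        · intro a _ b _ hab
          exact g.injective hab
        · intro b hb
          refine ⟨g⁻¹ b, ?_, by simp⟩
          simpa using hb
      have himg : (univ.filter fun z => rowOf T (g z) = i').image (colOf T) = range (μ.rowLen i') := by
        apply Finset.eq_of_subset_of_card_le
        · intro c hc
          simp only [mem_image, mem_filter, mem_univ, true_and] at hc
          obtain ⟨a, ha, rfl⟩ := hc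
          exact mem_range.2 (ih i' hi' a ha)
        · rw [card_range, Finset.card_image_of_injOn hinj, hcard]
      have : j' ∈ (univ.filter fun z => rowOf T (g z) = i').image (colOf T) := by
        rw [himg]
        exact mem_range.2 hj'
      simp only [mem_image, mem_filter, mem_univ, true_and] at this
      obtain ⟨a, ha, hb⟩ := this
      exact ⟨a, ha, hb⟩
    -- count the column `j`
    have hmaps : insert i (range (μ.colLen j)) ⊆
        (univ.filter fun z => colOf T z = j).image (fun z => rowOf T (g z)) := by
      intro c hc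
      rw [mem_insert] at hc
      simp only [mem_image, mem_filter, mem_univ, true_and]
      rcases hc with rfl | hc
      · exact ⟨x, rfl, hx⟩
      · have hc' := mem_range.1 hc
        have hin : (c, j) ∈ μ := YoungDiagram.mem_iff_lt_colLen.2 hc'
        have hin' := YoungDiagram.mem_iff_lt_rowLen.1 hin
        obtain ⟨z, hz1, hz2⟩ := hfull c (lt_of_lt_of_le hc' hcol) j hin'
        exact ⟨z, hz2, hz1⟩
    have h1 := Finset.card_le_card hmaps
    have h2 : ((univ.filter fun z => colOf T z = j).image (fun z => rowOf T (g z))).card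
        ≤ μ.colLen j := by
      rw [← card_col T j]
      exact Finset.card_image_le
    rw [Finset.card_insert_of_notMem (by simpa using hcol), card_range] at h1
    omega

/-- The classical combinatorial lemma: if `x ↦ (row of g x, column of x)` is injective then
`g ∈ R C`. (The image is forced to be the diagram, by induction on rows.) -/
theorem young_comb (T : Filling n μ) (g : Perm (Fin n))
    (h : ∀ x y, x ≠ y → rowOf T (g x) = rowOf T (g y) → colOf T x ≠ colOf T y) :
    ∃ p ∈ rowStab T, ∃ q ∈ colStab T, g = p * q := by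
  have hin : ∀ x, (rowOf T (g x), colOf T x) ∈ μ.cells := by
    intro x
    have := young_in_diagram T g h _ x rfl
    rw [YoungDiagram.mem_cells]
    exact YoungDiagram.mem_iff_lt_rowLen.2 this
  let F : Fin n → Fin n := fun x => T.symm ⟨(rowOf T (g x), colOf T x), hin x⟩
  have hFr : ∀ x, rowOf T (F x) = rowOf T (g x) := by
    intro x
    simp [F, rowOf]
  have hFc : ∀ x, colOf T (F x) = colOf T x := by
    intro x
    simp [F, colOf]
  have hFinj : Function.Injective F := by
    intro a b hab
    by_contra hne
    have h1 : rowOf T (g a) = rowOf T (g b) := by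
      rw [← hFr, ← hFr, hab]
    have h2 : colOf T a = colOf T b := by
      rw [← hFc a, ← hFc b, hab]
    exact h a b hne h1 h2
  let q : Perm (Fin n) := Equiv.ofBijective F (Finite.injective_iff_bijective.1 hFinj)
  have hq : ∀ x, q x = F x := fun _ => rfl
  refine ⟨g * q⁻¹, ?_, q, ?_, by simp⟩
  · simp only [rowStab, mem_filter, mem_univ, true_and]
    intro y
    obtain ⟨x, rfl⟩ := q.surjective y
    have e : q⁻¹ (q x) = x := by simp
    rw [Perm.mul_apply, e, hq, hFr]
  · simp only [colStab, mem_filter, mem_univ, true_and]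
    intro x
    rw [hq, hFc]

/-- The row and column stabilisers meet trivially. -/
theorem stab_inter (T : Filling n μ) (p : Perm (Fin n)) (hp : p ∈ rowStab T) (hq : p ∈ colStab T) :
    p = 1 := by
  simp only [rowStab, colStab, mem_filter, mem_univ, true_and] at hp hq
  ext x
  have : T (p x) = T x := Subtype.ext (Prod.ext (hp x) (hq x))
  simpa using congrArg Fin.val (T.injective this)

theorem rowStab_one (T : Filling n μ) : (1 : Perm (Fin n)) ∈ rowStab T := by
  simp [rowStab]

theorem colStab_one (T : Filling n μ) : (1 : Perm (Fin n)) ∈ colStab T := by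
  simp [colStab]

theorem rowStab_mul (T : Filling n μ) {p p' : Perm (Fin n)} (hp : p ∈ rowStab T)
    (hp' : p' ∈ rowStab T) : p * p' ∈ rowStab T := by
  simp only [rowStab, mem_filter, mem_univ, true_and] at hp hp' ⊢
  intro x
  rw [Perm.mul_apply, hp, hp']

theorem colStab_mul (T : Filling n μ) {p p' : Perm (Fin n)} (hp : p ∈ colStab T)
    (hp' : p' ∈ colStab T) : p * p' ∈ colStab T := by
  simp only [colStab, mem_filter, mem_univ, true_and] at hp hp' ⊢
  intro x
  rw [Perm.mul_apply, hp, hp']

theorem rowStab_inv (T : Filling n μ) {p : Perm (Fin n)} (hp : p ∈ rowStab T) :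
    p⁻¹ ∈ rowStab T := by
  simp only [rowStab, mem_filter, mem_univ, true_and] at hp ⊢
  intro x
  have := hp (p⁻¹ x)
  simpa using this.symm

theorem colStab_inv (T : Filling n μ) {p : Perm (Fin n)} (hp : p ∈ colStab T) :
    p⁻¹ ∈ colStab T := by
  simp only [colStab, mem_filter, mem_univ, true_and] at hp ⊢
  intro x
  have := hp (p⁻¹ x)
  simpa using this.symm

/-- The uniqueness of the factorisation. -/
theorem factor_unique (T : Filling n μ) {p p' q q' : Perm (Fin n)} (hp : p ∈ rowStab T)
    (hp' : p' ∈ rowStab T) (hq : q ∈ colStab T) (hq' : q' ∈ colStab T) (h : p * q = p' * q') :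
    p = p' ∧ q = q' := by
  have h1 : p'⁻¹ * p = q' * q⁻¹ := by
    rw [inv_mul_eq_iff_eq_mul, ← mul_assoc, eq_mul_inv_iff_mul_eq]
    exact h
  have h2 : p'⁻¹ * p ∈ rowStab T := rowStab_mul T (rowStab_inv T hp') hp
  have h3 : p'⁻¹ * p ∈ colStab T := by
    rw [h1]
    exact colStab_mul T hq' (colStab_inv T hq)
  have h4 := stab_inter T _ h2 h3
  have h5 : p = p' := by
    rw [inv_mul_eq_one] at h4
    exact h4.symm
  refine ⟨h5, ?_⟩
  subst h5
  exact mul_left_cancel h

/-- The value of the coefficient on a product. -/
theorem symCoeff_mul (T : Filling n μ) {p q : Perm (Fin n)} (hp : p ∈ rowStab T)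
    (hq : q ∈ colStab T) : symCoeff T (p * q) = ((Perm.sign q : ℤˣ) : ℤ) := by
  unfold symCoeff
  rw [Finset.sum_eq_single p, Finset.sum_eq_single q]
  · simp
  · intro q' hq' hne
    rw [if_neg]
    intro h
    exact hne (factor_unique T hp hp hq' hq h).2
  · intro h
    exact absurd hq h
  · intro p' hp' hne
    apply Finset.sum_eq_zero
    intro q' hq'
    rw [if_neg]
    intro h
    exact hne (factor_unique T hp' hp hq' hq h).1
  · intro h
    exact absurd hp h

theorem symCoeff_one (T : Filling n μ) : symCoeff T 1 = 1 := by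
  have := symCoeff_mul T (rowStab_one T) (colStab_one T)
  simpa using this

theorem symCoeff_eq_zero (T : Filling n μ) (h : Perm (Fin n))
    (hh : ¬ ∃ p ∈ rowStab T, ∃ q ∈ colStab T, h = p * q) : symCoeff T h = 0 := by
  unfold symCoeff
  apply Finset.sum_eq_zero
  intro p hp
  apply Finset.sum_eq_zero
  intro q hq
  rw [if_neg]
  intro hpq
  exact hh ⟨p, hp, q, hq, hpq.symm⟩

theorem symCoeff_abs_le (T : Filling n μ) (h : Perm (Fin n)) : |symCoeff T h| ≤ 1 := by
  by_cases hh : ∃ p ∈ rowStab T, ∃ q ∈ colStab T, h = p * q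
  · obtain ⟨p, hp, q, hq, rfl⟩ := hh
    rw [symCoeff_mul T hp hq]
    rcases Int.units_eq_one_or (Perm.sign q) with h1 | h1 <;> simp [h1]
  · rw [symCoeff_eq_zero T h hh]
    simp

/-- The coefficients of the Young symmetrizer. -/
theorem youngSym_coeff (T : Filling n μ) (h : Perm (Fin n)) :
    (youngSym T).coeff h = (symCoeff T h : ℂ) := by
  classical
  unfold youngSym rowSym colAnti symCoeff
  rw [Finset.sum_mul_sum, MonoidAlgebra.coeff_sum, Finsupp.finsetSum_apply]
  push_cast
  refine Finset.sum_congr rfl fun p _ => ?_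
  rw [MonoidAlgebra.coeff_sum, Finsupp.finsetSum_apply]
  refine Finset.sum_congr rfl fun q _ => ?_
  rw [MonoidAlgebra.single_mul_single, MonoidAlgebra.coeff_single, Finsupp.single_apply]
  split_ifs <;> simp

/-- Left multiplication by a group element, on coefficients. -/
theorem coeff_single_mul' (g : Perm (Fin n)) (y : GA n) (h : Perm (Fin n)) :
    (MonoidAlgebra.single g (1 : ℂ) * y).coeff h = y.coeff (g⁻¹ * h) := by
  rw [MonoidAlgebra.coeff_single_mul_eq_mul_coeff (m₂ := g⁻¹ * h) (x := y) (r := (1 : ℂ)) (m := g)]
  · simp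
  · intro m' _
    constructor
    · intro hm
      rw [← hm]
      simp
    · intro hm
      rw [hm]
      simp

/-- Right multiplication by a group element, on coefficients. -/
theorem coeff_mul_single' (g : Perm (Fin n)) (y : GA n) (h : Perm (Fin n)) :
    (y * MonoidAlgebra.single g (1 : ℂ)).coeff h = y.coeff (h * g⁻¹) := by
  rw [MonoidAlgebra.coeff_mul_single_eq_coeff_mul (m₂ := h * g⁻¹) (x := y) (r := (1 : ℂ)) (m := g)]
  · simp
  · intro m' _
    constructor
    · intro hm
      rw [← hm]
      simp
    · intro hm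
      rw [hm]
      simp

theorem single_mul_rowSym (T : Filling n μ) {p : Perm (Fin n)} (hp : p ∈ rowStab T) :
    MonoidAlgebra.single p (1 : ℂ) * rowSym T = rowSym T := by
  unfold rowSym
  rw [Finset.mul_sum]
  refine Finset.sum_bij (fun a _ => p * a) ?_ ?_ ?_ ?_
  · intro a ha
    exact rowStab_mul T hp ha
  · intro a _ b _ hab
    exact mul_left_cancel hab
  · intro b hb
    exact ⟨p⁻¹ * b, rowStab_mul T (rowStab_inv T hp) hb, by simp⟩
  · intro a _
    simp

theorem colAnti_mul_single (T : Filling n μ) {q : Perm (Fin n)} (hq : q ∈ colStab T) :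
    colAnti T * MonoidAlgebra.single q (1 : ℂ) = ((((Perm.sign q : ℤˣ) : ℤ) : ℂ)) • colAnti T := by
  unfold colAnti
  rw [Finset.sum_mul, Finset.smul_sum]
  refine Finset.sum_bij (fun a _ => a * q) ?_ ?_ ?_ ?_
  · intro a ha
    exact colStab_mul T ha hq
  · intro a _ b _ hab
    exact mul_right_cancel hab
  · intro b hb
    exact ⟨b * q⁻¹, colStab_mul T hb (colStab_inv T hq), by simp⟩
  · intro a _
    rw [MonoidAlgebra.single_mul_single, MonoidAlgebra.smul_single]
    have hs : (((Perm.sign q : ℤˣ) : ℤ) : ℂ) * (((Perm.sign q : ℤˣ) : ℤ) : ℂ) = 1 := by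
      rcases Int.units_eq_one_or (Perm.sign q) with h1 | h1 <;> simp [h1]
    have hm : (((Perm.sign (a * q) : ℤˣ) : ℤ) : ℂ) =
        (((Perm.sign a : ℤˣ) : ℤ) : ℂ) * (((Perm.sign q : ℤˣ) : ℤ) : ℂ) := by
      simp [Perm.sign_mul]
    rw [hm, smul_eq_mul, mul_one]
    congr 1
    linear_combination (-((((Perm.sign a : ℤˣ) : ℤ) : ℂ))) * hs

/-- The transformation rule of a sandwiched element. -/
theorem sandwich_rule (T : Filling n μ) (x : GA n) {p q : Perm (Fin n)} (hp : p ∈ rowStab T)
    (hq : q ∈ colStab T) :
    MonoidAlgebra.single p (1 : ℂ) * (youngSym T * x * youngSym T) * MonoidAlgebra.single q (1 : ℂ) =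
      (((Perm.sign q : ℤˣ) : ℤ) : ℂ) • (youngSym T * x * youngSym T) := by
  unfold youngSym
  have h1 : MonoidAlgebra.single p (1 : ℂ) * (rowSym T * colAnti T * x * (rowSym T * colAnti T)) *
      MonoidAlgebra.single q (1 : ℂ) =
      (MonoidAlgebra.single p (1 : ℂ) * rowSym T) * colAnti T * x * rowSym T *
        (colAnti T * MonoidAlgebra.single q (1 : ℂ)) := by
    simp only [mul_assoc]
  rw [h1, single_mul_rowSym T hp, colAnti_mul_single T hq]
  simp only [mul_assoc, mul_smul_comm]

/-- The sandwich property. -/
theorem sandwich (T : Filling n μ) (x : GA n) :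
    ∃ l : ℂ, youngSym T * x * youngSym T = l • youngSym T := by
  set y := youngSym T * x * youngSym T with hy
  -- coefficient transformation rule
  have hrule : ∀ g : Perm (Fin n), ∀ p ∈ rowStab T, ∀ q ∈ colStab T,
      y.coeff (p * g * q) = (((Perm.sign q : ℤˣ) : ℤ) : ℂ) * y.coeff g := by
    intro g p hp q hq
    have h' := sandwich_rule T x (rowStab_inv T hp) (colStab_inv T hq)
    rw [← hy] at h'
    have h3 := congrArg (fun z : GA n => z.coeff g) h'
    simp only [coeff_mul_single', coeff_single_mul', MonoidAlgebra.coeff_smul_apply,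
      smul_eq_mul, inv_inv, Perm.sign_inv] at h3
    rw [mul_assoc p g q]
    exact h3
  -- vanishing off `R C`
  have hzero : ∀ g : Perm (Fin n), (¬ ∃ p ∈ rowStab T, ∃ q ∈ colStab T, g = p * q) →
      y.coeff g = 0 := by
    intro g hg
    have hcomb : ¬ ∀ x y, x ≠ y → rowOf T (g x) = rowOf T (g y) → colOf T x ≠ colOf T y :=
      fun h => hg (young_comb T g h)
    push Not at hcomb
    obtain ⟨a, b, hab, h1, h2⟩ := hcomb
    have hgab : g a ≠ g b := fun h => hab (g.injective h)
    have ht : swap (g a) (g b) ∈ rowStab T := by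
      simp only [rowStab, mem_filter, mem_univ, true_and]
      intro z
      by_cases hz1 : z = g a
      · subst hz1
        simp [h1]
      · by_cases hz2 : z = g b
        · subst hz2
          simp [h1]
        · rw [swap_apply_of_ne_of_ne hz1 hz2]
    have ht' : swap a b ∈ colStab T := by
      simp only [colStab, mem_filter, mem_univ, true_and]
      intro z
      by_cases hz1 : z = a
      · subst hz1
        simp [h2]
      · by_cases hz2 : z = b
        · subst hz2
          simp [h2]
        · rw [swap_apply_of_ne_of_ne hz1 hz2]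
    have key := hrule g _ ht _ ht'
    have e : swap (g a) (g b) * g * swap a b = g := by
      ext z
      by_cases hz1 : z = a
      · subst hz1
        simp
      · by_cases hz2 : z = b
        · subst hz2
          simp
        · have hz1' : g z ≠ g a := fun h => hz1 (g.injective h)
          have hz2' : g z ≠ g b := fun h => hz2 (g.injective h)
          simp [swap_apply_of_ne_of_ne hz1 hz2, swap_apply_of_ne_of_ne hz1' hz2']
    rw [e, Perm.sign_swap hab] at key
    have h3 : y.coeff g = - y.coeff g := by
      simpa using key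
    exact self_eq_neg.1 h3
  refine ⟨y.coeff 1, ?_⟩
  ext g
  rw [MonoidAlgebra.coeff_smul_apply, youngSym_coeff, smul_eq_mul]
  by_cases hg : ∃ p ∈ rowStab T, ∃ q ∈ colStab T, g = p * q
  · obtain ⟨p, hp, q, hq, rfl⟩ := hg
    have := hrule 1 p hp q hq
    rw [mul_one] at this
    rw [this, symCoeff_mul T hp hq]
    ring
  · rw [hzero g hg, symCoeff_eq_zero T g hg]
    simp

end Vale.Agent.Lib.P197
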